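import Crest.Agent.H2.KS12

/-! Kadison similarity, part 13: the type I part and the uniform theorem. -/

set_option autoImplicit false
set_option maxHeartbeats 800000
open Finset Matrix
open scoped InnerProductSpace Topology

namespace Crest.Agent.H2.KS
open Crest.Agent.H9

lemma scalar_form_le {d H : Type*} [Fintype d] [NormedAddCommGroup H] [InnerProductSpace ℂ H]
    (c : d → d → ℂ) (hc : ∀ s t : d → ℂ,
      ‖∑ i, ∑ j, (starRingEnd ℂ) (s i) * c i j * t j‖ ≤ √(nsq s) * √(nsq t)) (f g : d → H) :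
    ‖∑ i, ∑ j, c i j * ⟪f i, g j⟫_ℂ‖ ≤ √(nsq f) * √(nsq g) := by
  set U := Submodule.span ℂ (Set.range f ∪ Set.range g)
  haveI : FiniteDimensional ℂ U :=
    FiniteDimensional.span_of_finite ℂ ((Set.finite_range f).union (Set.finite_range g))
  set b := stdOrthonormalBasis ℂ U
  set f' : d → U := fun i => ⟨f i, Submodule.subset_span (Or.inl ⟨i, rfl⟩)⟩
  set g' : d → U := fun i => ⟨g i, Submodule.subset_span (Or.inr ⟨i, rfl⟩)⟩
  have e : ∑ i, ∑ j, c i j * ⟪f i, g j⟫_ℂ =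
      ∑ l, ∑ i, ∑ j, (starRingEnd ℂ) ⟪b l, f' i⟫_ℂ * c i j * ⟪b l, g' j⟫_ℂ := by
    refine Eq.trans ?_ sum_comm
    refine sum_congr rfl fun i _ => ?_
    refine Eq.trans ?_ sum_comm
    refine sum_congr rfl fun j _ => ?_
    rw [show ⟪f i, g j⟫_ℂ = ⟪f' i, g' j⟫_ℂ from rfl, ← b.sum_inner_mul_inner, mul_sum]
    refine sum_congr rfl fun l _ => ?_
    rw [inner_conj_symm]; ring
  have n : ∀ h : d → U, ∑ l, nsq (fun i => ⟪b l, h i⟫_ℂ) = nsq h := by
    intro h
    unfold nsq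
    rw [sum_comm]
    exact sum_congr rfl fun i _ => b.sum_sq_norm_inner_right (h i)
  rw [e]
  refine (norm_sum_le _ _).trans ((sum_le_sum fun l _ => hc _ _).trans ?_)
  refine (Real.sum_sqrt_mul_sqrt_le _ (fun _ => nsq_nonneg _) (fun _ => nsq_nonneg _)).trans ?_
  rw [n, n]
  rfl

section
variable {K : Type*} [NormedAddCommGroup K] [InnerProductSpace ℂ K] [CompleteSpace K]
variable {H : Type*} [NormedAddCommGroup H] [InnerProductSpace ℂ H]
variable {C : Set (K →L[ℂ] K)}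

/-- A finite family of projections in `P` with sum `e`. -/
structure Part (P : Set (K →L[ℂ] K)) (e : K →L[ℂ] K) {ι : Type} [Fintype ι]
    (p : ι → (K →L[ℂ] K)) : Prop where
  mem : ∀ i, p i ∈ P
  proj : ∀ i, IsStarProjection (p i)
  le : ∀ i, e * p i = p i
  sum : ∑ i, p i = e

/-- `a` is almost scalar on each piece. -/
def Fine (a : K →L[ℂ] K) (r : ℝ) {ι : Type} (p : ι → (K →L[ℂ] K)) : Prop :=
  ∃ c : ι → ℝ, ∀ i, ‖a * p i - (c i : ℂ) • p i‖ ≤ r

lemma proj_mul_right {e p : K →L[ℂ] K} (he : IsStarProjection e) (hp : IsStarProjection p)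
    (h : e * p = p) : p * e = p := by
  have := congrArg star h
  rwa [star_mul, he.isSelfAdjoint.star_eq, hp.isSelfAdjoint.star_eq] at this

lemma Part.commute {e : K →L[ℂ] K} (he : IsStarProjection e)
    (hcomm : ∀ a ∈ C.centralizer, ∀ b ∈ C.centralizer, Commute (e * a * e) (e * b * e))
    {ι : Type} [Fintype ι] {p : ι → (K →L[ℂ] K)} (hp : Part C.centralizer e p) {a : K →L[ℂ] K}
    (ha : a ∈ C.centralizer) (hea : e * a * e = a) (i : ι) : a * p i = p i * a := by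
  have := hcomm a ha (p i) (hp.mem i)
  rw [hea, hp.le, proj_mul_right he (hp.proj i) (hp.le i)] at this
  exact this.eq

lemma refine_part (hC : ∀ c ∈ C, star c ∈ C) {e : K →L[ℂ] K} (he : IsStarProjection e)
    (hcomm : ∀ a ∈ C.centralizer, ∀ b ∈ C.centralizer, Commute (e * a * e) (e * b * e))
    {ι : Type} [Fintype ι] {p : ι → (K →L[ℂ] K)} (hp : Part C.centralizer e p) {a : K →L[ℂ] K}
    (ha : a ∈ C.centralizer) (hsa : IsSelfAdjoint a) (hea : e * a * e = a) {r : ℝ}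
    (hf : Fine a r p) :
    ∃ (ι' : Type) (_ : Fintype ι') (p' : ι' → (K →L[ℂ] K)), Part C.centralizer e p' ∧
      Fine a (r / 2) p' ∧ ∀ b s, Fine b s p → Fine b s p' := by
  obtain ⟨c, hc⟩ := hf
  have hb : ∀ i, ∃ q ∈ C.centralizer, IsStarProjection q ∧ p i * q = q ∧
      q * (a * p i - (c i : ℂ) • p i) = (a * p i - (c i : ℂ) • p i) * q ∧
      ‖(a * p i - (c i : ℂ) • p i) - ((r / 2 : ℝ) : ℂ) • (q + q - p i)‖ ≤ r / 2 := by
    intro i
    have hpp := (hp.proj i).isIdempotentElem.eq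
    refine KB.bisect hC (hp.proj i) (KB.sub_mem (KB.mul_mem ha (hp.mem i))
      (KB.smul_mem _ (hp.mem i))) ?_ ?_ r (hc i)
    · rw [IsSelfAdjoint, star_sub, star_mul, star_smul, (hp.proj i).isSelfAdjoint.star_eq,
        hsa.star_eq, hp.commute he hcomm ha hea i]
      simp
    · rw [mul_sub, ← mul_assoc, ← hp.commute he hcomm ha hea i, mul_assoc, hpp, mul_smul_comm, hpp]
  choose q hq1 hq2 hq3 _ hq5 using hb
  have hqp : ∀ i, q i * p i = q i := fun i => proj_mul_right (hp.proj i) (hq2 i) (hq3 i)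
  set p' : ι × Bool → (K →L[ℂ] K) := fun j => if j.2 then q j.1 else p j.1 - q j.1 with hp'
  have hpr : ∀ j, IsStarProjection (p' j) := by
    rintro ⟨i, _ | _⟩
    · exact (hq2 i).sub_of_mul_eq_right (hp.proj i) (hq3 i)
    · exact hq2 i
  have hle : ∀ j, p j.1 * p' j = p' j := by
    rintro ⟨i, _ | _⟩
    · simp [hp', mul_sub, (hp.proj i).isIdempotentElem.eq, hq3]
    · exact hq3 i
  have hn : ∀ (T : K →L[ℂ] K) j {s : ℝ}, ‖T‖ ≤ s → ‖T * p' j‖ ≤ s := fun T j s h =>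
    (norm_mul_le _ _).trans ((mul_le_of_le_one_right (norm_nonneg _) (hpr j).norm_le).trans h)
  refine ⟨ι × Bool, inferInstance, p', ⟨?_, hpr, fun j => ?_, ?_⟩,
    ⟨fun j => if j.2 then c j.1 + r / 2 else c j.1 - r / 2, fun j => ?_⟩, ?_⟩
  · rintro ⟨i, _ | _⟩
    · exact KB.sub_mem (hp.mem i) (hq1 i)
    · exact hq1 i
  · rw [← hle, ← mul_assoc, hp.le]
  · rw [Fintype.sum_prod_type, ← hp.sum]; simp [hp']
  · refine le_of_eq_of_le ?_ (hn _ j (hq5 j.1))
    congr 1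
    have h1 := hle j
    rw [sub_mul, sub_mul, mul_assoc, smul_mul_assoc, smul_mul_assoc, h1, sub_mul, add_mul, h1]
    obtain ⟨i, _ | _⟩ := j
    · have : q i * p' (i, false) = 0 := by
        simp [hp', mul_sub, hqp, (hq2 i).isIdempotentElem.eq]
      simp only [this, Bool.false_eq_true, if_false]
      push_cast; module
    · have : q i * p' (i, true) = p' (i, true) := (hq2 i).isIdempotentElem.eq
      simp only [this, if_true]
      push_cast; module
  · rintro b s ⟨d, hd⟩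
    refine ⟨fun j => d j.1, fun j => le_of_eq_of_le ?_ (hn _ j (hd j.1))⟩
    rw [sub_mul, mul_assoc, smul_mul_assoc, hle]

lemma exists_part (hC : ∀ c ∈ C, star c ∈ C) {e : K →L[ℂ] K} (heP : e ∈ C.centralizer)
    (he : IsStarProjection e)
    (hcomm : ∀ a ∈ C.centralizer, ∀ b ∈ C.centralizer, Commute (e * a * e) (e * b * e))
    {J : Type*} (s : Finset J) (a : J → (K →L[ℂ] K)) (ha : ∀ j, a j ∈ C.centralizer)
    (hsa : ∀ j, IsSelfAdjoint (a j)) (hea : ∀ j, e * a j * e = a j) {δ : ℝ} (hδ : 0 < δ) :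
    ∃ (ι : Type) (_ : Fintype ι) (p : ι → (K →L[ℂ] K)), Part C.centralizer e p ∧
      ∀ j ∈ s, Fine (a j) δ p := by
  classical
  induction s using Finset.induction_on with
  | empty =>
    exact ⟨Unit, inferInstance, fun _ => e,
      ⟨fun _ => heP, fun _ => he, fun _ => he.isIdempotentElem.eq, by simp⟩, by simp⟩
  | insert j s _ ih =>
    obtain ⟨ι, _, p, hp, hf⟩ := ih
    have it : ∀ k : ℕ, ∃ (ι' : Type) (_ : Fintype ι') (p' : ι' → (K →L[ℂ] K)),
        Part C.centralizer e p' ∧ Fine (a j) (‖a j‖ * (1 / 2) ^ k) p' ∧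
        ∀ b s, Fine b s p → Fine b s p' := by
      intro k
      induction k with
      | zero =>
        refine ⟨ι, inferInstance, p, hp, ⟨0, fun i => ?_⟩, fun _ _ h => h⟩
        simpa using (norm_mul_le _ _).trans
          (mul_le_of_le_one_right (norm_nonneg _) (hp.proj i).norm_le)
      | succ k ih =>
        obtain ⟨ι', _, p', h1, h2, h3⟩ := ih
        obtain ⟨ι'', _, p'', g1, g2, g3⟩ := refine_part hC he hcomm h1 (ha j) (hsa j) (hea j) h2
        refine ⟨ι'', inferInstance, p'', g1, ?_, fun b s h => g3 b s (h3 b s h)⟩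
        convert g2 using 1; ring
    obtain ⟨k, hk⟩ := exists_pow_lt_of_lt_one (show 0 < δ / (‖a j‖ + 1) by positivity)
      (show (1 / 2 : ℝ) < 1 by norm_num)
    obtain ⟨ι', _, p', h1, ⟨c, h2⟩, h3⟩ := it k
    refine ⟨ι', inferInstance, p', h1, fun i hi => ?_⟩
    rcases mem_insert.1 hi with rfl | hi
    · refine ⟨c, fun l => (h2 l).trans ?_⟩
      rw [lt_div_iff₀ (by positivity)] at hk
      have : (0 : ℝ) < (1 / 2) ^ k := by positivity
      nlinarith
    · exact h3 _ _ (hf i hi)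

lemma sum_proj_le {ι : Type*} [Fintype ι] {p : ι → (K →L[ℂ] K)} {e : K →L[ℂ] K}
    (hp : ∀ i, IsStarProjection (p i)) (he : IsStarProjection e) (hs : ∑ i, p i = e) (ζ : K) :
    ∑ i, ‖p i ζ‖ ^ 2 ≤ ‖ζ‖ ^ 2 := by
  have h1 : (Matrix.of fun i (_ : Unit) => p i)ᴴ * (Matrix.of fun i (_ : Unit) => p i) =
      diagonal fun _ => e := by
    ext i j : 1
    simp [Matrix.mul_apply, ← hs, (hp _).isSelfAdjoint.star_eq, (hp _).isIdempotentElem.eq]
  have := nsq_act_le_of_diag (ρ := StarAlgHom.id ℂ (K →L[ℂ] K)) (p := e) he.norm_le h1 (fun _ => ζ)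
  simpa [nsq, act_apply] using this

lemma Adm.col' {P : Set (K →L[ℂ] K)} {S : K →L[ℂ] H} {κ : ℝ} (h : Adm P S κ) {ι : Type*}
    [Fintype ι] (v : ι → (K →L[ℂ] K)) (hv : ∀ i, v i ∈ P) (hc : ∀ ζ, ∑ i, ‖v i ζ‖ ^ 2 ≤ ‖ζ‖ ^ 2)
    {d : Type*} [Fintype d] (g : d → K) :
    ∑ i, nsq (fun j => S (v i (g j))) ≤ Cc κ * nsq (fun j => S (g j)) := by
  set e := (Fintype.equivFin ι).symm
  unfold nsq
  rw [sum_comm, mul_sum]
  refine sum_le_sum fun j _ => ?_
  have := h.col _ (fun i => v (e i)) (fun i => hv _)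
    (fun ζ => by rw [e.sum_comp (fun i => ‖v i ζ‖ ^ 2)]; exact hc ζ) (g j)
  rwa [e.sum_comp (fun i => ‖S (v i (g j))‖ ^ 2)] at this

lemma comm_bound (hC : ∀ c ∈ C, star c ∈ C) {S₁ S₂ : K →L[ℂ] H} {κ : ℝ}
    (h1 : Adm C.centralizer S₁ κ) (h2 : Adm C.centralizer S₂ κ) (hB : Bal C.centralizer S₁ S₂)
    {e : K →L[ℂ] K} (heP : e ∈ C.centralizer) (he : IsStarProjection e)
    (hcomm : ∀ a ∈ C.centralizer, ∀ b ∈ C.centralizer, Commute (e * a * e) (e * b * e))
    {d : Type*} [Fintype d] (y : d → d → (K →L[ℂ] K)) (hy : ∀ i j, y i j ∈ C.centralizer)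
    (hey : ∀ i j, e * y i j * e = y i j)
    (hc : ∀ g : d → K, nsq (fun i => ∑ j, y i j (g j)) ≤ nsq g) (α β : d → K) :
    ‖∑ i, ∑ j, ⟪S₂ (β i), S₁ (y i j (α j))⟫_ℂ‖ ≤
      Cc κ * (√(nsq fun j => S₁ (α j)) * √(nsq fun j => S₂ (β j))) := by
  have hC0 : 0 ≤ Cc κ := by unfold Cc; positivity
  set M : ℝ := 4 * (‖S₂‖ * ‖S₁‖) * ∑ i, ∑ j, ‖β i‖ * ‖α j‖ with hM
  have hM0 : 0 ≤ M := by positivity
  refine le_of_forall_pos_le_add fun ε hε => ?_
  set δ := ε / (M + 1) with hδ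
  have hδ0 : 0 < δ := by positivity
  set a : (d × d) × Bool → (K →L[ℂ] K) := fun j =>
    if j.2 then (2⁻¹ : ℂ) • (y j.1.1 j.1.2 + star (y j.1.1 j.1.2))
    else (2⁻¹ * Complex.I : ℂ) • (star (y j.1.1 j.1.2) - y j.1.1 j.1.2) with ha
  have hes : ∀ i j, e * star (y i j) * e = star (y i j) := by
    intro i j
    have := congrArg star (hey i j)
    rwa [star_mul, star_mul, he.isSelfAdjoint.star_eq, ← mul_assoc] at this
  obtain ⟨ι, _, p, hp, hf⟩ := exists_part hC heP he hcomm univ a (by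
      rintro ⟨j, _ | _⟩
      · exact KB.smul_mem _ (KB.sub_mem (KB.star_mem hC (hy _ _)) (hy _ _))
      · exact KB.smul_mem _ (KB.add_mem (hy _ _) (KB.star_mem hC (hy _ _)))) (by
      rintro ⟨j, _ | _⟩
      · simp only [ha, IsSelfAdjoint, Bool.false_eq_true, if_false, star_smul, star_sub, star_star]
        simp only [star_mul', star_inv₀, star_ofNat, Complex.star_def, Complex.conj_I]
        module
      · simp [ha, IsSelfAdjoint, add_comm]) (by
      rintro ⟨j, _ | _⟩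
      · simp [ha, mul_sub, sub_mul, hes, hey]
      · simp [ha, mul_add, add_mul, hes, hey]) hδ0
  have hyc : ∀ l i j, ∃ c : ℂ, ‖y i j * p l - c • p l‖ ≤ 2 * δ := by
    intro l i j
    obtain ⟨c1, h1⟩ := hf ((i, j), true) (mem_univ _)
    obtain ⟨c2, h2⟩ := hf ((i, j), false) (mem_univ _)
    refine ⟨c1 l + Complex.I * c2 l, ?_⟩
    have e1 : y i j = a ((i, j), true) + Complex.I • a ((i, j), false) := by
      simp only [ha, if_true, Bool.false_eq_true, if_false, smul_smul]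
      rw [show Complex.I * (2⁻¹ * Complex.I) = -2⁻¹ by
        rw [mul_left_comm, Complex.I_mul_I]; ring]
      module
    have e2 : y i j * p l - (c1 l + Complex.I * c2 l) • p l =
        (a ((i, j), true) * p l - (c1 l : ℂ) • p l) +
          Complex.I • (a ((i, j), false) * p l - (c2 l : ℂ) • p l) := by
      conv_lhs => rw [e1]
      rw [add_mul, smul_mul_assoc]; module
    rw [e2]
    refine (norm_add_le _ _).trans ?_
    rw [norm_smul, Complex.norm_I, one_mul]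
    linarith [h1 l, h2 l]
  have hsc : ∀ l, ∃ c : d → d → ℂ, (∀ i j, ‖y i j * p l - c i j • p l‖ ≤ 4 * δ) ∧ ∀ s t : d → ℂ,
      ‖∑ i, ∑ j, (starRingEnd ℂ) (s i) * c i j * t j‖ ≤ √(nsq s) * √(nsq t) := by
    intro l
    by_cases hl : p l = 0
    · exact ⟨0, fun i j => by simp [hl, hδ0.le], fun s t => by simp; positivity⟩
    obtain ⟨u, hu⟩ : ∃ u, p l u ≠ 0 := by
      by_contra! h; exact hl (ContinuousLinearMap.ext h)
    set ζ : K := (‖p l u‖⁻¹ : ℂ) • p l u with hζ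
    have hζ1 : ‖ζ‖ = 1 := by
      rw [hζ, norm_smul, norm_inv, Complex.norm_real, norm_norm,
        inv_mul_cancel₀ (norm_ne_zero_iff.2 hu)]
    have hζp : p l ζ = ζ := by
      rw [hζ, map_smul, ← mul_apply_eq_comp, (hp.proj l).isIdempotentElem.eq]
    refine ⟨fun i j => ⟪ζ, y i j ζ⟫_ℂ, fun i j => ?_, fun s t => ?_⟩
    · obtain ⟨c, hc⟩ := hyc l i j
      have b1 : ‖c - ⟪ζ, y i j ζ⟫_ℂ‖ ≤ 2 * δ := by
        have : ⟪ζ, y i j ζ⟫_ℂ - c = ⟪ζ, (y i j * p l - c • p l) ζ⟫_ℂ := by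
          simp [hζp, inner_sub_right, inner_smul_right, inner_self_eq_norm_sq_to_K, hζ1]
        rw [norm_sub_rev, this]
        refine (norm_inner_le_norm _ _).trans ?_
        rw [hζ1, one_mul]
        refine (ContinuousLinearMap.le_opNorm _ _).trans ?_
        rwa [hζ1, mul_one]
      have e2 : y i j * p l - ⟪ζ, y i j ζ⟫_ℂ • p l =
          (y i j * p l - c • p l) + (c - ⟪ζ, y i j ζ⟫_ℂ) • p l := by module
      rw [e2]
      refine (norm_add_le _ _).trans ?_
      rw [norm_smul]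
      have := mul_le_of_le_one_right (norm_nonneg (c - ⟪ζ, y i j ζ⟫_ℂ)) (hp.proj l).norm_le
      linarith
    · have n : ∀ s : d → ℂ, nsq (fun i => s i • ζ) = nsq s := fun s => by
        simp [nsq, norm_smul, hζ1]
      have b := norm_sum_inner_le (fun i => s i • ζ) (fun i => ∑ j, y i j (t j • ζ))
      refine le_of_eq_of_le ?_ (b.trans ?_)
      · congr 1
        refine sum_congr rfl fun i _ => ?_
        rw [inner_sum]
        refine sum_congr rfl fun j _ => ?_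
        rw [map_smul, inner_smul_left, inner_smul_right]; ring
      · rw [n s, ← n t]
        exact mul_le_mul_of_nonneg_left (Real.sqrt_le_sqrt (hc _)) (Real.sqrt_nonneg _)
  choose c hc1 hc2 using hsc
  have hpc := sum_proj_le hp.proj he hp.sum
  have e1 : ∑ i, ∑ j, ⟪S₂ (β i), S₁ (y i j (α j))⟫_ℂ =
      ∑ l, ∑ i, ∑ j, c l i j * ⟪S₂ (p l (β i)), S₁ (p l (α j))⟫_ℂ +
      ∑ i, ∑ j, ∑ l, ⟪S₂ (p l (β i)), S₁ ((y i j * p l - c l i j • p l) (p l (α j)))⟫_ℂ := by
    rw [sum_comm (γ := ι), ← sum_add_distrib]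
    refine sum_congr rfl fun i _ => ?_
    rw [sum_comm (γ := ι), ← sum_add_distrib]
    refine sum_congr rfl fun j _ => ?_
    rw [← sum_add_distrib]
    have e2 : y i j = ∑ l, p l * (y i j * p l) := by
      have : y i j * e = y i j := by
        rw [← hey, mul_assoc, he.isIdempotentElem.eq]
      conv_lhs => rw [← this, ← hp.sum, mul_sum]
      refine sum_congr rfl fun l _ => ?_
      rw [← mul_assoc, ← hp.commute he hcomm (hy i j) (hey i j), mul_assoc,
        (hp.proj l).isIdempotentElem.eq]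
    conv_lhs => rw [e2]
    simp only [_root_.sum_apply, map_sum, inner_sum]
    refine sum_congr rfl fun l _ => ?_
    have hpp : p l (p l (α j)) = p l (α j) := by
      rw [← mul_apply_eq_comp, (hp.proj l).isIdempotentElem.eq]
    rw [mul_apply_eq_comp, hB _ (hp.mem l), (hp.proj l).isSelfAdjoint.star_eq]
    simp [hpp, inner_sub_right, inner_smul_right]
  rw [e1]
  refine (norm_add_le _ _).trans (add_le_add ?_ ?_)
  · refine (norm_sum_le _ _).trans ((sum_le_sum fun l _ => scalar_form_le _ (hc2 l) _ _).trans ?_)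
    refine (Real.sum_sqrt_mul_sqrt_le _ (fun _ => nsq_nonneg _) (fun _ => nsq_nonneg _)).trans ?_
    refine (mul_le_mul (Real.sqrt_le_sqrt (h2.col' p hp.mem hpc β))
      (Real.sqrt_le_sqrt (h1.col' p hp.mem hpc α)) (Real.sqrt_nonneg _)
      (Real.sqrt_nonneg _)).trans (le_of_eq ?_)
    rw [Real.sqrt_mul hC0, Real.sqrt_mul hC0, mul_mul_mul_comm, Real.mul_self_sqrt hC0, mul_comm (√_)]
  · have b : ∀ i j, ‖∑ l, ⟪S₂ (p l (β i)), S₁ ((y i j * p l - c l i j • p l) (p l (α j)))⟫_ℂ‖ ≤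
        δ * (4 * (‖S₂‖ * ‖S₁‖)) * (‖β i‖ * ‖α j‖) := by
      intro i j
      have b1 : ∀ l, ‖⟪S₂ (p l (β i)), S₁ ((y i j * p l - c l i j • p l) (p l (α j)))⟫_ℂ‖ ≤
          δ * (4 * (‖S₂‖ * ‖S₁‖)) * (‖p l (β i)‖ * ‖p l (α j)‖) := by
        intro l
        refine (norm_inner_le_norm _ _).trans ?_
        have q1 := S₂.le_opNorm (p l (β i))
        have q2 := S₁.le_opNorm ((y i j * p l - c l i j • p l) (p l (α j)))
        have q3 := ((y i j * p l - c l i j • p l).le_opNorm (p l (α j))).trans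
          (mul_le_mul_of_nonneg_right (hc1 l i j) (norm_nonneg _))
        calc _ ≤ (‖S₂‖ * ‖p l (β i)‖) * (‖S₁‖ * (4 * δ * ‖p l (α j)‖)) := by
              refine mul_le_mul q1 (q2.trans ?_) (norm_nonneg _) (by positivity)
              gcongr
          _ = _ := by ring
      refine (norm_sum_le _ _).trans ((sum_le_sum fun l _ => b1 l).trans ?_)
      rw [← mul_sum]
      refine mul_le_mul_of_nonneg_left ((Real.sum_mul_le_sqrt_mul_sqrt _ _ _).trans ?_)
        (by positivity)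
      exact mul_le_mul (Real.sqrt_le_iff.2 ⟨norm_nonneg _, hpc _⟩)
        (Real.sqrt_le_iff.2 ⟨norm_nonneg _, hpc _⟩) (Real.sqrt_nonneg _) (norm_nonneg _)
    refine (norm_sum_le _ _).trans ((sum_le_sum fun i _ =>
      (norm_sum_le _ _).trans (sum_le_sum fun j _ => b i j)).trans ?_)
    simp only [← mul_sum]
    have : δ * M ≤ ε := by
      rw [hδ, div_mul_eq_mul_div, div_le_iff₀ (by positivity)]; nlinarith
    refine le_of_eq_of_le ?_ this
    simp only [hM, ← mul_sum]; ring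

lemma homog_bound (hC : ∀ c ∈ C, star c ∈ C) {S₁ S₂ : K →L[ℂ] H} {κ : ℝ}
    (h1 : Adm C.centralizer S₁ κ) (h2 : Adm C.centralizer S₂ κ) (hB : Bal C.centralizer S₁ S₂)
    {k : ℕ} {e z : K →L[ℂ] K} {v : Fin k → (K →L[ℂ] K)} (hs : IsSys C.centralizer e v)
    (hz : ∑ i, v i * star (v i) = z)
    (hcomm : ∀ a ∈ C.centralizer, ∀ b ∈ C.centralizer, Commute (e * a * e) (e * b * e))
    {h : ℕ} (x : Fin h → Fin h → (K →L[ℂ] K)) (hx : ∀ i j, x i j ∈ C.centralizer)
    (hc : ∀ ξ : Fin h → K, ∑ i, ‖∑ j, x i j (ξ j)‖ ^ 2 ≤ ∑ j, ‖ξ j‖ ^ 2) (ξ η : Fin h → K) :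
    ‖∑ i, ∑ j, ⟪S₂ (z (η i)), S₁ (x i j (z (ξ j)))⟫_ℂ‖ ≤
      Cc κ ^ 2 * (√(nsq fun j => S₁ (ξ j)) * √(nsq fun j => S₂ (η j))) := by
  have hC0 : 0 ≤ Cc κ := by unfold Cc; positivity
  set ρ := StarAlgHom.id ℂ (K →L[ℂ] K)
  set Vm : Matrix (Fin h) (Fin h × Fin k) (K →L[ℂ] K) :=
    fun i p => if i = p.1 then v p.2 else 0 with hVm
  have hVV : Vmᴴ * Vm = diagonal fun _ => e := by
    ext ⟨i, a⟩ ⟨j, b⟩ : 1
    simp only [Matrix.mul_apply, conjTranspose_apply, hVm, diagonal_apply]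
    rw [sum_eq_single i (by intro l _ hl; simp [hl]) (by simp)]
    by_cases hij : i = j
    · simp [hij, hs.orth]
    · simp [hij]
  have c1 := nsq_act_le_of_diag (ρ := ρ) (p := e) hs.proj.norm_le hVV
  have c2 := nsq_act_ct_le c1
  have hV1 : ∀ (g : Fin h → K) p, act ρ Vmᴴ g p = star (v p.2) (g p.1) := by
    intro g p
    rw [act_apply, sum_eq_single p.1 (by intro l _ hl; simp [hVm, hl]) (by simp)]
    simp [hVm, ρ]
  have hV2 : ∀ (g : Fin h × Fin k → K) i, act ρ Vm g i = ∑ a, v a (g (i, a)) := by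
    intro g i
    rw [act_apply, Fintype.sum_prod_type,
      sum_eq_single i (by intro l _ hl; simp [hVm, Ne.symm hl]) (by simp)]
    simp [hVm, ρ]
  have hrow : ∀ ζ, ∑ a, ‖star (v a) ζ‖ ^ 2 ≤ ‖ζ‖ ^ 2 := by
    intro ζ
    have h0 : (Matrix.of fun (_ : Unit) a => v a)ᴴ * (Matrix.of fun (_ : Unit) a => v a) =
        diagonal fun _ => e := by
      ext a b : 1; simp [Matrix.mul_apply, hs.orth, diagonal_apply]
    have := nsq_act_ct_le (nsq_act_le_of_diag (ρ := ρ) (p := e) hs.proj.norm_le h0) (fun _ => ζ)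
    simpa [nsq, act_apply, ρ] using this
  have b := comm_bound hC h1 h2 hB hs.he hs.proj hcomm (d := Fin h × Fin k)
    (fun p q => star (v p.2) * x p.1 q.1 * v q.2)
    (fun p q => KB.mul_mem (KB.mul_mem (KB.star_mem hC (hs.mem _)) (hx _ _)) (hs.mem _))
    (fun p q => by
      rw [← mul_assoc, ← mul_assoc, KB.sys_e_mul hs, mul_assoc, KB.sys_mul_e hs])
    (fun g => by
      refine le_of_eq_of_le ?_ ((c2 (fun i => ∑ j, x i j (act ρ Vm g j))).trans
        ((hc _).trans (c1 g)))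
      congr 1
      funext p
      simp [hV1, hV2, Fintype.sum_prod_type])
    (fun p => star (v p.2) (ξ p.1)) (fun p => star (v p.2) (η p.1))
  have n : ∀ {S : K →L[ℂ] H}, Adm C.centralizer S κ → ∀ g : Fin h → K,
      nsq (fun p : Fin h × Fin k => S (star (v p.2) (g p.1))) ≤ Cc κ * nsq fun j => S (g j) := by
    intro S hS g
    refine le_of_eq_of_le ?_ (hS.col' (fun a => star (v a))
      (fun a => KB.star_mem hC (hs.mem a)) hrow g)
    simp only [nsq, Fintype.sum_prod_type_right]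
  refine le_of_eq_of_le ?_ (b.trans ?_)
  · congr 1
    rw [Fintype.sum_prod_type]
    refine sum_congr rfl fun i _ => ?_
    simp only [Fintype.sum_prod_type]
    refine Eq.trans ?_ sum_comm
    refine sum_congr rfl fun j _ => ?_
    simp only [← hz, _root_.sum_apply, map_sum, sum_inner, inner_sum, mul_apply_eq_comp]
    rw [sum_comm]
    refine sum_congr rfl fun a _ => sum_congr rfl fun b _ => ?_
    have := hB (star (v a)) (KB.star_mem hC (hs.mem a)) (x i j (v b (star (v b) (ξ j))))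
      (star (v a) (η i))
    rw [this, star_star]
  · calc _ ≤ Cc κ * (√(Cc κ * nsq fun j => S₁ (ξ j)) * √(Cc κ * nsq fun j => S₂ (η j))) := by
          have := n h1 ξ
          have := n h2 η
          gcongr
      _ = _ := by
          rw [Real.sqrt_mul hC0, Real.sqrt_mul hC0, mul_mul_mul_comm, Real.mul_self_sqrt hC0]; ring

theorem typeIB (hC : ∀ c ∈ C, star c ∈ C) {S₁ S₂ : K →L[ℂ] H} {κ : ℝ}
    (h1 : Adm C.centralizer S₁ κ) (h2 : Adm C.centralizer S₂ κ) (hB : Bal C.centralizer S₁ S₂) :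
    TypeIB C.centralizer S₁ S₂ (10 * Cc κ ^ 3) := by
  intro n g hg hsm h x hx hc ξ η
  have hC0 : 0 ≤ Cc κ := by unfold Cc; positivity
  obtain ⟨N, z, hz, horth, hsum, hsys⟩ := KB.exists_typeI hC n g hg hsm
  have hzz : ∀ l ζ, z l (z l ζ) = z l ζ := fun l ζ => by
    rw [← mul_apply_eq_comp, (hz l).proj.isIdempotentElem.eq]
  have e1 : ∑ i, ∑ j, ⟪S₂ (g (η i)), S₁ (x i j (g (ξ j)))⟫_ℂ =
      ∑ l, ∑ i, ∑ j, ⟪S₂ (z l (z l (η i))), S₁ (x i j (z l (z l (ξ j))))⟫_ℂ := by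
    refine Eq.trans ?_ sum_comm
    refine sum_congr rfl fun i _ => ?_
    refine Eq.trans ?_ sum_comm
    refine sum_congr rfl fun j _ => ?_
    simp only [hzz]
    have hgz : ∀ l, z l * g = z l := by
      intro l
      rw [← hsum, mul_sum, sum_eq_single l (fun m _ hm => horth l m hm.symm) (by simp),
        (hz l).proj.isIdempotentElem.eq]
    have e2 : x i j (g (ξ j)) = ∑ l, z l (x i j (z l (ξ j))) := by
      conv_lhs => rw [← hsum]
      simp only [_root_.sum_apply, map_sum]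
      refine sum_congr rfl fun l _ => ?_
      rw [← mul_apply_eq_comp (z l), ((hz l).comm _ (hx i j)).eq, mul_apply_eq_comp, hzz]
    rw [e2, map_sum, inner_sum]
    refine sum_congr rfl fun l _ => ?_
    rw [hB _ (hz l).mem, (hz l).proj.isSelfAdjoint.star_eq, ← mul_apply_eq_comp (z l), hgz]
  have hpc := sum_proj_le (fun l => (hz l).proj) hg.proj hsum
  rw [e1]
  refine (norm_sum_le _ _).trans ((sum_le_sum (g := fun l => Cc κ ^ 2 *
    (√(nsq fun j => S₁ (z l (ξ j))) * √(nsq fun j => S₂ (z l (η j))))) fun l _ => ?_).trans ?_)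
  · obtain ⟨k, e, v, hs, hv, hcomm⟩ := hsys l
    exact homog_bound hC h1 h2 hB hs hv hcomm x hx hc _ _
  · rw [← mul_sum]
    have b := (Real.sum_sqrt_mul_sqrt_le _ (fun _ => nsq_nonneg _) (fun _ => nsq_nonneg _)).trans
      (mul_le_mul (Real.sqrt_le_sqrt (h1.col' z (fun l => (hz l).mem) hpc ξ))
      (Real.sqrt_le_sqrt (h2.col' z (fun l => (hz l).mem) hpc η)) (Real.sqrt_nonneg _)
      (Real.sqrt_nonneg _))
    rw [Real.sqrt_mul hC0, Real.sqrt_mul hC0, mul_mul_mul_comm, Real.mul_self_sqrt hC0] at b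
    refine (mul_le_mul_of_nonneg_left b (by positivity)).trans ?_
    change _ ≤ _ * √(nsq fun j => S₁ (ξ j)) * √(nsq fun j => S₂ (η j))
    have : 0 ≤ Cc κ ^ 3 * (√(nsq fun j => S₁ (ξ j)) * √(nsq fun j => S₂ (η j))) := by positivity
    nlinarith

end

universe u v

theorem thmU : ThmU.{u, v} := by
  intro K _ _ _ H _ _ _ C hC S₁ S₂ κ hκ hs1 hs2 hB
  have h1 := KA.adm_of_single C hC S₁ κ hκ hs1
  have h2 := KA.adm_of_single C hC S₂ κ hκ hs2
  exact ubound_of hC hκ h1 h2 hB (typeIB hC h1 h2 hB)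

end Crest.Agent.H2.KS
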