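import Crest.Agent.H2.KS4

/-! Kadison similarity, part 5: the random monomial scattering matrix and the energy formula. -/

set_option autoImplicit false
set_option maxHeartbeats 400000
open Finset Matrix
open scoped InnerProductSpace

namespace Crest.Agent.H2.KS

lemma sum_cnt_eq {I M : Type*} [Fintype I] [DecidableEq I] [AddCommMonoid M] {k : ℕ}
    (a : Fin (k + 1) → I) (ha : Function.Injective a) (F : (Fin (k + 1) → I) → M) :
    ∑ a', (if a' 0 = a 0 ∧ ∀ j, cnt a j = cnt a' j then F a' else 0) =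
      ∑ σ : Equiv.Perm (Fin k), F (a ∘ lft σ) := by
  rw [← sum_filter]
  symm
  refine sum_bij (fun σ _ => a ∘ lft σ) ?_ ?_ ?_ (fun _ _ => rfl)
  · intro σ _
    simp only [mem_filter, mem_univ, true_and, Function.comp_apply, lft_zero]
    exact fun j => (cnt_comp_perm a _ j).symm
  · intro σ _ σ' _ h
    apply lft_inj
    ext i
    rw [ha (congrFun h i)]
  · intro a' h
    simp only [mem_filter, mem_univ, true_and] at h
    obtain ⟨τ, rfl⟩ := exists_perm_of_cnt a a' ha h.2
    obtain ⟨σ, rfl⟩ := exists_lft τ (ha h.1)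
    exact ⟨σ, mem_univ _, rfl⟩

lemma sum_perm_comp {ι I : Type*} [Fintype ι] [DecidableEq ι] [Fintype I] [DecidableEq I]
    (a : ι → I) (ha : Function.Injective a) (G : (ι → I) → ℂ)
    (hG : ∀ o, ¬ Function.Injective o → G o = 0) :
    ∑ π : Equiv.Perm I, G (π ∘ a) = (Fintype.card I - Fintype.card ι).factorial * ∑ o, G o := by
  rw [← sum_fiberwise (s := univ) (g := fun π : Equiv.Perm I => π ∘ a), mul_sum]
  refine sum_congr rfl fun o _ => ?_
  rw [sum_congr rfl (g := fun _ => G o) (fun π hπ => by rw [(mem_filter.1 hπ).2]), sum_const,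
    nsmul_eq_mul]
  by_cases ho : Function.Injective o
  · rw [← card_perm_ext a o ha ho]
    congr 3
    ext π
    simp [funext_iff]
  · simp [hG o ho]

section
variable {R : Type*} [Ring R] [StarRing R] [Algebra ℂ R] [StarModule ℂ R]
variable {V : Type*} [NormedAddCommGroup V] [InnerProductSpace ℂ V] [CompleteSpace V]
variable {H : Type*} [NormedAddCommGroup H] [InnerProductSpace ℂ H]
variable {ρ : R →⋆ₐ[ℂ] (V →L[ℂ] V)}
variable {I : Type*} [Fintype I] [DecidableEq I] {N : ℕ} [NeZero N]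

variable (R) in
/-- The monomial scattering matrix. -/
noncomputable def Dm (ω : Equiv.Perm I × (I → ZMod N)) : Matrix I I R :=
  Matrix.of fun b a => if ω.1 a = b then chi N (ω.2 a) • (1 : R) else 0

/-- The inversion on scattering data. -/
def flip (ω : Equiv.Perm I × (I → ZMod N)) : Equiv.Perm I × (I → ZMod N) :=
  (ω.1⁻¹, fun b => -ω.2 (ω.1⁻¹ b))

omit [Fintype I] [DecidableEq I] [NeZero N] in
lemma flip_flip (ω : Equiv.Perm I × (I → ZMod N)) : flip (flip ω) = ω := by
  simp [flip]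

lemma sum_flip {M : Type*} [AddCommMonoid M] (f : Equiv.Perm I × (I → ZMod N) → M) :
    ∑ ω, f (flip ω) = ∑ ω, f ω :=
  Equiv.sum_comp (Function.Involutive.toPerm _ flip_flip) f

omit [Fintype I] in
lemma Dm_ct (ω : Equiv.Perm I × (I → ZMod N)) : (Dm R ω)ᴴ = Dm R (flip ω) := by
  ext a b
  simp only [Dm, flip, conjTranspose_apply, of_apply, Equiv.Perm.inv_eq_iff_eq]
  by_cases h : ω.1 a = b
  · subst h; simp [← conj_chi]
  · simp [h, Ne.symm h]

omit [StarModule ℂ R] in
lemma Dm_flip_mul (ω : Equiv.Perm I × (I → ZMod N)) : Dm R (flip ω) * Dm R ω = 1 := by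
  ext a a'
  rw [Matrix.mul_apply, sum_eq_single (ω.1 a)]
  · simp only [Dm, flip, of_apply, Matrix.one_apply, Equiv.Perm.coe_inv, Equiv.symm_apply_apply,
      if_true, EmbeddingLike.apply_eq_iff_eq]
    by_cases h : a' = a
    · subst h; simp [smul_smul, ← chi_add, chi_zero]
    · simp [h, Ne.symm h]
  · intro b _ hb
    simp [Dm, flip, Equiv.symm_apply_eq, hb]
  · simp

lemma Dm_ct_mul (ω : Equiv.Perm I × (I → ZMod N)) : (Dm R ω)ᴴ * Dm R ω = 1 := by
  rw [Dm_ct, Dm_flip_mul]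

lemma Dm_mul_ct (ω : Equiv.Perm I × (I → ZMod N)) : Dm R ω * (Dm R ω)ᴴ = 1 := by
  rw [Dm_ct]; conv_lhs => rw [← flip_flip ω]
  rw [flip_flip (flip ω), Dm_flip_mul]

lemma act_Dm (ω : Equiv.Perm I × (I → ZMod N)) (g : I → V) (b : I) :
    act ρ (Dm R ω) g b = ∑ a, if ω.1 a = b then chi N (ω.2 a) • g a else 0 := by
  rw [act_apply]
  refine sum_congr rfl fun a _ => ?_
  simp only [Dm, of_apply]
  split_ifs <;> simp

variable (ρ) in
/-- The part of the amplitude coming from the histories satisfying `P`. -/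
noncomputable def amp (X : Matrix I I R) (η : I → V) (k : ℕ)
    (P : (Fin (k + 1) → I) → (Fin k → I) → Prop) [∀ a b, Decidable (P a b)]
    (ω : Equiv.Perm I × (I → ZMod N)) (b₀ : I) : V :=
  ∑ a : Fin (k + 1) → I, if ω.1 (a 0) = b₀ ∧ P a (Fin.tail (ω.1 ∘ a)) then
    (∏ l, chi N (ω.2 (a l))) • wd (fun i j => ρ (X i j)) η k a (Fin.tail (ω.1 ∘ a)) else 0

lemma act_path (X : Matrix I I R) (η : I → V) (k : ℕ) (ω : Equiv.Perm I × (I → ZMod N)) (b₀ : I) :
    act ρ (Dm R ω * (X * Dm R ω) ^ k) η b₀ = amp ρ X η k (fun _ _ => True) ω b₀ := by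
  induction k generalizing b₀ with
  | zero =>
    rw [pow_zero, Matrix.mul_one, act_Dm, amp, sum_fin_succ]
    simp [wd]
  | succ k ih =>
    rw [pow_succ', Matrix.mul_assoc, act_mul, act_mul, act_Dm, amp, sum_fin_succ]
    refine sum_congr rfl fun a0 _ => ?_
    simp only [Fin.cons_zero, and_true]
    split_ifs with h
    · rw [act_apply]
      simp_rw [ih]
      simp only [amp, and_true, map_sum, smul_sum]
      rw [sum_comm]
      refine sum_congr rfl fun a _ => ?_
      rw [sum_eq_single (ω.1 (a 0))]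
      · simp only [if_true, map_smul, smul_smul, Fin.prod_univ_succ, Fin.cons_zero, Fin.cons_succ,
          wd, Fin.tail_cons]
        rfl
      · intro b _ hb; simp [Ne.symm hb]
      · simp
    · simp

lemma amp_split (X : Matrix I I R) (η : I → V) (k : ℕ)
    (P : (Fin (k + 1) → I) → (Fin k → I) → Prop) [∀ a b, Decidable (P a b)]
    (ω : Equiv.Perm I × (I → ZMod N)) (b₀ : I) :
    amp ρ X η k (fun _ _ => True) ω b₀ =
      amp ρ X η k P ω b₀ + amp ρ X η k (fun a b => ¬ P a b) ω b₀ := by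
  unfold amp
  rw [← sum_add_distrib]
  refine sum_congr rfl fun a _ => ?_
  by_cases h1 : ω.1 (a 0) = b₀ <;> by_cases h2 : P a (Fin.tail (ω.1 ∘ a)) <;> simp [h1, h2]

lemma amp_cross (Z : V →L[ℂ] H) (X : Matrix I I R) (η : I → V) (k : ℕ) (hN : k + 1 < N)
    (P P' : (Fin (k + 1) → I) → (Fin k → I) → Prop) [∀ a b, Decidable (P a b)]
    [∀ a b, Decidable (P' a b)] (hP : ∀ a b, P a b → Function.Injective a) (π : Equiv.Perm I)
    (b₀ : I) :
    ∑ ε : I → ZMod N, ⟪Z (amp ρ X η k P (π, ε) b₀), Z (amp ρ X η k P' (π, ε) b₀)⟫_ℂ =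
      (N : ℂ) ^ Fintype.card I * ∑ a : Fin (k + 1) → I,
        if π (a 0) = b₀ ∧ P a (Fin.tail (π ∘ a)) then ∑ σ : Equiv.Perm (Fin k),
          if P' (a ∘ lft σ) (Fin.tail (π ∘ a) ∘ σ) then
          ⟪Z (wd (fun i j => ρ (X i j)) η k a (Fin.tail (π ∘ a))),
           Z (wd (fun i j => ρ (X i j)) η k (a ∘ lft σ) (Fin.tail (π ∘ a) ∘ σ))⟫_ℂ else 0 else 0 := by
  simp only [amp, map_sum, sum_inner]
  rw [sum_comm, mul_sum]
  refine sum_congr rfl fun a _ => ?_
  split_ifs with h
  · have e := sum_cnt_eq a (hP _ _ h.2) (fun a' => if P' a' (Fin.tail (π ∘ a')) then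
      ⟪Z (wd (fun i j => ρ (X i j)) η k a (Fin.tail (π ∘ a))),
        Z (wd (fun i j => ρ (X i j)) η k a' (Fin.tail (π ∘ a')))⟫_ℂ else 0)
    simp only [← Function.comp_assoc, tail_comp_lft] at e
    rw [← e, mul_sum]
    simp only [inner_sum]
    rw [sum_comm]
    refine sum_congr rfl fun a' _ => ?_
    by_cases h' : π (a' 0) = b₀ ∧ P' a' (Fin.tail (π ∘ a'))
    · simp only [if_pos h', map_smul, inner_smul_left, inner_smul_right, ← mul_assoc]
      rw [← sum_mul]
      have := phase_avg (N := N) a a' (by simpa using hN) (by simpa using hN)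
      simp_rw [mul_comm ((starRingEnd ℂ) _)] at this ⊢
      rw [this, if_pos h'.2]
      have h0 : a' 0 = a 0 := π.injective (h'.1.trans h.1.symm)
      simp [h0]
    · simp only [if_neg h', map_zero, inner_zero_right, sum_const_zero]
      split_ifs with h1 h2
      · exact absurd ⟨h1.1 ▸ h.1, h2⟩ h'
      · simp
      · simp
  · simp

variable (lk : I → Prop) [DecidablePred lk]

variable (ρ N) in
/-- Total leaked energy of the histories satisfying `P`, measured through `Z`. -/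
noncomputable def En (Z : V →L[ℂ] H) (X : Matrix I I R) (η : I → V) (k : ℕ)
    (P : (Fin (k + 1) → I) → (Fin k → I) → Prop) [∀ a b, Decidable (P a b)] : ℝ :=
  ∑ ω : Equiv.Perm I × (I → ZMod N), ∑ b₀, if lk b₀ then ‖Z (amp ρ X η k P ω b₀)‖ ^ 2 else 0

lemma En_nonneg (Z : V →L[ℂ] H) (X : Matrix I I R) (η : I → V) (k : ℕ)
    (P : (Fin (k + 1) → I) → (Fin k → I) → Prop) [∀ a b, Decidable (P a b)] :
    0 ≤ En ρ N lk Z X η k P :=
  sum_nonneg fun _ _ => sum_nonneg fun _ _ => by split_ifs <;> positivity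

lemma En_le (Z : V →L[ℂ] H) {Y : ℝ} (hY : ‖Z‖ ≤ Y) (X : Matrix I I R) (η : I → V) (k : ℕ)
    (P : (Fin (k + 1) → I) → (Fin k → I) → Prop) [∀ a b, Decidable (P a b)] :
    En ρ N lk Z X η k P ≤ Y ^ 2 * En ρ N lk (ContinuousLinearMap.id ℂ V) X η k P := by
  unfold En
  rw [mul_sum]
  refine sum_le_sum fun ω _ => ?_
  rw [mul_sum]
  refine sum_le_sum fun b _ => ?_
  split_ifs
  · rw [← mul_pow]
    exact pow_le_pow_left₀ (norm_nonneg _)
      ((Z.le_opNorm _).trans (mul_le_mul_of_nonneg_right hY (norm_nonneg _))) 2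
  · simp

lemma En_total (Z : V →L[ℂ] H) (X : Matrix I I R) (η : I → V) (k : ℕ) :
    En ρ N lk Z X η k (fun _ _ => True) = ∑ ω : Equiv.Perm I × (I → ZMod N),
      nsq fun i => Z (act ρ (pm R lk * Dm R ω * (X * Dm R ω) ^ k) η i) := by
  refine sum_congr rfl fun ω _ => sum_congr rfl fun b _ => ?_
  simp only [Matrix.mul_assoc, act_mul ρ (pm R lk), act_pm, act_path]
  split_ifs <;> simp

lemma En_split (Z : V →L[ℂ] H) (X : Matrix I I R) (η : I → V) (k : ℕ) (hN : k + 1 < N)
    (P : (Fin (k + 1) → I) → (Fin k → I) → Prop) [∀ a b, Decidable (P a b)]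
    (hP : ∀ a b, P a b → Function.Injective a)
    (hP' : ∀ a b (σ : Equiv.Perm (Fin k)), P a b → P (a ∘ lft σ) (b ∘ σ)) :
    En ρ N lk Z X η k (fun _ _ => True) =
      En ρ N lk Z X η k P + En ρ N lk Z X η k (fun a b => ¬ P a b) := by
  unfold En
  rw [← sum_add_distrib, Fintype.sum_prod_type, Fintype.sum_prod_type]
  refine sum_congr rfl fun π _ => ?_
  simp_rw [← sum_add_distrib]
  rw [sum_comm, sum_comm (γ := I → ZMod N)]
  refine sum_congr rfl fun b _ => ?_
  split_ifs
  · have e := amp_cross (ρ := ρ) Z X η k hN P (fun a b => ¬ P a b) hP π b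
    have e0 : (∑ a : Fin (k + 1) → I,
        if π (a 0) = b ∧ P a (Fin.tail (π ∘ a)) then ∑ σ : Equiv.Perm (Fin k),
          if ¬ P (a ∘ lft σ) (Fin.tail (π ∘ a) ∘ σ) then
          ⟪Z (wd (fun i j => ρ (X i j)) η k a (Fin.tail (π ∘ a))),
           Z (wd (fun i j => ρ (X i j)) η k (a ∘ lft σ) (Fin.tail (π ∘ a) ∘ σ))⟫_ℂ else 0 else 0)
        = 0 := by
      refine sum_eq_zero fun a _ => ?_
      split_ifs with h
      · exact sum_eq_zero fun σ _ => if_neg (not_not.2 (hP' _ _ σ h.2))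
      · rfl
    rw [e0, mul_zero] at e
    have e1 := congrArg Complex.re e
    rw [Complex.re_sum, Complex.zero_re] at e1
    simp_rw [amp_split X η k P, map_add, @norm_add_sq ℂ]
    simp only [sum_add_distrib, ← mul_sum, RCLike.re_to_complex, e1]
    simp
  · simp

lemma En_good (Z : V →L[ℂ] H) (X : Matrix I I R) (η : I → V) (k : ℕ) (hN : k + 1 < N)
    (P : (Fin (k + 1) → I) → (Fin k → I) → Prop) [∀ a b, Decidable (P a b)]
    (hP : ∀ a b, P a b → Function.Injective a ∧ Function.Injective b ∧ ∀ l, ¬ lk (b l))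
    (hP' : ∀ a b (σ : Equiv.Perm (Fin k)), P a b → P (a ∘ lft σ) (b ∘ σ)) :
    (En ρ N lk Z X η k P : ℂ) = (N : ℂ) ^ Fintype.card I *
      (Fintype.card I - (k + 1)).factorial * (univ.filter lk).card *
      ∑ σ : Equiv.Perm (Fin k), ∑ a, ∑ b, if P a b then
        ⟪Z (wd (fun i j => ρ (X i j)) η k a b),
          Z (wd (fun i j => ρ (X i j)) η k (a ∘ lft σ) (b ∘ σ))⟫_ℂ else 0 := by
  set F : (Fin (k + 1) → I) → (Fin k → I) → ℂ := fun a b => ∑ σ : Equiv.Perm (Fin k),
    ⟪Z (wd (fun i j => ρ (X i j)) η k a b),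
      Z (wd (fun i j => ρ (X i j)) η k (a ∘ lft σ) (b ∘ σ))⟫_ℂ with hF
  have e1 : (En ρ N lk Z X η k P : ℂ) = (N : ℂ) ^ Fintype.card I * ∑ π : Equiv.Perm I,
      ∑ a : Fin (k + 1) → I, if lk ((π ∘ a) 0) ∧ P a (Fin.tail (π ∘ a)) then
        F a (Fin.tail (π ∘ a)) else 0 := by
    unfold En
    rw [Fintype.sum_prod_type, mul_sum]
    push_cast
    refine sum_congr rfl fun π _ => ?_
    rw [sum_comm]
    have : ∀ b, (∑ ε : I → ZMod N, ((if lk b then ‖Z (amp ρ X η k P (π, ε) b)‖ ^ 2 else 0 : ℝ) : ℂ))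
        = (N : ℂ) ^ Fintype.card I * ∑ a : Fin (k + 1) → I, if π (a 0) = b then
          (if lk ((π ∘ a) 0) ∧ P a (Fin.tail (π ∘ a)) then F a (Fin.tail (π ∘ a)) else 0)
          else 0 := by
      intro b
      split_ifs with hb
      · have e := amp_cross (ρ := ρ) Z X η k hN P P (fun a b h => (hP a b h).1) π b
        simp only [inner_self_eq_norm_sq_to_K] at e
        push_cast
        rw [show (∑ ε : I → ZMod N, ((‖Z (amp ρ X η k P (π, ε) b)‖ : ℝ) : ℂ) ^ 2) = _ from e]
        congr 1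
        refine sum_congr rfl fun a _ => ?_
        by_cases h1 : π (a 0) = b
        · by_cases h2 : P a (Fin.tail (π ∘ a))
          · simp [h1, h2, hb, hF, hP' _ _ _ h2]
          · simp [h2]
        · simp [h1]
      · simp only [Complex.ofReal_zero, sum_const_zero]
        rw [sum_eq_zero, mul_zero]
        intro a _
        split_ifs with h1 h2
        · exact absurd (h1 ▸ h2.1) hb
        · rfl
        · rfl
    simp_rw [this]
    rw [← mul_sum, sum_comm]
    simp
  rw [e1, sum_comm, mul_assoc, mul_assoc]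
  congr 1
  rw [sum_comm (γ := Equiv.Perm (Fin k)), mul_sum, mul_sum]
  refine sum_congr rfl fun a _ => ?_
  by_cases ha : Function.Injective a
  · rw [sum_perm_comp a ha (fun o => if lk (o 0) ∧ P a (Fin.tail o) then F a (Fin.tail o) else 0)]
    · rw [Fintype.card_fin, sum_fin_succ, sum_comm (γ := Equiv.Perm (Fin k))]
      congr 1
      simp only [Fin.cons_zero, Fin.tail_cons]
      rw [sum_comm, mul_sum]
      refine sum_congr rfl fun b _ => ?_
      by_cases h : P a b
      · simp [h, hF, ← sum_filter]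
      · simp [h]
    · intro o ho
      rw [if_neg]
      rintro ⟨h1, h2⟩
      apply ho
      rw [← Fin.cons_self_tail o, Fin.cons_injective_iff]
      refine ⟨?_, (hP _ _ h2).2.1⟩
      rintro ⟨l, hl⟩
      exact (hP _ _ h2).2.2 l (hl ▸ h1)
  · have : ∀ b, ¬ P a b := fun b h => ha (hP _ _ h).1
    simp [this]

end

end Crest.Agent.H2.KS
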