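import Crest.Agent.H1KR.Defs

/-! KR-B, part 1: the Pythagoras inequality and the telescoping argument. -/

set_option autoImplicit false
open scoped InnerProductSpace ComplexConjugate
open Finset Crest.Agent.H1KR

namespace Crest.Agent.H2.KRB

variable {K : Type*} [NormedAddCommGroup K] [InnerProductSpace ℂ K] [CompleteSpace K]
variable {S : StarSubalgebra ℂ (K →L[ℂ] K)}

/-- averaging along a column -/
noncomputable def cavF {L : Type} [Fintype L] (m : L → S) (T : S →ₗ[ℂ] S) : S →ₗ[ℂ] S :=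
  ∑ l, LinearMap.mulLeft ℂ (star (m l)) ∘ₗ T ∘ₗ LinearMap.mulLeft ℂ (m l)

theorem cavF_apply {L : Type} [Fintype L] (m : L → S) (T : S →ₗ[ℂ] S) (a : S) :
    cavF m T a = ∑ l, star (m l) * T (m l * a) := by
  simp [cavF, LinearMap.sum_apply]

theorem cavF_cavF {L L' : Type} [Fintype L] [Fintype L'] (M : L → S) (m : L' → S)
    (T : S →ₗ[ℂ] S) : cavF m (cavF M T) = cavF (fun p : L × L' => M p.1 * m p.2) T := by
  ext a : 1
  simp only [cavF_apply, Fintype.sum_prod_type, mul_sum, star_mul, mul_assoc]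
  exact sum_comm

theorem inner_star_left (a : S) (u w : K) : ⟪(star a : S).1 u, w⟫_ℂ = ⟪u, a.1 w⟫_ℂ := by
  change ⟪(star a.1) u, w⟫_ℂ = _
  rw [ContinuousLinearMap.star_eq_adjoint, ContinuousLinearMap.adjoint_inner_left]

theorem inner_star_right (a : S) (u w : K) : ⟪u, (star a : S).1 w⟫_ℂ = ⟪a.1 u, w⟫_ℂ := by
  rw [← inner_star_left, star_star]

theorem mul_ap (a b : S) (u : K) : (a * b : S).1 u = a.1 (b.1 u) := rfl

theorem sum_ap {L : Type*} (s : Finset L) (a : L → S) (u : K) :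
    (∑ l ∈ s, a l : S).1 u = ∑ l ∈ s, (a l).1 u := by
  rw [show (∑ l ∈ s, a l : S).1 = ∑ l ∈ s, (a l).1 from map_sum S.subtype a s,
    _root_.sum_apply]

theorem col_norm {L : Type} [Fintype L] {m : L → S} (h : ∑ l, star (m l) * m l = 1) (u : K) :
    ∑ l, ‖(m l).1 u‖ ^ 2 = ‖u‖ ^ 2 := by
  have := congrArg (fun a : S => (⟪u, a.1 u⟫_ℂ).re) h
  simp only [sum_ap, inner_sum, mul_ap, inner_star_right, Complex.re_sum] at this
  have e : ∀ w : K, (⟪w, w⟫_ℂ).re = ‖w‖ ^ 2 := fun w => inner_self_eq_norm_sq (𝕜 := ℂ) w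
  simp only [e] at this
  rw [this]; exact e u

/-- contractive matrices -/
def Con {J I : Type} [Fintype J] [Fintype I] (x : J → I → S) : Prop :=
  ∀ ξ : I → K, ∑ j, ‖∑ i, (x j i).1 (ξ i)‖ ^ 2 ≤ ∑ i, ‖ξ i‖ ^ 2

theorem Con.col {J I L : Type} [Fintype J] [Fintype I] [Fintype L] {x : J → I → S} (hx : Con x)
    {m : L → S} (h : ∑ l, star (m l) * m l = 1) : Con fun (p : L × J) i => m p.1 * x p.2 i := by
  intro ξ
  rw [Fintype.sum_prod_type, sum_comm]
  refine le_trans (le_of_eq (sum_congr rfl fun j _ => ?_)) (hx ξ)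
  rw [← col_norm h]
  simp only [mul_ap, map_sum]

theorem pair_cavF {J I L : Type} [Fintype J] [Fintype I] [Fintype L] (x : J → I → S) (m : L → S)
    (T : S →ₗ[ℂ] S) (ζ : J → K) (ξ : I → K) : ∑ j, ∑ i, ⟪ζ j, (cavF m T (x j i)).1 (ξ i)⟫_ℂ =
      ∑ p : L × J, ∑ i, ⟪(m p.1).1 (ζ p.2), (T (m p.1 * x p.2 i)).1 (ξ i)⟫_ℂ := by
  rw [Fintype.sum_prod_type]
  refine Eq.trans ?_ sum_comm
  refine sum_congr rfl fun j _ => Eq.trans (sum_congr rfl fun i _ => ?_) sum_comm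
  simp only [cavF_apply, sum_ap, inner_sum, mul_ap, inner_star_right]

theorem fam_norm {J L : Type} [Fintype J] [Fintype L] {m : L → S}
    (h : ∑ l, star (m l) * m l = 1) (ζ : J → K) :
    ∑ p : L × J, ‖(m p.1).1 (ζ p.2)‖ ^ 2 = ∑ j, ‖ζ j‖ ^ 2 := by
  rw [Fintype.sum_prod_type, sum_comm]
  exact sum_congr rfl fun j _ => col_norm h (ζ j)

theorem CB.cavF {L : Type} [Fintype L] {m : L → S} (h : ∑ l, star (m l) * m l = 1)
    {T : S →ₗ[ℂ] S} {c : ℝ} (hT : CB S T c) : CB S (cavF m T) c := by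
  intro J I _ _ x hx ζ ξ
  have := hT (L × J) I _ (Con.col hx h) (fun p => (m p.1).1 (ζ p.2)) ξ
  rwa [fam_norm h, ← pair_cavF] at this

theorem CB.mono {T : S →ₗ[ℂ] S} {c c' : ℝ} (hT : CB S T c) (h : c ≤ c') : CB S T c' :=
  fun J I _ _ x hx ζ ξ => (hT J I x hx ζ ξ).trans (by gcongr)

theorem CB.norm_le {T : S →ₗ[ℂ] S} {c : ℝ} (hc : 0 ≤ c) (hT : CB S T c) {a : S} (ha : ‖a‖ ≤ 1) :
    ‖T a‖ ≤ c := by
  change ‖(T a).1‖ ≤ c
  refine ContinuousLinearMap.opNorm_le_bound _ hc fun u => ?_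
  have := hT Unit Unit (fun _ _ => a) (fun ξ => by
    simp only [univ_unique, sum_singleton]
    have := (a.1.le_opNorm (ξ default)).trans (mul_le_mul_of_nonneg_right ha (norm_nonneg _))
    rw [one_mul] at this
    gcongr) (fun _ => (T a).1 u) fun _ => u
  simp only [univ_unique, sum_singleton, Real.sqrt_sq (norm_nonneg _),
    inner_self_eq_norm_sq_to_K, norm_pow] at this
  rcases (norm_nonneg ((T a).1 u)).eq_or_lt with h | h
  · rw [← h]; positivity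
  · refine le_of_mul_le_mul_left ?_ h
    simp at this
    nlinarith

/-- values of the pairing -/
def Val (T : S →ₗ[ℂ] S) {J : Type} [Fintype J] (ζ : J → K) : Set ℝ :=
  {t | ∃ (I : Type) (_ : Fintype I) (x : J → I → S) (ξ : I → K), Con x ∧ ∑ i, ‖ξ i‖ ^ 2 ≤ 1 ∧
    t = ‖∑ j, ∑ i, ⟪ζ j, (T (x j i)).1 (ξ i)⟫_ℂ‖}

/-- energy -/
noncomputable def en (T : S →ₗ[ℂ] S) {J : Type} [Fintype J] (ζ : J → K) : ℝ := sSup (Val T ζ)

theorem zero_mem_Val (T : S →ₗ[ℂ] S) {J : Type} [Fintype J] (ζ : J → K) : 0 ∈ Val T ζ :=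
  ⟨Empty, inferInstance, fun _ => Empty.elim, Empty.elim, fun _ => by simp, by simp, by simp⟩

theorem Val_le {T : S →ₗ[ℂ] S} {c : ℝ} (hc : 0 ≤ c) (hT : CB S T c) {J : Type} [Fintype J]
    (ζ : J → K) : ∀ t ∈ Val T ζ, t ≤ c * √(∑ j, ‖ζ j‖ ^ 2) := by
  rintro _ ⟨I, _, x, ξ, hx, hξ, rfl⟩
  refine (hT J I x hx ζ ξ).trans (mul_le_mul_of_nonneg_left ?_ hc)
  exact mul_le_of_le_one_right (Real.sqrt_nonneg _) (Real.sqrt_le_one.2 hξ)

theorem en_le {T : S →ₗ[ℂ] S} {c : ℝ} (hc : 0 ≤ c) (hT : CB S T c) {J : Type} [Fintype J]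
    (ζ : J → K) : en T ζ ≤ c * √(∑ j, ‖ζ j‖ ^ 2) :=
  csSup_le ⟨0, zero_mem_Val T ζ⟩ (Val_le hc hT ζ)

theorem le_en {T : S →ₗ[ℂ] S} {c : ℝ} (hc : 0 ≤ c) (hT : CB S T c) {J : Type} [Fintype J]
    (ζ : J → K) {t : ℝ} (ht : t ∈ Val T ζ) : t ≤ en T ζ :=
  le_csSup ⟨_, Val_le hc hT ζ⟩ ht

theorem pythagoras {T : S →ₗ[ℂ] S} {c : ℝ} (hc : 0 ≤ c) (hT : CB S T c) {J L : Type} [Fintype J]
    [Fintype L] (ζ : J → K) {m y : L → S} (h : ∑ l, star (m l) * m l = 1)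
    (hy : ∀ u, ∑ l, ‖(y l).1 u‖ ^ 2 ≤ ‖u‖ ^ 2) (hmy : ∑ l, star (m l) * y l = 0) :
    en (cavF m T) ζ ^ 2 + ∑ j, ‖(star (∑ l, star (m l) * T (y l)) : S).1 (ζ j)‖ ^ 2 ≤
      en T (fun p : L × J => (m p.1).1 (ζ p.2)) ^ 2 := by
  classical
  set E := en T (fun p : L × J => (m p.1).1 (ζ p.2))
  set d : J → K := fun j => (star (∑ l, star (m l) * T (y l)) : S).1 (ζ j) with hd
  set D := ∑ j, ‖d j‖ ^ 2 with hD
  have hD0 : 0 ≤ D := by positivity
  have hE0 : 0 ≤ E := le_en hc hT _ (zero_mem_Val _ _)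
  have key : ∀ t ∈ Val (cavF m T) ζ, t ^ 2 + D ≤ E ^ 2 := by
    rintro _ ⟨I, _, x, ξ, hx, hξ, rfl⟩
    set A := ∑ j, ∑ i, ⟪ζ j, (cavF m T (x j i)).1 (ξ i)⟫_ℂ with hA
    set N := √(‖A‖ ^ 2 + D) with hN
    have hN2 : N ^ 2 = ‖A‖ ^ 2 + D := Real.sq_sqrt (by positivity)
    rcases (Real.sqrt_nonneg (‖A‖ ^ 2 + D)).eq_or_lt with h0 | h0
    · rw [← hN2, hN, ← h0]; simpa using sq_nonneg E
    rw [← hN] at h0
    rw [← hN2]
    refine pow_le_pow_left₀ h0.le (le_en hc hT _ ⟨I ⊕ J, inferInstance,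
      fun p => Sum.elim (fun i => m p.1 * x p.2 i) fun j => if j = p.2 then y p.1 else 0,
      Sum.elim (fun i => (conj A / N) • ξ i) fun j => (1 / N : ℂ) • d j, fun w => ?_, ?_, ?_⟩) 2
    · rw [Fintype.sum_sum_type, Fintype.sum_prod_type, sum_comm]
      refine le_trans ?_ (add_le_add (hx fun i => w (Sum.inl i)) le_rfl)
      rw [← sum_add_distrib]
      refine sum_le_sum fun j _ => ?_
      have e : ∀ l, ∑ i : I ⊕ J, (Sum.elim (fun i => m l * x j i)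
          (fun j' => if j' = j then y l else 0) i : S).1 (w i) =
          (m l).1 (∑ i, (x j i).1 (w (Sum.inl i))) + (y l).1 (w (Sum.inr j)) := by
        intro l
        rw [Fintype.sum_sum_type, map_sum]
        congr 1
        rw [sum_eq_single j]
        · simp
        · intro b _ hb; simp [hb]
        · simp
      simp only [e]
      generalize ∑ i, (x j i).1 (w (Sum.inl i)) = u
      generalize w (Sum.inr j) = u'
      have o : ∑ l, (⟪(m l).1 u, (y l).1 u'⟫_ℂ).re = 0 := by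
        have := congrArg (fun a : S => (⟪u, a.1 u'⟫_ℂ).re) hmy
        simp only [sum_ap, inner_sum, mul_ap, inner_star_right, Complex.re_sum] at this
        simpa using this
      simp only [norm_add_sq (𝕜 := ℂ), sum_add_distrib, ← mul_sum, RCLike.re_to_complex, o,
        col_norm h]
      linarith [hy u']
    · rw [Fintype.sum_sum_type]
      simp only [Sum.elim_inl, Sum.elim_inr, norm_smul, mul_pow, ← mul_sum, norm_div,
        RCLike.norm_conj, Complex.norm_real, Real.norm_eq_abs, div_pow, sq_abs, norm_one, ← hD]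
      have : ‖A‖ ^ 2 / N ^ 2 * ∑ i, ‖ξ i‖ ^ 2 ≤ ‖A‖ ^ 2 / N ^ 2 :=
        mul_le_of_le_one_right (by positivity) hξ
      have e : ‖A‖ ^ 2 / N ^ 2 + 1 ^ 2 / N ^ 2 * D = 1 := by
        field_simp; rw [hN2]
      linarith
    · simp only [Fintype.sum_sum_type, Sum.elim_inl, Sum.elim_inr, map_smul, inner_smul_right,
        sum_add_distrib, ← mul_sum]
      rw [← pair_cavF, ← hA]
      have e : ∑ p : L × J, ∑ j, ⟪(m p.1).1 (ζ p.2), (T (if j = p.2 then y p.1 else 0)).1 (d j)⟫_ℂ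
          = (D : ℂ) := by
        rw [Fintype.sum_prod_type, sum_comm, hD, Complex.ofReal_sum]
        refine sum_congr rfl fun j _ => ?_
        have : ⟪d j, d j⟫_ℂ = ((‖d j‖ ^ 2 : ℝ) : ℂ) := by
          rw [inner_self_eq_norm_sq_to_K]; simp
        have e2 : ∀ w, ⟪d j, w⟫_ℂ = ∑ l, ⟪(m l).1 (ζ j), (T (y l)).1 w⟫_ℂ := fun w => by
          simp only [hd, inner_star_left, sum_ap, inner_sum, mul_ap, inner_star_right]
        rw [← this, e2]
        refine sum_congr rfl fun l _ => ?_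
        rw [sum_eq_single j]
        · simp
        · intro b _ hb; simp [hb]
        · simp
      rw [e]
      have hN' : (N : ℂ) ≠ 0 := by exact_mod_cast h0.ne'
      have : conj A / N * A + 1 / N * D = (N : ℂ) := by
        field_simp
        rw [Complex.conj_mul']
        exact_mod_cast hN2.symm
      rw [this, Complex.norm_real, Real.norm_of_nonneg h0.le]
  have h0 := key 0 (zero_mem_Val _ _)
  have h1 : en (cavF m T) ζ ≤ √(E ^ 2 - D) :=
    csSup_le ⟨0, zero_mem_Val _ ζ⟩ fun t ht => Real.le_sqrt_of_sq_le (by linarith [key t ht])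
  have h2 := pow_le_pow_left₀ (le_en hc (CB.cavF h hT) _ (zero_mem_Val _ _)) h1 2
  rw [Real.sq_sqrt (by linarith)] at h2
  linarith

end Crest.Agent.H2.KRB
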