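import Crest.Agent.H2.KRB1

/-! KR-B, part 2: telescoping, and passage to a filter. -/

set_option autoImplicit false
open scoped InnerProductSpace ComplexConjugate
open Finset Crest.Agent.H1KR

namespace Crest.Agent.H2.KRB

variable {K : Type*} [NormedAddCommGroup K] [InnerProductSpace ℂ K] [CompleteSpace K]
variable {S : StarSubalgebra ℂ (K →L[ℂ] K)}

theorem unit_ap {v : S} (hv : v ∈ unitary S) (u : K) : ‖v.1 u‖ ^ 2 = ‖u‖ ^ 2 := by
  have := col_norm (L := Unit) (m := fun _ => v) (by simpa using hv.1) u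
  simpa using this

theorem unit_norm {v : S} (hv : v ∈ unitary S) : ‖v‖ ≤ 1 := by
  change ‖v.1‖ ≤ 1
  refine ContinuousLinearMap.opNorm_le_bound _ zero_le_one fun u => ?_
  rw [one_mul, ← sq_le_sq₀ (norm_nonneg _) (norm_nonneg _), unit_ap hv]

theorem smul_ap (c : ℂ) (a : S) (u : K) : (c • a : S).1 u = c • a.1 u := rfl

theorem step_gain {T : S →ₗ[ℂ] S} {c : ℝ} (hc : 0 ≤ c) (hT : CB S T c) {J L : Type} [Fintype J]
    [Fintype L] (ζ : J → K) {m : L → S} (h : ∑ l, star (m l) * m l = 1) {v : S}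
    (hv : v ∈ unitary S) {α : ℝ} {l₀ l₁ : L} (hne : l₀ ≠ l₁) (h₀ : m l₀ = (α : ℂ) • 1)
    (h₁ : m l₁ = (α : ℂ) • v) :
    en (cavF m T) ζ ^ 2 + α ^ 2 / 4 * ∑ j, ‖(star (star v * T v - T 1) : S).1 (ζ j)‖ ^ 2 ≤
      en T (fun p : L × J => (m p.1).1 (ζ p.2)) ^ 2 := by
  classical
  let y : L → S := fun l => if l = l₀ then (-1 / 2 : ℂ) • 1 else if l = l₁ then (1 / 2 : ℂ) • v else 0
  have y0 : y l₀ = (-1 / 2 : ℂ) • 1 := if_pos rfl
  have y1 : y l₁ = (1 / 2 : ℂ) • v := by simp only [y, if_neg hne.symm, if_true]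
  have y2 : ∀ l, l ≠ l₀ ∧ l ≠ l₁ → y l = 0 := fun l hl => by simp only [y, if_neg hl.1, if_neg hl.2]
  have := pythagoras hc hT ζ (y := y) h (fun u => by
    rw [Fintype.sum_eq_add l₀ l₁ hne (fun l hl => by rw [y2 l hl]; simp), y0, y1, smul_ap, smul_ap,
      norm_smul, norm_smul, mul_pow, mul_pow, unit_ap hv]
    have : (1 : S).1 u = u := rfl
    rw [this]
    norm_num
    nlinarith [sq_nonneg ‖u‖]) (by
    rw [Fintype.sum_eq_add l₀ l₁ hne (fun l hl => by rw [y2 l hl]; simp), y0, y1, h₀, h₁]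
    simp only [star_smul, star_one, smul_mul_assoc, mul_smul_comm, one_mul, hv.1, smul_smul,
      ← add_smul]
    convert zero_smul ℂ (1 : S) using 2
    ring)
  rw [Fintype.sum_eq_add l₀ l₁ hne (fun l hl => by rw [y2 l hl]; simp), y0, y1, h₀, h₁] at this
  have e : star ((α : ℂ) • (1 : S)) * T ((-1 / 2 : ℂ) • 1) + star ((α : ℂ) • v) * T ((1 / 2 : ℂ) • v)
      = ((α / 2 : ℝ) : ℂ) • (star v * T v - T 1) := by
    simp only [star_smul, star_one, smul_mul_assoc, mul_smul_comm, one_mul, map_smul, smul_smul,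
      Complex.star_def, Complex.conj_ofReal, smul_sub]
    rw [sub_eq_add_neg, ← neg_smul, add_comm]
    congr 2 <;> push_cast <;> ring
  rw [e] at this
  simp only [star_smul, smul_ap, norm_smul, mul_pow, ← mul_sum, norm_star, Complex.norm_real,
    Real.norm_eq_abs, sq_abs] at this
  linarith

theorem key {R J₀ : Type} [Fintype R] [Fintype J₀] (T : R → S →ₗ[ℂ] S) {c : ℝ} (hc : 0 ≤ c)
    (hT : ∀ r, CB S (T r) c) (v : R → S) (hv : ∀ i, v i ∈ unitary S) (η : J₀ → K) {α δ ε : ℝ}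
    (hα : 0 < α) (hδ : 0 ≤ δ) (hε : 0 < ε)
    (Cl : ∀ (L : Type) [Fintype L], (L → S) → Prop)
    (hmul : ∀ (L L' : Type) [Fintype L] [Fintype L'] (M : L → S) (m : L' → S), Cl L M → Cl L' m →
      Cl (L × L') fun p => M p.1 * m p.2)
    (hcol : ∀ (L : Type) [Fintype L] (m : L → S), Cl L m → ∑ l, star (m l) * m l = 1)
    (Adm : ∀ (J : Type) [Fintype J], (J → K) → Prop) (h0 : Adm J₀ η)
    (hstep : ∀ (J : Type) [Fintype J] (ζ : J → K), Adm J ζ → ∃ (L : Type) (_ : Fintype L)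
      (m : L → S) (l₀ : L) (l₁ : R → L), Cl L m ∧ (∀ i, l₀ ≠ l₁ i) ∧ m l₀ = (α : ℂ) • 1 ∧
        (∀ i, m (l₁ i) = (α : ℂ) • v i) ∧ Adm (L × J) fun p => (m p.1).1 (ζ p.2))
    (hres : ∀ (J : Type) [Fintype J] (ζ : J → K), Adm J ζ → ∀ a : S,
      ∑ j, ‖a.1 (η j)‖ ^ 2 ≤ 2 * ∑ j, ‖a.1 (ζ j)‖ ^ 2 + δ * ‖a‖ ^ 2) :
    ∃ (L : Type) (_ : Fintype L) (M : L → S), Cl L M ∧ ∀ r,
      ∑ j, ‖(star (star (v r) * cavF M (T r) (v r) - cavF M (T r) 1) : S).1 (η j)‖ ^ 2 ≤
        ε + δ * (2 * c) ^ 2 := by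
  by_contra hcon
  push Not at hcon
  have main : ∀ n : ℕ, ∃ (J : Type) (_ : Fintype J) (ζ : J → K), Adm J ζ ∧
      ∑ j, ‖ζ j‖ ^ 2 = ∑ j, ‖η j‖ ^ 2 ∧ ∀ (L : Type) [Fintype L] (M : L → S), Cl L M →
        n * (α ^ 2 / 8 * ε) ≤ ∑ r, en (cavF M (T r)) ζ ^ 2 := by
    intro n
    induction n with
    | zero => exact ⟨J₀, inferInstance, η, h0, rfl, fun L _ M _ => by
        rw [Nat.cast_zero, zero_mul]; positivity⟩
    | succ n ih =>
      obtain ⟨J, _, ζ, h1, h2, h3⟩ := ih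
      obtain ⟨L', _, m, l₀, l₁, k1, k2, k3, k4, k5⟩ := hstep J ζ h1
      refine ⟨L' × J, inferInstance, _, k5, by rw [fam_norm (hcol _ _ k1), h2], fun L _ M hM => ?_⟩
      obtain ⟨r₀, hr⟩ := hcon L inferInstance M hM
      have hcb := fun r => CB.cavF (hcol _ _ hM) (hT r)
      have g := fun r => step_gain hc (hcb r) ζ (hcol _ _ k1) (hv r) (k2 r) k3 (k4 r)
      have g2 := sum_le_sum fun r (_ : r ∈ univ) => g r
      rw [sum_add_distrib, ← mul_sum] at g2
      have g3 := h3 _ _ (hmul _ _ M m hM k1)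
      simp only [← cavF_cavF] at g3
      have g4 := single_le_sum (f := fun r => ∑ j, ‖(star (star (v r) * cavF M (T r) (v r) -
        cavF M (T r) 1) : S).1 (ζ j)‖ ^ 2) (fun r _ => by positivity) (mem_univ r₀)
      have g5 := hres J ζ h1 (star (star (v r₀) * cavF M (T r₀) (v r₀) - cavF M (T r₀) 1))
      have g6 : ‖star (star (v r₀) * cavF M (T r₀) (v r₀) - cavF M (T r₀) 1)‖ ≤ 2 * c := by
        have e : ∀ a : S, ‖star a‖ = ‖a‖ := fun a => norm_star a.1
        rw [e]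
        refine (norm_sub_le _ _).trans ?_
        have a1 := CB.norm_le hc (hcb r₀) (unit_norm (hv r₀))
        have a2 := CB.norm_le hc (hcb r₀) (unit_norm (one_mem (unitary S)))
        have a3 := (norm_mul_le (star (v r₀)) (cavF M (T r₀) (v r₀))).trans
          (mul_le_mul ((e _).trans_le (unit_norm (hv r₀))) a1 (norm_nonneg _) zero_le_one)
        linarith
      have g7 : δ * ‖star (star (v r₀) * cavF M (T r₀) (v r₀) - cavF M (T r₀) 1)‖ ^ 2 ≤
          δ * (2 * c) ^ 2 := by gcongr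
      have g8 : α ^ 2 / 4 * (ε / 2) ≤ α ^ 2 / 4 * ∑ r, ∑ j, ‖(star (star (v r) * cavF M (T r) (v r) -
        cavF M (T r) 1) : S).1 (ζ j)‖ ^ 2 := by
        refine mul_le_mul_of_nonneg_left ?_ (by positivity)
        linarith
      push_cast
      linarith
  obtain ⟨L', _, m, -, -, k1, -⟩ := hstep J₀ η h0
  obtain ⟨n, hn⟩ := exists_nat_gt ((∑ _r : R, (c * √(∑ j, ‖η j‖ ^ 2)) ^ 2) / (α ^ 2 / 8 * ε))
  obtain ⟨J, _, ζ, -, h2, h3⟩ := main n
  have h4 := h3 _ m k1
  have h5 : ∑ r, en (cavF m (T r)) ζ ^ 2 ≤ ∑ _r : R, (c * √(∑ j, ‖η j‖ ^ 2)) ^ 2 :=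
    sum_le_sum fun r _ => by
      have hcb := CB.cavF (hcol _ _ k1) (hT r)
      refine pow_le_pow_left₀ (le_en hc hcb _ (zero_mem_Val _ _)) ?_ 2
      rw [← h2]; exact en_le hc hcb ζ
  rw [div_lt_iff₀ (by positivity)] at hn
  linarith

theorem cav_toList {L : Type} [Fintype L] (M : L → S) (T : S →ₗ[ℂ] S) (a : S) :
    cav (univ.toList.map M) T a = cavF M T a := by
  rw [cavF_apply, cav, List.map_map, sum_map_toList]; rfl

theorem mean_of_finite (hcl : IsClosed (S : Set (K →L[ℂ] K))) (P : List S → Prop) (Q : K → Prop)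
    (hQ : ∀ (a : S) η, Q η → Q (a.1 η))
    (H : ∀ (n : ℕ) (T : Fin n → S →ₗ[ℂ] S) (c : ℝ), 0 ≤ c → (∀ r, CB S (T r) c) →
      ∀ v : Fin n → S, (∀ r, v r ∈ unitary S) → ∀ η : Fin n → K, (∀ r, Q (η r)) → ∀ ε : ℝ, 0 < ε →
      ∃ m, P m ∧ ∀ r, ‖(star (star (v r) * cav m (T r) (v r) - cav m (T r) 1) : S).1 (η r)‖ ≤ ε) :
    ∃ l : Filter (List S), l.NeBot ∧ (∀ᶠ m in l, P m) ∧
      ∀ (T : S →ₗ[ℂ] S) (c : ℝ), CB S T c → ∀ (a : S) (ξ η : K), Q η → Filter.Tendsto
        (fun m => ⟪η, ((cav m T a - a * cav m T 1 : S) : K →L[ℂ] K) ξ⟫_ℂ) l (nhds 0) := by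
  classical
  let Dt := {d : (S →ₗ[ℂ] S) × ℝ × S × K × ℝ //
    CB S d.1 d.2.1 ∧ d.2.2.1 ∈ unitary S ∧ Q d.2.2.2.1 ∧ 0 < d.2.2.2.2}
  let G : Finset Dt → Set (List S) := fun s => {m | P m ∧ ∀ d ∈ s,
    ‖(star (star d.1.2.2.1 * cav m d.1.1 d.1.2.2.1 - cav m d.1.1 1) : S).1 d.1.2.2.2.1‖ ≤ d.1.2.2.2.2}
  have hG : ∀ s, (G s).Nonempty := by
    intro s
    let e : Fin s.card → Dt := fun r => (s.equivFin.symm r).1
    obtain ⟨ε, hε, hε'⟩ : ∃ ε : ℝ, 0 < ε ∧ ∀ d ∈ s, ε ≤ d.1.2.2.2.2 := by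
      rcases s.eq_empty_or_nonempty with rfl | hs
      · exact ⟨1, one_pos, by simp⟩
      · obtain ⟨d, -, hd⟩ := s.exists_min_image (fun d => d.1.2.2.2.2) hs
        exact ⟨_, d.2.2.2.2, hd⟩
    obtain ⟨m, h1, h2⟩ := H s.card (fun r => (e r).1.1) (∑ r, |(e r).1.2.1|) (by positivity)
      (fun r => CB.mono (e r).2.1 ((le_abs_self _).trans
        (single_le_sum (f := fun r => |(e r).1.2.1|) (fun _ _ => abs_nonneg _) (mem_univ r))))
      (fun r => (e r).1.2.2.1) (fun r => (e r).2.2.1) (fun r => (e r).1.2.2.2.1)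
      (fun r => (e r).2.2.2.1) ε hε
    refine ⟨m, h1, fun d hd => ?_⟩
    have := h2 (s.equivFin ⟨d, hd⟩)
    simp only [e, Equiv.symm_apply_apply] at this
    exact this.trans (hε' d hd)
  have hmem : ∀ s, G s ∈ ⨅ s, Filter.principal (G s) := fun s =>
    Filter.mem_iInf_of_mem s (Filter.mem_principal_self _)
  refine ⟨⨅ s, Filter.principal (G s), Filter.iInf_neBot_of_directed (fun s t => ⟨s ∪ t, ?_, ?_⟩)
    fun s => Filter.principal_neBot_iff.2 (hG s), ?_, fun T c hT a ξ η hη => ?_⟩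
  · exact Filter.principal_mono.2 fun m hm => ⟨hm.1, fun d hd => hm.2 d (mem_union_left _ hd)⟩
  · exact Filter.principal_mono.2 fun m hm => ⟨hm.1, fun d hd => hm.2 d (mem_union_right _ hd)⟩
  · exact Filter.mem_of_superset (hmem ∅) fun m hm => hm.1
  letI : CStarAlgebra S := StarSubalgebra.cstarAlgebra S (h_closed := hcl)
  have ha : a ∈ Submodule.span ℂ (unitary S : Set S) := by
    rw [CStarAlgebra.span_unitary]; trivial
  have lin : ∀ (m : List S) (a b : S) (t : ℂ), cav m T (a + t • b) = cav m T a + t • cav m T b := by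
    intro m a b t
    induction m with
    | nil => simp [cav]
    | cons x m ih =>
      simp only [cav, List.map_cons, List.sum_cons] at ih ⊢
      rw [ih, mul_add, mul_smul_comm, map_add, map_smul, mul_add, mul_smul_comm, smul_add]
      abel
  have z : ∀ m : List S, cav m T 0 = 0 := fun m => by simp [cav]
  induction ha using Submodule.span_induction with
  | mem v hv =>
    rw [Metric.tendsto_nhds]
    intro ε hε
    have hp : 0 < ‖ξ‖ + 1 := by positivity
    filter_upwards [hmem {⟨(T, c, v, (star v : S).1 η, ε / (‖ξ‖ + 1)), hT, hv, hQ _ _ hη,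
      by positivity⟩}] with m hm
    have := hm.2 _ (mem_singleton_self _)
    simp only at this
    have e : cav m T v - v * cav m T 1 = v * (star v * cav m T v - cav m T 1) := by
      rw [mul_sub, ← mul_assoc, hv.2, one_mul]
    rw [dist_zero_right, e, mul_ap, ← inner_star_left, ← inner_star_left]
    refine (norm_inner_le_norm _ _).trans_lt ?_
    refine (mul_le_mul_of_nonneg_right this (norm_nonneg _)).trans_lt ?_
    rw [div_mul_eq_mul_div, div_lt_iff₀ hp]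
    nlinarith
  | zero => simpa [z] using tendsto_const_nhds
  | add a b _ _ ha hb =>
    have := ha.add hb
    rw [add_zero] at this
    refine this.congr fun m => ?_
    have e := lin m a b 1
    simp only [one_smul] at e
    rw [e, ← inner_add_right]
    congr 1
    rw [show cav m T a + cav m T b - (a + b) * cav m T 1 =
      (cav m T a - a * cav m T 1) + (cav m T b - b * cav m T 1) by rw [add_mul]; abel]
    rfl
  | smul t a _ ha =>
    have := ha.const_mul t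
    rw [mul_zero] at this
    refine this.congr fun m => ?_
    have e := lin m 0 a t
    simp only [zero_add, z] at e
    rw [e, ← inner_smul_right, smul_mul_assoc, ← smul_sub]
    rfl

end Crest.Agent.H2.KRB
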