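import Crest.Agent.H2.KRB2
import Crest.Agent.H1VN.VN

/-! KR-B, part 3: the pointwise form of the reset lemma. -/

set_option autoImplicit false
open scoped InnerProductSpace ComplexConjugate
open Finset Crest.Agent.H1KR Crest.Agent.H2.KS Filter Topology

namespace Crest.Agent.H2.KRB

variable {K : Type*} [NormedAddCommGroup K] [InnerProductSpace ℂ K] [CompleteSpace K]
variable {C : Set (K →L[ℂ] K)}

theorem re_self (w : K) : (⟪w, w⟫_ℂ).re = ‖w‖ ^ 2 := inner_self_eq_norm_sq (𝕜 := ℂ) w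

theorem inner_star' (a : K →L[ℂ] K) (u w : K) : ⟪star a u, w⟫_ℂ = ⟪u, a w⟫_ℂ := by
  rw [ContinuousLinearMap.star_eq_adjoint, ContinuousLinearMap.adjoint_inner_left]

theorem inner_star'' (a : K →L[ℂ] K) (u w : K) : ⟪u, star a w⟫_ℂ = ⟪a u, w⟫_ℂ := by
  rw [← inner_star', star_star]

theorem re_nonneg {a : K →L[ℂ] K} (ha : 0 ≤ a) (u : K) : 0 ≤ (⟪u, a u⟫_ℂ).re :=
  ((ContinuousLinearMap.nonneg_iff_isPositive a).1 ha).re_inner_nonneg_right u

/-- the quadratic form of `∑ a* h a` -/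
noncomputable def fm (c : List (K →L[ℂ] K)) (h : K →L[ℂ] K) (u : K) : ℝ :=
  (c.map fun a => (⟪a u, h (a u)⟫_ℂ).re).sum

/-- `∑ a* a` -/
noncomputable def gr (c : List (K →L[ℂ] K)) : K →L[ℂ] K := (c.map fun a => star a * a).sum

omit [CompleteSpace K] in
theorem fm_append (c c' : List (K →L[ℂ] K)) (h : K →L[ℂ] K) (u : K) :
    fm (c ++ c') h u = fm c h u + fm c' h u := by simp [fm]

omit [CompleteSpace K] in
theorem fm_cons (a : K →L[ℂ] K) (c : List (K →L[ℂ] K)) (h : K →L[ℂ] K) (u : K) :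
    fm (a :: c) h u = (⟪a u, h (a u)⟫_ℂ).re + fm c h u := by simp [fm]

theorem fm_one_nonneg (c : List (K →L[ℂ] K)) (u : K) : 0 ≤ fm c 1 u := by
  induction c with
  | nil => simp [fm]
  | cons a c ih => rw [fm_cons, one_apply_eq_self, re_self]; positivity

theorem re_gr (c : List (K →L[ℂ] K)) (u : K) : (⟪u, gr c u⟫_ℂ).re = fm c 1 u := by
  induction c with
  | nil => simp [fm, gr]
  | cons a c ih =>
    rw [fm_cons, ← ih]
    simp only [gr, List.map_cons, List.sum_cons, add_apply, inner_add_right,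
      Complex.add_re, mul_apply_eq_comp, inner_star'', one_apply_eq_self]

theorem re_gr_le (c : List (K →L[ℂ] K)) (w u : K) :
    2 * (⟪w, gr c u⟫_ℂ).re ≤ fm c 1 w + fm c 1 u := by
  induction c with
  | nil => simp [fm, gr]
  | cons a c ih =>
    rw [fm_cons, fm_cons]
    simp only [gr, List.map_cons, List.sum_cons, add_apply, inner_add_right,
      Complex.add_re, mul_apply_eq_comp, inner_star'', one_apply_eq_self,
      re_self] at ih ⊢
    have := (Complex.re_le_norm _).trans (norm_inner_le_norm (𝕜 := ℂ) (a w) (a u))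
    nlinarith [sq_nonneg (‖a w‖ - ‖a u‖)]

theorem norm_sub_gr {c : List (K →L[ℂ] K)} (hc : ∀ u, fm c 1 u ≤ ‖u‖ ^ 2) (u : K) :
    ‖u - gr c u‖ ^ 2 ≤ ‖u‖ ^ 2 - fm c 1 u := by
  have h1 := re_gr_le c (gr c u) u
  rw [re_self] at h1
  rw [norm_sub_sq (𝕜 := ℂ), RCLike.re_to_complex, re_gr]
  linarith [hc (gr c u)]

theorem gr_mem (hC : ∀ c ∈ C, star c ∈ C) {c : List (K →L[ℂ] K)} (hc : ∀ a ∈ c, a ∈ C.centralizer) :
    gr c ∈ C.centralizer := by
  induction c with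
  | nil => exact Set.zero_mem_centralizer
  | cons a c ih =>
    simp only [gr, List.map_cons, List.sum_cons]
    exact H9.KB.add_mem (H9.KB.mul_mem (H9.KB.star_mem hC (hc a (by simp))) (hc a (by simp)))
      (ih fun b hb => hc b (by simp [hb]))

omit [CompleteSpace K] in
theorem weak_null (u : ℕ → K) {M : ℝ} (hM : ∀ n, ‖u n‖ ≤ M) (s : Set K)
    (hs : ∀ w ∈ s, Tendsto (fun n => ⟪w, u n⟫_ℂ) atTop (𝓝 0)) :
    ∀ w ∈ (Submodule.span ℂ s).topologicalClosure, Tendsto (fun n => ⟪w, u n⟫_ℂ) atTop (𝓝 0) := by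
  have h1 : ∀ w ∈ Submodule.span ℂ s, Tendsto (fun n => ⟪w, u n⟫_ℂ) atTop (𝓝 0) := by
    intro w hw
    induction hw using Submodule.span_induction with
    | mem w hw => exact hs w hw
    | zero => simp
    | add a b _ _ ha hb => simpa [inner_add_left] using ha.add hb
    | smul t a _ ha => simpa [inner_smul_left] using ha.mul_const (conj t)
  intro w hw
  rw [Metric.tendsto_nhds]
  intro ε hε
  have hM0 : 0 ≤ M := (norm_nonneg _).trans (hM 0)
  obtain ⟨w', hw', hd⟩ := Metric.mem_closure_iff.1 hw (ε / 2 / (M + 1)) (by positivity)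
  filter_upwards [Metric.tendsto_nhds.1 (h1 w' hw') (ε / 2) (by positivity)] with n hn
  rw [dist_zero_right] at hn ⊢
  rw [dist_eq_norm, lt_div_iff₀ (by positivity)] at hd
  have e : ⟪w, u n⟫_ℂ = ⟪w - w', u n⟫_ℂ + ⟪w', u n⟫_ℂ := by rw [← inner_add_left, sub_add_cancel]
  have h2 := (norm_inner_le_norm (𝕜 := ℂ) (w - w') (u n)).trans
    (mul_le_mul_of_nonneg_left (hM n) (norm_nonneg _))
  rw [e]
  refine (norm_add_le _ _).trans_lt ?_
  nlinarith [norm_nonneg (w - w')]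

/-- central support -/
theorem exists_cs (hC : ∀ c ∈ C, star c ∈ C) {g : K →L[ℂ] K} (hg : g ∈ C.centralizer) :
    ∃ Z, IsCP C.centralizer Z ∧ Z * g = g ∧ ∀ u, Z u ∈ (Submodule.span ℂ
      {w | ∃ x ∈ C.centralizer, ∃ k, w = x (g k)}).topologicalClosure := by
  set V := (Submodule.span ℂ {w | ∃ x ∈ C.centralizer, ∃ k, w = x (g k)}).topologicalClosure
  have inv : ∀ a : K →L[ℂ] K, (∀ x ∈ C.centralizer, ∀ k, ∃ x' ∈ C.centralizer, ∃ k',
      a (x (g k)) = x' (g k')) → ∀ v ∈ V, a v ∈ V := by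
    intro a ha v hv
    refine closure_minimal (t := a ⁻¹' V) (fun w hw => ?_)
      ((Submodule.isClosed_topologicalClosure _).preimage a.continuous) hv
    refine Submodule.span_le (p := V.comap a.toLinearMap) |>.2 ?_ hw
    rintro _ ⟨x, hx, k, rfl⟩
    exact Submodule.le_topologicalClosure _ (Submodule.subset_span (ha x hx k))
  have i1 : ∀ c ∈ C, ∀ v ∈ V, c v ∈ V := fun c hc => inv c fun x hx k => ⟨x, hx, c k, by
    have h1 := congrArg (fun T : K →L[ℂ] K => T (g k)) (hx c hc)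
    have h2 := congrArg (fun T : K →L[ℂ] K => T k) (hg c hc)
    simp only [mul_apply_eq_comp] at h1 h2
    rw [h1, h2]⟩
  have i2 : ∀ a ∈ C.centralizer, ∀ v ∈ V, a v ∈ V := fun a ha => inv a fun x hx k =>
    ⟨a * x, H9.KB.mul_mem ha hx, k, rfl⟩
  refine ⟨V.starProjection, ⟨fun c hc => ?_, isStarProjection_starProjection, fun a ha => ?_⟩, ?_,
    fun u => V.starProjection_apply_mem u⟩
  · ext x
    exact (H1VN.proj_comm V c (star c) (inner_star' c) (i1 c hc) (i1 _ (hC c hc)) x).symm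
  · ext x
    exact H1VN.proj_comm V a (star a) (inner_star' a) (i2 a ha) (i2 _ (H9.KB.star_mem hC ha)) x
  · ext k
    exact Submodule.starProjection_eq_self_iff.2 (Submodule.le_topologicalClosure _
      (Submodule.subset_span ⟨1, H9.KB.one_mem, k, rfl⟩))

theorem exhaust (hC : ∀ c ∈ C, star c ∈ C) {g y : K →L[ℂ] K} (hg : g ∈ C.centralizer)
    (hgs : star g = g) (hy : IsCP C.centralizer y) (hyV : ∀ u, y u ∈ (Submodule.span ℂ
      {w | ∃ x ∈ C.centralizer, ∃ k, w = x (g k)}).topologicalClosure)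
    {J : Type} [Fintype J] (ζ : J → K) {δ : ℝ} (hδ : 0 < δ) :
    ∃ c : List (K →L[ℂ] K), (∀ a ∈ c, ∃ x ∈ C.centralizer, a = g * x) ∧
      (∀ u, fm c 1 u ≤ ‖y u‖ ^ 2) ∧ ∑ j, ‖y (ζ j)‖ ^ 2 ≤ ∑ j, fm c 1 (ζ j) + δ := by
  have yy : ∀ u, y (y u) = y u := fun u => congrArg (fun T : K →L[ℂ] K => T u) hy.proj.1
  let Ad : List (K →L[ℂ] K) → Prop := fun c => (∀ a ∈ c, ∃ x ∈ C.centralizer, a = g * x) ∧
    ∀ u, fm c 1 u ≤ ‖u‖ ^ 2
  let W : Set ℝ := {t | ∃ c, Ad c ∧ t = ∑ j, fm c 1 (y (ζ j))}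
  have hne : W.Nonempty := ⟨_, [], ⟨by simp, fun u => by simp [fm]⟩, rfl⟩
  have hbd : BddAbove W := ⟨∑ j, ‖y (ζ j)‖ ^ 2, by
    rintro _ ⟨c, hc, rfl⟩; exact sum_le_sum fun j _ => hc.2 _⟩
  obtain ⟨t, -, ht, htW⟩ := exists_seq_tendsto_sSup hne hbd
  choose c hc hct using htW
  have hmem : ∀ n, gr (c n) ∈ C.centralizer := fun n => gr_mem hC fun a ha => by
    obtain ⟨x, hx, rfl⟩ := (hc n).1 a ha
    exact H9.KB.mul_mem hg hx
  have hb : ∀ n u, ‖u - gr (c n) u‖ ≤ ‖u‖ := fun n u => by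
    rw [← sq_le_sq₀ (norm_nonneg _) (norm_nonneg _)]
    linarith [norm_sub_gr (hc n).2 u, fm_one_nonneg (c n) u]
  have h1 : ∀ x ∈ C.centralizer, ∀ j,
      Tendsto (fun n => (g * x) (y (ζ j) - gr (c n) (y (ζ j)))) atTop (𝓝 0) := by
    intro x hx j
    set s : ℝ := (‖g * x‖ + 1)⁻¹ with hs
    have hs0 : 0 < s := by positivity
    have hs1 : s * ‖g * x‖ ≤ 1 := by
      rw [hs, inv_mul_le_iff₀ (by positivity)]; linarith
    have e : ∀ n u, (g * ((s : ℂ) • (x * (1 - gr (c n))))) u = (s : ℂ) • (g * x) (u - gr (c n) u) := by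
      intro n u; simp
    have k : ∀ n, s ^ 2 * ‖(g * x) (y (ζ j) - gr (c n) (y (ζ j)))‖ ^ 2 ≤ sSup W - t n := by
      intro n
      have : Ad ((g * ((s : ℂ) • (x * (1 - gr (c n))))) :: c n) := by
        refine ⟨fun a ha => ?_, fun u => ?_⟩
        · rcases List.mem_cons.1 ha with rfl | ha
          · exact ⟨_, H9.KB.smul_mem _ (H9.KB.mul_mem hx (H9.KB.sub_mem H9.KB.one_mem (hmem n))), rfl⟩
          · exact (hc n).1 a ha
        · rw [fm_cons, one_apply_eq_self, re_self, e, norm_smul, Complex.norm_real,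
            Real.norm_of_nonneg hs0.le]
          have a1 : s * ‖(g * x) (u - gr (c n) u)‖ ≤ ‖u - gr (c n) u‖ := by
            refine (mul_le_mul_of_nonneg_left ((g * x).le_opNorm _) hs0.le).trans ?_
            rw [← mul_assoc]
            exact mul_le_of_le_one_left (norm_nonneg _) hs1
          have a2 := pow_le_pow_left₀ (by positivity) a1 2
          linarith [norm_sub_gr (hc n).2 u]
      have a3 := le_csSup hbd ⟨_, this, rfl⟩
      simp only [fm_cons, sum_add_distrib, ← hct, one_apply_eq_self, re_self, e,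
        norm_smul, Complex.norm_real, Real.norm_of_nonneg hs0.le, mul_pow] at a3
      have a4 := single_le_sum (f := fun j => s ^ 2 * ‖(g * x) (y (ζ j) - gr (c n) (y (ζ j)))‖ ^ 2)
        (fun _ _ => by positivity) (mem_univ j)
      linarith
    rw [tendsto_zero_iff_norm_tendsto_zero]
    have a5 : Tendsto (fun n => √((sSup W - t n) / s ^ 2)) atTop (𝓝 0) := by
      have := ((ht.const_sub (sSup W)).div_const (s ^ 2)).sqrt
      simpa using this
    refine squeeze_zero (fun _ => norm_nonneg _) (fun n => Real.le_sqrt_of_sq_le ?_) a5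
    rw [le_div_iff₀ (by positivity), mul_comm]
    exact k n
  have h2 : ∀ j, Tendsto (fun n => ⟪y (ζ j), y (ζ j) - gr (c n) (y (ζ j))⟫_ℂ) atTop (𝓝 0) := by
    intro j
    refine weak_null _ (fun n => hb n _) _ ?_ _ (hyV _)
    rintro _ ⟨x, hx, k, rfl⟩
    have := Tendsto.inner (𝕜 := ℂ) (tendsto_const_nhds (x := k))
      (h1 (star x) (H9.KB.star_mem hC hx) j)
    rw [inner_zero_right] at this
    refine this.congr fun n => ?_
    rw [mul_apply_eq_comp, ← inner_star', hgs, inner_star'']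
  have h3 : Tendsto (fun n => ∑ j, (⟪y (ζ j), y (ζ j) - gr (c n) (y (ζ j))⟫_ℂ).re) atTop (𝓝 0) := by
    have := tendsto_finsetSum univ fun j _ => (Complex.continuous_re.tendsto 0).comp (h2 j)
    simpa using this
  obtain ⟨n, hn⟩ := (h3.eventually (gt_mem_nhds hδ)).exists
  simp only [inner_sub_right, Complex.sub_re, re_self, re_gr, sum_sub_distrib] at hn
  have e : ∀ u, fm ((c n).map (· * y)) 1 u = fm (c n) 1 (y u) := fun u => by
    simp [fm, List.map_map, Function.comp_def]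
  refine ⟨(c n).map (· * y), fun a ha => ?_, fun u => ?_, ?_⟩
  · obtain ⟨b, hb, rfl⟩ := List.mem_map.1 ha
    obtain ⟨x, hx, rfl⟩ := (hc n).1 b hb
    exact ⟨x * y, H9.KB.mul_mem hx hy.mem, mul_assoc _ _ _⟩
  · rw [e]; exact (hc n).2 _
  · simp only [e]; linarith

theorem cp_mul {p q : K →L[ℂ] K} (hp : IsCP C.centralizer p) (hq : IsCP C.centralizer q) :
    IsCP C.centralizer (p * q) :=
  ⟨H9.KB.mul_mem hp.mem hq.mem, hp.proj.mul hq.proj (hp.comm _ hq.mem),
    fun a ha => (hp.comm a ha).mul_left (hq.comm a ha)⟩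

theorem cp_one_sub {p : K →L[ℂ] K} (hp : IsCP C.centralizer p) : IsCP C.centralizer (1 - p) :=
  ⟨H9.KB.sub_mem H9.KB.one_mem hp.mem, hp.proj.one_sub,
    fun a ha => (Commute.one_left a).sub_left (hp.comm a ha)⟩

theorem cp_split {Z h : K →L[ℂ] K} (hZ : IsCP C.centralizer Z) (hh : h ∈ C.centralizer) (w : K) :
    (⟪w, h w⟫_ℂ).re = (⟪Z w, h (Z w)⟫_ℂ).re + (⟪(1 - Z) w, h ((1 - Z) w)⟫_ℂ).re := by
  have k : ∀ Y, IsCP C.centralizer Y → ⟪Y w, h (Y w)⟫_ℂ = ⟪w, h (Y w)⟫_ℂ := by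
    intro Y hY
    rw [← inner_star'', hY.proj.isSelfAdjoint.star_eq]
    congr 1
    have : Y * h * Y = h * Y := by rw [(hY.comm h hh).eq, mul_assoc, hY.proj.1]
    exact congrArg (fun T : K →L[ℂ] K => T w) this
  rw [k _ hZ, k _ (cp_one_sub hZ), ← Complex.add_re, ← inner_add_right, ← map_add]
  simp

theorem pointwise_aux (hC : ∀ c ∈ C, star c ∈ C) {h : K →L[ℂ] K} (hh : h ∈ C.centralizer)
    (hs : IsSelfAdjoint h) {J J' : Type} [Fintype J] [Fintype J'] (η : J → K) (ζ : J' → K)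
    (hz : ∀ y, IsCP C.centralizer y → ∑ j, ‖y (η j)‖ ^ 2 ≤ ∑ j, ‖y (ζ j)‖ ^ 2) {δ : ℝ}
    (hδ : 0 < δ) (k : ℕ) : ∀ q, IsCP C.centralizer q →
      (∀ u, (⟪q u, h (q u)⟫_ℂ).re ≤ k * δ * ‖q u‖ ^ 2) → ∀ θ : ℝ, 0 < θ →
      ∃ c : List (K →L[ℂ] K), (∀ a ∈ c, a ∈ C.centralizer) ∧ (∀ u, fm c 1 u ≤ ‖q u‖ ^ 2) ∧
        ∑ j, (⟪q (η j), h (q (η j))⟫_ℂ).re ≤ ∑ j, fm c h (ζ j) + δ * ∑ j, ‖q (η j)‖ ^ 2 + θ := by
  induction k with
  | zero =>
    intro q _ hq θ hθ
    refine ⟨[], by simp, fun u => by simp [fm], ?_⟩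
    have : ∑ j, (⟪q (η j), h (q (η j))⟫_ℂ).re ≤ 0 := sum_nonpos fun j _ => by simpa using hq (η j)
    have : 0 ≤ δ * ∑ j, ‖q (η j)‖ ^ 2 := by positivity
    simp only [fm, List.map_nil, List.sum_nil, sum_const_zero]
    linarith
  | succ k ih =>
    intro q hqc hq θ hθ
    set b : K →L[ℂ] K := h - ((k * δ : ℝ) : ℂ) • 1 with hb
    have hbs : IsSelfAdjoint b := by
      rw [hb, IsSelfAdjoint, star_sub, hs.star_eq, star_smul, star_one, Complex.star_def,
        Complex.conj_ofReal]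
    have hbP : b ∈ C.centralizer := H9.KB.sub_mem hh (H9.KB.smul_mem _ H9.KB.one_mem)
    have hgP : b⁺ ∈ C.centralizer := fun c hc =>
      (Commute.cfcₙ_real (show Commute b c from (hbP c hc).symm) _).symm
    have hgs : star b⁺ = b⁺ := (IsSelfAdjoint.of_nonneg (CFC.posPart_nonneg b)).star_eq
    have hre : ∀ w, (⟪w, h w⟫_ℂ).re = k * δ * ‖w‖ ^ 2 + (⟪w, b⁺ w⟫_ℂ).re - (⟪w, b⁻ w⟫_ℂ).re := by
      intro w
      have : h = ((k * δ : ℝ) : ℂ) • 1 + b⁺ - b⁻ := by
        rw [add_sub_assoc, CFC.posPart_sub_negPart b hbs, hb]; abel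
      conv_lhs => rw [this]
      simp only [sub_apply, add_apply, smul_apply, one_apply_eq_self, inner_sub_right,
        inner_add_right, inner_smul_right, Complex.sub_re, Complex.add_re, Complex.re_ofReal_mul,
        re_self]
    obtain ⟨Z, hZ, hZg, hZV⟩ := exists_cs hC hgP
    have hgZ : b⁺ * (1 - Z) = 0 := by
      rw [← (cp_one_sub hZ).comm _ hgP |>.eq, sub_mul, one_mul, hZg, sub_self]
    obtain ⟨c₁, a1, a2, a3⟩ := ih ((1 - Z) * q) (cp_mul (cp_one_sub hZ) hqc) (fun u => by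
      rw [hre]
      have e : b⁺ (((1 - Z) * q) u) = 0 := congrArg (fun T : K →L[ℂ] K => T (q u)) hgZ
      rw [e]
      have := re_nonneg (CFC.negPart_nonneg b) (((1 - Z) * q) u)
      simp only [inner_zero_right, Complex.zero_re]
      linarith) (θ / 2) (by positivity)
    have hkp : (0 : ℝ) < k * δ + 1 := by positivity
    obtain ⟨c₂, b1, b2, b3⟩ := exhaust hC hgP hgs (cp_mul hZ hqc) (fun u => hZV (q u)) ζ
      (δ := θ / 2 / (k * δ + 1)) (by positivity)
    have sp : ∀ u, ‖q u‖ ^ 2 = ‖(Z * q) u‖ ^ 2 + ‖((1 - Z) * q) u‖ ^ 2 := fun u => by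
      have := cp_split hZ H9.KB.one_mem (q u)
      simp only [one_apply_eq_self, re_self] at this
      exact this
    have b4 : ∀ u, k * δ * fm c₂ 1 u ≤ fm c₂ h u := by
      intro u
      clear b2 b3
      induction c₂ with
      | nil => simp [fm]
      | cons a c ih' =>
        obtain ⟨x, -, rfl⟩ := b1 a (by simp)
        have := ih' fun a ha => b1 a (by simp [ha])
        rw [fm_cons, fm_cons, hre ((b⁺ * x) u), one_apply_eq_self, re_self]
        have e : b⁻ ((b⁺ * x) u) = 0 :=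
          congrArg (fun T : K →L[ℂ] K => T (x u)) (CFC.negPart_mul_posPart b)
        have := re_nonneg (CFC.posPart_nonneg b) ((b⁺ * x) u)
        rw [e, inner_zero_right, Complex.zero_re]
        linarith
    refine ⟨c₁ ++ c₂, fun a ha => ?_, fun u => ?_, ?_⟩
    · rcases List.mem_append.1 ha with ha | ha
      · exact a1 a ha
      · obtain ⟨x, hx, rfl⟩ := b1 a ha
        exact H9.KB.mul_mem hgP hx
    · rw [fm_append, sp]; linarith [a2 u, b2 u]
    · have s1 : ∑ j, (⟪q (η j), h (q (η j))⟫_ℂ).re =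
          ∑ j, (⟪(Z * q) (η j), h ((Z * q) (η j))⟫_ℂ).re +
          ∑ j, (⟪((1 - Z) * q) (η j), h (((1 - Z) * q) (η j))⟫_ℂ).re := by
        rw [← sum_add_distrib]; exact sum_congr rfl fun j _ => cp_split hZ hh _
      have s2 : ∑ j, (⟪(Z * q) (η j), h ((Z * q) (η j))⟫_ℂ).re ≤
          (k + 1) * δ * ∑ j, ‖(Z * q) (η j)‖ ^ 2 := by
        rw [mul_sum]
        refine sum_le_sum fun j _ => ?_
        have e : q ((Z * q) (η j)) = (Z * q) (η j) := by
          have : q * (Z * q) = Z * q := by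
            rw [← mul_assoc, ← (hZ.comm q hqc.mem).eq, mul_assoc, hqc.proj.1]
          exact congrArg (fun T : K →L[ℂ] K => T (η j)) this
        have := hq ((Z * q) (η j))
        rw [e] at this
        push_cast at this
        exact this
      have s3 := hz _ (cp_mul hZ hqc)
      have s4 : k * δ * ∑ j, fm c₂ 1 (ζ j) ≤ ∑ j, fm c₂ h (ζ j) := by
        rw [mul_sum]; exact sum_le_sum fun j _ => b4 _
      have s5 : k * δ * (θ / 2 / (k * δ + 1)) ≤ θ / 2 := by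
        rw [← mul_div_assoc, div_le_iff₀ hkp]; nlinarith
      have s6 := mul_le_mul_of_nonneg_left (s3.trans b3) (show 0 ≤ k * δ by positivity)
      simp only [fm_append, sum_add_distrib, sp]
      nlinarith

theorem pointwise (hC : ∀ c ∈ C, star c ∈ C) {h : K →L[ℂ] K} (hh : h ∈ C.centralizer)
    (hs : IsSelfAdjoint h) {J J' : Type} [Fintype J] [Fintype J'] (η : J → K) (ζ : J' → K)
    (hz : ∀ y, IsCP C.centralizer y → ∑ j, ‖y (η j)‖ ^ 2 ≤ ∑ j, ‖y (ζ j)‖ ^ 2) {θ : ℝ}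
    (hθ : 0 < θ) : ∃ c : List (K →L[ℂ] K), (∀ a ∈ c, a ∈ C.centralizer) ∧
      (∀ u, fm c 1 u ≤ ‖u‖ ^ 2) ∧ ∑ j, (⟪η j, h (η j)⟫_ℂ).re ≤ ∑ j, fm c h (ζ j) + θ := by
  have hp : 0 < ∑ j, ‖η j‖ ^ 2 + 1 := by positivity
  have hδ : 0 < θ / 2 / (∑ j, ‖η j‖ ^ 2 + 1) := by positivity
  obtain ⟨k, hk⟩ := exists_nat_gt (‖h‖ / (θ / 2 / (∑ j, ‖η j‖ ^ 2 + 1)))
  rw [div_lt_iff₀ hδ] at hk
  obtain ⟨c, h1, h2, h3⟩ := pointwise_aux hC hh hs η ζ hz hδ k 1
    ⟨H9.KB.one_mem, IsStarProjection.one _, fun a _ => Commute.one_left a⟩ (fun u => by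
      simp only [one_apply_eq_self]
      have := (Complex.re_le_norm _).trans ((norm_inner_le_norm (𝕜 := ℂ) u (h u)).trans
        (mul_le_mul_of_nonneg_left (h.le_opNorm u) (norm_nonneg _)))
      nlinarith [sq_nonneg ‖u‖]) (θ / 2) (by positivity)
  refine ⟨c, h1, h2, ?_⟩
  simp only [one_apply_eq_self] at h3
  have : θ / 2 / (∑ j, ‖η j‖ ^ 2 + 1) * ∑ j, ‖η j‖ ^ 2 ≤ θ / 2 := by
    rw [div_mul_eq_mul_div, div_le_iff₀ hp]; nlinarith
  linarith

end Crest.Agent.H2.KRB
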