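import Crest.Agent.H2.KRB3

/-! KR-B, part 4: the reset lemma and `CMean`. -/

set_option autoImplicit false
open scoped InnerProductSpace ComplexConjugate
open Finset Crest.Agent.H1KR Crest.Agent.H2.KS Filter Topology

namespace Crest.Agent.H2.KRB

variable {K : Type*} [NormedAddCommGroup K] [InnerProductSpace ℂ K] [CompleteSpace K]
variable {C : Set (K →L[ℂ] K)} {S : StarSubalgebra ℂ (K →L[ℂ] K)}

/-- vector functionals -/
noncomputable def fn (S : StarSubalgebra ℂ (K →L[ℂ] K)) (ξ η : K) : S →L[ℂ] ℂ :=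
  LinearMap.mkContinuous
    { toFun := fun a => ⟪ξ, a.1 η⟫_ℂ
      map_add' := fun a b => by simp [inner_add_right]
      map_smul' := fun t a => by simp [inner_smul_right] } (‖ξ‖ * ‖η‖) fun a => by
    refine (norm_inner_le_norm (𝕜 := ℂ) ξ (a.1 η)).trans ?_
    rw [mul_assoc, mul_comm ‖η‖]
    exact mul_le_mul_of_nonneg_left (a.1.le_opNorm η) (norm_nonneg _)

theorem fn_apply (ξ η : K) (a : S) : fn S ξ η a = ⟪ξ, a.1 η⟫_ℂ := rfl

theorem norm_fn (ξ η : K) : ‖fn S ξ η‖ ≤ ‖ξ‖ * ‖η‖ :=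
  LinearMap.mkContinuous_norm_le _ (by positivity) _

theorem exists_op (hC : ∀ c ∈ C, star c ∈ C) (hS : ∀ a, a ∈ S ↔ a ∈ C.centralizer)
    (f : (S →L[ℂ] ℂ) →L[ℂ] ℂ) : ∃ h ∈ C.centralizer, IsSelfAdjoint h ∧
      ∀ ξ, (f (fn S ξ ξ)).re = (⟪ξ, h ξ⟫_ℂ).re := by
  let B : K →ₛₗ[starRingEnd ℂ] K →ₗ[ℂ] ℂ := LinearMap.mk₂'ₛₗ (starRingEnd ℂ) (RingHom.id ℂ)
    (fun x y => f (fn S x y))
    (fun a b y => by rw [← map_add]; congr 1; ext s; simp [fn_apply, inner_add_left])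
    (fun t a y => by rw [← map_smul]; congr 1; ext s; simp [fn_apply, inner_smul_left, mul_comm])
    (fun a x y => by rw [← map_add]; congr 1; ext s; simp [fn_apply, inner_add_right])
    (fun t a y => by rw [← map_smul]; congr 1; ext s; simp [fn_apply, inner_smul_right])
  let B' : K →L⋆[ℂ] K →L[ℂ] ℂ := B.mkContinuous₂ ‖f‖ fun x y => by
    refine (f.le_opNorm _).trans ?_
    rw [mul_assoc]
    exact mul_le_mul_of_nonneg_left (norm_fn x y) (norm_nonneg _)
  set h := InnerProductSpace.continuousLinearMapOfBilin B' with hh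
  have e : ∀ x y, ⟪h x, y⟫_ℂ = f (fn S x y) := fun x y =>
    InnerProductSpace.continuousLinearMapOfBilin_apply B' x y
  have hP : h ∈ C.centralizer := by
    intro c hc
    ext x
    refine ext_inner_right ℂ fun y => ?_
    rw [mul_apply_eq_comp, mul_apply_eq_comp, ← inner_star'', e, e]
    congr 1
    ext s
    rw [fn_apply, fn_apply, ← inner_star'' c]
    congr 1
    exact (congrArg (fun T : K →L[ℂ] K => T y) ((hS s.1).1 s.2 _ (hC c hc))).symm
  refine ⟨(1 / 2 : ℂ) • (h + star h), H9.KB.smul_mem _ (H9.KB.add_mem hP (H9.KB.star_mem hC hP)),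
    ?_, fun ξ => ?_⟩
  · rw [IsSelfAdjoint, star_smul, star_add, star_star, add_comm]; simp
  · rw [← e, smul_apply, add_apply, inner_smul_right, inner_add_right, inner_star'',
      ← inner_conj_symm ξ (h ξ)]
    generalize ⟪h ξ, ξ⟫_ℂ = w
    simp
    ring

theorem reset (hC : ∀ c ∈ C, star c ∈ C) (hS : ∀ a, a ∈ S ↔ a ∈ C.centralizer)
    {J J' : Type} [Fintype J] [Fintype J'] (η : J → K) (ζ : J' → K)
    (hz : ∀ y, IsCP C.centralizer y → ∑ j, ‖y (η j)‖ ^ 2 ≤ ∑ j, ‖y (ζ j)‖ ^ 2) {ε : ℝ}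
    (hε : 0 < ε) : ∃ c : List (K →L[ℂ] K), (∀ a ∈ c, a ∈ C.centralizer) ∧
      (∀ u, fm c 1 u ≤ ‖u‖ ^ 2) ∧ ∀ a : S,
        ∑ j, ‖a.1 (η j)‖ ^ 2 ≤ ∑ j, fm c (star a.1 * a.1) (ζ j) + ε * ‖a‖ ^ 2 := by
  let ψ : List (K →L[ℂ] K) → (S →L[ℂ] ℂ) := fun c =>
    ∑ j, (c.map fun a => fn S (a (ζ j)) (a (ζ j))).sum
  let W : Set (S →L[ℂ] ℂ) := {φ | ∃ c : List (K →L[ℂ] K), (∀ a ∈ c, a ∈ C.centralizer) ∧
    (∀ u, fm c 1 u ≤ ‖u‖ ^ 2) ∧ φ = ψ c}
  have sc : ∀ (t : ℝ), 0 ≤ t → ∀ c : List (K →L[ℂ] K),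
      (∀ u, fm (c.map fun a => ((√t : ℝ) : ℂ) • a) 1 u = t * fm c 1 u) ∧
      ψ (c.map fun a => ((√t : ℝ) : ℂ) • a) = t • ψ c := by
    intro t ht c
    constructor
    · intro u
      simp only [fm, List.map_map, Function.comp_def, one_apply_eq_self, re_self, smul_apply,
        norm_smul, mul_pow, Complex.norm_real, Real.norm_eq_abs, sq_abs, Real.sq_sqrt ht,
        List.sum_map_mul_left]
    · simp only [ψ, smul_sum, List.map_map, Function.comp_def, List.smul_sum]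
      refine sum_congr rfl fun j _ => ?_
      congr 1
      refine List.map_congr_left fun a _ => ?_
      ext s
      simp only [fn_apply, smul_apply, map_smul, inner_smul_left, inner_smul_right,
        Complex.conj_ofReal, Complex.real_smul]
      rw [← mul_assoc, ← Complex.ofReal_mul, Real.mul_self_sqrt ht]
  have hW : Convex ℝ W := by
    rintro _ ⟨c, h1, h2, rfl⟩ _ ⟨c', h1', h2', rfl⟩ s t hs ht hst
    refine ⟨(c.map fun a => ((√s : ℝ) : ℂ) • a) ++ c'.map fun a => ((√t : ℝ) : ℂ) • a,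
      fun a ha => ?_, fun u => ?_, ?_⟩
    · rcases List.mem_append.1 ha with ha | ha <;> obtain ⟨b, hb, rfl⟩ := List.mem_map.1 ha
      · exact H9.KB.smul_mem _ (h1 b hb)
      · exact H9.KB.smul_mem _ (h1' b hb)
    · rw [fm_append, (sc s hs c).1, (sc t ht c').1]
      have := mul_le_mul_of_nonneg_left (h2 u) hs
      have := mul_le_mul_of_nonneg_left (h2' u) ht
      have : s * ‖u‖ ^ 2 + t * ‖u‖ ^ 2 = ‖u‖ ^ 2 := by rw [← add_mul, hst, one_mul]
      linarith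
    · rw [← (sc s hs c).2, ← (sc t ht c').2]
      simp only [ψ, List.map_append, List.sum_append, sum_add_distrib]
  have hcl : (∑ j, fn S (η j) (η j)) ∈ closure W := by
    by_contra hn
    obtain ⟨f, u, h1, h2⟩ := RCLike.geometric_hahn_banach_closed_point (𝕜 := ℂ) hW.closure
      isClosed_closure hn
    obtain ⟨h, hP, hs, hf⟩ := exists_op hC hS f
    obtain ⟨c, k1, k2, k3⟩ := pointwise hC hP hs η ζ hz (sub_pos.2 h2)
    have k4 := h1 _ (subset_closure ⟨c, k1, k2, rfl⟩)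
    have e1 : RCLike.re (f (ψ c)) = ∑ j, fm c h (ζ j) := by
      simp only [ψ, map_sum, map_list_sum, List.map_map, Function.comp_def, fm,
        RCLike.re_to_complex, hf]
    have e2 : RCLike.re (f (∑ j, fn S (η j) (η j))) = ∑ j, (⟪η j, h (η j)⟫_ℂ).re := by
      simp only [map_sum, RCLike.re_to_complex, hf]
    linarith
  obtain ⟨_, ⟨c, k1, k2, rfl⟩, hd⟩ := Metric.mem_closure_iff.1 hcl ε hε
  refine ⟨c, k1, k2, fun a => ?_⟩
  rw [dist_eq_norm] at hd
  have a1 := (Complex.re_le_norm _).trans ((∑ j, fn S (η j) (η j) - ψ c).le_opNorm (star a * a))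
  have a2 : ‖star a * a‖ ≤ ‖a‖ ^ 2 := by
    have : ‖star a‖ = ‖a‖ := norm_star a.1
    rw [sq]; exact (norm_mul_le _ _).trans_eq (by rw [this])
  have a3 := mul_le_mul hd.le a2 (norm_nonneg _) hε.le
  have e1 : ((ψ c) (star a * a)).re = ∑ j, fm c (star a.1 * a.1) (ζ j) := by
    simp only [ψ, _root_.sum_apply, Complex.re_sum, fm]
    refine sum_congr rfl fun j _ => ?_
    clear k1 k2 hd a1 a3
    induction c with
    | nil => simp
    | cons b c ih => simp only [List.map_cons, List.sum_cons, add_apply, Complex.add_re, ih]; rfl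
  have e2 : ((∑ j, fn S (η j) (η j)) (star a * a)).re = ∑ j, ‖a.1 (η j)‖ ^ 2 := by
    simp only [_root_.sum_apply, Complex.re_sum, fn_apply, mul_ap, inner_star_right, re_self]
  rw [sub_apply, Complex.sub_re, e1, e2] at a1
  linarith

theorem reset' (hC : ∀ c ∈ C, star c ∈ C) (hS : ∀ a, a ∈ S ↔ a ∈ C.centralizer)
    {J J' : Type} [Fintype J] [Fintype J'] (η : J → K) (ζ : J' → K)
    (hz : ∀ y, IsCP C.centralizer y → ∑ j, ‖y (η j)‖ ^ 2 ≤ ∑ j, ‖y (ζ j)‖ ^ 2) {ε : ℝ}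
    (hε : 0 < ε) : ∃ (L : Type) (_ : Fintype L) (m : L → S), ∑ l, star (m l) * m l = 1 ∧
      ∀ a : S, ∑ j, ‖a.1 (η j)‖ ^ 2 ≤ ∑ l, ∑ j, ‖a.1 ((m l).1 (ζ j))‖ ^ 2 + ε * ‖a‖ ^ 2 := by
  obtain ⟨c, h1, h2, h3⟩ := reset hC hS η ζ hz hε
  have hB : 0 ≤ 1 - gr c := by
    rw [ContinuousLinearMap.nonneg_iff_isPositive]
    refine ⟨?_, fun u => ?_⟩
    · refine IsSelfAdjoint.isSymmetric ?_
      refine (IsSelfAdjoint.one _).sub ?_
      refine list_sum_mem (S := selfAdjoint (K →L[ℂ] K)) fun a ha => ?_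
      obtain ⟨b, -, rfl⟩ := List.mem_map.1 ha
      exact IsSelfAdjoint.star_mul_self b
    · rw [ContinuousLinearMap.reApplyInnerSelf, inner_re_symm, sub_apply, inner_sub_right,
        RCLike.re_to_complex, Complex.sub_re, one_apply_eq_self, re_self, re_gr]
      linarith [h2 u]
  have hP : 1 - gr c ∈ C.centralizer := H9.KB.sub_mem H9.KB.one_mem (gr_mem hC h1)
  have hR : CFC.sqrt (1 - gr c) ∈ C.centralizer := fun d hd =>
    (Commute.cfcₙ_nnreal (show Commute (1 - gr c) d from (hP d hd).symm) _).symm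
  refine ⟨Option (Fin c.length), inferInstance, fun o => o.elim ⟨_, (hS _).2 hR⟩
    fun i => ⟨c.get i, (hS _).2 (h1 _ (List.get_mem _ _))⟩, ?_, fun a => (h3 a).trans ?_⟩
  · rw [Fintype.sum_option]
    apply Subtype.ext
    have e : (∑ i : Fin c.length, star (⟨c.get i, (hS _).2 (h1 _ (List.get_mem _ _))⟩ : S) *
        ⟨c.get i, (hS _).2 (h1 _ (List.get_mem _ _))⟩).1 = gr c := by
      refine (map_sum S.subtype _ _).trans ?_
      exact Fin.sum_univ_fun_getElem c fun a => star a * a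
    refine (congrArg₂ (· + ·) (rfl : star (CFC.sqrt (1 - gr c)) * CFC.sqrt (1 - gr c) = _) e).trans ?_
    rw [(IsSelfAdjoint.of_nonneg (CFC.sqrt_nonneg _)).star_eq, CFC.sqrt_mul_sqrt_self _ hB]
    simp
  · rw [Fintype.sum_option]
    have e : ∑ j, fm c (star a.1 * a.1) (ζ j) = ∑ i : Fin c.length, ∑ j, ‖a.1 ((c.get i) (ζ j))‖ ^ 2 := by
      rw [sum_comm]
      refine sum_congr rfl fun j _ => ?_
      simp only [fm, mul_apply_eq_comp, inner_star'', re_self]
      exact (Fin.sum_univ_fun_getElem c fun b => ‖a.1 (b (ζ j))‖ ^ 2).symm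
    rw [e]
    have : 0 ≤ ∑ j, ‖a.1 (CFC.sqrt (1 - gr c) (ζ j))‖ ^ 2 := by positivity
    simp only [Option.elim]
    linarith

theorem closed_of (hS : ∀ a, a ∈ S ↔ a ∈ C.centralizer) : IsClosed (S : Set (K →L[ℂ] K)) := by
  rw [show (S : Set (K →L[ℂ] K)) = C.centralizer from Set.ext hS]
  exact Set.isClosed_centralizer C

theorem star_smul_mul (t : ℝ) (a : S) : star ((t : ℂ) • a) * ((t : ℂ) • a) =
    ((t ^ 2 : ℝ) : ℂ) • (star a * a) := by
  rw [star_smul, smul_mul_smul_comm, Complex.star_def, Complex.conj_ofReal]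
  congr 1; push_cast; ring

theorem cmean (hC : ∀ c ∈ C, star c ∈ C) (hS : ∀ a, a ∈ S ↔ a ∈ C.centralizer) : CMean S := by
  obtain ⟨l, h1, h2, h3⟩ := mean_of_finite (closed_of hS)
    (fun m => (m.map fun a => star a * a).sum = 1) (fun _ => True) (fun _ _ _ => trivial) (by
    intro n T c hc hT v hv η _ ε hε
    have hn : (0 : ℝ) < 2 * (n + 1) := by positivity
    have hδ : 0 < ε ^ 2 / 2 / ((2 * c) ^ 2 + 1) := by positivity
    obtain ⟨L, _, M, k1, k2⟩ := key T hc hT v hv η (α := √(1 / (2 * (n + 1)))) (ε := ε ^ 2 / 2)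
      (Real.sqrt_pos.2 (by positivity)) hδ.le (by positivity)
      (fun L _ m => ∑ l, star (m l) * m l = 1) (fun L L' _ _ M m hM hm => by
        rw [Fintype.sum_prod_type, sum_comm, ← hm]
        refine sum_congr rfl fun l _ => ?_
        simp only [star_mul, mul_assoc, ← mul_sum]
        simp only [← mul_assoc, ← sum_mul, hM, one_mul]) (fun _ _ _ h => h)
      (fun J _ ζ => (∀ y, IsCP C.centralizer y → ∑ j, ‖y (η j)‖ ^ 2 ≤ ∑ j, ‖y (ζ j)‖ ^ 2) ∧
        ∀ a : S, ∑ j, ‖a.1 (η j)‖ ^ 2 ≤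
          2 * ∑ j, ‖a.1 (ζ j)‖ ^ 2 + ε ^ 2 / 2 / ((2 * c) ^ 2 + 1) * ‖a‖ ^ 2)
      ⟨fun _ _ => le_rfl, fun a => by
        have : 0 ≤ ∑ j, ‖a.1 (η j)‖ ^ 2 := by positivity
        have : 0 ≤ ε ^ 2 / 2 / ((2 * c) ^ 2 + 1) * ‖a‖ ^ 2 := by positivity
        linarith⟩ (by
      intro J _ ζ hζ
      obtain ⟨L, _, m, a1, a2⟩ := reset' hC hS η ζ hζ.1 hδ
      let m' : Option (Fin n) ⊕ L → S := Sum.elim
        (fun o => ((√(1 / (2 * (n + 1))) : ℝ) : ℂ) • o.elim 1 v) fun l => ((√(1 / 2) : ℝ) : ℂ) • m l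
      have hm' : ∑ l, star (m' l) * m' l = 1 := by
        simp only [m', Fintype.sum_sum_type, Sum.elim_inl, Sum.elim_inr, star_smul_mul,
          Fintype.sum_option, Option.elim, star_one, mul_one, (hv _).1, ← smul_sum, a1, sum_const,
          card_univ, Fintype.card_fin, Real.sq_sqrt (show (0 : ℝ) ≤ 1 / (2 * (n + 1)) by positivity),
          Real.sq_sqrt (show (0 : ℝ) ≤ 1 / 2 by positivity)]
        rw [← Nat.cast_smul_eq_nsmul ℂ, smul_add, smul_smul, ← add_smul, ← add_smul]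
        convert one_smul ℂ (1 : S) using 2
        have : (n + 1 : ℂ) ≠ 0 := by exact_mod_cast Nat.succ_ne_zero n
        push_cast
        field_simp
        ring
      refine ⟨_, inferInstance, m', Sum.inl none, fun i => Sum.inl (some i), hm', by simp, rfl,
        fun _ => rfl, fun y hy => (hζ.1 y hy).trans (le_of_eq ?_), fun a => (a2 a).trans ?_⟩
      · rw [← fam_norm hm' fun j => y (ζ j)]
        refine sum_congr rfl fun p _ => ?_
        congr 2
        exact (congrArg (fun T : K →L[ℂ] K => T (ζ p.2)) (hy.comm _ ((hS _).1 (m' p.1).2)).eq).symm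
      · rw [Fintype.sum_prod_type, Fintype.sum_sum_type]
        have : 0 ≤ ∑ o : Option (Fin n), ∑ j, ‖a.1 ((m' (Sum.inl o)).1 (ζ j))‖ ^ 2 := by positivity
        have e : ∑ l, ∑ j, ‖a.1 ((m' (Sum.inr l)).1 (ζ j))‖ ^ 2 =
            1 / 2 * ∑ l, ∑ j, ‖a.1 ((m l).1 (ζ j))‖ ^ 2 := by
          simp only [m', Sum.elim_inr, smul_ap, map_smul, norm_smul, mul_pow, Complex.norm_real,
            Real.norm_eq_abs, sq_abs, Real.sq_sqrt (show (0 : ℝ) ≤ 1 / 2 by positivity), mul_sum]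
        simp only at this e ⊢
        linarith) (fun _ _ _ h => h.2)
    refine ⟨univ.toList.map M, by rw [List.map_map, sum_map_toList]; exact k1, fun r => ?_⟩
    rw [cav_toList, cav_toList, ← sq_le_sq₀ (norm_nonneg _) hε.le]
    refine le_trans (single_le_sum (f := fun j => ‖(star (star (v r) * cavF M (T r) (v r) -
      cavF M (T r) 1) : S).1 (η j)‖ ^ 2) (fun _ _ => by positivity) (mem_univ r)) ((k2 r).trans ?_)
    have : ε ^ 2 / 2 / ((2 * c) ^ 2 + 1) * (2 * c) ^ 2 ≤ ε ^ 2 / 2 := by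
      rw [div_mul_eq_mul_div, div_le_iff₀ (by positivity)]; nlinarith [sq_nonneg ε]
    linarith)
  exact ⟨l, h1, h2, fun T c hT a ξ η => h3 T c hT a ξ η trivial⟩

end Crest.Agent.H2.KRB
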