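import Mathlib

/-! Interface definitions for the proof of Kadison's similarity problem (S0164, S0165). -/

set_option autoImplicit false
open scoped InnerProductSpace

namespace Crest.Agent.H2.KS

/-- The row/column constant. -/
noncomputable def Cc (κ : ℝ) : ℝ := 32 * κ ^ 4

/-- The final constant of the uniform theorem. -/
noncomputable def Phi (κ : ℝ) : ℝ := 10 * (Cc κ) ^ 3 * (κ + 1)

section
variable {K : Type*} [NormedAddCommGroup K] [InnerProductSpace ℂ K] [CompleteSpace K]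
variable {H : Type*} [NormedAddCommGroup H] [InnerProductSpace ℂ H]

/-- `S` intertwines the action of `P` with a bounded action: single, column and row bounds. -/
structure Adm (P : Set (K →L[ℂ] K)) (S : K →L[ℂ] H) (κ : ℝ) : Prop where
  single : ∀ a ∈ P, ∀ ζ, ‖S (a ζ)‖ ≤ κ * ‖a‖ * ‖S ζ‖
  col : ∀ (n : ℕ) (v : Fin n → (K →L[ℂ] K)), (∀ i, v i ∈ P) →
    (∀ ζ, ∑ i, ‖v i ζ‖ ^ 2 ≤ ‖ζ‖ ^ 2) → ∀ ζ, ∑ i, ‖S (v i ζ)‖ ^ 2 ≤ Cc κ * ‖S ζ‖ ^ 2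
  row : ∀ (n : ℕ) (v : Fin n → (K →L[ℂ] K)), (∀ i, v i ∈ P) →
    (∀ ζ, ∑ i, ‖star (v i) ζ‖ ^ 2 ≤ ‖ζ‖ ^ 2) →
    ∀ α : Fin n → K, ‖S (∑ i, v i (α i))‖ ^ 2 ≤ Cc κ * ∑ i, ‖S (α i)‖ ^ 2

/-- `v` is a system of `n` partial isometries in `P` with common source `e` and orthogonal ranges. -/
structure IsSys (P : Set (K →L[ℂ] K)) {n : ℕ} (e : K →L[ℂ] K) (v : Fin n → (K →L[ℂ] K)) : Prop where
  he : e ∈ P
  proj : IsStarProjection e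
  mem : ∀ i, v i ∈ P
  orth : ∀ i j, star (v i) * v j = if i = j then e else 0

/-- No nonzero system of `n` equivalent orthogonal projections lies under `f`. -/
def Small (P : Set (K →L[ℂ] K)) (n : ℕ) (f : K →L[ℂ] K) : Prop :=
  ∀ (e : K →L[ℂ] K) (v : Fin n → (K →L[ℂ] K)), IsSys P e v → (∀ i, f * v i = v i) → e = 0

/-- A central projection of `P`. -/
structure IsCP (P : Set (K →L[ℂ] K)) (z : K →L[ℂ] K) : Prop where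
  mem : z ∈ P
  proj : IsStarProjection z
  comm : ∀ a ∈ P, Commute z a

/-- The pairing `⟪S₂ η, S₁ ζ⟫` is `P`-balanced. -/
def Bal (P : Set (K →L[ℂ] K)) (S₁ S₂ : K →L[ℂ] H) : Prop :=
  ∀ a ∈ P, ∀ ζ η, ⟪S₂ η, S₁ (a ζ)⟫_ℂ = ⟪S₂ (star a η), S₁ ζ⟫_ℂ

/-- The statement of the uniform theorem for the von Neumann algebra `P`. -/
def UBound (P : Set (K →L[ℂ] K)) (S₁ S₂ : K →L[ℂ] H) (Φ : ℝ) : Prop :=
  ∀ (h : ℕ) (x : Fin h → Fin h → (K →L[ℂ] K)), (∀ i j, x i j ∈ P) →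
    (∀ ξ : Fin h → K, ∑ i, ‖∑ j, x i j (ξ j)‖ ^ 2 ≤ ∑ j, ‖ξ j‖ ^ 2) →
    ∀ ξ η : Fin h → K, ‖∑ i, ∑ j, ⟪S₂ (η i), S₁ (x i j (ξ j))⟫_ℂ‖ ≤
      Φ * √(∑ j, ‖S₁ (ξ j)‖ ^ 2) * √(∑ i, ‖S₂ (η i)‖ ^ 2)

end

universe u v

/-- The uniform theorem, as a proposition (universe levels fixed by the user). -/
def ThmU : Prop :=
  ∀ (K : Type u) [NormedAddCommGroup K] [InnerProductSpace ℂ K] [CompleteSpace K]
    (H : Type v) [NormedAddCommGroup H] [InnerProductSpace ℂ H] [CompleteSpace H]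
    (C : Set (K →L[ℂ] K)), (∀ c ∈ C, star c ∈ C) → ∀ (S₁ S₂ : K →L[ℂ] H) (κ : ℝ), 1 ≤ κ →
    (∀ a ∈ C.centralizer, ∀ ζ, ‖S₁ (a ζ)‖ ≤ κ * ‖a‖ * ‖S₁ ζ‖) →
    (∀ a ∈ C.centralizer, ∀ ζ, ‖S₂ (a ζ)‖ ≤ κ * ‖a‖ * ‖S₂ ζ‖) →
    Bal C.centralizer S₁ S₂ → UBound C.centralizer S₁ S₂ (Phi κ)

end Crest.Agent.H2.KS
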