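import Crest.Agent.H2.KS10
import Crest.Agent.H2.KSDefs
import Crest.Agent.H9.KD2

/-! Kadison similarity, part 11: matrices over the commutant and the properly large part. -/

set_option autoImplicit false
set_option maxHeartbeats 800000
open Finset Matrix
open scoped InnerProductSpace

namespace Crest.Agent.H2.KS
open Crest.Agent.H9

section gen
variable {R : Type*} [Ring R] [StarRing R] [Algebra ℂ R] [StarModule ℂ R]
variable {V : Type*} [NormedAddCommGroup V] [InnerProductSpace ℂ V] [CompleteSpace V]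
variable {ρ : R →⋆ₐ[ℂ] (V →L[ℂ] V)}

lemma nsq_act_ct_le {I J : Type*} [Fintype I] [Fintype J] {M : Matrix I J R}
    (h : ∀ g, nsq (act ρ M g) ≤ nsq g) (f : I → V) : nsq (act ρ Mᴴ f) ≤ nsq f := by
  have e := nsq_act (ρ := ρ) Mᴴ f
  rw [conjTranspose_conjTranspose, act_mul] at e
  have b := norm_Bp_le (ContinuousLinearMap.id ℂ V) (ContinuousLinearMap.id ℂ V) (Y := 1)
    ContinuousLinearMap.norm_id_le ContinuousLinearMap.norm_id_le f (act ρ M (act ρ Mᴴ f))
  rw [← e, Complex.norm_real, Real.norm_of_nonneg (nsq_nonneg _), one_pow, one_mul] at b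
  have b2 := b.trans (mul_le_mul_of_nonneg_left (Real.sqrt_le_sqrt (h _)) (Real.sqrt_nonneg _))
  have h1 := Real.mul_self_sqrt (nsq_nonneg f)
  have h2 := Real.mul_self_sqrt (nsq_nonneg (act ρ Mᴴ f))
  nlinarith [sq_nonneg (√(nsq f) - √(nsq (act ρ Mᴴ f)))]

lemma act_diagonal {I : Type*} [Fintype I] [DecidableEq I] (d : I → R) (g : I → V) (i : I) :
    act ρ (diagonal d) g i = ρ (d i) (g i) := by
  rw [act_apply, sum_eq_single i]
  · simp
  · intro b _ hb; simp [Ne.symm hb]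
  · simp

lemma nsq_act_le_of_diag {I J : Type*} [Fintype I] [Fintype J] [DecidableEq J] {M : Matrix I J R}
    {p : R} (hp : ‖ρ p‖ ≤ 1) (h : Mᴴ * M = diagonal fun _ => p) (g : J → V) :
    nsq (act ρ M g) ≤ nsq g := by
  have e := nsq_act (ρ := ρ) M g
  rw [h] at e
  have b := norm_Bp_le (ContinuousLinearMap.id ℂ V) (ContinuousLinearMap.id ℂ V) (Y := 1)
    ContinuousLinearMap.norm_id_le ContinuousLinearMap.norm_id_le g
    (act ρ (diagonal fun _ => p) g)
  rw [← e, Complex.norm_real, Real.norm_of_nonneg (nsq_nonneg _), one_pow, one_mul] at b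
  have b2 : nsq (act ρ (diagonal fun _ => p) g) ≤ nsq g := by
    have := nsq_comp_le (ρ p) hp g
    simpa [nsq, act_diagonal] using this
  refine b.trans ((mul_le_mul_of_nonneg_left (Real.sqrt_le_sqrt b2) (Real.sqrt_nonneg _)).trans ?_)
  rw [Real.mul_self_sqrt (nsq_nonneg g)]

lemma eq_zero_of_ct_mul {I J : Type*} [Fintype I] [Fintype J] [DecidableEq J]
    (hρ : Function.Injective ρ) {M : Matrix I J R} (h : Mᴴ * M = 0) : M = 0 := by
  ext i j
  apply hρ
  ext v
  have e := nsq_act (ρ := ρ) M (Pi.single j v)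
  rw [h] at e
  have e2 : nsq (act ρ M (Pi.single j v)) = 0 := by
    apply Complex.ofReal_injective
    rw [e]; simp [Bp, act_apply]
  have := (sum_eq_zero_iff_of_nonneg fun _ _ => sq_nonneg _).1 e2 i (mem_univ _)
  rw [act_apply, sum_eq_single j (by intro b _ hb; simp [hb]) (by simp)] at this
  simpa using this

lemma EP.add {V₀ : Submodule ℂ V} {I J : Type*} {M N : Matrix I J R} (hM : EP ρ V₀ M)
    (hN : EP ρ V₀ N) : EP ρ V₀ (M + N) := by
  intro i j v hv
  simpa using V₀.add_mem (hM i j v hv) (hN i j v hv)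

lemma EP.sub {V₀ : Submodule ℂ V} {I J : Type*} {M N : Matrix I J R} (hM : EP ρ V₀ M)
    (hN : EP ρ V₀ N) : EP ρ V₀ (M - N) := by
  intro i j v hv
  simpa using V₀.sub_mem (hM i j v hv) (hN i j v hv)

end gen

section
variable {K : Type*} [NormedAddCommGroup K] [InnerProductSpace ℂ K] [CompleteSpace K]
variable {H : Type*} [NormedAddCommGroup H] [InnerProductSpace ℂ H]

/-- The commutant of a star-closed set, as a star subalgebra. -/
def PA (C : Set (K →L[ℂ] K)) (hC : ∀ c ∈ C, star c ∈ C) : StarSubalgebra ℂ (K →L[ℂ] K) where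
  toSubalgebra := Subalgebra.centralizer ℂ C
  star_mem' := by
    intro a ha c hc
    have := congrArg star (ha _ (hC c hc))
    simpa using this.symm

lemma PA_closed (C : Set (K →L[ℂ] K)) (hC : ∀ c ∈ C, star c ∈ C) :
    IsClosed (PA C hC : Set (K →L[ℂ] K)) := Set.isClosed_centralizer C

section ent
variable {ι : Type*} [Fintype ι] [DecidableEq ι]

/-- Inclusion of a coordinate. -/
noncomputable def sgl (j : ι) : K →L[ℂ] PiLp 2 (fun _ : ι => K) :=
  (PiLp.continuousLinearEquiv 2 ℂ (fun _ : ι => K)).symm.toContinuousLinearMap ∘L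
    ContinuousLinearMap.single ℂ (fun _ : ι => K) j

omit [CompleteSpace K] [Fintype ι] in
lemma sgl_apply (j i : ι) (v : K) : sgl j v i = if i = j then v else 0 := by
  simp [sgl, Pi.single_apply]

/-- Matrix entries of an operator on the `ℓ²` sum. -/
noncomputable def ent (T : PiLp 2 (fun _ : ι => K) →L[ℂ] PiLp 2 (fun _ : ι => K)) :
    Matrix ι ι (K →L[ℂ] K) := fun i j => PiLp.proj 2 (fun _ : ι => K) i ∘L T ∘L sgl j

omit [CompleteSpace K] [Fintype ι] in
lemma ent_apply (T : PiLp 2 (fun _ : ι => K) →L[ℂ] PiLp 2 (fun _ : ι => K)) (i j : ι) (v : K) :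
    ent T i j v = T (sgl j v) i := rfl

omit [CompleteSpace K] in
lemma sum_sgl (y : PiLp 2 (fun _ : ι => K)) : ∑ j, sgl j (y j) = y := by
  ext i; simp [sgl_apply]

omit [CompleteSpace K] in
lemma ent_mul (T T' : PiLp 2 (fun _ : ι => K) →L[ℂ] PiLp 2 (fun _ : ι => K)) :
    ent (T * T') = ent T * ent T' := by
  ext i j v
  simp only [Matrix.mul_apply, _root_.sum_apply, mul_apply_eq_comp, ent_apply]
  conv_lhs => rw [← sum_sgl (T' (sgl j v))]
  simp

omit [CompleteSpace K] in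
lemma ent_one : ent (1 : PiLp 2 (fun _ : ι => K) →L[ℂ] PiLp 2 (fun _ : ι => K)) = 1 := by
  ext i j v
  simp only [ent_apply, Matrix.one_apply, one_apply_eq_self, sgl_apply]
  split_ifs <;> simp

omit [CompleteSpace K] in
lemma inner_sgl_left (j : ι) (v : K) (y : PiLp 2 (fun _ : ι => K)) :
    ⟪sgl j v, y⟫_ℂ = ⟪v, y j⟫_ℂ := by
  rw [PiLp.inner_apply, sum_eq_single j] <;> simp +contextual [sgl_apply]

omit [CompleteSpace K] in
lemma inner_sgl_right (j : ι) (v : K) (y : PiLp 2 (fun _ : ι => K)) :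
    ⟪y, sgl j v⟫_ℂ = ⟪y j, v⟫_ℂ := by
  rw [PiLp.inner_apply, sum_eq_single j] <;> simp +contextual [sgl_apply]

lemma ent_star (T : PiLp 2 (fun _ : ι => K) →L[ℂ] PiLp 2 (fun _ : ι => K)) :
    ent (star T) = (ent T)ᴴ := by
  ext i j : 1
  rw [conjTranspose_apply, ContinuousLinearMap.star_eq_adjoint (ent T j i),
    ContinuousLinearMap.eq_adjoint_iff]
  intro x y
  rw [ent_apply, ent_apply, ← inner_sgl_right, ← inner_sgl_left,
    ContinuousLinearMap.star_eq_adjoint, ContinuousLinearMap.adjoint_inner_left]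

/-- The operator with a given matrix. -/
noncomputable def toOp (x : Matrix ι ι (K →L[ℂ] K)) :
    PiLp 2 (fun _ : ι => K) →L[ℂ] PiLp 2 (fun _ : ι => K) :=
  ∑ i, ∑ j, sgl i ∘L x i j ∘L PiLp.proj 2 (fun _ : ι => K) j

omit [CompleteSpace K] in
lemma toOp_apply (x : Matrix ι ι (K →L[ℂ] K)) (y : PiLp 2 (fun _ : ι => K)) (i : ι) :
    toOp x y i = ∑ j, x i j (y j) := by
  simp only [toOp, _root_.sum_apply, ContinuousLinearMap.comp_apply, PiLp.proj_apply,
    WithLp.ofLp_sum, Finset.sum_apply, sgl_apply]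
  rw [sum_eq_single i] <;> simp +contextual [eq_comm]

omit [CompleteSpace K] in
lemma ent_toOp (x : Matrix ι ι (K →L[ℂ] K)) : ent (toOp x) = x := by
  ext i j v
  rw [ent_apply, toOp_apply, sum_eq_single j] <;> simp +contextual [sgl_apply]

lemma exists_four_unitary (C : Set (K →L[ℂ] K)) (hC : ∀ c ∈ C, star c ∈ C)
    (x : Matrix ι ι (PA C hC)) (hx : ∀ ξ, nsq (act (PA C hC).subtype x ξ) ≤ nsq ξ) :
    ∃ (U : Fin 4 → Matrix ι ι (PA C hC)) (c : Fin 4 → ℂ),
      (∀ l, (U l)ᴴ * U l = 1 ∧ U l * (U l)ᴴ = 1) ∧ (∀ l, ‖c l‖ ≤ 1 / 2) ∧ x = ∑ l, c l • U l := by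
  have hC' : ∀ c ∈ (KD.amp (K := K) ι) '' C, star c ∈ (KD.amp (K := K) ι) '' C := by
    rintro _ ⟨c, hc, rfl⟩
    exact ⟨star c, hC c hc, map_star _ _⟩
  let B := PA _ hC'
  letI : CStarAlgebra B := StarSubalgebra.cstarAlgebra B (h_closed := PA_closed _ hC')
  set x0 : Matrix ι ι (K →L[ℂ] K) := x.map (PA C hC).subtype with hx0
  have hxB : toOp x0 ∈ B := by
    rintro _ ⟨c, hc, rfl⟩
    ext y i
    simp only [mul_apply_eq_comp, KD.amp_apply, toOp_apply, map_sum]
    refine sum_congr rfl fun j _ => ?_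
    exact congrArg (fun T : K →L[ℂ] K => T (y j)) ((x i j).2 c hc)
  have hn : ‖toOp x0‖ ≤ 1 := by
    refine ContinuousLinearMap.opNorm_le_bound _ zero_le_one fun y => ?_
    rw [one_mul, ← sq_le_sq₀ (norm_nonneg _) (norm_nonneg _), PiLp.norm_sq_eq_of_L2,
      PiLp.norm_sq_eq_of_L2]
    simp only [toOp_apply]
    exact hx (fun j => y j)
  obtain ⟨u, c, hu, hc⟩ := CStarAlgebra.exists_sum_four_unitary (⟨toOp x0, hxB⟩ : B)
  have hmem : ∀ (T : B) i j, ent T.1 i j ∈ PA C hC := by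
    intro T i j c hc
    ext v
    have := congrArg (fun S => S (sgl j v) i) (T.2 _ ⟨c, hc, rfl⟩)
    simp only [mul_apply_eq_comp, KD.amp_apply] at this
    have e : KD.amp (K := K) ι c (sgl j v) = sgl j (c v) := by
      ext l
      simp only [KD.amp_apply, sgl_apply]
      split_ifs <;> simp
    rw [mul_apply_eq_comp, mul_apply_eq_comp, ent_apply, ent_apply, this, e]
  let E : B → Matrix ι ι (PA C hC) := fun T i j => ⟨ent T.1 i j, hmem T i j⟩
  have inj : ∀ M N : Matrix ι ι (PA C hC),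
      M.map (PA C hC).subtype = N.map (PA C hC).subtype → M = N := by
    intro M N h; ext i j : 1; exact Subtype.ext (congrFun (congrFun h i) j)
  have hE : ∀ T : B, (E T).map (PA C hC).subtype = ent T.1 := fun T => rfl
  have hmul : ∀ M N : Matrix ι ι (PA C hC), (M * N).map (PA C hC).subtype =
      M.map (PA C hC).subtype * N.map (PA C hC).subtype := fun M N => Matrix.map_mul
  have hct : ∀ M : Matrix ι ι (PA C hC), (Mᴴ).map (PA C hC).subtype =
      (M.map (PA C hC).subtype)ᴴ := fun M => rfl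
  have hone : (1 : Matrix ι ι (PA C hC)).map (PA C hC).subtype = 1 :=
    Matrix.map_one _ (map_zero _) (map_one _)
  have k1 : ∀ T : B, star T * T = 1 → (E T)ᴴ * E T = 1 := by
    intro T hT
    apply inj
    have : star T.1 * T.1 = 1 := congrArg Subtype.val hT
    rw [hmul, hct, hE, hone, ← ent_star, ← ent_mul, this, ent_one]
  have k2 : ∀ T : B, T * star T = 1 → E T * (E T)ᴴ = 1 := by
    intro T hT
    apply inj
    have : T.1 * star T.1 = 1 := congrArg Subtype.val hT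
    rw [hmul, hct, hE, hone, ← ent_star, ← ent_mul, this, ent_one]
  refine ⟨fun l => E (u l), c, fun l => ⟨k1 _ (u l).2.1, k2 _ (u l).2.2⟩,
    fun l => (hc l).trans ?_, inj _ _ ?_⟩
  · exact div_le_div_of_nonneg_right hn two_pos.le
  · rw [← hx0, ← ent_toOp x0]
    have h1 : toOp x0 = ∑ l, c l • (u l : B).1 := by
      have := congrArg Subtype.val hu
      simpa using this
    rw [h1]
    ext i j v
    simp [ent_apply, E, Matrix.sum_apply]

end ent

lemma smallB_of_sys {C : Set (K →L[ℂ] K)} (hC : ∀ c ∈ C, star c ∈ C) {S₁ S₂ : K →L[ℂ] H} {κ : ℝ}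
    (hκ : 1 ≤ κ) (h1 : Adm C.centralizer S₁ κ) (h2 : Adm C.centralizer S₂ κ)
    (hB : Bal C.centralizer S₁ S₂) {n : ℕ} {e : K →L[ℂ] K} {v : Fin n → (K →L[ℂ] K)}
    (hs : IsSys C.centralizer e v) :
    SmallB (PA C hC).subtype (LinearMap.eqLocus (e : K →ₗ[ℂ] K) LinearMap.id) S₁ S₂ n
      (3 / 2 * κ * Cc κ) := by
  intro u α β hu hα hβ
  have hBR : BalR (PA C hC).subtype S₁ S₂ := fun a => hB a a.2
  set Vm : Matrix Unit (Fin n) (PA C hC) := fun _ j => ⟨v j, hs.mem j⟩ with hVm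
  set e' : PA C hC := ⟨e, hs.he⟩ with he'
  have hVV : Vmᴴ * Vm = diagonal fun _ => e' := by
    ext i j : 1
    apply Subtype.ext
    simp only [Matrix.mul_apply, conjTranspose_apply, hVm, diagonal_apply, univ_unique,
      sum_singleton]
    refine (hs.orth i j).trans ?_
    split_ifs <;> rfl
  have c1 := nsq_act_le_of_diag (ρ := (PA C hC).subtype) (p := e') hs.proj.norm_le hVV
  have c2 := nsq_act_ct_le c1
  have hE : ∀ g : Fin n → K, (∀ i, g i ∈ LinearMap.eqLocus (e : K →ₗ[ℂ] K) LinearMap.id) →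
      act (PA C hC).subtype (Vmᴴ * Vm) g = g := by
    intro g hg; funext i; rw [hVV, act_diagonal]; exact hg i
  have e1 : Bp S₁ S₂ β (act (PA C hC).subtype u α) =
      Bp S₁ S₂ (act (PA C hC).subtype Vm β) (act (PA C hC).subtype (Vm * u * Vmᴴ)
        (act (PA C hC).subtype Vm α)) := by
    rw [Matrix.mul_assoc, act_mul, Bp_act hBR Vm, ← act_mul _ Vmᴴ, hE β hβ, act_mul,
      ← act_mul _ Vmᴴ, hE α hα]
  set a : PA C hC := (Vm * u * Vmᴴ) () () with ha
  have hact : ∀ g : Unit → K, act (PA C hC).subtype (Vm * u * Vmᴴ) g () = (a : K →L[ℂ] K) (g ()) := by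
    intro g; simp [act_apply, ha]
  have hn : ‖(a : K →L[ℂ] K)‖ ≤ 3 / 2 := by
    refine ContinuousLinearMap.opNorm_le_bound _ (by norm_num) fun y => ?_
    rw [← sq_le_sq₀ (norm_nonneg _) (by positivity)]
    have b1 : nsq (act (PA C hC).subtype (Vm * u * Vmᴴ) (fun _ => y)) ≤ 2 * nsq (fun _ : Unit => y) := by
      rw [act_mul, act_mul]
      exact (c1 _).trans ((hu _).trans (mul_le_mul_of_nonneg_left (c2 _) two_pos.le))
    simp only [nsq, univ_unique, sum_singleton] at b1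
    rw [show (default : Unit) = () from rfl, hact] at b1
    nlinarith [sq_nonneg ‖y‖]
  have hrow : ∀ ζ, ∑ i, ‖star (v i) ζ‖ ^ 2 ≤ ‖ζ‖ ^ 2 := by
    intro ζ
    have := c2 (fun _ => ζ)
    simpa [nsq, act_apply, hVm] using this
  have r1 := h1.row n v hs.mem hrow α
  have r2 := h2.row n v hs.mem hrow β
  have hC0 : 0 ≤ Cc κ := by unfold Cc; positivity
  rw [e1]
  simp only [Bp, univ_unique, sum_singleton]
  rw [show (default : Unit) = () from rfl, hact]
  have s1 := h1.single a a.2 (act (PA C hC).subtype Vm α ())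
  have q1 : ‖S₁ (act (PA C hC).subtype Vm α ())‖ ≤ √(Cc κ) * √(nsq fun i => S₁ (α i)) := by
    rw [← Real.sqrt_mul hC0]; exact Real.le_sqrt_of_sq_le r1
  have q2 : ‖S₂ (act (PA C hC).subtype Vm β ())‖ ≤ √(Cc κ) * √(nsq fun i => S₂ (β i)) := by
    rw [← Real.sqrt_mul hC0]; exact Real.le_sqrt_of_sq_le r2
  refine (norm_inner_le_norm _ _).trans ?_
  calc _ ≤ (√(Cc κ) * √(nsq fun i => S₂ (β i))) *
        (κ * (3 / 2) * (√(Cc κ) * √(nsq fun i => S₁ (α i)))) := by
        refine mul_le_mul q2 (s1.trans ?_) (norm_nonneg _) (by positivity)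
        gcongr
    _ = 3 / 2 * κ * (√(Cc κ) * √(Cc κ)) *
        (√(nsq fun i => S₁ (α i)) * √(nsq fun i => S₂ (β i))) := by ring
    _ = _ := by rw [Real.mul_self_sqrt hC0]

/-- The estimate on the part where the algebra is large. -/
lemma large_bound {C : Set (K →L[ℂ] K)} (hC : ∀ c ∈ C, star c ∈ C) {S₁ S₂ : K →L[ℂ] H} {κ Y : ℝ}
    (hκ : 1 ≤ κ) (h1 : Adm C.centralizer S₁ κ) (h2 : Adm C.centralizer S₂ κ)
    (hB : Bal C.centralizer S₁ S₂) (hY1 : ‖S₁‖ ≤ Y) (hY2 : ‖S₂‖ ≤ Y) {h k T r : ℕ} {δ : ℝ}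
    (hh : 0 < h) (hδ0 : 0 ≤ δ) (hδ1 : δ ≤ 1) (hP : Par (2 * h) δ k T r)
    {e : K →L[ℂ] K} {v : Fin (r * T) → (K →L[ℂ] K)} (hs : IsSys C.centralizer e v)
    {w : Fin (2 * (r * T)) → (K →L[ℂ] K)} {z : K →L[ℂ] K} (hw : ∀ l, w l ∈ C.centralizer)
    (hew : ∀ l, e * w l = w l) (hwz : ∑ l, star (w l) * w l = z) (hz : IsCP C.centralizer z)
    (U : Matrix (Fin h) (Fin h) (PA C hC)) (hU : Uᴴ * U = 1) (hU' : U * Uᴴ = 1)
    (ξ η : Fin h → K) :
    ‖Bp S₁ S₂ η (act (PA C hC).subtype U (fun j => z (ξ j)))‖ ≤ 4 * κ * Cc κ *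
      (√(Cc κ * (Cc κ * nsq (fun a => S₁ (ξ a))) + 9 * Y ^ 2 * δ * (nsq ξ + nsq η)) *
       √(Cc κ * (Cc κ * nsq (fun a => S₂ (η a))) + 9 * Y ^ 2 * δ * (nsq ξ + nsq η))) +
      Y ^ 2 * (3 * (√(5 * δ) * (nsq ξ + nsq η))) := by
  have hBR : BalR (PA C hC).subtype S₁ S₂ := fun a => hB a a.2
  have hC0 : 0 ≤ Cc κ := by unfold Cc; positivity
  set ρ := (PA C hC).subtype with hρ
  set z' : PA C hC := ⟨z, hz.mem⟩ with hz'
  set Z : Matrix (Fin h) (Fin h) (PA C hC) := diagonal fun _ => z' with hZ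
  set W : Matrix (Fin h × Fin (2 * (r * T))) (Fin h) (PA C hC) :=
    fun p j => if p.1 = j then ⟨w p.2, hw p.2⟩ else 0 with hW
  have hWW : Wᴴ * W = Z := by
    ext i j : 1
    simp only [Matrix.mul_apply, conjTranspose_apply, hW, hZ, diagonal_apply,
      Fintype.sum_prod_type]
    rw [sum_eq_single i (by intro b _ hb; simp [hb]) (by simp)]
    by_cases hij : i = j
    · apply Subtype.ext; simp [hij, hz', ← hwz]
    · simp [hij]
  have hZZ : Z * Z = Z := by
    rw [hZ, diagonal_mul_diagonal]; congr 1; funext i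
    exact Subtype.ext hz.proj.isIdempotentElem.eq
  have hZs : Zᴴ = Z := by
    rw [hZ, diagonal_conjTranspose]; congr 1; funext i
    exact Subtype.ext hz.proj.isSelfAdjoint.star_eq
  have hZc : ∀ M : Matrix (Fin h) (Fin h) (PA C hC), Z * M = M * Z := by
    intro M; ext i j : 1
    rw [hZ, diagonal_mul, mul_diagonal]
    exact Subtype.ext (hz.comm _ (M i j).2).eq
  have hWZ : W * Z = W := by
    have : W * (1 - Z) = 0 := by
      apply eq_zero_of_ct_mul (ρ := ρ) Subtype.val_injective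
      rw [conjTranspose_mul, Matrix.mul_assoc, ← Matrix.mul_assoc Wᴴ, hWW, Matrix.mul_sub,
        Matrix.mul_one, hZZ]; simp
    rw [Matrix.mul_sub, Matrix.mul_one, sub_eq_zero] at this
    exact this.symm
  have hZW : Z * Wᴴ = Wᴴ := by simpa [hZs] using congrArg conjTranspose hWZ
  have hWW' : ∀ M : Matrix (Fin h) (Fin h × Fin (2 * (r * T))) (PA C hC),
      Wᴴ * (W * M) = Z * M := fun M => by rw [← Matrix.mul_assoc, hWW]
  have hun : ∀ {U : Matrix (Fin h) (Fin h) (PA C hC)}, Uᴴ * U = 1 →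
      (W * U * Wᴴ + (1 - W * Wᴴ))ᴴ * (W * U * Wᴴ + (1 - W * Wᴴ)) = 1 := by
    intro U hU
    have e1 : Z * (U * Wᴴ) = U * Wᴴ := by
      rw [← Matrix.mul_assoc, hZc, Matrix.mul_assoc, hZW]
    have e2 : Uᴴ * (U * Wᴴ) = Wᴴ := by rw [← Matrix.mul_assoc, hU, Matrix.one_mul]
    simp only [conjTranspose_add, conjTranspose_sub, conjTranspose_mul, conjTranspose_one,
      conjTranspose_conjTranspose, Matrix.add_mul, Matrix.mul_add, Matrix.sub_mul, Matrix.mul_sub,
      Matrix.one_mul, Matrix.mul_one, Matrix.mul_assoc, hWW', e1, e2, hZW]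
    abel
  set U' := W * U * Wᴴ + (1 - W * Wᴴ) with hU'def
  have hU'ct : U'ᴴ = W * Uᴴ * Wᴴ + (1 - W * Wᴴ) := by
    simp [hU'def, conjTranspose_mul, Matrix.mul_assoc]
  have u1 : U'ᴴ * U' = 1 := hun hU
  have u2 : U' * U'ᴴ = 1 := by
    have := hun (U := Uᴴ) (by simpa using hU')
    rwa [← hU'ct, conjTranspose_conjTranspose] at this
  set V₀ : Submodule ℂ K := LinearMap.eqLocus (e : K →ₗ[ℂ] K) LinearMap.id with hV₀
  have hWin : ∀ p j (y : K), ρ (W p j) y ∈ V₀ := by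
    intro p j y
    simp only [hW]
    split_ifs
    · exact congrArg (fun T : K →L[ℂ] K => T y) (hew p.2)
    · simp
  have hEW : ∀ M : Matrix (Fin h) (Fin h × Fin (2 * (r * T))) (PA C hC), EP ρ V₀ (W * M) := by
    intro M i j y _
    simp only [Matrix.mul_apply, map_sum, map_mul, _root_.sum_apply, mul_apply_eq_comp]
    exact V₀.sum_mem fun l _ => hWin _ _ _
  have hin : ∀ (g : Fin h → K) p, act ρ W g p ∈ V₀ := fun g p => by
    rw [act_apply]; exact V₀.sum_mem fun l _ => hWin _ _ _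
  have cb : ∀ {S : K →L[ℂ] H}, Adm C.centralizer S κ → ColB ρ S (Cc κ) := fun hS n v hv =>
    hS.col n (fun i => v i) (fun i => (v i).2) hv
  have hcore := core (ρ := ρ) (by omega) hδ0 hδ1 hP (A := Fin h × Fin (2 * (r * T)))
    (by simp; ring) u1 u2 V₀
    (by rw [hU'def, Matrix.mul_assoc]; exact (hEW _).add (EP.one.sub (hEW _)))
    (by rw [hU'ct, Matrix.mul_assoc]; exact (hEW _).add (EP.one.sub (hEW _))) hBR hC0 (cb h1)
    (cb h2) hY1 hY2 (by positivity) (smallB_of_sys hC hκ h1 h2 hB hs) (act ρ W ξ) (act ρ W η)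
    (hin ξ) (hin η)
  have e1 : Bp S₁ S₂ (act ρ W η) (act ρ U' (act ρ W ξ)) =
      Bp S₁ S₂ η (act ρ U (fun j => z (ξ j))) := by
    have := Bp_act hBR Wᴴ η
    rw [conjTranspose_conjTranspose] at this
    rw [← this, ← act_mul, ← act_mul]
    have e2 : Wᴴ * U' * W = U * Z := by
      rw [hU'def]
      simp only [Matrix.add_mul, Matrix.mul_add, Matrix.sub_mul, Matrix.mul_sub, Matrix.mul_one,
        ← Matrix.mul_assoc, hWW]
      simp only [Matrix.mul_assoc, hWW, hZZ]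
      rw [← Matrix.mul_assoc, hZc, Matrix.mul_assoc, hZZ]; simp
    rw [e2, act_mul]
    congr 2
    funext j; rw [hZ, act_diagonal]; rfl
  have c1 := nsq_act_le_of_diag (ρ := ρ) (p := z') hz.proj.norm_le hWW
  have hwc : ∀ ζ, ∑ l, ‖w l ζ‖ ^ 2 ≤ ‖ζ‖ ^ 2 := by
    intro ζ
    have hw1 : (Matrix.of fun l (_ : Unit) => (⟨w l, hw l⟩ : PA C hC))ᴴ *
        (Matrix.of fun l (_ : Unit) => (⟨w l, hw l⟩ : PA C hC)) = diagonal fun _ => z' := by
      ext i j : 1
      apply Subtype.ext; simp [Matrix.mul_apply, hz', ← hwz]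
    have := nsq_act_le_of_diag (ρ := ρ) (p := z') hz.proj.norm_le hw1 (fun _ => ζ)
    simpa [nsq, act_apply, hρ] using this
  have c2 : ∀ {S : K →L[ℂ] H}, Adm C.centralizer S κ → ∀ g : Fin h → K,
      nsq (fun p => S (act ρ W g p)) ≤ Cc κ * nsq (fun a => S (g a)) := by
    intro S hS g
    unfold nsq
    rw [Fintype.sum_prod_type, mul_sum]
    refine sum_le_sum fun i _ => le_trans (le_of_eq ?_) (hS.col _ w hw hwc (g i))
    refine sum_congr rfl fun l _ => ?_
    beta_reduce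
    rw [act_apply, sum_eq_single i (by intro b _ hb; simp [hW, Ne.symm hb]) (by simp)]
    simp [hW, hρ]
  rw [e1] at hcore
  refine hcore.trans ?_
  have d1 := c2 h1 ξ
  have d2 := c2 h2 η
  have d3 := c1 ξ
  have d4 := c1 η
  rw [show 8 / 3 * (3 / 2 * κ * Cc κ) = 4 * κ * Cc κ by ring]
  gcongr

end

end Crest.Agent.H2.KS
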