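import Crest.Agent.H2.KRB4
import Crest.Agent.H2.KS11

/-! KR-B, part 5: the type I case. -/

set_option autoImplicit false
open scoped InnerProductSpace ComplexConjugate Matrix
open Finset Crest.Agent.H1KR Crest.Agent.H2.KS Filter Topology WeakDual

namespace Crest.Agent.H2.KRB

variable {K : Type*} [NormedAddCommGroup K] [InnerProductSpace ℂ K] [CompleteSpace K]
variable {C : Set (K →L[ℂ] K)} {S : StarSubalgebra ℂ (K →L[ℂ] K)}

theorem mat_bound {A : Type*} [CommCStarAlgebra A] (π : A →⋆ₐ[ℂ] (K →L[ℂ] K)) {J I : Type}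
    [Fintype J] [Fintype I] (Y : J → I → A) {s : ℝ}
    (hY : ∀ (χ : characterSpace ℂ A) (v : I → ℂ),
      ∑ j, ‖∑ i, χ (Y j i) * v i‖ ^ 2 ≤ s ^ 2 * ∑ i, ‖v i‖ ^ 2) (ξ : I → K) :
    ∑ j, ‖∑ i, π (Y j i) (ξ i)‖ ^ 2 ≤ s ^ 2 * ∑ i, ‖ξ i‖ ^ 2 := by
  classical
  let H : Matrix I I A := fun i i' => ∑ j, star (Y j i) * Y j i'
  let op : Matrix I I A → (PiLp 2 (fun _ : I => K) →L[ℂ] PiLp 2 (fun _ : I => K)) :=
    fun M => toOp (M.map π)
  have op_mul : ∀ M N, op (M * N) = op M * op N := by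
    intro M N
    ext y i
    simp only [op, mul_apply_eq_comp, toOp_apply, Matrix.map_apply, Matrix.mul_apply, map_sum,
      map_mul, _root_.sum_apply]
    exact sum_comm
  have op_one : op 1 = 1 := by
    ext y i
    simp only [op, toOp_apply, Matrix.map_apply, one_apply_eq_self]
    rw [sum_eq_single i]
    · simp
    · intro b _ hb; simp [Matrix.one_apply_ne' hb]
    · simp
  have hin : ∀ x y : PiLp 2 (fun _ : I => K), ⟪x, op H y⟫_ℂ =
      ∑ j, ⟪∑ i, π (Y j i) (x i), ∑ i, π (Y j i) (y i)⟫_ℂ := by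
    intro x y
    simp only [PiLp.inner_apply, op, toOp_apply, Matrix.map_apply, H, map_sum, map_mul, map_star,
      _root_.sum_apply, mul_apply_eq_comp, inner_sum, sum_inner, inner_star'']
    refine Eq.trans sum_comm (Eq.trans (sum_congr rfl fun i' _ => sum_comm) sum_comm)
  have hsa : IsSelfAdjoint (op H) := by
    rw [ContinuousLinearMap.isSelfAdjoint_iff_isSymmetric]
    intro x y
    change ⟪op H x, y⟫_ℂ = ⟪x, op H y⟫_ℂ
    rw [← inner_conj_symm, hin, hin, map_sum]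
    simp only [inner_conj_symm]
  have hun : ∀ t : ℝ, s ^ 2 < |t| → t ∉ spectrum ℝ (op H) := by
    intro t ht
    have hd : IsUnit ((t : ℂ) • (1 : Matrix I I A) - H).det := by
      by_contra hn
      obtain ⟨χ, hχ⟩ := CharacterSpace.exists_apply_eq_zero hn
      have := (χ : A →+* ℂ).map_det ((t : ℂ) • (1 : Matrix I I A) - H)
      rw [show (χ : A →+* ℂ) _ = 0 from hχ] at this
      obtain ⟨v, hv, hv'⟩ := Matrix.exists_mulVec_eq_zero_iff.2 this.symm
      have e : ∀ i, (t : ℂ) * v i = ∑ j, conj (χ (Y j i)) * ∑ i', χ (Y j i') * v i' := by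
        intro i
        have := congrFun hv' i
        simp only [Matrix.mulVec, dotProduct, RingHom.mapMatrix_apply, Matrix.map_apply,
          Matrix.sub_apply, Matrix.smul_apply, RingHom.coe_coe, map_sub, map_smul, sub_mul,
          sum_sub_distrib, Pi.zero_apply, H, map_sum, map_mul, map_star, smul_eq_mul] at this
        rw [sum_eq_single i (fun b _ hb => by simp [Matrix.one_apply_ne' hb]) (by simp),
          sub_eq_zero] at this
        simp only [Matrix.one_apply_eq, map_one, mul_one] at this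
        rw [this]
        simp only [sum_mul, mul_sum, mul_assoc]
        exact sum_comm
      have e2 : ((t * ∑ i, ‖v i‖ ^ 2 : ℝ) : ℂ) = ((∑ j, ‖∑ i, χ (Y j i) * v i‖ ^ 2 : ℝ) : ℂ) := by
        push_cast
        simp only [← Complex.conj_mul']
        rw [mul_sum]
        calc ∑ i, (t : ℂ) * (conj (v i) * v i) = ∑ i, conj (v i) * ((t : ℂ) * v i) :=
              sum_congr rfl fun i _ => by ring
          _ = _ := by
            simp only [e]
            refine Eq.trans (sum_congr rfl fun i _ => mul_sum _ _ _) ?_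
            rw [sum_comm]
            refine sum_congr rfl fun j _ => ?_
            rw [map_sum, sum_mul]
            exact sum_congr rfl fun i _ => by rw [map_mul]; ring
      have e3 := Complex.ofReal_injective e2
      have hp : 0 < ∑ i, ‖v i‖ ^ 2 := by
        obtain ⟨i, hi⟩ := Function.ne_iff.1 hv
        exact lt_of_lt_of_le (pow_pos (norm_pos_iff.2 hi) 2)
          (single_le_sum (f := fun i => ‖v i‖ ^ 2) (fun _ _ => by positivity) (mem_univ i))
      have h1 := hY χ v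
      have h2 : 0 ≤ ∑ j, ‖∑ i, χ (Y j i) * v i‖ ^ 2 := by positivity
      rw [← e3] at h1 h2
      have h3 : 0 ≤ t := nonneg_of_mul_nonneg_left h2 hp
      rw [abs_of_nonneg h3] at ht
      exact absurd (le_of_mul_le_mul_right h1 hp) (not_le.2 ht)
    obtain ⟨u, hu⟩ := (Matrix.isUnit_iff_isUnit_det _).2 hd
    have e : algebraMap ℝ _ t - op H = op u := by
      rw [hu]
      ext y i
      simp only [op, toOp_apply, Matrix.map_apply, Matrix.sub_apply, Matrix.smul_apply, map_sub,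
        map_smul, sub_apply, sum_sub_distrib, Algebra.algebraMap_eq_smul_one, smul_apply,
        one_apply_eq_self, PiLp.sub_apply, PiLp.smul_apply]
      congr 1
      rw [sum_eq_single i (fun b _ hb => by simp [Matrix.one_apply_ne' hb]) (by simp)]
      simp
    rw [spectrum.notMem_iff, e]
    exact ⟨⟨op u, op (↑u⁻¹), by rw [← op_mul, Units.mul_inv, op_one],
      by rw [← op_mul, Units.inv_mul, op_one]⟩, rfl⟩
  have hn : ‖op H‖ ≤ s ^ 2 := by
    rcases subsingleton_or_nontrivial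
      (PiLp 2 (fun _ : I => K) →L[ℂ] PiLp 2 (fun _ : I => K)) with h | h
    · rw [Subsingleton.elim (op H) 0, norm_zero]; positivity
    · by_contra hc
      rcases CStarAlgebra.norm_or_neg_norm_mem_spectrum hsa with k | k
      · exact hun _ (by rw [abs_norm]; exact not_le.1 hc) k
      · exact hun _ (by rw [abs_neg, abs_norm]; exact not_le.1 hc) k
  have h1 := congrArg Complex.re (hin (WithLp.toLp 2 ξ) (WithLp.toLp 2 ξ))
  simp only [Complex.re_sum, re_self] at h1
  rw [← h1]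
  refine (Complex.re_le_norm _).trans ((norm_inner_le_norm _ _).trans ?_)
  have h2 := (op H).le_opNorm (WithLp.toLp 2 ξ)
  have h3 : ‖(WithLp.toLp 2 ξ : PiLp 2 (fun _ : I => K))‖ ^ 2 = ∑ i, ‖ξ i‖ ^ 2 :=
    PiLp.norm_sq_eq_of_L2 _ _
  rw [← h3]
  have h4 := norm_nonneg (WithLp.toLp 2 ξ : PiLp 2 (fun _ : I => K))
  nlinarith [mul_le_mul_of_nonneg_right hn h4, mul_le_mul_of_nonneg_left h2 h4]

theorem sum_mul_le_sqrt {J : Type} [Fintype J] (f g : J → ℝ) :
    ∑ j, f j * g j ≤ √(∑ j, f j ^ 2) * √(∑ j, g j ^ 2) := Real.sum_mul_le_sqrt_mul_sqrt _ _ _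

theorem scalar_bound (φ : S →ₗ[ℂ] ℂ) {s : ℝ} (hs : 0 ≤ s) (hφ : ∀ a, ‖φ a‖ ≤ s * ‖a‖) {J I : Type}
    [Fintype J] [Fintype I] {x : J → I → S} (hx : Con x) (v : I → ℂ) :
    ∑ j, ‖∑ i, φ (x j i) * v i‖ ^ 2 ≤ s ^ 2 * ∑ i, ‖v i‖ ^ 2 := by
  set w : J → ℂ := fun j => ∑ i, φ (x j i) * v i with hw
  set W := ∑ j, ‖w j‖ ^ 2 with hW
  have h1 : φ (∑ j, conj (w j) • ∑ i, v i • x j i) = (W : ℂ) := by
    rw [hW]
    push_cast
    simp only [map_sum, map_smul, smul_eq_mul, ← Complex.conj_mul']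
    refine sum_congr rfl fun j _ => ?_
    congr 1
    exact sum_congr rfl fun i _ => mul_comm _ _
  have h2 : ‖(∑ j, conj (w j) • ∑ i, v i • x j i : S)‖ ≤ √W * √(∑ i, ‖v i‖ ^ 2) := by
    change ‖(∑ j, conj (w j) • ∑ i, v i • x j i : S).1‖ ≤ _
    refine ContinuousLinearMap.opNorm_le_bound _ (by positivity) fun u => ?_
    simp only [sum_ap, smul_ap]
    refine (norm_sum_le _ _).trans ?_
    simp only [norm_smul, RCLike.norm_conj]
    refine (sum_mul_le_sqrt _ _).trans ?_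
    rw [mul_assoc]
    refine mul_le_mul_of_nonneg_left ?_ (Real.sqrt_nonneg _)
    have := hx fun i => v i • u
    simp only [map_smul, norm_smul, mul_pow, ← sum_mul] at this
    refine (Real.sqrt_le_sqrt this).trans (le_of_eq ?_)
    rw [Real.sqrt_mul (by positivity), Real.sqrt_sq (norm_nonneg _)]
  have hW0 : 0 ≤ W := by positivity
  have h3 := (hφ _).trans (mul_le_mul_of_nonneg_left h2 hs)
  rw [h1, Complex.norm_real, Real.norm_of_nonneg hW0] at h3
  have a1 := Real.sq_sqrt hW0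
  have a2 := Real.sq_sqrt (show 0 ≤ ∑ i, ‖v i‖ ^ 2 by positivity)
  rw [← a2]
  nlinarith [sq_nonneg (√W - s * √(∑ i, ‖v i‖ ^ 2))]

theorem comm_bound {E : Set (K →L[ℂ] K)} (hE : ∀ a ∈ E, star a ∈ E)
    (hc : ∀ a ∈ E, ∀ b ∈ E, Commute a b) (U : S →ₗ[ℂ] (K →L[ℂ] K)) (hU : ∀ a, U a ∈ E) {s : ℝ}
    (hs : 0 ≤ s) (hb : ∀ a, ‖U a‖ ≤ s * ‖a‖) {J I : Type} [Fintype J] [Fintype I] {x : J → I → S}
    (hx : Con x) (ξ : I → K) : ∑ j, ‖∑ i, U (x j i) (ξ i)‖ ^ 2 ≤ s ^ 2 * ∑ i, ‖ξ i‖ ^ 2 := by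
  have hE' : ∀ c ∈ E.centralizer, star c ∈ E.centralizer := fun c h => H9.KB.star_mem hE h
  let A := PA _ hE'
  letI i1 : CStarAlgebra A := StarSubalgebra.cstarAlgebra A (h_closed := PA_closed _ hE')
  letI : CommCStarAlgebra A := { i1 with
    mul_comm := fun a b => Subtype.ext (b.2 a.1 fun d hd => a.2 d fun e he => hc e he d hd) }
  let U' : S →ₗ[ℂ] A := U.codRestrict A.toSubalgebra.toSubmodule fun a d hd => (hd _ (hU a)).symm
  refine mat_bound A.subtype (fun j i => U' (x j i)) (fun χ v => ?_) ξ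
  haveI : Nontrivial A := (χ : A →+* ℂ).domain_nontrivial
  exact scalar_bound ((χ : A →ₗ[ℂ] ℂ) ∘ₗ U') hs
    (fun a => (AlgHom.norm_apply_le_self χ (U' a)).trans (hb a)) hx v

section typeI
variable (hC : ∀ c ∈ C, star c ∈ C) {z e : K →L[ℂ] K} {k : ℕ} {w : Fin k → (K →L[ℂ] K)}
  (hz : IsCP C.centralizer z) (he : Abel C.centralizer e)
  (hw : ∀ i, w i ∈ C.centralizer ∧ w i * e = w i) (hs : ∑ i, w i * star (w i) = z)

include hC he hw in
theorem sandwich {a : K →L[ℂ] K} (ha : a ∈ C.centralizer) (p q : Fin k) :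
    star (w p) * a * w q ∈ {b | ∃ a ∈ C.centralizer, b = e * a * e} := by
  refine ⟨star (w p) * a * w q, H9.KB.mul_mem (H9.KB.mul_mem (H9.KB.star_mem hC (hw p).1) ha)
    (hw q).1, ?_⟩
  have := congrArg star (hw p).2
  rw [star_mul, he.2.1.isSelfAdjoint.star_eq] at this
  rw [mul_assoc e, mul_assoc _ (w q), (hw q).2, ← mul_assoc, ← mul_assoc, this]

include hz hs in
theorem z_mul_w (p : Fin k) : z * w p = w p := by
  have h : star (w p) * (1 - z) = 0 := by
    ext u
    have h1 : ∑ i, ‖star (w i) ((1 - z) u)‖ ^ 2 = 0 := by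
      have := congrArg (fun a : K →L[ℂ] K => (⟪(1 - z) u, a ((1 - z) u)⟫_ℂ).re) hs
      simp only [_root_.sum_apply, inner_sum, Complex.re_sum, mul_apply_eq_comp] at this
      have e0 : z ((1 - z) u) = 0 := by
        have : z * (1 - z) = 0 := by rw [mul_sub, mul_one, hz.proj.1, sub_self]
        exact congrArg (fun a : K →L[ℂ] K => a u) this
      rw [e0, inner_zero_right, Complex.zero_re] at this
      rw [← this]
      exact sum_congr rfl fun i _ => by rw [← inner_star', re_self]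
    rw [sum_eq_zero_iff_of_nonneg fun _ _ => by positivity] at h1
    exact norm_eq_zero.1 (pow_eq_zero_iff two_ne_zero |>.1 (h1 p (mem_univ p)))
  have := congrArg star h
  rw [star_mul, star_star, star_sub, star_one, hz.proj.isSelfAdjoint.star_eq, star_zero, sub_mul,
    one_mul, sub_eq_zero] at this
  exact this.symm

include hC hz he hw hs in
theorem trace_comm {x y : K →L[ℂ] K} (hx : x ∈ C.centralizer) (hy : y ∈ C.centralizer) :
    ∑ p, star (w p) * (x * y) * w p = ∑ p, star (w p) * (y * x) * w p := by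
  have k1 : ∀ x ∈ C.centralizer, ∀ y ∈ C.centralizer, ∑ p, star (w p) * (x * y) * w p =
      ∑ p, ∑ q, (star (w p) * x * w q) * (star (w q) * y * w p) := by
    intro x _ y hy
    refine sum_congr rfl fun p _ => ?_
    have : y * w p = z * (y * w p) := by
      rw [← mul_assoc, (hz.comm y hy).eq, mul_assoc, z_mul_w hz hs]
    rw [mul_assoc, mul_assoc, this, ← hs]
    simp only [sum_mul, mul_sum, mul_assoc]
  rw [k1 x hx y hy, k1 y hy x hx, sum_comm]
  refine sum_congr rfl fun p _ => sum_congr rfl fun q _ => ?_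
  obtain ⟨a, ha, e1⟩ := sandwich hC he hw hx q p
  obtain ⟨b, hb, e2⟩ := sandwich hC he hw hy p q
  rw [e1, e2]
  exact (he.2.2 a ha b hb).eq

include hC hz he hw hs in
theorem tracial (hS : ∀ a, a ∈ S ↔ a ∈ C.centralizer) (a : S) {v : S} (hv : v ∈ unitary S) (ξ : K) :
    ∑ p, ‖(a * v : S).1 (w p ξ)‖ ^ 2 = ∑ p, ‖a.1 (w p ξ)‖ ^ 2 := by
  have e1 : ∀ b : S, ∑ p, ‖b.1 (w p ξ)‖ ^ 2 =
      (⟪ξ, (∑ p, star (w p) * (star b * b : S).1 * w p) ξ⟫_ℂ).re := by
    intro b
    simp only [_root_.sum_apply, inner_sum, Complex.re_sum, mul_apply_eq_comp, inner_star'', mul_ap,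
      inner_star_right, re_self]
  rw [e1, e1]
  have := trace_comm hC hz he hw hs ((hS _).1 (star v).2) ((hS _).1 (star a * a * v).2)
  have e2 : star a * a * v * star v = star a * a := by rw [mul_assoc, hv.2, mul_one]
  have e3 : star (a * v) * (a * v) = star v * (star a * a * v) := by
    simp only [star_mul, mul_assoc]
  rw [e3]
  conv_rhs => rw [← e2]
  exact congrArg (fun T : K →L[ℂ] K => (⟪ξ, T ξ⟫_ℂ).re) this

include hC hz he hw hs in
theorem cb_typeI (hS : ∀ a, a ∈ S ↔ a ∈ C.centralizer) (hzS : z ∈ S) (T : S →L[ℂ] S) :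
    ∃ c, CB S (LinearMap.mulLeft ℂ (⟨z, hzS⟩ : S) ∘ₗ T.toLinearMap) c := by
  refine ⟨∑ p, ∑ q, ‖w p‖ * (‖w p‖ * ‖T‖ * ‖w q‖) * ‖w q‖, fun J I _ _ x hx ζ ξ => ?_⟩
  let U : Fin k → Fin k → S →ₗ[ℂ] (K →L[ℂ] K) := fun p q =>
    LinearMap.mulRight ℂ (w q) ∘ₗ LinearMap.mulLeft ℂ (star (w p)) ∘ₗ
      S.subtype.toAlgHom.toLinearMap ∘ₗ T.toLinearMap
  have hU : ∀ p q a, U p q a = star (w p) * (T a).1 * w q := fun _ _ _ => rfl
  have e1 : ∀ a : S, ((LinearMap.mulLeft ℂ (⟨z, hzS⟩ : S) ∘ₗ T.toLinearMap) a).1 =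
      ∑ p, ∑ q, w p * U p q a * star (w q) := by
    intro a
    have : z * (T a).1 = z * (T a).1 * z := by
      rw [mul_assoc, ← (hz.comm _ ((hS _).1 (T a).2)).eq, ← mul_assoc, hz.proj.1]
    refine this.trans ?_
    rw [← hs]
    simp only [hU, sum_mul, mul_sum, mul_assoc]
    exact sum_comm
  have e2 : ∑ j, ∑ i, ⟪ζ j, ((LinearMap.mulLeft ℂ (⟨z, hzS⟩ : S) ∘ₗ T.toLinearMap) (x j i)).1
      (ξ i)⟫_ℂ = ∑ p, ∑ q, ∑ j, ⟪star (w p) (ζ j), ∑ i, U p q (x j i) (star (w q) (ξ i))⟫_ℂ := by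
    simp only [e1, _root_.sum_apply, inner_sum, mul_apply_eq_comp, inner_star']
    refine Eq.trans (sum_congr rfl fun j _ => Eq.trans sum_comm
      (sum_congr rfl fun p _ => sum_comm)) (Eq.trans sum_comm (sum_congr rfl fun p _ => sum_comm))
  rw [e2, sum_mul]
  refine (norm_sum_le _ _).trans (sum_le_sum fun p _ => ?_)
  rw [sum_mul]
  refine (norm_sum_le _ _).trans (sum_le_sum fun q _ => ?_)
  have b0 : ∀ (p : Fin k) {J : Type} [Fintype J] (ζ : J → K),
      √(∑ j, ‖star (w p) (ζ j)‖ ^ 2) ≤ ‖w p‖ * √(∑ j, ‖ζ j‖ ^ 2) := by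
    intro p J _ ζ
    rw [← Real.sqrt_sq (norm_nonneg (w p)), ← Real.sqrt_mul (sq_nonneg _), mul_sum]
    refine Real.sqrt_le_sqrt (sum_le_sum fun j _ => ?_)
    rw [← mul_pow]
    exact pow_le_pow_left₀ (norm_nonneg _) (((star (w p)).le_opNorm _).trans_eq (by rw [norm_star])) 2
  have b1 := comm_bound (E := {b | ∃ a ∈ C.centralizer, b = e * a * e}) (by
      rintro _ ⟨a, ha, rfl⟩
      exact ⟨star a, H9.KB.star_mem hC ha, by
        simp only [star_mul, he.2.1.isSelfAdjoint.star_eq, mul_assoc]⟩) (by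
      rintro _ ⟨a, ha, rfl⟩ _ ⟨b, hb, rfl⟩
      exact he.2.2 a ha b hb) (U p q) (fun a => sandwich hC he hw ((hS _).1 (T a).2) p q)
    (s := ‖w p‖ * ‖T‖ * ‖w q‖) (by positivity) (fun a => by
      rw [hU]
      refine (norm_mul_le _ _).trans ((mul_le_mul_of_nonneg_right (norm_mul_le _ _)
        (norm_nonneg _)).trans ?_)
      rw [norm_star]
      have : ‖(T a).1‖ ≤ ‖T‖ * ‖a‖ := T.le_opNorm a
      calc ‖w p‖ * ‖(T a).1‖ * ‖w q‖ ≤ ‖w p‖ * (‖T‖ * ‖a‖) * ‖w q‖ := by gcongr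
        _ = _ := by ring) hx fun i => star (w q) (ξ i)
  have b2 := Real.sqrt_le_sqrt b1
  rw [Real.sqrt_mul (sq_nonneg _), Real.sqrt_sq (by positivity)] at b2
  refine (norm_sum_le _ _).trans ((sum_le_sum fun j _ => norm_inner_le_norm _ _).trans
    ((sum_mul_le_sqrt _ _).trans ?_))
  calc _ ≤ (‖w p‖ * √(∑ j, ‖ζ j‖ ^ 2)) * (‖w p‖ * ‖T‖ * ‖w q‖ * (‖w q‖ * √(∑ i, ‖ξ i‖ ^ 2))) :=
        mul_le_mul (b0 p ζ) (b2.trans (mul_le_mul_of_nonneg_left (b0 q ξ) (by positivity)))
          (Real.sqrt_nonneg _) (by positivity)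
    _ = _ := by ring

end typeI

theorem zmean_typeI (hC : ∀ c ∈ C, star c ∈ C) (hS : ∀ a, a ∈ S ↔ a ∈ C.centralizer) (z : S)
    (hz : IsCP C.centralizer z) (h : TypeI C.centralizer z) : ZMean S z := by
  obtain ⟨k, e, w, he, hw, hs⟩ := h
  have hzc : ∀ a : S, z * a = a * z := fun a => Subtype.ext (hz.comm _ ((hS _).1 a.2)).eq
  obtain ⟨l, h1, h2, h3⟩ := mean_of_finite (closed_of hS)
    (fun m => (m.map fun a => star a * a).sum = 1 ∧ (m.map fun a => ‖a‖ ^ 2).sum ≤ 1)
    (fun η => z.1 η = η) (fun a η h => by rw [← mul_ap, hzc, mul_ap, h]) (by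
    intro n T c hc hT v hv η hη ε hε
    have hk : (0 : ℝ) < k + 1 := by positivity
    let η' : (Fin n × Fin k) × Fin k → K := fun t => w t.2 (star (w t.1.2) (η t.1.1))
    obtain ⟨L, _, M, k1, k2⟩ := key T hc hT v hv η' (α := √(1 / (n + 1))) (δ := 0)
      (ε := (ε / (k + 1)) ^ 2) (Real.sqrt_pos.2 (by positivity)) le_rfl (by positivity)
      (fun L _ m => ∑ l, star (m l) * m l = 1 ∧ ∑ l, ‖m l‖ ^ 2 ≤ 1)
      (fun L L' _ _ M m hM hm => ⟨by
        rw [Fintype.sum_prod_type, sum_comm, ← hm.1]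
        refine sum_congr rfl fun l _ => ?_
        simp only [star_mul, mul_assoc, ← mul_sum]
        simp only [← mul_assoc, ← sum_mul, hM.1, one_mul], by
        refine le_trans ?_ (mul_le_one₀ hM.2 (by positivity) hm.2)
        rw [Fintype.sum_prod_type, sum_mul_sum]
        refine sum_le_sum fun _ _ => sum_le_sum fun _ _ => ?_
        rw [← mul_pow]
        exact pow_le_pow_left₀ (norm_nonneg _) (norm_mul_le _ _) 2⟩) (fun _ _ _ h => h.1)
      (fun J _ ζ => ∀ a : S, ∑ j, ‖a.1 (ζ j)‖ ^ 2 = ∑ j, ‖a.1 (η' j)‖ ^ 2) (fun _ => rfl) (by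
      intro J _ ζ hζ
      have hu : ∀ o : Option (Fin n), o.elim 1 v ∈ unitary S := by
        rintro (_ | i)
        · exact one_mem _
        · exact hv i
      have hq := Real.sq_sqrt (show (0 : ℝ) ≤ 1 / (n + 1) by positivity)
      have hn : ((n + 1 : ℕ) : ℝ) * (1 / (n + 1)) = 1 := by push_cast; field_simp
      refine ⟨Option (Fin n), inferInstance, fun o => ((√(1 / (n + 1)) : ℝ) : ℂ) • o.elim 1 v, none,
        some, ⟨?_, ?_⟩, by simp, rfl, fun _ => rfl, fun a => ?_⟩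
      · simp only [star_smul_mul, (hu _).1, sum_const, card_univ, Fintype.card_option,
          Fintype.card_fin, hq]
        rw [← Nat.cast_smul_eq_nsmul ℂ, smul_smul, ← Complex.ofReal_natCast, ← Complex.ofReal_mul, hn]
        simp
      · refine le_trans (sum_le_sum fun o _ => (?_ : _ ≤ 1 / ((n : ℝ) + 1))) ?_
        · rw [norm_smul, mul_pow, Complex.norm_real, Real.norm_eq_abs, sq_abs, hq]
          exact mul_le_of_le_one_right (by positivity)
            (pow_le_one₀ (norm_nonneg _) (unit_norm (hu o)))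
        · rw [sum_const, card_univ, Fintype.card_option, Fintype.card_fin, nsmul_eq_mul, hn]
      · rw [Fintype.sum_prod_type]
        have : ∀ o : Option (Fin n), ∑ j, ‖a.1 ((((√(1 / (n + 1)) : ℝ) : ℂ) • o.elim 1 v : S).1
            (ζ j))‖ ^ 2 = 1 / (n + 1) * ∑ j, ‖a.1 (η' j)‖ ^ 2 := by
          intro o
          simp only [smul_ap, map_smul, norm_smul, mul_pow, Complex.norm_real, Real.norm_eq_abs,
            sq_abs, hq, ← mul_sum, ← mul_ap]
          have e5 : ∑ j, ‖(a * o.elim 1 v : S).1 (η' j)‖ ^ 2 = ∑ j, ‖a.1 (η' j)‖ ^ 2 :=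
            (Fintype.sum_prod_type _).trans (Eq.trans (sum_congr rfl fun t _ =>
              tracial hC hz he hw hs hS a (hu o) (star (w t.2) (η t.1)))
              (Fintype.sum_prod_type fun j => ‖a.1 (η' j)‖ ^ 2).symm)
          rw [hζ, e5]
        simp only [this]
        rw [sum_const, card_univ, Fintype.card_option, Fintype.card_fin, nsmul_eq_mul, ← mul_assoc,
          hn, one_mul]) (fun J _ ζ h a => by
        rw [h a]
        have : 0 ≤ ∑ j, ‖a.1 (η' j)‖ ^ 2 := by positivity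
        linarith)
    refine ⟨univ.toList.map M, ⟨by rw [List.map_map, sum_map_toList]; exact k1.1,
      by rw [List.map_map, sum_map_toList]; exact k1.2⟩, fun r => ?_⟩
    rw [cav_toList, cav_toList]
    have e1 : η r = ∑ i, η' ((r, i), i) := by
      rw [← hη r, ← hs, _root_.sum_apply]; rfl
    rw [e1, map_sum]
    refine (norm_sum_le _ _).trans (le_trans (sum_le_sum fun i _ => (?_ : _ ≤ ε / (k + 1))) ?_)
    · rw [← sq_le_sq₀ (norm_nonneg _) (by positivity)]
      refine le_trans (single_le_sum (f := fun j => ‖(star (star (v r) * cavF M (T r) (v r) -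
        cavF M (T r) 1) : S).1 (η' j)‖ ^ 2) (fun _ _ => by positivity) (mem_univ _)) ((k2 r).trans ?_)
      simp
    · rw [sum_const, card_univ, Fintype.card_fin, nsmul_eq_mul, ← mul_div_assoc, div_le_iff₀ hk]
      nlinarith)
  refine ⟨l.map fun m => m.map fun a => (z * star a, a), h1.map _, ?_, fun T a ξ η => ?_⟩
  · rw [eventually_map]
    filter_upwards [h2] with m hm
    simp only [List.map_map, Function.comp_def, mul_assoc, List.sum_map_mul_left, hm.1, mul_one,
      true_and]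
    refine le_trans (List.sum_le_sum fun a _ => ?_) hm.2
    rw [sq]
    refine mul_le_mul_of_nonneg_right ((norm_mul_le _ _).trans ?_) (norm_nonneg _)
    rw [show ‖star a‖ = ‖a‖ from norm_star a.1]
    exact mul_le_of_le_one_left (norm_nonneg _) (hz.proj.norm_le _)
  · obtain ⟨c, hc⟩ := cb_typeI hC hz he hw hs hS z.2 T
    have zz : z * z = z := Subtype.ext hz.proj.1
    have := h3 _ c hc a ξ (z.1 η) (by rw [← mul_ap, zz])
    rw [tendsto_map'_iff]
    refine this.congr fun m => ?_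
    have e1 : ∀ b, tav (m.map fun a => (z * star a, a)) T b =
        cav m (LinearMap.mulLeft ℂ (⟨z.1, z.2⟩ : S) ∘ₗ T.toLinearMap) b := by
      intro b
      simp only [tav, cav, List.map_map, Function.comp_def]
      congr 1
      refine List.map_congr_left fun x _ => ?_
      rw [hzc, mul_assoc]; rfl
    simp only [Function.comp_def, e1]
    rw [mul_ap, ← inner_star_left z, show star z = z from Subtype.ext hz.proj.isSelfAdjoint.star_eq]

end Crest.Agent.H2.KRB
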