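import Crest.Agent.H2.KS9

/-! Kadison similarity, part 10: parameters and the core theorem for unitary matrices. -/

set_option autoImplicit false
set_option maxHeartbeats 800000
open Finset Matrix
open scoped InnerProductSpace

namespace Crest.Agent.H2.KS

/-- Admissible parameters. -/
structure Par (h : ℕ) (δ : ℝ) (K T r : ℕ) : Prop where
  hK : 0 < K
  hT : 0 < T
  hr : 0 < r
  hM : 2 * K ^ 2 ≤ r
  h1 : (((h * (r * T) : ℕ) : ℝ) / ((h * (r * T) + r : ℕ) : ℝ)) ^ K ≤ δ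
  h2 : (K.factorial : ℝ) ^ 2 * ((1 + K ^ 2 + 2 * K ^ 3) / ((h * (r * T) : ℕ) : ℝ)) ≤ δ ^ 2
  h3 : (K : ℝ) / (T : ℝ) ^ 2 * (1 + K / (T : ℝ) ^ 2) ^ K ≤ δ ^ 2

lemma exists_par (h : ℕ) (hh : 0 < h) {δ : ℝ} (hδ : 0 < δ) : ∃ K T r, Par h δ K T r := by
  obtain ⟨k, hk⟩ := exists_nat_gt (h / δ)
  have hh' : (1 : ℝ) ≤ h := by exact_mod_cast hh
  have hk0 : (0 : ℝ) < k := lt_trans (by positivity) hk
  obtain ⟨T, hT⟩ := exists_nat_gt (k * Real.exp (k ^ 2) / δ ^ 2)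
  have hT0 : (0 : ℝ) < T := lt_trans (by positivity) hT
  have hT1 : (1 : ℝ) ≤ T := by exact_mod_cast (show 0 < T by exact_mod_cast hT0)
  set K := k * T with hK
  have hKr : (K : ℝ) = k * T := by rw [hK]; push_cast; rfl
  obtain ⟨r, hr⟩ := exists_nat_gt
    (max (2 * (K : ℝ) ^ 2) ((K.factorial : ℝ) ^ 2 * (1 + K ^ 2 + 2 * K ^ 3) / δ ^ 2))
  have hr1 := (le_max_left _ _).trans_lt hr
  have hr2 := (le_max_right _ _).trans_lt hr
  have hr0 : (0 : ℝ) < r := lt_of_le_of_lt (by positivity) hr1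
  refine ⟨K, T, r, ?_, by exact_mod_cast hT0, by exact_mod_cast hr0, by exact_mod_cast hr1.le,
    ?_, ?_, ?_⟩
  · have : (0 : ℝ) < K := by rw [hKr]; positivity
    exact_mod_cast this
  · push_cast
    have e : (h : ℝ) * (r * T) / (h * (r * T) + r) = (1 + 1 / ((h : ℝ) * T))⁻¹ := by
      field_simp
    rw [e, inv_pow, inv_le_comm₀ (by positivity) hδ]
    refine le_trans ?_ (one_add_mul_le_pow (a := 1 / ((h : ℝ) * T))
      (le_trans (by norm_num) (show (0 : ℝ) ≤ _ by positivity)) K)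
    rw [hKr]
    have e2 : (k : ℝ) * T * (1 / (h * T)) = k / h := by field_simp
    rw [e2]
    have : δ⁻¹ ≤ k / h := by
      rw [le_div_iff₀ (by positivity), inv_mul_eq_div]; exact hk.le
    linarith
  · rw [← mul_div_assoc, div_le_iff₀ (by push_cast; positivity)]
    rw [div_lt_iff₀ (by positivity)] at hr2
    refine hr2.le.trans ?_
    rw [mul_comm]
    refine mul_le_mul_of_nonneg_left ?_ (by positivity)
    push_cast
    calc (r : ℝ) = 1 * (r * 1) := by ring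
      _ ≤ _ := by gcongr
  · have e : (K : ℝ) / (T : ℝ) ^ 2 = k / T := by rw [hKr]; field_simp
    rw [e]
    have b : (1 + (k : ℝ) / T) ^ K ≤ Real.exp (k ^ 2) := by
      calc _ ≤ (Real.exp (k / T)) ^ K := by
            gcongr; rw [add_comm]; exact Real.add_one_le_exp _
        _ = _ := by rw [← Real.exp_nat_mul, hKr]; congr 1; field_simp
    rw [div_lt_iff₀ (by positivity)] at hT
    calc _ ≤ k / T * Real.exp (k ^ 2) := by gcongr
      _ ≤ _ := by rw [div_mul_eq_mul_div, div_le_iff₀ hT0]; linarith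

section
variable {R : Type*} [Ring R] [StarRing R] [Algebra ℂ R] [StarModule ℂ R]
variable {V : Type*} [NormedAddCommGroup V] [InnerProductSpace ℂ V] [CompleteSpace V]
variable {H : Type*} [NormedAddCommGroup H] [InnerProductSpace ℂ H]
variable {ρ : R →⋆ₐ[ℂ] (V →L[ℂ] V)}

lemma sum_eq_of_range {I L M : Type*} [Fintype I] [Fintype L] [AddCommMonoid M] {f : L → I}
    (hf : Function.Injective f) (g : I → M) (hg : ∀ i, i ∉ Set.range f → g i = 0) :
    ∑ i, g i = ∑ l, g (f l) :=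
  (Fintype.sum_of_injective f hf _ _ hg fun _ => rfl).symm

variable (ρ) in
/-- The bound for `n × n` matrices on vectors from `V₀`. -/
def SmallB (V₀ : Submodule ℂ V) (S₁ S₂ : V →L[ℂ] H) (n : ℕ) (κ' : ℝ) : Prop :=
  ∀ (u : Matrix (Fin n) (Fin n) R) (α β : Fin n → V), (∀ γ, nsq (act ρ u γ) ≤ 2 * nsq γ) →
    (∀ i, α i ∈ V₀) → (∀ i, β i ∈ V₀) →
    ‖Bp S₁ S₂ β (act ρ u α)‖ ≤ κ' * (√(nsq fun i => S₁ (α i)) * √(nsq fun i => S₂ (β i)))

lemma SmallB.convert {V₀ : Submodule ℂ V} {S₁ S₂ : V →L[ℂ] H} {n : ℕ} {κ' : ℝ}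
    (h : SmallB ρ V₀ S₁ S₂ n κ') {I : Type*} [Fintype I] {lk : I → Prop} {f : Fin n → I}
    (hf : Function.Injective f) (hlk : ∀ i, lk i → i ∈ Set.range f) (hlk' : ∀ l, lk (f l))
    (u : Matrix I I R) (α β : I → V) (hu : ∀ γ, nsq (act ρ u γ) ≤ 2 * nsq γ)
    (hα : ∀ i, ¬ lk i → α i = 0) (hβ : ∀ i, ¬ lk i → β i = 0) (hα' : ∀ i, α i ∈ V₀)
    (hβ' : ∀ i, β i ∈ V₀) :
    ‖Bp S₁ S₂ β (act ρ u α)‖ ≤ κ' * (√(nsq fun i => S₁ (α i)) * √(nsq fun i => S₂ (β i))) := by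
  have hα0 : ∀ i, i ∉ Set.range f → α i = 0 := fun i hi => hα i fun h => hi (hlk i h)
  have hβ0 : ∀ i, i ∉ Set.range f → β i = 0 := fun i hi => hβ i fun h => hi (hlk i h)
  have key : ∀ (g : I → V), (∀ i, i ∉ Set.range f → g i = 0) → ∀ l,
      act ρ (u.submatrix f f) (g ∘ f) l = act ρ u g (f l) := by
    intro g hg l
    rw [act_apply, act_apply, sum_eq_of_range hf]
    · rfl
    · intro i hi; simp [hg i hi]
  have := h (u.submatrix f f) (α ∘ f) (β ∘ f) (fun γ => ?_) (fun i => hα' _) (fun i => hβ' _)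
  · convert this using 3
    · unfold Bp
      rw [sum_eq_of_range hf]
      · simp [key α hα0]
      · intro i hi; simp [hβ0 i hi]
    · unfold nsq
      rw [sum_eq_of_range hf]
      · rfl
      · intro i hi; simp [hα0 i hi]
    · unfold nsq
      rw [sum_eq_of_range hf]
      · rfl
      · intro i hi; simp [hβ0 i hi]
  · set g : I → V := Function.extend f γ 0 with hg
    have hg0 : ∀ i, i ∉ Set.range f → g i = 0 := fun i hi => by
      rw [hg, Function.extend_apply' _ _ _ hi]; rfl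
    have hg1 : g ∘ f = γ := Function.extend_comp hf _ _
    have e1 : nsq g = nsq γ := by
      unfold nsq
      rw [sum_eq_of_range hf]
      · rw [← hg1]; rfl
      · intro i hi; simp [hg0 i hi]
    rw [← e1]
    refine le_trans ?_ (hu g)
    rw [← hg1]
    unfold nsq
    simp only [key g hg0]
    classical
    rw [← sum_image (s := univ) (g := f) (f := fun i => ‖act ρ u g i‖ ^ 2) fun a _ b _ h => hf h]
    exact sum_le_sum_of_subset_of_nonneg (subset_univ _) fun _ _ _ => sq_nonneg _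

theorem core {h K T r : ℕ} {δ : ℝ} (hh : 0 < h) (hδ0 : 0 ≤ δ) (hδ1 : δ ≤ 1) (hP : Par h δ K T r)
    {A : Type*} [Fintype A] [DecidableEq A] (hA : Fintype.card A = h * (r * T))
    {X : Matrix A A R} (hX : Xᴴ * X = 1) (hX' : X * Xᴴ = 1) (V₀ : Submodule ℂ V)
    (hE : EP ρ V₀ X) (hE' : EP ρ V₀ Xᴴ) {S₁ S₂ : V →L[ℂ] H} (hB : BalR ρ S₁ S₂) {C Y κ' : ℝ}
    (hC : 0 ≤ C) (hS₁ : ColB ρ S₁ C) (hS₂ : ColB ρ S₂ C) (hY1 : ‖S₁‖ ≤ Y) (hY2 : ‖S₂‖ ≤ Y)
    (hκ : 0 ≤ κ') (H1 : SmallB ρ V₀ S₁ S₂ (r * T) κ')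
    (ξ η : A → V) (hξ : ∀ a, ξ a ∈ V₀) (hη : ∀ a, η a ∈ V₀) :
    ‖Bp S₁ S₂ η (act ρ X ξ)‖ ≤ 8 / 3 * κ' *
      (√(C * nsq (fun a => S₁ (ξ a)) + 9 * Y ^ 2 * δ * (nsq ξ + nsq η)) *
       √(C * nsq (fun a => S₂ (η a)) + 9 * Y ^ 2 * δ * (nsq ξ + nsq η))) +
      Y ^ 2 * (3 * (√(5 * δ) * (nsq ξ + nsq η))) := by
  haveI : NeZero T := ⟨hP.hT.ne'⟩
  set lk : A ⊕ Fin r → Prop := fun a => a.isRight = true with hlk
  have hpm : pm R lk = fromBlocks 0 0 0 1 := by
    ext (a | a) (b | b) <;> simp [pm, hlk, diagonal_apply, Matrix.one_apply]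
  have h1p : 1 - pm R lk = fromBlocks 1 0 0 0 := by
    rw [hpm, ← fromBlocks_one, sub_eq_iff_eq_add, fromBlocks_add]; simp
  have hmm : mm lk = h * (r * T) := by
    rw [← hA, mm, ← card_univ]
    symm
    refine card_bij (fun a _ => Sum.inl a) (by simp [hlk]) (by simp) ?_
    rintro (a | a) ha
    · exact ⟨a, mem_univ _, rfl⟩
    · simp [hlk] at ha
  have hcard : Fintype.card (A ⊕ Fin r) = h * (r * T) + r := by simp [hA]
  have hEP : ∀ {Y : Matrix A A R}, EP ρ V₀ Y →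
      EP ρ V₀ (fromBlocks Y 0 0 0 : Matrix (A ⊕ Fin r) (A ⊕ Fin r) R) := by
    intro Y hY
    rintro (a | a) (b | b) v hv
    · exact hY _ _ _ hv
    all_goals simp
  have hmem : ∀ {g : A → V}, (∀ a, g a ∈ V₀) → ∀ a : A ⊕ Fin r, Sum.elim g 0 a ∈ V₀ := by
    intro g hg
    rintro (a | a)
    · exact hg a
    · exact V₀.zero_mem
  have hc : Fintype.card (Fin (r * T)) = Fintype.card (Fin r × ZMod T) := by simp
  set e := Fintype.equivOfCardEq hc
  have := core1 (ρ := ρ) (lk := lk) (ZMod T) (X := fromBlocks X 0 0 0)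
    (by rw [h1p, fromBlocks_conjTranspose, fromBlocks_multiply, hX]; simp)
    (by rw [h1p, fromBlocks_conjTranspose, fromBlocks_multiply, hX']; simp)
    (by rw [hpm, fromBlocks_multiply]; simp) (by rw [hpm, fromBlocks_multiply]; simp) V₀ (hEP hE)
    (by rw [fromBlocks_conjTranspose]; simpa using hEP hE') hB hC hS₁ hS₂ hY1 hY2 hκ
    (H1.convert (lk := fun i : (A ⊕ Fin r) × ZMod T => lk i.1)
      (f := fun l => (Sum.inr (e l).1, (e l).2)) (by
        intro l l' hl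
        simp only [Prod.mk.injEq, Sum.inr.injEq] at hl
        exact e.injective (Prod.ext hl.1 hl.2)) (by
        rintro ⟨a | a, s⟩ hi
        · simp [hlk] at hi
        · exact ⟨e.symm (a, s), by simp⟩) (fun l => by simp [hlk]))
    (Sum.elim ξ 0) (Sum.elim η 0) (hmem hξ) (hmem hη) K hP.hK hδ0 hδ1
    (by rw [hmm]; have := hP.hr; have := hP.hT; positivity)
    (by
      rw [Fintype.card_prod, hcard, ZMod.card]
      exact hP.hM.trans (le_trans (Nat.le_add_left _ _) (Nat.le_mul_of_pos_right _ hP.hT)))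
    (by rw [hmm, hcard]; exact hP.h1) (by rw [hmm]; exact hP.h2) (by rw [ZMod.card]; exact hP.h3)
  have n1 : ∀ g : A → V, nsq (Sum.elim g 0 : A ⊕ Fin r → V) = nsq g := by
    intro g; simp [nsq, Fintype.sum_sum_type]
  have n2 : ∀ (S : V →L[ℂ] H) (g : A → V),
      nsq (fun a => S ((Sum.elim g 0 : A ⊕ Fin r → V) a)) = nsq fun a => S (g a) := by
    intro S g; simp [nsq, Fintype.sum_sum_type]
  have n3 : Bp S₁ S₂ (Sum.elim η 0 : A ⊕ Fin r → V)
      (act ρ (fromBlocks X 0 0 0) (Sum.elim ξ 0 : A ⊕ Fin r → V)) = Bp S₁ S₂ η (act ρ X ξ) := by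
    simp [Bp, act_apply, Fintype.sum_sum_type]
  rwa [n1, n1, n2, n2, n3] at this

end

end Crest.Agent.H2.KS
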