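import Crest.Agent.H2.KS11
import Crest.Agent.H9.KA2
import Crest.Agent.H9.KB3

/-! Kadison similarity, part 12: assembly of the uniform theorem. -/

set_option autoImplicit false
set_option maxHeartbeats 800000
open Finset Matrix
open scoped InnerProductSpace Topology

namespace Crest.Agent.H2.KS
open Crest.Agent.H9

section
variable {K : Type*} [NormedAddCommGroup K] [InnerProductSpace ℂ K] [CompleteSpace K]
variable {H : Type*} [NormedAddCommGroup H] [InnerProductSpace ℂ H]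

/-- The bound on the type I part. -/
def TypeIB (P : Set (K →L[ℂ] K)) (S₁ S₂ : K →L[ℂ] H) (B : ℝ) : Prop :=
  ∀ (n : ℕ) (g : K →L[ℂ] K), IsCP P g → Small P n g →
  ∀ (h : ℕ) (x : Fin h → Fin h → (K →L[ℂ] K)), (∀ i j, x i j ∈ P) →
    (∀ ξ : Fin h → K, ∑ i, ‖∑ j, x i j (ξ j)‖ ^ 2 ≤ ∑ j, ‖ξ j‖ ^ 2) →
    ∀ ξ η : Fin h → K, ‖∑ i, ∑ j, ⟪S₂ (g (η i)), S₁ (x i j (g (ξ j)))⟫_ℂ‖ ≤
      B * √(∑ j, ‖S₁ (ξ j)‖ ^ 2) * √(∑ i, ‖S₂ (η i)‖ ^ 2)

theorem ubound_of {C : Set (K →L[ℂ] K)} (hC : ∀ c ∈ C, star c ∈ C) {S₁ S₂ : K →L[ℂ] H} {κ : ℝ}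
    (hκ : 1 ≤ κ) (h1 : Adm C.centralizer S₁ κ) (h2 : Adm C.centralizer S₂ κ)
    (hB : Bal C.centralizer S₁ S₂) (hI : TypeIB C.centralizer S₁ S₂ (10 * Cc κ ^ 3)) :
    UBound C.centralizer S₁ S₂ (Phi κ) := by
  intro h x hx hc ξ η
  have hC0 : 0 ≤ Cc κ := by unfold Cc; positivity
  rcases Nat.eq_zero_or_pos h with rfl | hh
  · simp
  set ρ := (PA C hC).subtype with hρ
  set X : Matrix (Fin h) (Fin h) (PA C hC) := fun i j => ⟨x i j, hx i j⟩ with hX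
  obtain ⟨U, c, hU, hc2, hXU⟩ := exists_four_unitary C hC X hc
  set Y := max ‖S₁‖ ‖S₂‖ with hY
  set a := nsq (fun j => S₁ (ξ j)) with ha
  set b := nsq (fun j => S₂ (η j)) with hb
  set Λ := nsq ξ + nsq η with hΛ
  set f : ℝ → ℝ := fun δ => 2 * (4 * κ * Cc κ *
      (√(Cc κ * (Cc κ * a) + 9 * Y ^ 2 * δ * Λ) * √(Cc κ * (Cc κ * b) + 9 * Y ^ 2 * δ * Λ)) +
      Y ^ 2 * (3 * (√(5 * δ) * Λ))) + 10 * Cc κ ^ 3 * √a * √b with hf
  have key : ∀ δ, 0 < δ → δ ≤ 1 → ‖∑ i, ∑ j, ⟪S₂ (η i), S₁ (x i j (ξ j))⟫_ℂ‖ ≤ f δ := by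
    intro δ hδ0 hδ1
    obtain ⟨k, T, r, hP⟩ := exists_par (2 * h) (by omega) hδ0
    obtain ⟨e, v, w, z, hs, hw, hew, hwz, hz, hsm⟩ :=
      KB.exists_decomp hC (r * T) (Nat.mul_pos hP.hr hP.hT)
    have hg : IsCP C.centralizer (1 - z) :=
      ⟨KB.sub_mem KB.one_mem hz.mem, hz.proj.one_sub,
        fun a ha => (Commute.one_left a).sub_left (hz.comm a ha)⟩
    have e1 : ∑ i, ∑ j, ⟪S₂ (η i), S₁ (x i j (ξ j))⟫_ℂ =
        Bp S₁ S₂ η (act ρ X (fun j => z (ξ j))) +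
        ∑ i, ∑ j, ⟪S₂ ((1 - z) (η i)), S₁ (x i j ((1 - z) (ξ j)))⟫_ℂ := by
      simp only [Bp, act_apply, map_sum, inner_sum, ← sum_add_distrib]
      refine sum_congr rfl fun i _ => sum_congr rfl fun j _ => ?_
      have b1 := hB _ hg.mem (x i j ((1 - z) (ξ j))) (η i)
      rw [hg.proj.isSelfAdjoint.star_eq] at b1
      have b2 : (1 - z) (x i j ((1 - z) (ξ j))) = x i j ((1 - z) (ξ j)) := by
        rw [← mul_apply_eq_comp, (hg.comm _ (hx i j)).eq, mul_apply_eq_comp,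
          ← mul_apply_eq_comp (1 - z) (1 - z), hg.proj.isIdempotentElem.eq]
      rw [← b1, b2, ← inner_add_right, ← map_add]
      congr 2
      change _ = x i j _ + _
      rw [← map_add]; simp
    have e2 : ‖Bp S₁ S₂ η (act ρ X (fun j => z (ξ j)))‖ ≤ 2 * (4 * κ * Cc κ *
        (√(Cc κ * (Cc κ * a) + 9 * Y ^ 2 * δ * Λ) * √(Cc κ * (Cc κ * b) + 9 * Y ^ 2 * δ * Λ)) +
        Y ^ 2 * (3 * (√(5 * δ) * Λ))) := by
      rw [hXU, act_sum, Bp_sum_right]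
      refine (norm_sum_le _ _).trans ((sum_le_card_nsmul _ _ (1 / 2 * (4 * κ * Cc κ *
        (√(Cc κ * (Cc κ * a) + 9 * Y ^ 2 * δ * Λ) * √(Cc κ * (Cc κ * b) + 9 * Y ^ 2 * δ * Λ)) +
        Y ^ 2 * (3 * (√(5 * δ) * Λ)))) fun l _ => ?_).trans (le_of_eq ?_))
      · rw [act_smul, Bp_smul_right, norm_mul]
        exact mul_le_mul (hc2 l) (large_bound hC hκ h1 h2 hB (le_max_left _ _) (le_max_right _ _)
          hh hδ0.le hδ1 hP hs hw hew hwz hz (U l) (hU l).1 (hU l).2 ξ η) (norm_nonneg _)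
          (by norm_num)
      · simp only [card_univ, Fintype.card_fin, nsmul_eq_mul]
        push_cast; ring
    rw [e1]
    exact (norm_add_le _ _).trans (add_le_add e2 (hI _ _ hg hsm h x hx hc ξ η))
  have hcont : Continuous f := by rw [hf]; fun_prop
  have lim : ‖∑ i, ∑ j, ⟪S₂ (η i), S₁ (x i j (ξ j))⟫_ℂ‖ ≤ f 0 := by
    refine ge_of_tendsto ((hcont.tendsto 0).mono_left (nhdsWithin_le_nhds (s := Set.Ioi 0))) ?_
    filter_upwards [Ioc_mem_nhdsGT (zero_lt_one' ℝ)] with δ hδ using key δ hδ.1 hδ.2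
  refine lim.trans ?_
  have s : ∀ t : ℝ, √(Cc κ * (Cc κ * t)) = Cc κ * √t := fun t => by
    rw [← mul_assoc, Real.sqrt_mul (mul_self_nonneg _), Real.sqrt_mul_self hC0]
  simp only [hf, mul_zero, zero_mul, add_zero, Real.sqrt_zero, s, Phi]
  change _ ≤ _ * √a * √b
  have : 0 ≤ κ * Cc κ ^ 3 * (√a * √b) := by positivity
  nlinarith

end

end Crest.Agent.H2.KS
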