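import Crest.Agent.H2.KS1

/-! Kadison similarity, part 2: matrix actions and the deterministic first-return estimate. -/

set_option autoImplicit false
set_option maxHeartbeats 400000
open Finset Matrix
open scoped InnerProductSpace

namespace Crest.Agent.H2.KS

/-- Squared `ℓ²` norm of a finite family. -/
noncomputable def nsq {I W : Type*} [Fintype I] [NormedAddCommGroup W] (g : I → W) : ℝ :=
  ∑ i, ‖g i‖ ^ 2

lemma nsq_nonneg {I W : Type*} [Fintype I] [NormedAddCommGroup W] (g : I → W) : 0 ≤ nsq g :=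
  sum_nonneg fun _ _ => sq_nonneg _

section
variable {R : Type*} [Ring R] [StarRing R] [Algebra ℂ R] [StarModule ℂ R]
variable {V : Type*} [NormedAddCommGroup V] [InnerProductSpace ℂ V] [CompleteSpace V]
variable {H : Type*} [NormedAddCommGroup H] [InnerProductSpace ℂ H]
variable (ρ : R →⋆ₐ[ℂ] (V →L[ℂ] V))

/-- Action of a matrix over `R` on columns of vectors. -/
noncomputable def act {I J : Type*} [Fintype J] (M : Matrix I J R) : (J → V) →ₗ[ℂ] (I → V) where
  toFun g i := ∑ j, ρ (M i j) (g j)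
  map_add' g g' := by funext i; simp [sum_add_distrib]
  map_smul' c g := by funext i; simp [smul_sum]

lemma act_apply {I J : Type*} [Fintype J] (M : Matrix I J R) (g : J → V) (i : I) :
    act ρ M g i = ∑ j, ρ (M i j) (g j) := rfl

lemma act_mul {I J L : Type*} [Fintype J] [Fintype L] (M : Matrix I J R) (N : Matrix J L R)
    (g : L → V) : act ρ (M * N) g = act ρ M (act ρ N g) := by
  funext i
  simp only [act_apply, Matrix.mul_apply, map_sum, map_mul, _root_.sum_apply,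
    mul_apply_eq_comp]
  rw [sum_comm]

lemma act_one {I : Type*} [Fintype I] [DecidableEq I] (g : I → V) :
    act ρ (1 : Matrix I I R) g = g := by
  funext i
  simp only [act_apply, Matrix.one_apply]
  rw [sum_eq_single i] <;> simp +contextual [eq_comm]

lemma act_add {I J : Type*} [Fintype J] (M N : Matrix I J R) (g : J → V) :
    act ρ (M + N) g = act ρ M g + act ρ N g := by
  funext i; simp [act_apply, sum_add_distrib]

lemma act_sub {I J : Type*} [Fintype J] (M N : Matrix I J R) (g : J → V) :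
    act ρ (M - N) g = act ρ M g - act ρ N g := by
  funext i; simp [act_apply, sum_sub_distrib]

lemma act_smul {I J : Type*} [Fintype J] (c : ℂ) (M : Matrix I J R) (g : J → V) :
    act ρ (c • M) g = c • act ρ M g := by
  funext i; simp [act_apply, smul_sum]

lemma act_sum {I J ι : Type*} [Fintype J] (s : Finset ι) (M : ι → Matrix I J R) (g : J → V) :
    act ρ (∑ k ∈ s, M k) g = ∑ k ∈ s, act ρ (M k) g := by
  classical
  induction s using Finset.induction_on with
  | empty => funext i; simp [act_apply]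
  | insert a s ha ih => rw [sum_insert ha, sum_insert ha, act_add, ih]

/-- The pairing `∑ ⟪S₂ f i, S₁ g i⟫`. -/
noncomputable def Bp (S₁ S₂ : V →L[ℂ] H) {I : Type*} [Fintype I] (f g : I → V) : ℂ :=
  ∑ i, ⟪S₂ (f i), S₁ (g i)⟫_ℂ

/-- Balance of the pairing for a representation. -/
def BalR (S₁ S₂ : V →L[ℂ] H) : Prop :=
  ∀ a ζ η, ⟪S₂ η, S₁ (ρ a ζ)⟫_ℂ = ⟪S₂ (ρ (star a) η), S₁ ζ⟫_ℂ

lemma balR_id : BalR ρ (ContinuousLinearMap.id ℂ V) (ContinuousLinearMap.id ℂ V) := by
  intro a ζ η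
  simp only [ContinuousLinearMap.id_apply, map_star]
  rw [ContinuousLinearMap.star_eq_adjoint, ContinuousLinearMap.adjoint_inner_left]

variable {ρ}

lemma Bp_act {S₁ S₂ : V →L[ℂ] H} (hB : BalR ρ S₁ S₂) {I J : Type*} [Fintype I] [Fintype J]
    (M : Matrix I J R) (f : I → V) (g : J → V) :
    Bp S₁ S₂ f (act ρ M g) = Bp S₁ S₂ (act ρ Mᴴ f) g := by
  simp only [Bp, act_apply, map_sum, inner_sum, sum_inner, conjTranspose_apply]
  rw [sum_comm]
  exact sum_congr rfl fun j _ => sum_congr rfl fun i _ => hB _ _ _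

omit [CompleteSpace V] in
lemma Bp_sum_right (S₁ S₂ : V →L[ℂ] H) {I ι : Type*} [Fintype I] (s : Finset ι) (f : I → V)
    (g : ι → I → V) : Bp S₁ S₂ f (∑ k ∈ s, g k) = ∑ k ∈ s, Bp S₁ S₂ f (g k) := by
  simp only [Bp, Finset.sum_apply, map_sum, inner_sum]; rw [sum_comm]

omit [CompleteSpace V] in
lemma Bp_sum_left (S₁ S₂ : V →L[ℂ] H) {I ι : Type*} [Fintype I] (s : Finset ι) (f : ι → I → V)
    (g : I → V) : Bp S₁ S₂ (∑ k ∈ s, f k) g = ∑ k ∈ s, Bp S₁ S₂ (f k) g := by
  simp only [Bp, Finset.sum_apply, map_sum, sum_inner]; rw [sum_comm]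

omit [CompleteSpace V] in
lemma Bp_smul_right (S₁ S₂ : V →L[ℂ] H) {I : Type*} [Fintype I] (c : ℂ) (f g : I → V) :
    Bp S₁ S₂ f (c • g) = c * Bp S₁ S₂ f g := by
  simp [Bp, inner_smul_right, mul_sum]

omit [CompleteSpace V] in
lemma Bp_smul_left (S₁ S₂ : V →L[ℂ] H) {I : Type*} [Fintype I] (c : ℂ) (f g : I → V) :
    Bp S₁ S₂ (c • f) g = (starRingEnd ℂ) c * Bp S₁ S₂ f g := by
  simp only [Bp, Pi.smul_apply, map_smul, inner_smul_left, mul_sum]

omit [CompleteSpace V] in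
lemma Bp_add_right (S₁ S₂ : V →L[ℂ] H) {I : Type*} [Fintype I] (f g g' : I → V) :
    Bp S₁ S₂ f (g + g') = Bp S₁ S₂ f g + Bp S₁ S₂ f g' := by
  simp [Bp, inner_add_right, sum_add_distrib]

omit [CompleteSpace V] in
lemma Bp_sub_right (S₁ S₂ : V →L[ℂ] H) {I : Type*} [Fintype I] (f g g' : I → V) :
    Bp S₁ S₂ f (g - g') = Bp S₁ S₂ f g - Bp S₁ S₂ f g' := by
  simp [Bp, inner_sub_right, sum_sub_distrib]

lemma norm_sum_inner_le {I : Type*} [Fintype I] (f g : I → H) :
    ‖∑ i, ⟪f i, g i⟫_ℂ‖ ≤ √(nsq f) * √(nsq g) := by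
  refine (norm_sum_le _ _).trans ((sum_le_sum fun i _ => norm_inner_le_norm _ _).trans ?_)
  exact Real.sum_mul_le_sqrt_mul_sqrt _ _ _

omit [CompleteSpace V] in
lemma nsq_comp_le {I : Type*} [Fintype I] (S : V →L[ℂ] H) {Y : ℝ} (hY : ‖S‖ ≤ Y) (g : I → V) :
    nsq (fun i => S (g i)) ≤ Y ^ 2 * nsq g := by
  unfold nsq
  rw [mul_sum]
  refine sum_le_sum fun i _ => ?_
  rw [← mul_pow]
  exact pow_le_pow_left₀ (norm_nonneg _)
    ((S.le_opNorm _).trans (mul_le_mul_of_nonneg_right hY (norm_nonneg _))) 2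

omit [CompleteSpace V] in
lemma norm_Bp_le (S₁ S₂ : V →L[ℂ] H) {Y : ℝ} (h1 : ‖S₁‖ ≤ Y) (h2 : ‖S₂‖ ≤ Y) {I : Type*}
    [Fintype I] (f g : I → V) : ‖Bp S₁ S₂ f g‖ ≤ Y ^ 2 * (√(nsq f) * √(nsq g)) := by
  have hY : 0 ≤ Y := (norm_nonneg _).trans h1
  refine (norm_sum_inner_le _ _).trans ?_
  have e1 := Real.sqrt_le_sqrt (nsq_comp_le S₂ h2 f)
  have e2 := Real.sqrt_le_sqrt (nsq_comp_le S₁ h1 g)
  rw [Real.sqrt_mul (sq_nonneg _), Real.sqrt_sq hY] at e1 e2
  calc _ ≤ (Y * √(nsq f)) * (Y * √(nsq g)) := by gcongr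
    _ = _ := by ring

omit [CompleteSpace V] in
lemma Bp_id_self {I : Type*} [Fintype I] (g : I → V) :
    Bp (ContinuousLinearMap.id ℂ V) (ContinuousLinearMap.id ℂ V) g g = (nsq g : ℂ) := by
  simp [Bp, nsq, inner_self_eq_norm_sq_to_K]

lemma nsq_act {I J : Type*} [Fintype I] [Fintype J] (M : Matrix I J R) (g : J → V) :
    (nsq (act ρ M g) : ℂ) =
      Bp (ContinuousLinearMap.id ℂ V) (ContinuousLinearMap.id ℂ V) g (act ρ (Mᴴ * M) g) := by
  rw [act_mul, Bp_act (balR_id ρ), conjTranspose_conjTranspose, Bp_id_self]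

lemma nsq_act_unitary {I J : Type*} [Fintype I] [Fintype J] [DecidableEq J] {M : Matrix I J R}
    (h : Mᴴ * M = 1) (g : J → V) : nsq (act ρ M g) = nsq g := by
  have := nsq_act (ρ := ρ) M g
  rw [h, act_one, Bp_id_self] at this
  exact_mod_cast this

/-- The coordinate projection onto the leak ports. -/
def pm (R : Type*) [Ring R] {I : Type*} [DecidableEq I] (lk : I → Prop) [DecidablePred lk] :
    Matrix I I R := diagonal fun i => if lk i then 1 else 0

section pm
variable {I : Type*} [Fintype I] [DecidableEq I] (lk : I → Prop) [DecidablePred lk]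

lemma act_pm (g : I → V) (i : I) : act ρ (pm R lk) g i = if lk i then g i else 0 := by
  rw [act_apply, sum_eq_single i]
  · split_ifs <;> simp_all [pm]
  · intro b _ hb; simp [pm, Ne.symm hb]
  · simp

omit [StarRing R] [Algebra ℂ R] [StarModule ℂ R] in
lemma pm_mul_pm : pm R lk * pm R lk = pm R lk := by
  simp only [pm, diagonal_mul_diagonal]; congr 1; funext i; split_ifs <;> simp

omit [Fintype I] [Algebra ℂ R] [StarModule ℂ R] in
lemma pm_ct : (pm R lk)ᴴ = pm R lk := by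
  simp only [pm, diagonal_conjTranspose]; congr 1; funext i; simp only [Pi.star_apply]
  split_ifs <;> simp

lemma nsq_act_part {X : Matrix I I R} (h : Xᴴ * X = 1 - pm R lk) (g : I → V) :
    nsq (act ρ X g) = nsq g - nsq (act ρ (pm R lk) g) := by
  have h1 := nsq_act (ρ := ρ) X g
  have h2 := nsq_act (ρ := ρ) (pm R lk) g
  rw [pm_ct, pm_mul_pm] at h2
  rw [h, act_sub, act_one, Bp_sub_right, Bp_id_self, ← h2] at h1
  exact_mod_cast h1

lemma nsq_act_part_le {X : Matrix I I R} (h : Xᴴ * X = 1 - pm R lk) (g : I → V) :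
    nsq (act ρ X g) ≤ nsq g := by
  rw [nsq_act_part lk h]; linarith [nsq_nonneg (act ρ (pm R lk) g)]

lemma nsq_pow_le {X D : Matrix I I R} (h : Xᴴ * X = 1 - pm R lk) (hD : Dᴴ * D = 1) (k : ℕ)
    (g : I → V) : nsq (act ρ ((X * D) ^ k) g) ≤ nsq g := by
  induction k with
  | zero => simp [act_one]
  | succ k ih =>
    rw [pow_succ', act_mul, act_mul]
    refine (nsq_act_part_le lk h _).trans ?_
    rwa [nsq_act_unitary hD]

lemma nsq_pow_le' {X D : Matrix I I R} (h : Xᴴ * X = 1 - pm R lk) (hD : Dᴴ * D = 1) (k : ℕ)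
    (g : I → V) : nsq (act ρ ((D * X) ^ k) g) ≤ nsq g := by
  induction k with
  | zero => simp [act_one]
  | succ k ih =>
    rw [pow_succ', act_mul, act_mul, nsq_act_unitary hD]
    exact (nsq_act_part_le lk h _).trans ih

/-- Conservation of energy. -/
lemma conservation {X D : Matrix I I R} (h : Xᴴ * X = 1 - pm R lk) (hD : Dᴴ * D = 1) (K : ℕ)
    (g : I → V) : ∑ k ∈ range K, nsq (act ρ (pm R lk * D * (X * D) ^ k) g) +
      nsq (act ρ ((X * D) ^ K) g) = nsq g := by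
  induction K with
  | zero => simp [act_one]
  | succ K ih =>
    rw [sum_range_succ, pow_succ', act_mul, act_mul, act_mul, act_mul, nsq_act_part lk h,
      nsq_act_unitary hD]
    linarith

omit [Algebra ℂ R] [StarModule ℂ R] in
lemma telescope {X D : Matrix I I R} (h : Xᴴ * X = 1 - pm R lk) (hD : Dᴴ * D = 1) (K : ℕ) :
    ∑ k ∈ range K, (pm R lk * D * (X * D) ^ k)ᴴ * (pm R lk * D * (X * D) ^ k) =
      1 - ((X * D) ^ K)ᴴ * (X * D) ^ K := by
  induction K with
  | zero => simp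
  | succ K ih =>
    rw [sum_range_succ, ih, pow_succ']
    have hp : pm R lk = 1 - Xᴴ * X := by rw [h]; simp
    simp only [conjTranspose_mul, pm_ct]
    have e1 : ((X * D) ^ K)ᴴ * (Dᴴ * pm R lk) * (pm R lk * D * (X * D) ^ K) =
        ((X * D) ^ K)ᴴ * (Dᴴ * (pm R lk * pm R lk) * D) * (X * D) ^ K := by
      simp only [Matrix.mul_assoc]
    rw [e1, pm_mul_pm, hp, Matrix.mul_sub, Matrix.sub_mul, Matrix.mul_one, hD, Matrix.mul_sub,
      Matrix.sub_mul]
    simp only [Matrix.mul_assoc, Matrix.mul_one]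
    abel

lemma norm_smul_sub_sq_le {W : Type*} [NormedAddCommGroup W] [NormedSpace ℂ W] (w : ℂ) {θ : ℝ}
    (hw : ‖w‖ = θ) (hθ : θ < 1) (a r : W) :
    ‖w • a - r‖ ^ 2 ≤ ‖a‖ ^ 2 + ‖r‖ ^ 2 / (1 - θ ^ 2) := by
  have h0 : 0 ≤ θ := hw ▸ norm_nonneg w
  have h1 : 0 < 1 - θ ^ 2 := by nlinarith
  have h2 : ‖w • a - r‖ ≤ θ * ‖a‖ + ‖r‖ := by
    refine (norm_sub_le _ _).trans ?_; rw [norm_smul, hw]
  refine (pow_le_pow_left₀ (norm_nonneg _) h2 2).trans ?_
  rw [← sub_nonneg]
  have : ‖a‖ ^ 2 + ‖r‖ ^ 2 / (1 - θ ^ 2) - (θ * ‖a‖ + ‖r‖) ^ 2 =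
      ((1 - θ ^ 2) * ‖a‖ - θ * ‖r‖) ^ 2 / (1 - θ ^ 2) := by
    field_simp; ring
  rw [this]; positivity

lemma act_eq_zero_of_lk {X : Matrix I I R} (hpX : pm R lk * X = 0) (g : I → V) {i : I}
    (hi : lk i) : act ρ X g i = 0 := by
  have := act_pm (ρ := ρ) lk (act ρ X g) i
  rw [← act_mul, hpX, if_pos hi] at this
  rw [← this]; simp [act_apply]

/-- The damped first-return operator is almost a contraction. -/
lemma first_return_norm {X D : Matrix I I R} (h : Xᴴ * X = 1 - pm R lk)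
    (hpX : pm R lk * X = 0) (hD : Dᴴ * D = 1) (w : ℂ) {θ : ℝ} (hw : ‖w‖ = θ) (hθ : θ < 1)
    (J : ℕ) (γ : I → V) :
    nsq (act ρ (∑ j ∈ range J, w ^ j • (pm R lk * D * (X * D) ^ j * pm R lk)) γ) ≤
      (1 + θ ^ (2 * J) / (1 - θ ^ 2)) * nsq γ := by
  have h0 : 0 ≤ θ := hw ▸ norm_nonneg w
  have h1 : 0 < 1 - θ ^ 2 := by nlinarith
  have hγ := nsq_nonneg γ
  rcases J with _ | J
  · simp only [range_zero, sum_empty]
    have : nsq (act ρ (0 : Matrix I I R) γ) = 0 := by simp [nsq, act_apply]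
    rw [this]; positivity
  set B : Matrix I I R := w • (X * D) with hB
  set G : Matrix I I R := ∑ j ∈ range (J + 1), B ^ j with hG
  have hu : ∑ j ∈ range (J + 1), w ^ j • (pm R lk * D * (X * D) ^ j * pm R lk) =
      pm R lk * (D * (G * pm R lk)) := by
    simp only [hG, hB, smul_pow, Matrix.sum_mul, Matrix.mul_sum, Matrix.mul_smul, Matrix.smul_mul,
      Matrix.mul_assoc]
  have hG1 : G = 1 + B * G - B ^ (J + 1) := by
    have := geom_sum_succ (x := B) (n := J + 1)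
    rw [sum_range_succ, ← hG] at this
    rw [eq_sub_iff_add_eq, this, add_comm]
  set γ' := act ρ (pm R lk) γ with hγ'
  set v := act ρ G γ' with hv
  set y := act ρ D v with hy
  set r := act ρ (B ^ (J + 1)) γ' with hr
  have hv1 : v = γ' + (w • act ρ X y - r) := by
    conv_lhs => rw [hv, hG1, act_sub, act_add, act_one, act_mul, ← hv, hB, act_smul, act_mul, ← hy,
      ← hB, ← hr]
    abel
  have hr0 : ∀ i, lk i → r i = 0 := by
    intro i hi
    rw [hr, pow_succ', act_mul, hB, act_smul, act_mul, Pi.smul_apply, act_eq_zero_of_lk lk hpX _ hi,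
      smul_zero]
  have hv2 : nsq v ≤ nsq γ' + (nsq (act ρ X y) + nsq r / (1 - θ ^ 2)) := by
    unfold nsq
    rw [sum_div, ← sum_add_distrib, ← sum_add_distrib]
    refine sum_le_sum fun i _ => ?_
    rw [hv1]
    by_cases hi : lk i
    · simp only [Pi.add_apply, Pi.sub_apply, Pi.smul_apply, act_eq_zero_of_lk lk hpX _ hi, hr0 i hi]
      simp
    · have : γ' i = 0 := by rw [hγ', act_pm, if_neg hi]
      simp only [Pi.add_apply, Pi.sub_apply, Pi.smul_apply, this, zero_add, norm_zero]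
      have := norm_smul_sub_sq_le w hw hθ (act ρ X y i) (r i)
      linarith
  have hγ1 : nsq γ' ≤ nsq γ := by
    unfold nsq
    refine sum_le_sum fun i _ => ?_
    rw [hγ', act_pm]; split_ifs <;> simp
  have hr1 : nsq r ≤ θ ^ (2 * (J + 1)) * nsq γ := by
    rw [hr, hB, smul_pow, act_smul]
    have : nsq (w ^ (J + 1) • act ρ ((X * D) ^ (J + 1)) γ') =
        θ ^ (2 * (J + 1)) * nsq (act ρ ((X * D) ^ (J + 1)) γ') := by
      simp only [nsq, Pi.smul_apply, norm_smul, norm_pow, hw, mul_sum, mul_pow]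
      refine sum_congr rfl fun i _ => ?_
      ring
    rw [this]
    exact mul_le_mul_of_nonneg_left ((nsq_pow_le lk h hD _ _).trans hγ1) (by positivity)
  have e1 := nsq_act_part (ρ := ρ) lk h y
  have e2 : nsq y = nsq v := nsq_act_unitary hD v
  rw [hu, act_mul, act_mul, act_mul, ← hγ', ← hv, ← hy]
  have e3 : nsq r / (1 - θ ^ 2) ≤ θ ^ (2 * (J + 1)) / (1 - θ ^ 2) * nsq γ := by
    rw [div_mul_eq_mul_div]; exact div_le_div_of_nonneg_right hr1 h1.le
  linarith

end pm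
end

end Crest.Agent.H2.KS
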