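import Crest.Agent.H2.KS2

/-! Kadison similarity, part 3: the deterministic first-return factorisation. -/

set_option autoImplicit false
set_option maxHeartbeats 400000
open Finset Matrix
open scoped InnerProductSpace

namespace Crest.Agent.H2.KS

lemma sum_chi_orth {W ι : Type*} [NormedAddCommGroup W] [InnerProductSpace ℂ W] {N : ℕ} [NeZero N]
    (s : Finset ι) (e : ι → ZMod N) (he : Set.InjOn e s) (y : ι → W) :
    ∑ z : ZMod N, ‖∑ l ∈ s, chi N (e l * z) • y l‖ ^ 2 = N * ∑ l ∈ s, ‖y l‖ ^ 2 := by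
  classical
  have key : ∑ z : ZMod N, ⟪∑ l ∈ s, chi N (e l * z) • y l, ∑ l ∈ s, chi N (e l * z) • y l⟫_ℂ =
      N * ∑ l ∈ s, ⟪y l, y l⟫_ℂ := by
    simp only [sum_inner, inner_sum, inner_smul_left, inner_smul_right, conj_chi, mul_sum]
    rw [sum_comm]
    refine sum_congr rfl fun l hl => ?_
    rw [sum_comm, sum_eq_single l]
    · simp_rw [← mul_assoc, ← chi_add]
      simp [chi_zero]
    · intro l' hl' hne
      simp_rw [← mul_assoc, ← chi_add]
      rw [← sum_mul]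
      have : ∀ z : ZMod N, e l * z + -(e l' * z) = (e l - e l') * z := fun z => by ring
      simp_rw [this]
      rw [sum_chi_mul, if_neg, zero_mul]
      rw [sub_eq_zero]
      exact fun h => hne (he hl' hl h.symm)
    · intro h; exact absurd hl h
  simp only [inner_self_eq_norm_sq_to_K] at key
  apply Complex.ofReal_injective
  push_cast
  exact key

section
variable {R : Type*} [Ring R] [StarRing R] [Algebra ℂ R] [StarModule ℂ R]
variable {V : Type*} [NormedAddCommGroup V] [InnerProductSpace ℂ V] [CompleteSpace V]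
variable {H : Type*} [NormedAddCommGroup H] [InnerProductSpace ℂ H]
variable {ρ : R →⋆ₐ[ℂ] (V →L[ℂ] V)}
variable {I : Type*} [Fintype I] [DecidableEq I] (lk : I → Prop) [DecidablePred lk]

omit [CompleteSpace V] [DecidableEq I] in
lemma sum_nsq_phase (S : V →L[ℂ] H) {N : ℕ} [NeZero N] (K : ℕ) (e : ℕ → ZMod N)
    (he : Set.InjOn e (range K)) {θ : ℝ} (h0 : 0 < θ) (h1 : θ ≤ 1) (hθ : 1 / 2 ≤ θ ^ (2 * K))
    (g : ℕ → I → V) :
    ∑ z : ZMod N, nsq (fun i => S ((∑ l ∈ range K, (chi N (e l * z) * ((θ : ℂ) ^ l)⁻¹) • g l) i)) ≤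
      N * (2 * ∑ l ∈ range K, nsq (fun i => S (g l i))) := by
  unfold nsq
  rw [sum_comm]
  have : ∀ i, ∑ z : ZMod N, ‖S ((∑ l ∈ range K, (chi N (e l * z) * ((θ : ℂ) ^ l)⁻¹) • g l) i)‖ ^ 2
      ≤ N * (2 * ∑ l ∈ range K, ‖S (g l i)‖ ^ 2) := by
    intro i
    simp only [Finset.sum_apply, Pi.smul_apply, map_sum, map_smul, mul_smul]
    rw [sum_chi_orth _ e he, mul_sum (a := (2 : ℝ))]
    refine mul_le_mul_of_nonneg_left (sum_le_sum fun l hl => ?_) (by positivity)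
    rw [norm_smul, mul_pow, norm_inv, norm_pow, Complex.norm_real, Real.norm_of_nonneg h0.le]
    refine mul_le_mul_of_nonneg_right ?_ (sq_nonneg _)
    rw [inv_pow, ← pow_mul, inv_le_comm₀ (by positivity) (by norm_num)]
    have : θ ^ (2 * K) ≤ θ ^ (l * 2) :=
      pow_le_pow_of_le_one h0.le h1 (by have := mem_range.1 hl; omega)
    linarith
  refine (sum_le_sum fun i _ => this i).trans (le_of_eq ?_)
  rw [← mul_sum, ← mul_sum, sum_comm]

/-- The first-return factorisation bound for a fixed scattering matrix `D`. -/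
lemma first_return {S₁ S₂ : V →L[ℂ] H} (hB : BalR ρ S₁ S₂) (V₀ : Submodule ℂ V)
    {X D : Matrix I I R} (h : Xᴴ * X = 1 - pm R lk) (h' : X * Xᴴ = 1 - pm R lk)
    (hpX : pm R lk * X = 0) (hD : Dᴴ * D = 1) (hD' : D * Dᴴ = 1) {κ' : ℝ} (hκ : 0 ≤ κ')
    (H1 : ∀ (u : Matrix I I R) (α β : I → V), (∀ γ, nsq (act ρ u γ) ≤ 2 * nsq γ) →
      (∀ i, ¬ lk i → α i = 0) → (∀ i, ¬ lk i → β i = 0) → (∀ i, α i ∈ V₀) → (∀ i, β i ∈ V₀) →
      ‖Bp S₁ S₂ β (act ρ u α)‖ ≤ κ' * (√(nsq fun i => S₁ (α i)) * √(nsq fun i => S₂ (β i))))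
    (K : ℕ) (hK : 0 < K) (ξ η : I → V)
    (hξ : ∀ k i, act ρ (pm R lk * Dᴴ * (Xᴴ * Dᴴ) ^ k) ξ i ∈ V₀)
    (hη : ∀ k i, act ρ (pm R lk * D * (X * D) ^ k) η i ∈ V₀) :
    ‖Bp S₁ S₂ η (act ρ ((1 - ((X * D) ^ K)ᴴ * (X * D) ^ K) * X *
        (1 - ((Xᴴ * Dᴴ) ^ K)ᴴ * (Xᴴ * Dᴴ) ^ K)) ξ)‖ ≤
      8 / 3 * κ' *
        (√(∑ k ∈ range K, nsq fun i => S₁ (act ρ (pm R lk * Dᴴ * (Xᴴ * Dᴴ) ^ k) ξ i)) *
         √(∑ k ∈ range K, nsq fun i => S₂ (act ρ (pm R lk * D * (X * D) ^ k) η i))) := by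
  -- parameters
  have hK1 : (1 : ℝ) ≤ K := by exact_mod_cast hK
  set θ : ℝ := 1 - 1 / (4 * K) with hθ
  have hq : 1 / (4 * (K : ℝ)) ≤ 1 / 4 := by
    apply one_div_le_one_div_of_le <;> linarith
  have hq0 : 0 < 1 / (4 * (K : ℝ)) := by positivity
  have h34 : 3 / 4 ≤ θ := by linarith
  have h0 : 0 < θ := by linarith
  have h1 : θ < 1 := by linarith
  have hθK : 1 / 2 ≤ θ ^ (2 * K) := by
    have := one_add_mul_le_pow (a := -(1 / (4 * (K : ℝ)))) (by linarith) (2 * K)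
    have e : 1 + ((2 * K : ℕ) : ℝ) * -(1 / (4 * (K : ℝ))) = 1 / 2 := by
      push_cast; field_simp; ring
    rw [e] at this
    simpa [hθ, sub_eq_add_neg] using this
  have h1θ : 0 < 1 - θ ^ 2 := by nlinarith
  obtain ⟨J₀, hJ₀⟩ := exists_pow_lt_of_lt_one h1θ h1
  set J := J₀ + 2 * K with hJ
  have hJθ : θ ^ (2 * J) / (1 - θ ^ 2) ≤ 1 := by
    rw [div_le_one h1θ]
    exact (pow_le_pow_of_le_one h0.le h1.le (by omega)).trans hJ₀.le
  set N := J + 2 * K + 1 with hN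
  haveI : NeZero N := ⟨by omega⟩
  have hinj : ∀ a b : ℕ, a < N → b < N → (a : ZMod N) = b → a = b := by
    intro a b ha hb hab
    rw [ZMod.natCast_eq_natCast_iff', Nat.mod_eq_of_lt ha, Nat.mod_eq_of_lt hb] at hab
    exact hab
  set Am : ℕ → Matrix I I R := fun k => pm R lk * Dᴴ * (Xᴴ * Dᴴ) ^ k with hAm
  set Ap : ℕ → Matrix I I R := fun k => pm R lk * D * (X * D) ^ k with hAp
  set u : ZMod N → Matrix I I R := fun z =>
    ∑ j ∈ range J, (chi N z * θ) ^ j • (pm R lk * D * (X * D) ^ j * pm R lk) with hu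
  set α : ZMod N → I → V := fun z =>
    ∑ k ∈ range K, (chi N (-(k : ZMod N) * z) * ((θ : ℂ) ^ k)⁻¹) • act ρ (Am k) ξ with hα
  set β : ZMod N → I → V := fun z =>
    ∑ l ∈ range K, (chi N (((l + 1 : ℕ) : ZMod N) * z) * ((θ : ℂ) ^ l)⁻¹) • act ρ (Ap l) η with hβ
  have hθc : (θ : ℂ) ≠ 0 := by exact_mod_cast h0.ne'
  -- the averaged identity
  have key : ∑ z : ZMod N, Bp S₁ S₂ (β z) (act ρ (u z) (α z)) =
      N * θ * Bp S₁ S₂ η (act ρ ((1 - ((X * D) ^ K)ᴴ * (X * D) ^ K) * X *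
        (1 - ((Xᴴ * Dᴴ) ^ K)ᴴ * (Xᴴ * Dᴴ) ^ K)) ξ) := by
    have t1 := telescope lk h hD K
    have t2 := telescope (X := Xᴴ) (D := Dᴴ) lk (by simpa using h') (by simpa using hD') K
    rw [← t1, ← t2]
    simp only [hα, hβ, hu, act_sum, map_sum, map_smul, act_smul, Bp_sum_left, Bp_sum_right,
      Bp_smul_left, Bp_smul_right, Matrix.sum_mul, Matrix.mul_sum, mul_sum]
    rw [sum_comm]
    refine sum_congr rfl fun k hk => ?_
    have hk' := mem_range.1 hk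
    rw [sum_comm]
    have e0 : ∀ j ∈ range J, ∑ z : ZMod N, ∑ l ∈ range K,
        chi N (-(k : ZMod N) * z) * ((θ : ℂ) ^ k)⁻¹ * ((chi N z * θ) ^ j *
          ((starRingEnd ℂ) (chi N (((l + 1 : ℕ) : ZMod N) * z) * ((θ : ℂ) ^ l)⁻¹) *
            Bp S₁ S₂ (act ρ (Ap l) η) (act ρ (pm R lk * D * (X * D) ^ j * pm R lk)
              (act ρ (Am k) ξ)))) =
        ∑ l ∈ range K, if j = k + l + 1 then N * θ * Bp S₁ S₂ (act ρ (Ap l) η)
          (act ρ (pm R lk * D * (X * D) ^ j * pm R lk) (act ρ (Am k) ξ)) else 0 := by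
      intro j hj
      have hj' := mem_range.1 hj
      rw [sum_comm]
      refine sum_congr rfl fun l hl => ?_
      have hl' := mem_range.1 hl
      have e1 : ∀ z : ZMod N, chi N z ^ j = chi N ((j : ZMod N) * z) := by
        intro z
        have := chi_sum (N := N) (range j) (fun _ => z)
        simpa using this.symm
      have e2 : ∀ z : ZMod N, chi N (-(k : ZMod N) * z) * ((θ : ℂ) ^ k)⁻¹ * ((chi N z * θ) ^ j *
          ((starRingEnd ℂ) (chi N (((l + 1 : ℕ) : ZMod N) * z) * ((θ : ℂ) ^ l)⁻¹) *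
            Bp S₁ S₂ (act ρ (Ap l) η) (act ρ (pm R lk * D * (X * D) ^ j * pm R lk)
              (act ρ (Am k) ξ)))) =
          chi N (((j : ZMod N) - ((k + l + 1 : ℕ) : ZMod N)) * z) *
            (((θ : ℂ) ^ j * ((θ : ℂ) ^ k)⁻¹ * ((θ : ℂ) ^ l)⁻¹) *
            Bp S₁ S₂ (act ρ (Ap l) η) (act ρ (pm R lk * D * (X * D) ^ j * pm R lk)
              (act ρ (Am k) ξ))) := by
        intro z
        have e3 : ((j : ZMod N) - ((k + l + 1 : ℕ) : ZMod N)) * z =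
            -(k : ZMod N) * z + ((j : ZMod N) * z + -(((l + 1 : ℕ) : ZMod N) * z)) := by
          push_cast; ring
        rw [e3, chi_add, chi_add, mul_pow, e1, map_mul, conj_chi, map_inv₀, map_pow,
          Complex.conj_ofReal]
        ring
      simp_rw [e2]
      rw [← sum_mul, sum_chi_mul]
      by_cases hjk : j = k + l + 1
      · rw [if_pos hjk, if_pos (by rw [hjk, sub_self])]
        have : (θ : ℂ) ^ j * ((θ : ℂ) ^ k)⁻¹ * ((θ : ℂ) ^ l)⁻¹ = θ := by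
          rw [hjk]; field_simp; ring
        rw [this]; ring
      · rw [if_neg hjk, if_neg, zero_mul]
        rw [sub_eq_zero]
        exact fun hh => hjk (hinj _ _ (by omega) (by omega) hh)
    rw [sum_congr rfl e0, sum_comm]
    refine sum_congr rfl fun l hl => ?_
    have hl' := mem_range.1 hl
    rw [sum_ite_eq', if_pos (mem_range.2 (by omega))]
    congr 1
    have e4 := Bp_act hB (Ap l)ᴴ η
    rw [conjTranspose_conjTranspose] at e4
    rw [← e4, ← act_mul, ← act_mul]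
    congr 2
    simp only [hAp, hAm, conjTranspose_mul, conjTranspose_pow, conjTranspose_conjTranspose, pm_ct]
    have e5 : X * ((D * X) ^ k * D) = (X * D) ^ (k + 1) := by
      rw [← Matrix.mul_assoc, ← mul_pow_mul, pow_succ, Matrix.mul_assoc]
    have e6 : (X * D) ^ (k + l + 1) = (X * D) ^ l * (X * ((D * X) ^ k * D)) := by
      rw [e5, ← pow_add]; congr 1; omega
    rw [e6]
    simp only [Matrix.mul_assoc]
  -- the bound for each phase
  have bd : ∀ z : ZMod N, ‖Bp S₁ S₂ (β z) (act ρ (u z) (α z))‖ ≤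
      κ' * (√(nsq fun i => S₁ (α z i)) * √(nsq fun i => S₂ (β z i))) := by
    intro z
    refine H1 _ _ _ (fun γ => ?_) (fun i hi => ?_) (fun i hi => ?_) (fun i => ?_) (fun i => ?_)
    · refine (first_return_norm lk h hpX hD (chi N z * θ) (θ := θ) ?_ h1 J γ).trans ?_
      · rw [norm_mul, norm_chi, one_mul, Complex.norm_real, Real.norm_of_nonneg h0.le]
      · exact mul_le_mul_of_nonneg_right (by linarith) (nsq_nonneg _)
    · simp only [hα, Finset.sum_apply, Pi.smul_apply, hAm, Matrix.mul_assoc, act_mul, act_pm,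
        if_neg hi, smul_zero, sum_const_zero]
    · simp only [hβ, Finset.sum_apply, Pi.smul_apply, hAp, Matrix.mul_assoc, act_mul, act_pm,
        if_neg hi, smul_zero, sum_const_zero]
    · simp only [hα, Finset.sum_apply, Pi.smul_apply]
      exact V₀.sum_mem fun k _ => V₀.smul_mem _ (hξ k i)
    · simp only [hβ, Finset.sum_apply, Pi.smul_apply]
      exact V₀.sum_mem fun k _ => V₀.smul_mem _ (hη k i)
  have s1 := sum_nsq_phase S₁ (N := N) K (fun k => -(k : ZMod N)) (by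
    intro a ha b hb hab
    have ha' := mem_range.1 (mem_coe.1 ha)
    have hb' := mem_range.1 (mem_coe.1 hb)
    exact hinj _ _ (by omega) (by omega) (neg_injective hab)) h0 h1.le hθK (fun k => act ρ (Am k) ξ)
  have s2 := sum_nsq_phase S₂ (N := N) K (fun l => ((l + 1 : ℕ) : ZMod N)) (by
    intro a ha b hb hab
    have ha' := mem_range.1 (mem_coe.1 ha)
    have hb' := mem_range.1 (mem_coe.1 hb)
    have := hinj _ _ (by omega) (by omega) hab
    omega) h0 h1.le hθK (fun k => act ρ (Ap k) η)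
  set a := ∑ k ∈ range K, nsq fun i => S₁ (act ρ (Am k) ξ i) with ha
  set b := ∑ k ∈ range K, nsq fun i => S₂ (act ρ (Ap k) η i) with hb
  have ha0 : 0 ≤ a := sum_nonneg fun _ _ => nsq_nonneg _
  have hb0 : 0 ≤ b := sum_nonneg fun _ _ => nsq_nonneg _
  have hN0 : (0 : ℝ) < N := by exact_mod_cast Nat.pos_of_ne_zero (NeZero.ne N)
  have fin : ‖∑ z : ZMod N, Bp S₁ S₂ (β z) (act ρ (u z) (α z))‖ ≤ κ' * (N * (2 * (√a * √b))) := by
    refine (norm_sum_le _ _).trans ((sum_le_sum fun z _ => bd z).trans ?_)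
    rw [← mul_sum]
    refine mul_le_mul_of_nonneg_left ?_ hκ
    refine (Real.sum_sqrt_mul_sqrt_le _ (fun _ => nsq_nonneg _) (fun _ => nsq_nonneg _)).trans ?_
    refine (mul_le_mul (Real.sqrt_le_sqrt s1) (Real.sqrt_le_sqrt s2) (Real.sqrt_nonneg _)
      (Real.sqrt_nonneg _)).trans (le_of_eq ?_)
    rw [← mul_assoc, ← mul_assoc, Real.sqrt_mul (x := N * 2) (by positivity) a,
      Real.sqrt_mul (x := N * 2) (by positivity) b,
      mul_mul_mul_comm, Real.mul_self_sqrt (by positivity)]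
    ring
  rw [key, norm_mul, norm_mul, Complex.norm_natCast, Complex.norm_real,
    Real.norm_of_nonneg h0.le] at fin
  have hab : 0 ≤ √a * √b := by positivity
  set t := ‖Bp S₁ S₂ η (act ρ ((1 - ((X * D) ^ K)ᴴ * (X * D) ^ K) * X *
        (1 - ((Xᴴ * Dᴴ) ^ K)ᴴ * (Xᴴ * Dᴴ) ^ K)) ξ)‖
  have ht : 0 ≤ t := norm_nonneg _
  have : θ * t ≤ κ' * (2 * (√a * √b)) := by
    apply le_of_mul_le_mul_left _ hN0
    linarith
  nlinarith

/-- The first-return bound with the survival errors separated. -/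
lemma first_return' {S₁ S₂ : V →L[ℂ] H} (hB : BalR ρ S₁ S₂) {Y : ℝ} (hY1 : ‖S₁‖ ≤ Y)
    (hY2 : ‖S₂‖ ≤ Y) {X D : Matrix I I R} (h : Xᴴ * X = 1 - pm R lk) (h' : X * Xᴴ = 1 - pm R lk)
    (hD : Dᴴ * D = 1) (hD' : D * Dᴴ = 1) (K : ℕ) (ξ η : I → V) :
    ‖Bp S₁ S₂ η (act ρ X ξ)‖ ≤
      ‖Bp S₁ S₂ η (act ρ ((1 - ((X * D) ^ K)ᴴ * (X * D) ^ K) * X *
        (1 - ((Xᴴ * Dᴴ) ^ K)ᴴ * (Xᴴ * Dᴴ) ^ K)) ξ)‖ +
      Y ^ 2 * (2 * (√(nsq (act ρ ((X * D) ^ K) η)) * √(nsq ξ)) +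
        √(nsq η) * √(nsq (act ρ ((Xᴴ * Dᴴ) ^ K) ξ))) := by
  set P := (X * D) ^ K with hP
  set Q := (Xᴴ * Dᴴ) ^ K with hQ
  have e : X = (1 - Pᴴ * P) * X * (1 - Qᴴ * Q) + (Pᴴ * P * X + X * (Qᴴ * Q) -
      Pᴴ * P * (X * (Qᴴ * Q))) := by noncomm_ring
  have hh' : Xᴴᴴ * Xᴴ = 1 - pm R lk := by simpa using h'
  have hX : ∀ g, nsq (act ρ X g) ≤ nsq g := nsq_act_part_le lk h
  have hPa : ∀ g, nsq (act ρ Pᴴ g) ≤ nsq g := by
    intro g
    rw [hP, conjTranspose_pow, conjTranspose_mul]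
    exact nsq_pow_le' lk hh' (by simpa using hD') K g
  have hQa : ∀ g, nsq (act ρ Qᴴ g) ≤ nsq g := by
    intro g
    rw [hQ, conjTranspose_pow, conjTranspose_mul, conjTranspose_conjTranspose,
      conjTranspose_conjTranspose]
    exact nsq_pow_le' lk h hD K g
  have hQ1 : ∀ g, nsq (act ρ Q g) ≤ nsq g := nsq_pow_le lk hh' (by simpa using hD') K
  have b1 : ∀ g, nsq g ≤ nsq ξ → ‖Bp S₁ S₂ η (act ρ (Pᴴ * P) g)‖ ≤
      Y ^ 2 * (√(nsq (act ρ P η)) * √(nsq ξ)) := by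
    intro g hg
    rw [Bp_act hB, conjTranspose_mul, conjTranspose_conjTranspose, act_mul]
    refine (norm_Bp_le _ _ hY1 hY2 _ _).trans ?_
    gcongr
    exact hPa _
  have b2 : ‖Bp S₁ S₂ η (act ρ (X * (Qᴴ * Q)) ξ)‖ ≤ Y ^ 2 * (√(nsq η) * √(nsq (act ρ Q ξ))) := by
    refine (norm_Bp_le _ _ hY1 hY2 _ _).trans ?_
    gcongr
    rw [act_mul, act_mul]
    exact (hX _).trans (hQa _)
  conv_lhs => rw [e, act_add, act_sub, act_add, Bp_add_right, Bp_sub_right, Bp_add_right,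
    act_mul ρ (Pᴴ * P), act_mul ρ (Pᴴ * P)]
  refine (norm_add_le _ _).trans (add_le_add le_rfl ?_)
  refine (norm_sub_le _ _).trans ?_
  have c1 := b1 _ (hX ξ)
  have c2 := b1 (act ρ (X * (Qᴴ * Q)) ξ) (by
    rw [act_mul, act_mul]; exact (hX _).trans ((hQa _).trans (hQ1 _)))
  have c3 := norm_add_le (Bp S₁ S₂ η (act ρ (Pᴴ * P) (act ρ X ξ)))
    (Bp S₁ S₂ η (act ρ (X * (Qᴴ * Q)) ξ))
  linarith

end

end Crest.Agent.H2.KS
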