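import Crest.Agent.H2.KS2

/-! Kadison similarity, part 4: words and stage counting. -/

set_option autoImplicit false
set_option maxHeartbeats 400000
open Finset
open scoped InnerProductSpace

namespace Crest.Agent.H2.KS

/-- Extend a permutation by fixing `0`. -/
def lft {k : ℕ} (σ : Equiv.Perm (Fin k)) : Equiv.Perm (Fin (k + 1)) :=
  Equiv.Perm.decomposeFin.symm (0, σ)

@[simp] lemma lft_zero {k : ℕ} (σ : Equiv.Perm (Fin k)) : lft σ 0 = 0 := by simp [lft]

@[simp] lemma lft_succ {k : ℕ} (σ : Equiv.Perm (Fin k)) (l : Fin k) :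
    lft σ l.succ = (σ l).succ := by simp [lft]

lemma lft_one {k : ℕ} : lft (1 : Equiv.Perm (Fin k)) = 1 := by
  ext i; refine Fin.cases ?_ (fun i => ?_) i <;> simp

lemma lft_mul {k : ℕ} (σ σ' : Equiv.Perm (Fin k)) : lft (σ * σ') = lft σ * lft σ' := by
  ext i; refine Fin.cases ?_ (fun i => ?_) i <;> simp

lemma lft_inj {k : ℕ} {σ σ' : Equiv.Perm (Fin k)} (h : lft σ = lft σ') : σ = σ' := by
  ext l
  have := congrArg (fun f : Equiv.Perm (Fin (k + 1)) => f l.succ) h
  simp only [lft_succ, Fin.succ_inj] at this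
  rw [this]

lemma exists_lft {k : ℕ} (τ : Equiv.Perm (Fin (k + 1))) (h : τ 0 = 0) : ∃ σ, τ = lft σ := by
  refine ⟨(Equiv.Perm.decomposeFin τ).2, ?_⟩
  have h1 : τ = Equiv.Perm.decomposeFin.symm (Equiv.Perm.decomposeFin τ) := by simp
  have h2 : (Equiv.Perm.decomposeFin τ).1 = 0 := by
    have := Equiv.Perm.decomposeFin_symm_apply_zero (Equiv.Perm.decomposeFin τ).1
      (Equiv.Perm.decomposeFin τ).2
    rw [Prod.mk.eta, ← h1] at this
    rw [← this, h]
  unfold lft
  rw [← h2, Prod.mk.eta, ← h1]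

lemma tail_comp_lft {k : ℕ} {A : Type*} (a : Fin (k + 1) → A) (σ : Equiv.Perm (Fin k)) :
    Fin.tail (a ∘ lft σ) = Fin.tail a ∘ σ := by
  funext l; simp [Fin.tail]

lemma sum_fin_succ {k : ℕ} {A M : Type*} [Fintype A] [AddCommMonoid M]
    (f : (Fin (k + 1) → A) → M) : ∑ a, f a = ∑ a0 : A, ∑ a : Fin k → A, f (Fin.cons a0 a) := by
  rw [← (Fin.consEquiv fun _ => A).sum_comp, Fintype.sum_prod_type]; rfl

lemma sum_comp_perm {ι A M : Type*} [Fintype ι] [DecidableEq ι] [Fintype A] [AddCommMonoid M]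
    (σ : Equiv.Perm ι) (f : (ι → A) → M) : ∑ a : ι → A, f (a ∘ σ) = ∑ a, f a :=
  (Equiv.arrowCongr σ.symm (Equiv.refl A)).sum_comp f

section words
variable {V : Type*} [NormedAddCommGroup V] [InnerProductSpace ℂ V]
variable {A : Type*}

/-- Words: `x (a 0) (b 0) ⋯ x (a (k-1)) (b (k-1)) η (a k)`. -/
noncomputable def wd (x : A → A → (V →L[ℂ] V)) (η : A → V) :
    (k : ℕ) → (Fin (k + 1) → A) → (Fin k → A) → V
  | 0, a, _ => η (a 0)
  | k + 1, a, b => x (a 0) (b 0) (wd x η k (Fin.tail a) (Fin.tail b))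

variable [Fintype A] [DecidableEq A] (lk : A → Prop) [DecidablePred lk]

/-- The column condition of a partial isometry with support the non-leak ports. -/
def ColC (x : A → A → (V →L[ℂ] V)) : Prop :=
  ∀ b b' y y', ∑ a, ⟪x a b y, x a b' y'⟫_ℂ = if b = b' ∧ ¬ lk b then ⟪y, y'⟫_ℂ else 0

/-- Number of non-leak labels. -/
def mm : ℕ := (univ.filter fun a => ¬ lk a).card

variable {lk}

lemma ColC.norm {x : A → A → (V →L[ℂ] V)} (hx : ColC lk x) (b : A) (y : V) :
    ∑ a, ‖x a b y‖ ^ 2 = if lk b then 0 else ‖y‖ ^ 2 := by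
  have := hx b b y y
  simp only [inner_self_eq_norm_sq_to_K, true_and] at this
  apply Complex.ofReal_injective
  push_cast
  rw [show (∑ a, ((‖x a b y‖ : ℝ) : ℂ) ^ 2) = _ from this]
  split_ifs <;> simp_all

lemma sum_norm_wd {x : A → A → (V →L[ℂ] V)} (hx : ColC lk x) (η : A → V) (k : ℕ)
    (b : Fin k → A) : ∑ a, ‖wd x η k a b‖ ^ 2 = if ∀ l, ¬ lk (b l) then nsq η else 0 := by
  induction k with
  | zero => rw [sum_fin_succ]; simp [wd, nsq]
  | succ k ih =>
    rw [sum_fin_succ, sum_comm]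
    simp only [wd, Fin.cons_zero, Fin.tail_cons, hx.norm, Fin.forall_fin_succ]
    by_cases h : lk (b 0)
    · simp [h]
    · simp only [h, if_false, ih, not_false_eq_true, true_and]; rfl

lemma card_nolk (k : ℕ) :
    (univ.filter fun b : Fin k → A => ∀ l, ¬ lk (b l)).card = mm lk ^ k := by
  have : (univ.filter fun b : Fin k → A => ∀ l, ¬ lk (b l)) =
      Fintype.piFinset fun _ => univ.filter fun a => ¬ lk a := by
    ext b; simp
  rw [this, Fintype.card_piFinset]; simp [mm]

lemma card_coll {k : ℕ} {i j : Fin k} (hij : i ≠ j) :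
    mm lk * (univ.filter fun b : Fin k → A => (∀ l, ¬ lk (b l)) ∧ b i = b j).card ≤ mm lk ^ k := by
  rw [← card_nolk, mm, ← card_product]
  refine card_le_card_of_injOn (fun p => Function.update p.2 i p.1) ?_ ?_
  · rintro ⟨β, b⟩ h
    simp only [coe_product, Set.mem_prod, mem_coe, mem_filter, mem_univ, true_and] at h ⊢
    intro l
    by_cases hl : l = i
    · subst hl; simpa using h.1
    · simpa [hl] using h.2.1 l
  · rintro ⟨β, b⟩ h ⟨β', b'⟩ h' he
    simp only [coe_product, Set.mem_prod, mem_coe, mem_filter, mem_univ, true_and] at h h'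
    have h1 : β = β' := by simpa using congrFun he i
    have h2 : ∀ l, l ≠ i → b l = b' l := fun l hl => by simpa [hl] using congrFun he l
    refine Prod.ext h1 (funext fun l => ?_)
    by_cases hl : l = i
    · subst hl; exact h.2.2.trans ((h2 j hij.symm).trans h'.2.2.symm)
    · exact h2 l hl

lemma sum_sum_norm_wd {x : A → A → (V →L[ℂ] V)} (hx : ColC lk x) (η : A → V) (k : ℕ) :
    ∑ a, ∑ b, ‖wd x η k a b‖ ^ 2 = mm lk ^ k * nsq η := by
  rw [sum_comm]
  simp_rw [sum_norm_wd hx]
  rw [← sum_filter, sum_const, card_nolk]; simp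

lemma cross_wd {x : A → A → (V →L[ℂ] V)} (hx : ColC lk x) (η : A → V) (k : ℕ)
    (σ : Equiv.Perm (Fin k)) (hσ : σ ≠ 1) :
    mm lk * ‖∑ a, ∑ b, ⟪wd x η k a b, wd x η k (a ∘ lft σ) (b ∘ σ)⟫_ℂ‖ ≤ mm lk ^ k * nsq η := by
  induction k with
  | zero => exact absurd (Subsingleton.elim _ _) hσ
  | succ k ih =>
    have e1 : ∑ a, ∑ b, ⟪wd x η (k + 1) a b, wd x η (k + 1) (a ∘ lft σ) (b ∘ σ)⟫_ℂ =
        ∑ b : Fin (k + 1) → A, ∑ a : Fin (k + 1) → A, if b 0 = b (σ 0) ∧ ¬ lk (b 0) then
          ⟪wd x η k a (Fin.tail b), wd x η k (a ∘ σ) (Fin.tail (b ∘ σ))⟫_ℂ else 0 := by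
      rw [sum_comm]
      refine sum_congr rfl fun b _ => ?_
      rw [sum_fin_succ, sum_comm]
      refine sum_congr rfl fun a _ => ?_
      simp only [wd, Fin.cons_zero, Fin.tail_cons, tail_comp_lft, Function.comp_apply, lft_zero]
      exact hx _ _ _ _
    rw [e1]
    by_cases h0 : σ 0 = 0
    · obtain ⟨σ', rfl⟩ := exists_lft σ h0
      have h1 : σ' ≠ 1 := by rintro rfl; exact hσ lft_one
      rw [sum_fin_succ]
      simp only [lft_zero, Fin.cons_zero, Fin.tail_cons, tail_comp_lft, true_and]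
      have : ∀ b0 : A, (∑ b : Fin k → A, ∑ a : Fin (k + 1) → A, if ¬ lk b0 then
          ⟪wd x η k a b, wd x η k (a ∘ lft σ') (b ∘ σ')⟫_ℂ else 0) = if ¬ lk b0 then
          ∑ a, ∑ b, ⟪wd x η k a b, wd x η k (a ∘ lft σ') (b ∘ σ')⟫_ℂ else 0 := by
        intro b0; split_ifs
        · simp
        · exact sum_comm
      simp_rw [this]
      rw [← sum_filter, sum_const, nsmul_eq_mul, norm_mul, Complex.norm_natCast, pow_succ',
        mul_assoc]
      exact mul_le_mul_of_nonneg_left (ih σ' h1) (Nat.cast_nonneg _)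
    · have hb : ∀ b : Fin (k + 1) → A, ‖∑ a : Fin (k + 1) → A, if b 0 = b (σ 0) ∧ ¬ lk (b 0) then
          ⟪wd x η k a (Fin.tail b), wd x η k (a ∘ σ) (Fin.tail (b ∘ σ))⟫_ℂ else 0‖ ≤
          if (∀ l, ¬ lk (b l)) ∧ b 0 = b (σ 0) then nsq η else 0 := by
        intro b
        by_cases hc : b 0 = b (σ 0) ∧ ¬ lk (b 0)
        · simp only [if_pos hc]
          refine (norm_sum_inner_le (fun a : Fin (k + 1) → A => wd x η k a (Fin.tail b))
            (fun a => wd x η k (a ∘ σ) (Fin.tail (b ∘ σ)))).trans ?_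
          unfold nsq
          rw [sum_comp_perm σ (fun a => ‖wd x η k a (Fin.tail (b ∘ σ))‖ ^ 2), sum_norm_wd hx,
            sum_norm_wd hx]
          by_cases hl : ∀ l, ¬ lk (b l)
          · rw [if_pos (c := ∀ l, ¬ lk (Fin.tail b l)) (fun l => hl _),
              if_pos (c := ∀ l, ¬ lk (Fin.tail (b ∘ σ) l)) (fun l => hl _), if_pos ⟨hl, hc.1⟩,
              Real.mul_self_sqrt (nsq_nonneg _)]
            rfl
          · rw [if_neg (c := ∀ l, ¬ lk (Fin.tail b l)), if_neg (c := _ ∧ _) (fun h => hl h.1)]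
            · simp
            · intro h; apply hl; intro l
              refine Fin.cases hc.2 (fun l => h l) l
        · simp only [if_neg hc, sum_const_zero, norm_zero]
          split_ifs
          · exact nsq_nonneg _
          · rfl
      refine (mul_le_mul_of_nonneg_left ((norm_sum_le _ _).trans (sum_le_sum fun b _ => hb b))
        (Nat.cast_nonneg _)).trans ?_
      rw [← sum_filter, sum_const, nsmul_eq_mul, ← mul_assoc]
      refine mul_le_mul_of_nonneg_right ?_ (nsq_nonneg _)
      exact_mod_cast card_coll (Ne.symm h0)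

variable (lk) in
/-- Good label histories. -/
def Good {k : ℕ} (a : Fin (k + 1) → A) (b : Fin k → A) : Prop :=
  Function.Injective a ∧ Function.Injective b ∧ ∀ l, ¬ lk (b l)

instance {k : ℕ} (a : Fin (k + 1) → A) (b : Fin k → A) : Decidable (Good lk a b) := by
  unfold Good; infer_instance

omit [Fintype A] [DecidableEq A] [DecidablePred lk] in
lemma good_perm {k : ℕ} (a : Fin (k + 1) → A) (b : Fin k → A) (σ : Equiv.Perm (Fin k)) :
    Good lk (a ∘ lft σ) (b ∘ σ) ↔ Good lk a b := by
  unfold Good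
  rw [Equiv.injective_comp, Equiv.injective_comp]
  refine and_congr Iff.rfl (and_congr Iff.rfl ⟨fun h l => ?_, fun h l => h _⟩)
  simpa using h (σ.symm l)

lemma bad_wd {x : A → A → (V →L[ℂ] V)} (hx : ColC lk x) (η : A → V) (k : ℕ) :
    mm lk * ∑ a, ∑ b, (if Good lk a b then 0 else ‖wd x η k a b‖ ^ 2) ≤
      mm lk * ∑ a, ∑ b, (if Function.Injective a then 0 else ‖wd x η k a b‖ ^ 2) +
        k ^ 2 * (mm lk ^ k * nsq η) := by
  have h1 : ∑ a, ∑ b, (if Good lk a b then 0 else ‖wd x η k a b‖ ^ 2) ≤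
      ∑ a, ∑ b, (if Function.Injective a then 0 else ‖wd x η k a b‖ ^ 2) +
      ∑ b, ∑ a, (if Function.Injective b ∧ ∀ l, ¬ lk (b l) then 0 else ‖wd x η k a b‖ ^ 2) := by
    rw [sum_comm (γ := Fin k → A), ← sum_add_distrib]
    refine sum_le_sum fun a _ => ?_
    rw [← sum_add_distrib]
    refine sum_le_sum fun b _ => ?_
    unfold Good
    split_ifs <;> simp_all
  have h2 : ∀ b : Fin k → A,
      ∑ a, (if Function.Injective b ∧ ∀ l, ¬ lk (b l) then 0 else ‖wd x η k a b‖ ^ 2) ≤
      ∑ p ∈ (univ : Finset (Fin k)).offDiag,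
        if (∀ l, ¬ lk (b l)) ∧ b p.1 = b p.2 then nsq η else 0 := by
    intro b
    have hnn : ∀ p ∈ (univ : Finset (Fin k)).offDiag,
        0 ≤ if (∀ l, ¬ lk (b l)) ∧ b p.1 = b p.2 then nsq η else 0 := by
      intro p _; split_ifs; exacts [nsq_nonneg _, le_rfl]
    split_ifs with hb
    · simpa using sum_nonneg hnn
    · rw [sum_norm_wd hx]
      split_ifs with hl
      · have : ¬ Function.Injective b := fun h => hb ⟨h, hl⟩
        obtain ⟨i, j, hij, hne⟩ := Function.not_injective_iff.1 this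
        refine le_trans (le_of_eq ?_) (single_le_sum hnn (a := (i, j)) (by simpa using hne))
        rw [if_pos ⟨hl, hij⟩]
      · exact sum_nonneg hnn
  have h3 : mm lk * ∑ b, ∑ a,
      (if Function.Injective b ∧ ∀ l, ¬ lk (b l) then 0 else ‖wd x η k a b‖ ^ 2) ≤
      k ^ 2 * (mm lk ^ k * nsq η) := by
    refine (mul_le_mul_of_nonneg_left (sum_le_sum fun b _ => h2 b) (Nat.cast_nonneg _)).trans ?_
    rw [sum_comm, mul_sum]
    refine (sum_le_card_nsmul _ _ (mm lk ^ k * nsq η) fun p hp => ?_).trans ?_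
    · rw [← sum_filter, sum_const, nsmul_eq_mul, ← mul_assoc]
      refine mul_le_mul_of_nonneg_right ?_ (nsq_nonneg _)
      exact_mod_cast card_coll (by simpa using hp)
    · rw [nsmul_eq_mul]
      refine mul_le_mul_of_nonneg_right ?_ (mul_nonneg (by positivity) (nsq_nonneg _))
      rw [offDiag_card]; simp only [card_univ, Fintype.card_fin]
      have : k * k - k ≤ k ^ 2 := by rw [sq]; omega
      exact_mod_cast this
  have := mul_le_mul_of_nonneg_left h1 (Nat.cast_nonneg (α := ℝ) (mm lk))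
  rw [mul_add] at this
  linarith

end words

/-! ### Stage counting -/

/-- Extend a permutation by fixing the last element. -/
def lfl {k : ℕ} (σ : Equiv.Perm (Fin k)) : Equiv.Perm (Fin (k + 1)) :=
  finSuccEquivLast.trans (σ.optionCongr.trans finSuccEquivLast.symm)

@[simp] lemma lfl_last {k : ℕ} (σ : Equiv.Perm (Fin k)) : lfl σ (Fin.last k) = Fin.last k := by
  simp [lfl]

@[simp] lemma lfl_castSucc {k : ℕ} (σ : Equiv.Perm (Fin k)) (l : Fin k) :
    lfl σ l.castSucc = (σ l).castSucc := by simp [lfl]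

/-- The commutator-type permutation governing stage validity. -/
def tau {k : ℕ} (σ : Equiv.Perm (Fin k)) : Equiv.Perm (Fin (k + 1)) := lft σ * (lfl σ)⁻¹

lemma tau_lfl {k : ℕ} (σ : Equiv.Perm (Fin k)) (i : Fin (k + 1)) : tau σ (lfl σ i) = lft σ i := by
  simp [tau]

lemma tau_last {k : ℕ} (σ : Equiv.Perm (Fin k)) : tau σ (Fin.last k) = lft σ (Fin.last k) := by
  rw [← tau_lfl, lfl_last]

lemma tau_inj {k : ℕ} : Function.Injective (tau (k := k)) := by
  intro σ σ' h
  apply lft_inj
  ext i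
  congr 1
  induction i using Fin.induction with
  | zero => simp
  | succ l ih =>
    rw [← tau_lfl, ← tau_lfl, h, lfl_castSucc, lfl_castSucc] at ih
    have := (tau σ').injective ih
    rw [Fin.castSucc_inj] at this
    rw [lft_succ, lft_succ, this]

section stage
variable (T : Type*) [Fintype T] [DecidableEq T] [AddCommGroup T]

variable {T} in
/-- Valid stage assignments. -/
def Val {k : ℕ} (s : Fin (k + 1) → T) (t : Fin k → T) : Prop :=
  s (Fin.last k) = 0 ∧ ∀ l, s l.castSucc = t l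

instance {k : ℕ} (s : Fin (k + 1) → T) (t : Fin k → T) : Decidable (Val s t) := by
  unfold Val; infer_instance

/-- Number of stage assignments valid in both orders. -/
def CC {k : ℕ} (σ : Equiv.Perm (Fin k)) : ℕ :=
  (univ.filter fun p : (Fin (k + 1) → T) × (Fin k → T) =>
    Val p.1 p.2 ∧ Val (p.1 ∘ lft σ) (p.2 ∘ σ)).card

lemma card_val (k : ℕ) : (univ.filter fun p : (Fin (k + 1) → T) × (Fin k → T) =>
    Val p.1 p.2).card = Fintype.card T ^ k := by
  have : Fintype.card T ^ k = (univ : Finset (Fin k → T)).card := by simp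
  rw [this]
  refine card_bij (fun p _ => p.2) (by simp) ?_ ?_
  · rintro ⟨s, t⟩ h ⟨s', t'⟩ h' he
    simp only [mem_filter, mem_univ, true_and, Val] at h h' he
    subst he
    refine Prod.ext (funext fun i => ?_) rfl
    refine Fin.lastCases ?_ (fun i => ?_) i
    · exact h.1.trans h'.1.symm
    · exact (h.2 i).trans (h'.2 i).symm
  · intro t _
    exact ⟨(Fin.snoc t 0, t), by simp [Val], rfl⟩

lemma CC_one (k : ℕ) : CC T (1 : Equiv.Perm (Fin k)) = Fintype.card T ^ k := by
  rw [← card_val]; unfold CC; simp [lft_one]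

lemma CC_le {k : ℕ} (σ : Equiv.Perm (Fin k)) : CC T σ ≤ Fintype.card T ^ k := by
  rw [← card_val]; unfold CC
  exact card_le_card fun p hp => by simp only [mem_filter, mem_univ, true_and] at hp ⊢; exact hp.1

lemma card_mul_CC_sq {k : ℕ} (σ : Equiv.Perm (Fin k)) :
    (Fintype.card T * CC T σ) ^ 2 ≤ inv (T × T) (tau σ) := by
  have h1 : Fintype.card T * CC T σ ≤ inv T (tau σ) := by
    unfold CC inv
    rw [← card_univ, ← card_product]
    refine card_le_card_of_injOn (fun p => fun i => p.2.1 i + p.1) ?_ ?_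
    · rintro ⟨u, s, t⟩ h
      simp only [coe_product, Set.mem_prod, mem_coe, mem_filter, mem_univ, true_and, Val,
        Function.comp_apply] at h ⊢
      funext i
      obtain ⟨i, rfl⟩ := (lfl σ).surjective i
      simp only [Function.comp_apply, tau_lfl, add_left_inj]
      refine Fin.lastCases ?_ (fun i => ?_) i
      · rw [h.2.1, lfl_last, h.1.1]
      · rw [h.2.2, lfl_castSucc, h.1.2]
    · rintro ⟨u, s, t⟩ h ⟨u', s', t'⟩ h' he
      simp only [coe_product, Set.mem_prod, mem_coe, mem_filter, mem_univ, true_and, Val,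
        Function.comp_apply] at h h'
      have h0 := congrFun he (Fin.last k)
      simp only [h.1.1, h'.1.1, zero_add] at h0
      subst h0
      have hs : s = s' := by funext i; simpa using congrFun he i
      subst hs
      have ht : t = t' := by funext l; rw [← h.1.2, ← h'.1.2]
      rw [ht]
  refine (Nat.pow_le_pow_left h1 2).trans ?_
  unfold inv
  rw [sq, ← card_product]
  refine card_le_card_of_injOn (fun p => fun i => (p.1 i, p.2 i)) ?_ ?_
  · rintro ⟨s, s'⟩ h
    simp only [coe_product, Set.mem_prod, mem_coe, mem_filter, mem_univ, true_and] at h ⊢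
    funext i
    exact Prod.ext (congrFun h.1 i) (congrFun h.2 i)
  · rintro ⟨s, s'⟩ _ ⟨t, t'⟩ _ he
    refine Prod.ext (funext fun i => ?_) (funext fun i => ?_)
    · exact congrArg Prod.fst (congrFun he i)
    · exact congrArg Prod.snd (congrFun he i)

lemma sum_inv_moved' (U : Type*) [Fintype U] [DecidableEq U] (n : ℕ) (i : Fin (n + 1)) :
    ∑ τ : Equiv.Perm (Fin (n + 1)), (if τ i = i then 0 else inv U τ) ≤
      n * (Fintype.card U + n) ^ n := by
  refine le_trans (le_of_eq ?_) (sum_inv_moved U n)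
  set e : Equiv.Perm (Fin (n + 1)) := Equiv.swap 0 i
  rw [← (MulAut.conj e).toEquiv.sum_comp]
  refine sum_congr rfl fun τ _ => ?_
  have h1 : ((MulAut.conj e).toEquiv τ) i = i ↔ τ 0 = 0 := by
    simp [e, Equiv.swap_apply_eq_iff]
  have h2 : inv U ((MulAut.conj e).toEquiv τ) = inv U τ := by
    unfold inv
    refine card_bij (fun S _ => S ∘ e) ?_ ?_ ?_
    · intro S hS
      simp only [mem_filter, mem_univ, true_and] at hS ⊢
      funext j
      simpa using congrFun hS (e j)
    · intro S _ S' _ h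
      funext j
      simpa using congrFun h (e.symm j)
    · intro S hS
      refine ⟨S ∘ e.symm, ?_, by funext j; simp⟩
      simp only [mem_filter, mem_univ, true_and] at hS ⊢
      funext j
      simpa using congrFun hS (e.symm j)
  simp only [h1, h2]

lemma sum_CC_sq (k : ℕ) :
    Fintype.card T ^ 2 * ∑ σ : Equiv.Perm (Fin k),
      (if lft σ (Fin.last k) = Fin.last k then 0 else CC T σ ^ 2) ≤
      k * (Fintype.card T ^ 2 + k) ^ k := by
  have h := sum_inv_moved' (T × T) k (Fin.last k)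
  rw [Fintype.card_prod, ← sq] at h
  refine le_trans ?_ h
  rw [mul_sum]
  calc _ ≤ ∑ σ : Equiv.Perm (Fin k),
        (if tau σ (Fin.last k) = Fin.last k then 0 else inv (T × T) (tau σ)) := by
        refine sum_le_sum fun σ _ => ?_
        rw [tau_last]
        split_ifs
        · simp
        · rw [← mul_pow]; exact card_mul_CC_sq T σ
    _ = ∑ τ ∈ univ.image (tau (k := k)),
        (if τ (Fin.last k) = Fin.last k then 0 else inv (T × T) τ) := by
        rw [sum_image fun a _ b _ h => tau_inj h]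
    _ ≤ _ := sum_le_sum_of_subset (subset_univ _)

end stage

end Crest.Agent.H2.KS
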