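import Crest.Agent.H2.KS4

/-! Kadison similarity, part 6: Gram estimates for good words. -/

set_option autoImplicit false
set_option maxHeartbeats 400000
open Finset
open scoped InnerProductSpace

namespace Crest.Agent.H2.KS

section
variable {V : Type*} [NormedAddCommGroup V] [InnerProductSpace ℂ V]
variable {H : Type*} [NormedAddCommGroup H] [InnerProductSpace ℂ H]
variable {A : Type*} [Fintype A] [DecidableEq A] (lk : A → Prop) [DecidablePred lk]

/-- Gram sums of good words. -/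
noncomputable def Gm (Z : V →L[ℂ] H) (x : A → A → (V →L[ℂ] V)) (η : A → V) (k : ℕ)
    (σ : Equiv.Perm (Fin k)) : ℂ :=
  ∑ a, ∑ b, if Good lk a b then ⟪Z (wd x η k a b), Z (wd x η k (a ∘ lft σ) (b ∘ σ))⟫_ℂ else 0

/-- Energy of bad words. -/
noncomputable def Bd (x : A → A → (V →L[ℂ] V)) (η : A → V) (k : ℕ) : ℝ :=
  ∑ a, ∑ b, if Good lk a b then 0 else ‖wd x η k a b‖ ^ 2

variable {lk}

lemma sum_sum_perm {M : Type*} [AddCommMonoid M] {k : ℕ} (σ : Equiv.Perm (Fin k))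
    (f : (Fin (k + 1) → A) → (Fin k → A) → M) :
    ∑ a : Fin (k + 1) → A, ∑ b : Fin k → A, f (a ∘ lft σ) (b ∘ σ) = ∑ a, ∑ b, f a b := by
  rw [← sum_comp_perm (lft σ) (fun a => ∑ b, f a b)]
  exact sum_congr rfl fun a _ => sum_comp_perm σ (fun b => f (a ∘ lft σ) b)

lemma Bd_nonneg (x : A → A → (V →L[ℂ] V)) (η : A → V) (k : ℕ) : 0 ≤ Bd lk x η k :=
  sum_nonneg fun _ _ => sum_nonneg fun _ _ => by split_ifs <;> positivity

lemma Gm_one {x : A → A → (V →L[ℂ] V)} (hx : ColC lk x) (η : A → V) (k : ℕ) :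
    Gm lk (ContinuousLinearMap.id ℂ V) x η k 1 = ((mm lk ^ k * nsq η - Bd lk x η k : ℝ) : ℂ) := by
  rw [← sum_sum_norm_wd hx, Bd, ← sum_sub_distrib, Gm]
  push_cast
  refine sum_congr rfl fun a _ => ?_
  rw [← sum_sub_distrib]
  refine sum_congr rfl fun b _ => ?_
  split_ifs <;> simp [lft_one, inner_self_eq_norm_sq_to_K]

lemma norm_Gm_one_le {x : A → A → (V →L[ℂ] V)} (hx : ColC lk x) (η : A → V) (k : ℕ) :
    ‖Gm lk (ContinuousLinearMap.id ℂ V) x η k 1‖ ≤ mm lk ^ k * nsq η := by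
  rw [Gm_one hx, Complex.norm_real, Real.norm_of_nonneg]
  · linarith [Bd_nonneg (lk := lk) x η k]
  · rw [← sum_sum_norm_wd hx, Bd, ← sum_sub_distrib]
    refine sum_nonneg fun a _ => ?_
    rw [← sum_sub_distrib]
    refine sum_nonneg fun b _ => ?_
    split_ifs <;> simp

lemma norm_Gm_le {x : A → A → (V →L[ℂ] V)} (hx : ColC lk x) (η : A → V) (k : ℕ)
    (σ : Equiv.Perm (Fin k)) (hσ : σ ≠ 1) :
    mm lk * ‖Gm lk (ContinuousLinearMap.id ℂ V) x η k σ‖ ≤
      mm lk ^ k * nsq η + mm lk * Bd lk x η k := by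
  have e : Gm lk (ContinuousLinearMap.id ℂ V) x η k σ =
      ∑ a, ∑ b, ⟪wd x η k a b, wd x η k (a ∘ lft σ) (b ∘ σ)⟫_ℂ -
      ∑ a, ∑ b, if Good lk a b then 0 else ⟪wd x η k a b, wd x η k (a ∘ lft σ) (b ∘ σ)⟫_ℂ := by
    rw [Gm, ← sum_sub_distrib]
    refine sum_congr rfl fun a _ => ?_
    rw [← sum_sub_distrib]
    refine sum_congr rfl fun b _ => ?_
    split_ifs <;> simp
  have h2 : ‖∑ a, ∑ b, if Good lk a b then 0 else
      ⟪wd x η k a b, wd x η k (a ∘ lft σ) (b ∘ σ)⟫_ℂ‖ ≤ Bd lk x η k := by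
    have h3 : Bd lk x η k = ∑ a, ∑ b, if Good lk a b then 0 else
        ‖wd x η k (a ∘ lft σ) (b ∘ σ)‖ ^ 2 := by
      rw [Bd, ← sum_sum_perm σ]
      simp only [good_perm]
    have h4 : 2 * Bd lk x η k = ∑ a, ∑ b, ((if Good lk a b then 0 else ‖wd x η k a b‖ ^ 2) +
        if Good lk a b then 0 else ‖wd x η k (a ∘ lft σ) (b ∘ σ)‖ ^ 2) := by
      simp only [sum_add_distrib]
      rw [← h3, two_mul]; rfl
    refine le_of_mul_le_mul_left ?_ (two_pos (α := ℝ))
    rw [h4]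
    refine (mul_le_mul_of_nonneg_left (norm_sum_le _ _) two_pos.le).trans ?_
    rw [mul_sum]
    refine sum_le_sum fun a _ => ?_
    refine (mul_le_mul_of_nonneg_left (norm_sum_le _ _) two_pos.le).trans ?_
    rw [mul_sum]
    refine sum_le_sum fun b _ => ?_
    split_ifs
    · simp
    · have := norm_inner_le_norm (𝕜 := ℂ) (wd x η k a b) (wd x η k (a ∘ lft σ) (b ∘ σ))
      nlinarith [sq_nonneg (‖wd x η k a b‖ - ‖wd x η k (a ∘ lft σ) (b ∘ σ)‖)]
  rw [e]
  have h1 := cross_wd hx η k σ hσ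
  have hm : (0 : ℝ) ≤ mm lk := Nat.cast_nonneg _
  refine (mul_le_mul_of_nonneg_left (norm_sub_le _ _) hm).trans ?_
  rw [mul_add]
  exact add_le_add h1 (mul_le_mul_of_nonneg_left h2 hm)

lemma Gm_two (x : A → A → (V →L[ℂ] V)) (η : A → V) (k : ℕ) (σ σ' : Equiv.Perm (Fin k)) :
    (∑ a, ∑ b, if Good lk a b then
      ⟪wd x η k (a ∘ lft σ) (b ∘ σ), wd x η k (a ∘ lft σ') (b ∘ σ')⟫_ℂ else 0) =
      Gm lk (ContinuousLinearMap.id ℂ V) x η k (σ⁻¹ * σ') := by
  symm
  rw [Gm, ← sum_sum_perm σ]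
  refine sum_congr rfl fun a _ => sum_congr rfl fun b _ => ?_
  have e1 : (a ∘ lft σ) ∘ lft (σ⁻¹ * σ') = a ∘ lft σ' := by
    rw [Function.comp_assoc, ← Equiv.Perm.coe_mul, ← lft_mul, mul_inv_cancel_left]
  have e2 : (b ∘ σ) ∘ ⇑(σ⁻¹ * σ') = b ∘ σ' := by
    rw [Function.comp_assoc, ← Equiv.Perm.coe_mul, mul_inv_cancel_left]
  simp only [good_perm, e1, e2, ContinuousLinearMap.id_apply]

/-- Weighted sums of Gram sums are controlled by the `ℓ²` norm of the weights. -/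
lemma norm_sum_Gm_le {x : A → A → (V →L[ℂ] V)} (hx : ColC lk x) (η : A → V) (k : ℕ)
    (Z : V →L[ℂ] H) {Y : ℝ} (hY : ‖Z‖ ≤ Y) (c : Equiv.Perm (Fin k) → ℝ) {B ρ₀ : ℝ}
    (hc0 : ∀ σ, 0 ≤ c σ) (hc : ∀ σ, c σ ≤ B) (hρ0 : 0 ≤ ρ₀)
    (hρ : ∀ σ, σ ≠ 1 → ‖Gm lk (ContinuousLinearMap.id ℂ V) x η k σ‖ ≤ ρ₀) :
    ‖∑ σ, (c σ : ℂ) * Gm lk Z x η k σ‖ ≤ Y ^ 2 * (√(mm lk ^ k * nsq η) *
      √((∑ σ, c σ ^ 2) * (mm lk ^ k * nsq η) + (k.factorial * B) ^ 2 * ρ₀)) := by
  set f : (Fin (k + 1) → A) × (Fin k → A) → V := fun p =>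
    if Good lk p.1 p.2 then wd x η k p.1 p.2 else 0 with hf
  set g : (Fin (k + 1) → A) × (Fin k → A) → V := fun p =>
    if Good lk p.1 p.2 then ∑ σ, (c σ : ℂ) • wd x η k (p.1 ∘ lft σ) (p.2 ∘ σ) else 0 with hg
  have e1 : ∑ σ, (c σ : ℂ) * Gm lk Z x η k σ = Bp Z Z f g := by
    simp only [Gm, Bp, mul_sum, Fintype.sum_prod_type]
    rw [sum_comm]
    refine sum_congr rfl fun a _ => ?_
    rw [sum_comm]
    refine sum_congr rfl fun b _ => ?_
    simp only [hf, hg]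
    split_ifs
    · simp [inner_sum, inner_smul_right]
    · simp
  have h1 : nsq f ≤ mm lk ^ k * nsq η := by
    rw [← sum_sum_norm_wd hx, nsq, Fintype.sum_prod_type]
    refine sum_le_sum fun a _ => sum_le_sum fun b _ => ?_
    simp only [hf]
    split_ifs <;> simp
  have e2 : (nsq g : ℂ) = ∑ σ, ∑ σ', (c σ : ℂ) * c σ' *
      Gm lk (ContinuousLinearMap.id ℂ V) x η k (σ⁻¹ * σ') := by
    rw [← Bp_id_self]
    simp only [← Gm_two, Bp, mul_sum, Fintype.sum_prod_type, ContinuousLinearMap.id_apply]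
    refine Eq.symm ((sum_congr rfl fun σ _ => sum_comm).trans (sum_comm.trans ?_))
    refine sum_congr rfl fun a _ => ?_
    refine (sum_congr rfl fun σ _ => sum_comm).trans (sum_comm.trans ?_)
    refine sum_congr rfl fun b _ => Eq.symm ?_
    simp only [hg]
    split_ifs
    · simp only [sum_inner, inner_sum, inner_smul_right, inner_smul_left, Complex.conj_ofReal,
        mul_sum]
      rw [sum_comm]
      refine sum_congr rfl fun σ _ => sum_congr rfl fun σ' _ => by ring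
    · simp
  have hB : 0 ≤ B := (hc0 1).trans (hc 1)
  have h2 : nsq g ≤ (∑ σ, c σ ^ 2) * (mm lk ^ k * nsq η) + (k.factorial * B) ^ 2 * ρ₀ := by
    have : nsq g = ‖(nsq g : ℂ)‖ := by rw [Complex.norm_real, Real.norm_of_nonneg (nsq_nonneg _)]
    rw [this, e2]
    have e3 : ((k.factorial : ℝ) * B) ^ 2 * ρ₀ =
        ∑ _σ : Equiv.Perm (Fin k), ∑ _σ' : Equiv.Perm (Fin k), B ^ 2 * ρ₀ := by
      simp [Fintype.card_perm]; ring
    rw [e3, sum_mul, ← sum_add_distrib]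
    refine (norm_sum_le _ _).trans (sum_le_sum fun σ _ => (norm_sum_le _ _).trans ?_)
    have e4 : c σ ^ 2 * (mm lk ^ k * nsq η) =
        ∑ σ', if σ' = σ then c σ ^ 2 * (mm lk ^ k * nsq η) else 0 := by simp
    rw [e4, ← sum_add_distrib]
    refine sum_le_sum fun σ' _ => ?_
    rw [norm_mul, norm_mul, Complex.norm_real, Complex.norm_real, Real.norm_of_nonneg (hc0 _),
      Real.norm_of_nonneg (hc0 _)]
    split_ifs with h
    · subst h
      rw [inv_mul_cancel, ← sq]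
      have := mul_le_mul_of_nonneg_left (norm_Gm_one_le hx η k) (sq_nonneg (c σ'))
      have : 0 ≤ B ^ 2 * ρ₀ := by positivity
      linarith
    · rw [zero_add, sq]
      refine mul_le_mul (mul_le_mul (hc _) (hc _) (hc0 _) hB) (hρ _ ?_) (norm_nonneg _)
        (by positivity)
      rw [Ne, inv_mul_eq_one]; exact fun h' => h h'.symm
  rw [e1]
  refine (norm_Bp_le Z Z hY hY f g).trans ?_
  gcongr

omit [Fintype A] in
lemma wd_single (x : A → A → (V →L[ℂ] V)) (η : A → V) (α : A) (k : ℕ) (a : Fin (k + 1) → A)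
    (b : Fin k → A) : wd x (Pi.single α (η α)) k a b =
      if a (Fin.last k) = α then wd x η k a b else 0 := by
  induction k with
  | zero =>
    simp only [wd, Fin.last_zero, Fin.isValue]
    split_ifs with h
    · subst h; simp
    · simp [h]
  | succ k ih =>
    simp only [wd, ih]
    have : Fin.tail a (Fin.last k) = a (Fin.last (k + 1)) := rfl
    rw [this]
    split_ifs <;> simp

lemma sum_Gm_single (Z : V →L[ℂ] H) (x : A → A → (V →L[ℂ] V)) (η : A → V) (k : ℕ)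
    (σ : Equiv.Perm (Fin k)) : ∑ α, Gm lk Z x (Pi.single α (η α)) k σ =
      if lft σ (Fin.last k) = Fin.last k then Gm lk Z x η k σ else 0 := by
  simp only [Gm, wd_single]
  rw [sum_comm]
  split_ifs with h
  · refine sum_congr rfl fun a _ => ?_
    rw [sum_comm]
    refine sum_congr rfl fun b _ => ?_
    rw [sum_eq_single (a (Fin.last k))]
    · simp [h]
    · intro α _ hα; simp [Ne.symm hα]
    · simp
  · refine sum_eq_zero fun a _ => ?_
    rw [sum_comm]
    refine sum_eq_zero fun b _ => sum_eq_zero fun α _ => ?_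
    split_ifs with h1 h2 h3
    · exact absurd (h1.1 (h3.trans h2.symm)) h
    all_goals simp

end

/-! ### Numerical facts -/

lemma desc_bounds {M k K : ℕ} (hk : k < K) (hM : 2 * K ^ 2 ≤ M) :
    (M.factorial : ℝ) ≤ (M - (k + 1)).factorial * (M : ℝ) ^ (k + 1) ∧
    (M - (k + 1)).factorial * (M : ℝ) ^ (k + 1) ≤ 2 * M.factorial := by
  have hkM : k + 1 ≤ M := by nlinarith
  have e := Nat.factorial_mul_descFactorial hkM
  have e' : (M.factorial : ℝ) = (M - (k + 1)).factorial * (M.descFactorial (k + 1) : ℝ) := by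
    exact_mod_cast e.symm
  have h1 : (M.descFactorial (k + 1) : ℝ) ≤ (M : ℝ) ^ (k + 1) := by
    exact_mod_cast Nat.descFactorial_le_pow M (k + 1)
  have h2 : ((M : ℝ) - k) ^ (k + 1) ≤ M.descFactorial (k + 1) := by
    have := Nat.pow_sub_le_descFactorial M (k + 1)
    have e2 : M + 1 - (k + 1) = M - k := by omega
    rw [e2] at this
    have h3 : ((M - k : ℕ) : ℝ) = M - k := Nat.cast_sub (by omega)
    rw [← h3]; exact_mod_cast this
  have hM0 : (0 : ℝ) < M := by exact_mod_cast (show 0 < M by omega)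
  have h3 : (M : ℝ) ^ (k + 1) ≤ 2 * ((M : ℝ) - k) ^ (k + 1) := by
    have hk1 : (k : ℝ) / M ≤ 1 := by
      rw [div_le_one hM0]; exact_mod_cast (show k ≤ M by omega)
    have hk0 : (0 : ℝ) ≤ k / M := by positivity
    have b := one_add_mul_le_pow (a := -((k : ℝ) / M)) (by linarith) (k + 1)
    have e3 : (M : ℝ) - k = M * (1 + -((k : ℝ) / M)) := by field_simp; ring
    have h4 : ((k + 1 : ℕ) : ℝ) * ((k : ℝ) / M) ≤ 1 / 2 := by
      rw [← mul_div_assoc, div_le_iff₀ hM0]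
      have : 2 * ((k + 1) * k) ≤ M := by nlinarith
      have : (2 : ℝ) * (((k + 1 : ℕ) : ℝ) * k) ≤ M := by exact_mod_cast this
      linarith
    rw [e3, mul_pow]
    have : (0 : ℝ) < (M : ℝ) ^ (k + 1) := by positivity
    nlinarith
  have h0 : (0 : ℝ) ≤ (M - (k + 1)).factorial := Nat.cast_nonneg _
  rw [e']
  constructor
  · exact mul_le_mul_of_nonneg_left h1 h0
  · nlinarith [mul_le_mul_of_nonneg_left (h3.trans (mul_le_mul_of_nonneg_left h2 two_pos.le)) h0]

lemma sum_leak_prob {m r : ℝ} (h : 0 < m + r) (K : ℕ) :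
    ∑ k ∈ range K, r * m ^ k / (m + r) ^ (k + 1) = 1 - (m / (m + r)) ^ K := by
  induction K with
  | zero => simp
  | succ K ih => rw [sum_range_succ, ih, div_pow, div_pow]; field_simp; ring

end Crest.Agent.H2.KS
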