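import Crest.Agent.H2.KS5
import Crest.Agent.H2.KS6

/-! Kadison similarity, part 7: the one-sided leak estimate. -/

set_option autoImplicit false
set_option maxHeartbeats 400000
open Finset Matrix
open scoped InnerProductSpace

namespace Crest.Agent.H2.KS

section
variable {R : Type*} [Ring R] [StarRing R] [Algebra ℂ R] [StarModule ℂ R]
variable {V : Type*} [NormedAddCommGroup V] [InnerProductSpace ℂ V] [CompleteSpace V]
variable {H : Type*} [NormedAddCommGroup H] [InnerProductSpace ℂ H]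
variable {ρ : R →⋆ₐ[ℂ] (V →L[ℂ] V)}

variable (ρ) in
/-- Column bound for `S`. -/
def ColB (S : V →L[ℂ] H) (C : ℝ) : Prop :=
  ∀ (n : ℕ) (v : Fin n → R), (∀ ζ, ∑ i, ‖ρ (v i) ζ‖ ^ 2 ≤ ‖ζ‖ ^ 2) →
    ∀ ζ, ∑ i, ‖S (ρ (v i) ζ)‖ ^ 2 ≤ C * ‖S ζ‖ ^ 2

lemma ColB.fintype {S : V →L[ℂ] H} {C : ℝ} (h : ColB ρ S C) {J : Type*} [Fintype J] (v : J → R)
    {W : ℝ} (hW : 0 < W) (hv : ∀ ζ, ∑ i, ‖ρ (v i) ζ‖ ^ 2 ≤ W * ‖ζ‖ ^ 2) (ζ : V) :
    ∑ i, ‖S (ρ (v i) ζ)‖ ^ 2 ≤ W * (C * ‖S ζ‖ ^ 2) := by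
  set e := Fintype.equivFin J
  have hs : ∀ (y : V), ‖((√W)⁻¹ : ℂ) • y‖ ^ 2 = W⁻¹ * ‖y‖ ^ 2 := by
    intro y
    rw [norm_smul, mul_pow, norm_inv, Complex.norm_real, Real.norm_of_nonneg (Real.sqrt_nonneg _),
      inv_pow, Real.sq_sqrt hW.le]
  have hs' : ∀ (y : H), ‖((√W)⁻¹ : ℂ) • y‖ ^ 2 = W⁻¹ * ‖y‖ ^ 2 := by
    intro y
    rw [norm_smul, mul_pow, norm_inv, Complex.norm_real, Real.norm_of_nonneg (Real.sqrt_nonneg _),
      inv_pow, Real.sq_sqrt hW.le]
  have := h _ (fun i => ((√W)⁻¹ : ℂ) • v (e.symm i)) (fun ζ => by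
    simp only [map_smul, _root_.smul_apply, hs]
    rw [← mul_sum, e.symm.sum_comp (fun j => ‖ρ (v j) ζ‖ ^ 2), inv_mul_le_iff₀ hW]
    exact hv ζ) ζ
  simp only [map_smul, _root_.smul_apply, hs'] at this
  rwa [← mul_sum, e.symm.sum_comp (fun j => ‖S (ρ (v j) ζ)‖ ^ 2), inv_mul_le_iff₀ hW] at this

variable {A : Type*} [Fintype A] [DecidableEq A] {lk : A → Prop} [DecidablePred lk]

lemma colC_of {X : Matrix A A R} (hX : Xᴴ * X = 1 - pm R lk) :
    ColC lk (fun i j => ρ (X i j)) := by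
  intro b b' y y'
  have e : ∀ a, ⟪ρ (X a b) y, ρ (X a b') y'⟫_ℂ = ⟪y, ρ (star (X a b) * X a b') y'⟫_ℂ := by
    intro a
    rw [map_mul, map_star, ContinuousLinearMap.star_eq_adjoint, mul_apply_eq_comp,
      ContinuousLinearMap.adjoint_inner_right]
  simp_rw [e]
  rw [← inner_sum, ← _root_.sum_apply, ← map_sum]
  have := congrFun (congrFun hX b) b'
  rw [Matrix.mul_apply] at this
  simp only [conjTranspose_apply] at this
  rw [this]
  simp only [Matrix.sub_apply, Matrix.one_apply, pm, diagonal_apply]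
  by_cases h : b = b' <;> by_cases h' : lk b <;> simp [h, h']
  all_goals simp_all

variable (T : Type*) [Fintype T] [DecidableEq T] [AddCommGroup T]

/-- The stage amplification of a matrix. -/
def Xt (X : Matrix A A R) : Matrix (A × T) (A × T) R := blockDiagonal fun _ : T => X

/-- The stage amplification of a vector. -/
def et (η : A → V) : A × T → V := fun i => if i.2 = 0 then η i.1 else 0

omit [Fintype A] [DecidableEq A] [Fintype T] [AddCommGroup T] [Algebra ℂ R] [StarModule ℂ R] in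
lemma Xt_ct (X : Matrix A A R) : (Xt T X)ᴴ = Xt T Xᴴ := by
  simp [Xt, blockDiagonal_conjTranspose]

omit [DecidableEq A] [AddCommGroup T] [Algebra ℂ R] [StarModule ℂ R] [StarRing R] in
lemma Xt_mul (X Y : Matrix A A R) : Xt T X * Xt T Y = Xt T (X * Y) := by
  simp [Xt, ← blockDiagonal_mul]

omit [Fintype A] [Fintype T] [AddCommGroup T] [Algebra ℂ R] [StarModule ℂ R] [StarRing R] in
lemma Xt_pm : Xt T (pm R lk) = pm R (fun i : A × T => lk i.1) := by
  simp [Xt, pm, blockDiagonal_diagonal]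

omit [Fintype A] [Fintype T] [AddCommGroup T] [Algebra ℂ R] [StarModule ℂ R] [StarRing R] in
lemma Xt_one_sub : Xt T (1 - pm R lk) = 1 - pm R (fun i : A × T => lk i.1) := by
  rw [← Xt_pm, ← blockDiagonal_one, Xt, Xt, ← blockDiagonal_sub]; rfl

omit [DecidableEq A] [CompleteSpace V] [InnerProductSpace ℂ V] in
lemma nsq_et (η : A → V) : nsq (et T η) = nsq η := by
  unfold nsq et
  rw [Fintype.sum_prod_type]
  refine sum_congr rfl fun a _ => ?_
  rw [sum_eq_single 0] <;> simp +contextual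

omit [DecidableEq A] in
lemma Bp_et (S₁ S₂ : V →L[ℂ] H) (X : Matrix A A R) (η ξ : A → V) :
    Bp S₁ S₂ (et T η) (act ρ (Xt T X) (et T ξ)) = Bp S₁ S₂ η (act ρ X ξ) := by
  unfold Bp et
  rw [Fintype.sum_prod_type]
  refine sum_congr rfl fun a _ => ?_
  rw [sum_eq_single 0]
  · simp only [if_true, act_apply, Fintype.sum_prod_type, Xt, blockDiagonal_apply]
    congr 2
    refine sum_congr rfl fun b _ => ?_
    rw [sum_eq_single 0] <;> simp +contextual
  · simp +contextual
  · simp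

omit [Fintype A] [DecidableEq A] [Fintype T] [StarModule ℂ R] in
lemma wd_stage (X : Matrix A A R) (η : A → V) (k : ℕ) (a : Fin (k + 1) → A × T)
    (b : Fin k → A × T) :
    wd (fun i j => ρ (Xt T X i j)) (et T η) k a b =
      if Val (fun l => (a l).2) (fun l => (b l).2) then
        wd (fun i j => ρ (X i j)) η k (fun l => (a l).1) (fun l => (b l).1) else 0 := by
  induction k with
  | zero => simp [wd, et, Val]
  | succ k ih =>
    have hV : Val (fun l => (a l).2) (fun l => (b l).2) ↔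
        (a 0).2 = (b 0).2 ∧ Val (fun l => (Fin.tail a l).2) (fun l => (Fin.tail b l).2) := by
      simp only [Val, Fin.forall_fin_succ, Fin.tail, Fin.succ_last, Fin.castSucc_zero,
        Fin.succ_castSucc]
      tauto
    simp only [wd, ih, hV]
    simp only [Xt, blockDiagonal_apply]
    by_cases h1 : (a 0).2 = (b 0).2
    · simp only [h1, if_true, true_and]
      split_ifs
      · rfl
      · simp
    · simp [h1]

lemma sum_arrow_prod {ι A T M : Type*} [Fintype ι] [DecidableEq ι] [Fintype A] [Fintype T]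
    [AddCommMonoid M] (f : (ι → A × T) → M) :
    ∑ a, f a = ∑ a : ι → A, ∑ s : ι → T, f (fun l => (a l, s l)) := by
  rw [← (Equiv.arrowProdEquivProdArrow ι (fun _ => A) (fun _ => T)).symm.sum_comp,
    Fintype.sum_prod_type]
  rfl

variable (lk) in
/-- Good port histories. -/
def GoodI {k : ℕ} (a : Fin (k + 1) → A × T) (b : Fin k → A × T) : Prop :=
  Good lk (fun l => (a l).1) (fun l => (b l).1)

instance {k : ℕ} (a : Fin (k + 1) → A × T) (b : Fin k → A × T) : Decidable (GoodI lk T a b) := by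
  unfold GoodI; infer_instance

omit [Fintype A] [DecidableEq A] [DecidablePred lk] [Fintype T] [DecidableEq T]
  [AddCommGroup T] in
lemma GoodI.inj {k : ℕ} {a : Fin (k + 1) → A × T} {b : Fin k → A × T} (h : GoodI lk T a b) :
    Function.Injective a ∧ Function.Injective b ∧ ∀ l, ¬ lk (b l).1 :=
  ⟨fun _ _ e => h.1 (congrArg Prod.fst e), fun _ _ e => h.2.1 (congrArg Prod.fst e), h.2.2⟩

omit [Fintype A] [DecidableEq A] [DecidablePred lk] [Fintype T] [DecidableEq T]
  [AddCommGroup T] in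
lemma GoodI.perm {k : ℕ} {a : Fin (k + 1) → A × T} {b : Fin k → A × T} (σ : Equiv.Perm (Fin k))
    (h : GoodI lk T a b) : GoodI lk T (a ∘ lft σ) (b ∘ σ) :=
  (good_perm (lk := lk) (fun l => (a l).1) (fun l => (b l).1) σ).2 h

lemma En_stage {N : ℕ} [NeZero N] (Z : V →L[ℂ] H) (X : Matrix A A R) (η : A → V) (k : ℕ)
    (hN : k + 1 < N) :
    (En ρ N (fun i : A × T => lk i.1) Z (Xt T X) (et T η) k (GoodI lk T) : ℂ) =
      (((N : ℝ) ^ Fintype.card (A × T) * (Fintype.card (A × T) - (k + 1)).factorial *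
        ((univ.filter lk).card * Fintype.card T) : ℝ) : ℂ) *
      ∑ σ : Equiv.Perm (Fin k), (CC T σ : ℂ) * Gm lk Z (fun i j => ρ (X i j)) η k σ := by
  rw [En_good _ Z _ _ k hN _ (fun a b h => h.inj) (fun a b σ h => h.perm T σ)]
  have hc : (univ.filter fun i : A × T => lk i.1).card =
      (univ.filter lk).card * Fintype.card T := by
    rw [← card_univ, ← card_product]; congr 1; ext i; simp
  rw [hc]
  push_cast
  congr 1
  refine sum_congr rfl fun σ _ => ?_
  rw [Gm, sum_arrow_prod, mul_sum]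
  refine sum_congr rfl fun a _ => ?_
  simp_rw [sum_arrow_prod (A := A) (T := T)]
  rw [sum_comm, mul_sum]
  refine sum_congr rfl fun b _ => ?_
  simp only [wd_stage, GoodI, CC, Function.comp_apply]
  by_cases hg : Good lk a b
  · simp only [hg, if_true]
    rw [← Fintype.sum_prod_type', card_filter]
    push_cast
    rw [sum_mul]
    refine sum_congr rfl fun p _ => ?_
    by_cases h1 : Val p.1 p.2
    · by_cases h2 : Val (p.1 ∘ lft σ) (p.2 ∘ σ)
      · rw [if_pos h1, if_pos (show Val (fun l => p.1 (lft σ l)) (fun l => p.2 (σ l)) from h2),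
          if_pos ⟨h1, h2⟩, one_mul]
        rfl
      · rw [if_neg (show ¬ Val (fun l => p.1 (lft σ l)) (fun l => p.2 (σ l)) from h2),
          if_neg (c := _ ∧ _) (fun h => h2 h.2)]
        simp
    · rw [if_neg h1, if_neg (c := _ ∧ _) (fun h => h1 h.1)]
      simp
  · simp [hg]

lemma act_et_single (M : Matrix (A × T) (A × T) R) (α : A) (ζ : V) (i : A × T) :
    act ρ M (et T (Pi.single α ζ)) i = ρ (M i (α, 0)) ζ := by
  rw [act_apply, sum_eq_single (α, 0)]
  · simp [et]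
  · rintro ⟨a, s⟩ _ h
    simp only [et]
    split_ifs with h1
    · subst h1
      rw [Pi.single_eq_of_ne (by simpa using h)]; simp
    · simp
  · simp

omit [InnerProductSpace ℂ V] [CompleteSpace V] in
lemma nsq_single (α : A) (ζ : V) : nsq (Pi.single α ζ : A → V) = ‖ζ‖ ^ 2 := by
  unfold nsq
  rw [sum_eq_single α]
  · simp
  · intro b _ h; simp [h]
  · simp

lemma col_energy {N : ℕ} [NeZero N] {X : Matrix A A R} (hX : Xᴴ * X = 1 - pm R lk)
    {S : V →L[ℂ] H} {C : ℝ} (hS : ColB ρ S C) (K : ℕ) (α : A) (ζ : V) :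
    ∑ k ∈ range K, En ρ N (fun i : A × T => lk i.1) S (Xt T X) (et T (Pi.single α ζ)) k
      (fun _ _ => True) ≤
      Fintype.card (Equiv.Perm (A × T) × (A × T → ZMod N)) * (C * ‖S ζ‖ ^ 2) := by
  have hXt : (Xt T X)ᴴ * Xt T X = 1 - pm R (fun i : A × T => lk i.1) := by
    rw [Xt_ct, Xt_mul, hX, Xt_one_sub]
  have hW : (0 : ℝ) < Fintype.card (Equiv.Perm (A × T) × (A × T → ZMod N)) := by
    exact_mod_cast Fintype.card_pos
  have := hS.fintype (J := (Equiv.Perm (A × T) × (A × T → ZMod N)) × Fin K × (A × T))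
    (fun j => (pm R (fun i : A × T => lk i.1) * Dm R j.1 * (Xt T X * Dm R j.1) ^ (j.2.1 : ℕ))
      j.2.2 (α, 0)) hW (fun ζ => by
        rw [Fintype.sum_prod_type, ← nsmul_eq_mul, ← card_univ]
        refine sum_le_card_nsmul _ _ _ fun ω _ => ?_
        have c := conservation (ρ := ρ) _ hXt (Dm_ct_mul ω) K (et T (Pi.single α ζ))
        rw [nsq_et, nsq_single] at c
        rw [Fintype.sum_prod_type, ← c, sum_range]
        simp only [← act_et_single]
        exact le_add_of_nonneg_right (nsq_nonneg _)) ζ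
  refine le_trans (le_of_eq ?_) this
  simp only [En_total]
  rw [sum_comm, Fintype.sum_prod_type (f := fun j : _ × Fin K × (A × T) => _)]
  refine sum_congr rfl fun ω _ => ?_
  rw [Fintype.sum_prod_type, sum_range]
  simp only [← act_et_single]
  rfl

set_option maxHeartbeats 3000000 in
lemma one_sided {N : ℕ} [NeZero N] {X : Matrix A A R} (hX : Xᴴ * X = 1 - pm R lk)
    {S : V →L[ℂ] H} {C Y : ℝ} (hS : ColB ρ S C) (hY : ‖S‖ ≤ Y) (η : A → V) (K : ℕ)
    {Λ δ γ : ℝ} (hΛ : nsq η ≤ Λ) (hδ0 : 0 ≤ δ) (hδ1 : δ ≤ 1) (hγ : 0 ≤ γ)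
    (hcoll : ∀ k < K, (∑ a, ∑ b, if Function.Injective a then 0 else
      ‖wd (fun i j => ρ (X i j)) η k a b‖ ^ 2) ≤ mm lk ^ k * γ)
    (hm : 0 < mm lk) (hN : K < N) (hM : 2 * K ^ 2 ≤ Fintype.card (A × T))
    (h1 : ((mm lk : ℝ) / Fintype.card A) ^ K ≤ δ)
    (h2 : (K.factorial : ℝ) ^ 2 * ((1 + K ^ 2) * Λ / mm lk + γ) ≤ δ ^ 2 * Λ)
    (h3 : (K : ℝ) / Fintype.card T ^ 2 * (1 + K / Fintype.card T ^ 2) ^ K ≤ δ ^ 2) :
    (∑ ω : Equiv.Perm (A × T) × (A × T → ZMod N),
      nsq (act ρ ((Xt T X * Dm R ω) ^ K) (et T η)) ≤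
      Fintype.card (Equiv.Perm (A × T) × (A × T → ZMod N)) * (5 * δ * Λ)) ∧
    ∑ ω : Equiv.Perm (A × T) × (A × T → ZMod N), ∑ k ∈ range K, (nsq fun i =>
      S (act ρ (pm R (fun i : A × T => lk i.1) * Dm R ω * (Xt T X * Dm R ω) ^ k) (et T η) i)) ≤
      Fintype.card (Equiv.Perm (A × T) × (A × T → ZMod N)) *
        (C * nsq (fun a => S (η a)) + 9 * Y ^ 2 * δ * Λ) := by
  have hXt : (Xt T X)ᴴ * Xt T X = 1 - pm R (fun i : A × T => lk i.1) := by
    rw [Xt_ct, Xt_mul, hX, Xt_one_sub]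
  have hx := colC_of (ρ := ρ) hX
  set x : A → A → (V →L[ℂ] V) := fun i j => ρ (X i j) with hxdef
  set W : ℝ := (Fintype.card (Equiv.Perm (A × T) × (A × T → ZMod N)) : ℝ) with hW
  set M := Fintype.card (A × T) with hMdef
  set m : ℝ := (mm lk : ℝ) with hmdef
  set r : ℝ := ((univ.filter lk).card : ℝ) with hr
  set t : ℝ := (Fintype.card T : ℝ) with ht
  have hm0 : 0 < m := by rw [hmdef]; exact_mod_cast hm
  have hr0 : 0 ≤ r := Nat.cast_nonneg _
  have ht0 : 0 < t := by rw [ht]; exact_mod_cast Fintype.card_pos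
  have hmr : (Fintype.card A : ℝ) = m + r := by
    rw [hmdef, hr, mm, add_comm]
    exact_mod_cast (card_filter_add_card_filter_not (s := univ) lk).symm
  have hMr : (M : ℝ) = (m + r) * t := by rw [hMdef, Fintype.card_prod, ← hmr]; push_cast; rfl
  have hWe : W = M.factorial * (N : ℝ) ^ M := by
    rw [hW, Fintype.card_prod, Fintype.card_perm, Fintype.card_fun, ZMod.card]; push_cast; rfl
  have hN0 : (0 : ℝ) < (N : ℝ) ^ M := by
    have : (0 : ℝ) < N := by exact_mod_cast (show 0 < N by omega)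
    positivity
  have hW0 : 0 ≤ W := Nat.cast_nonneg _
  have hη0 := nsq_nonneg η
  have hΛ0 : 0 ≤ Λ := hη0.trans hΛ
  set c : ℕ → ℝ := fun k => (N : ℝ) ^ M * (M - (k + 1)).factorial * (r * t) with hc
  set p : ℕ → ℝ := fun k => r * m ^ k / (m + r) ^ (k + 1) with hp
  have hp0 : ∀ k, 0 ≤ p k := fun k => by simp only [hp]; positivity
  have hc0 : ∀ k, 0 ≤ c k := fun k => by simp only [hc]; positivity
  have hcp : ∀ k < K, W * p k ≤ c k * (t ^ k * m ^ k) ∧ c k * (t ^ k * m ^ k) ≤ 2 * (W * p k) := by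
    intro k hk
    obtain ⟨d1, d2⟩ := desc_bounds hk hM
    have e : c k * (t ^ k * m ^ k) =
        ((M - (k + 1)).factorial * (M : ℝ) ^ (k + 1)) * ((N : ℝ) ^ M * p k) := by
      simp only [hc, hp]; rw [hMr, mul_pow]; field_simp; ring
    have h0 : 0 ≤ (N : ℝ) ^ M * p k := mul_nonneg hN0.le (hp0 k)
    rw [e, hWe]
    constructor
    · linarith only [mul_le_mul_of_nonneg_right d1 h0]
    · linarith only [mul_le_mul_of_nonneg_right d2 h0]
  have hsp : ∑ k ∈ range K, p k = 1 - (m / (m + r)) ^ K := sum_leak_prob (by positivity) K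
  have hsp1 : ∑ k ∈ range K, p k ≤ 1 := by
    rw [hsp]; have : 0 ≤ (m / (m + r)) ^ K := by positivity
    linarith
  set ρ₀ := (1 + K ^ 2) * Λ / m + γ with hρ₀
  have hρ0 : 0 ≤ ρ₀ := by positivity
  have hK1 : (1 : ℝ) ≤ K.factorial := by exact_mod_cast K.factorial_pos
  have hfk : ∀ k < K, (k.factorial : ℝ) ≤ K.factorial := fun k hk => by
    exact_mod_cast Nat.factorial_le hk.le
  have hBd : ∀ k < K, Bd lk x η k ≤ m ^ k * (K ^ 2 * Λ / m + γ) := by
    intro k hk
    have b := bad_wd hx η k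
    have hk2 : (k : ℝ) ^ 2 ≤ K ^ 2 := by
      have : (k : ℝ) ≤ K := by exact_mod_cast hk.le
      gcongr
    refine le_of_mul_le_mul_left ?_ hm0
    have b2 := mul_le_mul_of_nonneg_left (hcoll k hk) hm0.le
    have b3 : (k : ℝ) ^ 2 * (m ^ k * nsq η) ≤ K ^ 2 * (m ^ k * Λ) := by gcongr
    have e : m * (m ^ k * (K ^ 2 * Λ / m + γ)) = m * (m ^ k * γ) + K ^ 2 * (m ^ k * Λ) := by
      field_simp; ring
    rw [e]
    exact b.trans (add_le_add b2 b3)
  have hBd' : ∀ k < K, Bd lk x η k ≤ m ^ k * ρ₀ := fun k hk => (hBd k hk).trans (by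
    rw [hρ₀]; gcongr; linarith)
  have hGm : ∀ k < K, ∀ σ : Equiv.Perm (Fin k), σ ≠ 1 →
      ‖Gm lk (ContinuousLinearMap.id ℂ V) x η k σ‖ ≤ m ^ k * ρ₀ := by
    intro k hk σ hσ
    refine le_of_mul_le_mul_left ?_ hm0
    refine (norm_Gm_le hx η k σ hσ).trans ?_
    have b2 := mul_le_mul_of_nonneg_left (hBd k hk) hm0.le
    have b3 : m ^ k * nsq η ≤ m ^ k * Λ := by gcongr
    have e : m * (m ^ k * ρ₀) = m ^ k * Λ + m * (m ^ k * (K ^ 2 * Λ / m + γ)) := by
      rw [hρ₀]; field_simp; ring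
    rw [e]
    exact add_le_add b3 b2
  have hCC : ∀ {k} (σ : Equiv.Perm (Fin k)), (CC T σ : ℝ) ≤ t ^ k := fun σ => by
    rw [ht]; exact_mod_cast CC_le T σ
  -- lower bound for the good energy
  have low : ∀ k < K, W * p k * nsq η - W * p k * (4 * δ * Λ) ≤
      En ρ N (fun i : A × T => lk i.1) (ContinuousLinearMap.id ℂ V) (Xt T X) (et T η) k
        (GoodI lk T) := by
    intro k hk
    have e := congrArg Complex.re (En_stage (ρ := ρ) (lk := lk) T (N := N)
      (ContinuousLinearMap.id ℂ V) X η k (by omega))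
    rw [Complex.ofReal_re, Complex.re_ofReal_mul, ← add_sum_erase _ _ (mem_univ 1), CC_one,
      Gm_one hx, Complex.add_re] at e
    rw [e]
    have b1 : ‖∑ σ ∈ univ.erase (1 : Equiv.Perm (Fin k)),
        (CC T σ : ℂ) * Gm lk (ContinuousLinearMap.id ℂ V) x η k σ‖ ≤
        K.factorial * (t ^ k * (m ^ k * ρ₀)) := by
      refine (norm_sum_le _ _).trans ((sum_le_card_nsmul _ _ (t ^ k * (m ^ k * ρ₀))
        fun σ hσ => ?_).trans ?_)
      · rw [norm_mul, Complex.norm_natCast]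
        exact mul_le_mul (hCC σ) (hGm k hk σ (ne_of_mem_erase hσ)) (norm_nonneg _) (by positivity)
      · rw [nsmul_eq_mul]
        refine mul_le_mul_of_nonneg_right (le_trans ?_ (hfk k hk)) (by positivity)
        have : (univ.erase (1 : Equiv.Perm (Fin k))).card ≤ k.factorial :=
          card_erase_le.trans (by simp [Fintype.card_perm])
        exact_mod_cast this
    have b2 := (Complex.abs_re_le_norm _).trans b1
    rw [abs_le] at b2
    have b3 : (((Fintype.card T ^ k : ℕ) : ℂ) * ((m ^ k * nsq η - Bd lk x η k : ℝ) : ℂ)).re =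
        t ^ k * (m ^ k * nsq η - Bd lk x η k) := by
      rw [← Complex.ofReal_natCast, ← Complex.ofReal_mul, Complex.ofReal_re]; push_cast; rfl
    rw [b3]
    obtain ⟨q1, q2⟩ := hcp k hk
    have b4 : (K.factorial + 1) * ρ₀ ≤ 2 * δ * Λ := by
      have h6 : (K.factorial : ℝ) ≤ K.factorial ^ 2 := le_self_pow₀ hK1 two_ne_zero
      have : (K.factorial + 1 : ℝ) ≤ 2 * K.factorial ^ 2 := by linarith only [h6, hK1]
      have h5 : δ ^ 2 * Λ ≤ δ * Λ :=
        mul_le_mul_of_nonneg_right (pow_le_of_le_one hδ0 hδ1 two_ne_zero) hΛ0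
      linarith only [mul_le_mul_of_nonneg_right this hρ0, h5, h2]
    have b5 : t ^ k * Bd lk x η k ≤ t ^ k * (m ^ k * ρ₀) :=
      mul_le_mul_of_nonneg_left (hBd' k hk) (by positivity)
    have b6 : t ^ k * m ^ k * nsq η - t ^ k * m ^ k * (2 * δ * Λ) ≤
        t ^ k * (m ^ k * nsq η - Bd lk x η k) + (∑ σ ∈ univ.erase (1 : Equiv.Perm (Fin k)),
        (CC T σ : ℂ) * Gm lk (ContinuousLinearMap.id ℂ V) x η k σ).re := by
      have := mul_le_mul_of_nonneg_left b4 (show 0 ≤ t ^ k * m ^ k by positivity)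
      linarith only [b2.1, this, b5]
    have b7 := mul_le_mul_of_nonneg_left b6 (hc0 k)
    have b8 := mul_le_mul_of_nonneg_right q1 hη0
    have b9 := mul_le_mul_of_nonneg_right q2 (show 0 ≤ 2 * δ * Λ by positivity)
    refine le_trans ?_ b7
    linarith only [b8, b9]
  have split := fun (k : ℕ) (hk : k < K) (η' : A → V) (Z : V →L[ℂ] H) =>
    En_split (ρ := ρ) (N := N) (fun i : A × T => lk i.1) Z (Xt T X) (et T η') k (by omega)
      (GoodI lk T) (fun a b h => h.inj.1) (fun a b σ h => h.perm T σ)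
  have split' := fun (k : ℕ) (hk : k < K) =>
    En_split (ρ := ρ) (N := N) (fun i : A × T => lk i.1) (ContinuousLinearMap.id ℂ V) (Xt T X)
      (et T η) k (by omega) (GoodI lk T) (fun a b h => h.inj.1) (fun a b σ h => h.perm T σ)
  -- conservation
  have cons : ∑ k ∈ range K, En ρ N (fun i : A × T => lk i.1) (ContinuousLinearMap.id ℂ V)
      (Xt T X) (et T η) k (fun a b => ¬ GoodI lk T a b) +
      ∑ ω : Equiv.Perm (A × T) × (A × T → ZMod N), nsq (act ρ ((Xt T X * Dm R ω) ^ K) (et T η)) ≤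
      W * (5 * δ * Λ) := by
    have e1 : ∑ k ∈ range K, En ρ N (fun i : A × T => lk i.1) (ContinuousLinearMap.id ℂ V)
        (Xt T X) (et T η) k (fun _ _ => True) + ∑ ω : Equiv.Perm (A × T) × (A × T → ZMod N),
        nsq (act ρ ((Xt T X * Dm R ω) ^ K) (et T η)) = W * nsq η := by
      simp only [En_total, ContinuousLinearMap.id_apply]
      rw [sum_comm, ← sum_add_distrib,
        sum_congr rfl fun ω _ => conservation (ρ := ρ) _ hXt (Dm_ct_mul ω) K (et T η), nsq_et]
      simp [hW]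
    rw [sum_congr rfl fun k hk => split' k (mem_range.1 hk), sum_add_distrib] at e1
    have e2 := sum_le_sum fun k hk => low k (mem_range.1 hk)
    rw [sum_sub_distrib, ← sum_mul, ← sum_mul, ← mul_sum] at e2
    rw [hmr] at h1
    have e3 : W * (∑ k ∈ range K, p k) * (4 * δ * Λ) ≤ W * (4 * δ * Λ) := by
      rw [mul_assoc]
      exact mul_le_mul_of_nonneg_left (mul_le_of_le_one_left (by positivity) hsp1) hW0
    have e4 : W * nsq η - W * (∑ k ∈ range K, p k) * nsq η ≤ W * (δ * Λ) := by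
      rw [hsp]
      have : (m / (m + r)) ^ K * nsq η ≤ δ * Λ := by gcongr
      linarith only [mul_le_mul_of_nonneg_left this hW0]
    linarith only [e1, e2, e3, e4]
  have badnn : 0 ≤ ∑ k ∈ range K, En ρ N (fun i : A × T => lk i.1) (ContinuousLinearMap.id ℂ V)
      (Xt T X) (et T η) k (fun a b => ¬ GoodI lk T a b) := sum_nonneg fun _ _ => En_nonneg ..
  have survnn : 0 ≤ ∑ ω : Equiv.Perm (A × T) × (A × T → ZMod N),
      nsq (act ρ ((Xt T X * Dm R ω) ^ K) (et T η)) := sum_nonneg fun _ _ => nsq_nonneg _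
  refine ⟨by linarith only [cons, badnn], ?_⟩
  -- upper bound for the good energy through `S`
  have up : ∀ k < K, En ρ N (fun i : A × T => lk i.1) S (Xt T X) (et T η) k (GoodI lk T) ≤
      ∑ α, En ρ N (fun i : A × T => lk i.1) S (Xt T X) (et T (Pi.single α (η α))) k
        (fun _ _ => True) + W * p k * (4 * Y ^ 2 * δ * Λ) := by
    intro k hk
    set cm : Equiv.Perm (Fin k) → ℝ := fun σ =>
      if lft σ (Fin.last k) = Fin.last k then 0 else CC T σ with hcm
    have e : (En ρ N (fun i : A × T => lk i.1) S (Xt T X) (et T η) k (GoodI lk T) : ℂ) =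
        ∑ α, (En ρ N (fun i : A × T => lk i.1) S (Xt T X) (et T (Pi.single α (η α))) k
          (GoodI lk T) : ℂ) + c k * ∑ σ, (cm σ : ℂ) * Gm lk S x η k σ := by
      simp only [En_stage T S X _ k (show k + 1 < N by omega)]
      rw [← mul_sum, sum_comm, ← mul_add, ← sum_add_distrib]
      congr 1
      refine sum_congr rfl fun σ _ => ?_
      rw [← mul_sum, sum_Gm_single]
      simp only [hcm]
      split_ifs <;> simp [hxdef]
    have e' := congrArg Complex.re e
    rw [Complex.ofReal_re, Complex.add_re, Complex.re_ofReal_mul, ← Complex.ofReal_sum,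
      Complex.ofReal_re] at e'
    rw [e']
    refine add_le_add (sum_le_sum fun α _ => ?_) ?_
    · rw [split k hk _ S]
      exact le_add_of_nonneg_right (En_nonneg ..)
    · have b1 := norm_sum_Gm_le hx η k S hY cm (B := t ^ k) (ρ₀ := m ^ k * ρ₀)
        (fun σ => by simp only [hcm]; split_ifs <;> positivity)
        (fun σ => by simp only [hcm]; split_ifs; exacts [by positivity, hCC σ])
        (by positivity) (hGm k hk)
      have b2 : ∑ σ, cm σ ^ 2 ≤ (t ^ k) ^ 2 * δ ^ 2 := by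
        have s1 : t ^ 2 * ∑ σ, cm σ ^ 2 ≤ k * (t ^ 2 + k) ^ k := by
          have := sum_CC_sq T k
          have e5 : ∑ σ, cm σ ^ 2 = ((∑ σ : Equiv.Perm (Fin k),
              (if lft σ (Fin.last k) = Fin.last k then 0 else CC T σ ^ 2) : ℕ) : ℝ) := by
            push_cast
            refine sum_congr rfl fun σ _ => ?_
            simp only [hcm]; split_ifs <;> simp
          rw [e5, ht]; exact_mod_cast this
        have hkK : (k : ℝ) ≤ K := by exact_mod_cast hk.le
        have s2 : (k : ℝ) / t ^ 2 * (1 + k / t ^ 2) ^ k ≤ δ ^ 2 := by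
          refine le_trans ?_ h3
          have : (1 + (k : ℝ) / t ^ 2) ^ k ≤ (1 + K / t ^ 2) ^ K :=
            (pow_le_pow_left₀ (by positivity) (by gcongr) k).trans
              (pow_le_pow_right₀ (le_add_of_nonneg_right (by positivity)) hk.le)
          gcongr
        have e6 : (k : ℝ) * (t ^ 2 + k) ^ k =
            t ^ 2 * ((t ^ k) ^ 2 * ((k : ℝ) / t ^ 2 * (1 + k / t ^ 2) ^ k)) := by
          have : t ^ 2 + k = t ^ 2 * (1 + k / t ^ 2) := by field_simp
          rw [this, mul_pow]; field_simp; ring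
        rw [e6] at s1
        refine (le_of_mul_le_mul_left s1 (by positivity)).trans ?_
        gcongr
      have b3 : (∑ σ, cm σ ^ 2) * (m ^ k * nsq η) + (k.factorial * t ^ k) ^ 2 * (m ^ k * ρ₀) ≤
          (2 * t ^ k * δ) ^ 2 * (m ^ k * Λ) := by
        have u1 : (∑ σ, cm σ ^ 2) * (m ^ k * nsq η) ≤ (t ^ k) ^ 2 * δ ^ 2 * (m ^ k * Λ) := by
          gcongr
        have u2 : (k.factorial : ℝ) ^ 2 * ρ₀ ≤ δ ^ 2 * Λ := by
          refine le_trans ?_ h2
          have := hfk k hk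
          gcongr
        have u3 := mul_le_mul_of_nonneg_left u2 (show 0 ≤ (t ^ k) ^ 2 * m ^ k by positivity)
        have u4 : 0 ≤ (t ^ k) ^ 2 * δ ^ 2 * (m ^ k * Λ) := by positivity
        linarith only [u1, u3, u4]
      have b4 : ‖∑ σ, (cm σ : ℂ) * Gm lk S x η k σ‖ ≤ t ^ k * m ^ k * (2 * Y ^ 2 * δ * Λ) := by
        refine b1.trans ?_
        calc _ ≤ Y ^ 2 * (√(m ^ k * Λ) * √((2 * t ^ k * δ) ^ 2 * (m ^ k * Λ))) := by gcongr
          _ = _ := by
            rw [Real.sqrt_mul (sq_nonneg _), Real.sqrt_sq (by positivity), mul_left_comm (√_),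
              Real.mul_self_sqrt (by positivity)]
            ring
      have b5 := mul_le_mul_of_nonneg_left ((Complex.re_le_norm _).trans b4) (hc0 k)
      have b6 := mul_le_mul_of_nonneg_right (hcp k hk).2
        (show 0 ≤ 2 * Y ^ 2 * δ * Λ by positivity)
      linarith only [b5, b6]
  rw [sum_comm]
  simp only [← En_total]
  rw [sum_congr rfl fun k hk => split k (mem_range.1 hk) η S, sum_add_distrib]
  have f1 := sum_le_sum fun k hk => up k (mem_range.1 hk)
  rw [sum_add_distrib, sum_comm, ← sum_mul, ← mul_sum] at f1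
  have f2 : ∑ α, ∑ k ∈ range K, En ρ N (fun i : A × T => lk i.1) S (Xt T X)
      (et T (Pi.single α (η α))) k (fun _ _ => True) ≤ W * (C * nsq fun a => S (η a)) := by
    rw [nsq, mul_sum, mul_sum]
    exact sum_le_sum fun α _ => col_energy T hX hS K α (η α)
  have f3 : ∑ k ∈ range K, En ρ N (fun i : A × T => lk i.1) S (Xt T X) (et T η) k
      (fun a b => ¬ GoodI lk T a b) ≤ Y ^ 2 * (W * (5 * δ * Λ)) := by
    refine (sum_le_sum fun k _ => En_le _ S hY _ _ k _).trans ?_
    rw [← mul_sum]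
    exact mul_le_mul_of_nonneg_left (by linarith only [cons, survnn]) (sq_nonneg _)
  have f4 : W * (∑ k ∈ range K, p k) * (4 * Y ^ 2 * δ * Λ) ≤ W * (4 * Y ^ 2 * δ * Λ) := by
    rw [mul_assoc]
    exact mul_le_mul_of_nonneg_left (mul_le_of_le_one_left (by positivity) hsp1) hW0
  linarith only [f1, f2, f3, f4]

end

end Crest.Agent.H2.KS
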