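import Crest.Agent.H2.KS7

/-! Kadison similarity, part 8: randomising the labels with a flat unitary. -/

set_option autoImplicit false
set_option maxHeartbeats 400000
open Finset Matrix
open scoped InnerProductSpace

namespace Crest.Agent.H2.KS

section
variable {V : Type*} [NormedAddCommGroup V] [InnerProductSpace ℂ V]
variable {A : Type*} [Fintype A] [DecidableEq A] {lk : A → Prop} [DecidablePred lk]

variable (lk) in
/-- Scalar column condition. -/
def ColS (G : A → A → ℂ) : Prop :=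
  ∀ c c', ∑ a, (starRingEnd ℂ) (G a c) * G a c' = if c = c' ∧ ¬ lk c then 1 else 0

lemma exists_flat (hm : 0 < mm lk) : ∃ G : A → A → ℂ, ColS lk G ∧ (∀ a c, G a c = G c a) ∧
    (∀ a c, lk a → G a c = 0) ∧ ∀ a c, ‖G a c‖ ^ 2 ≤ 1 / mm lk := by
  haveI : NeZero (mm lk) := ⟨hm.ne'⟩
  have hc : Fintype.card {a // ¬ lk a} = Fintype.card (ZMod (mm lk)) := by
    rw [ZMod.card, Fintype.card_subtype, mm]
  set e := Fintype.equivOfCardEq hc
  have hm0 : (0 : ℝ) < mm lk := by exact_mod_cast hm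
  set s : ℂ := (((√(mm lk))⁻¹ : ℝ) : ℂ) with hs
  have hss : (starRingEnd ℂ) s * s = (mm lk : ℂ)⁻¹ := by
    rw [hs, Complex.conj_ofReal, ← Complex.ofReal_mul, ← mul_inv, Real.mul_self_sqrt hm0.le]
    simp
  refine ⟨fun a c => if ha : lk a then 0 else if hc : lk c then 0 else
    s * chi (mm lk) (e ⟨a, ha⟩ * e ⟨c, hc⟩), ?_, ?_, ?_, ?_⟩
  · intro c c'
    by_cases hc : lk c
    · simp [hc]
    by_cases hc' : lk c'
    · have : c ≠ c' := fun h => hc (h ▸ hc')
      simp [hc', this]
    rw [← Fintype.sum_subtype_add_sum_subtype lk, sum_eq_zero (fun a _ => by simp [a.2]),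
      zero_add]
    have : ∀ a : {a // ¬ lk a}, (starRingEnd ℂ) (if ha : lk a then 0 else if hc : lk c then 0 else
        s * chi (mm lk) (e ⟨a, ha⟩ * e ⟨c, hc⟩)) * (if ha : lk a then 0 else if hc : lk c' then 0
        else s * chi (mm lk) (e ⟨a, ha⟩ * e ⟨c', hc⟩)) =
        (mm lk : ℂ)⁻¹ * chi (mm lk) ((e ⟨c', hc'⟩ - e ⟨c, hc⟩) * e a) := by
      intro a
      simp only [a.2, hc, hc', dif_neg, not_false_eq_true, map_mul, conj_chi]
      rw [mul_mul_mul_comm, hss, ← chi_add]
      congr 2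
      ring
    simp_rw [this]
    rw [← mul_sum, e.sum_comp (fun z => chi (mm lk) ((e ⟨c', hc'⟩ - e ⟨c, hc⟩) * z)), sum_chi_mul]
    by_cases h : c = c'
    · subst h
      have : (mm lk : ℂ) ≠ 0 := by exact_mod_cast hm.ne'
      simp [hc, this]
    · rw [if_neg, if_neg (fun h' => h h'.1), mul_zero]
      rw [sub_eq_zero]
      intro h'
      exact h (congrArg Subtype.val (e.injective h')).symm
  · intro a c
    by_cases ha : lk a <;> by_cases hc : lk c <;> simp [ha, hc, mul_comm]
  · intro a c ha; simp [ha]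
  · intro a c
    dsimp only
    split_ifs
    · simp
    · simp
    · rw [norm_mul, norm_chi, mul_one, hs, Complex.norm_real, Real.norm_of_nonneg (by positivity),
        inv_pow, Real.sq_sqrt hm0.le, one_div]

lemma ColS.phase {G : A → A → ℂ} (hG : ColS lk G) {N : ℕ} [NeZero N] (φ : A → ZMod N) :
    ColS lk (fun a c => G a c * chi N (φ c)) := by
  intro c c'
  have : ∀ a, (starRingEnd ℂ) (G a c * chi N (φ c)) * (G a c' * chi N (φ c')) =
      ((starRingEnd ℂ) (G a c) * G a c') * ((starRingEnd ℂ) (chi N (φ c)) * chi N (φ c')) := by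
    intro a; rw [map_mul]; ring
  simp_rw [this]
  rw [← sum_mul, hG]
  split_ifs with h
  · rw [← h.1, mul_comm ((starRingEnd ℂ) _), chi_mul_conj, one_mul]
  · simp

lemma ColS.nsq_le {G : A → A → ℂ} (hG : ColS lk G) (g : A → V) :
    nsq (fun a => ∑ c, G a c • g c) ≤ nsq g := by
  have e : ((nsq (fun a => ∑ c, G a c • g c) : ℝ) : ℂ) =
      ((∑ c, if lk c then 0 else ‖g c‖ ^ 2 : ℝ) : ℂ) := by
    rw [← Bp_id_self]
    simp only [Bp, ContinuousLinearMap.id_apply, sum_inner, inner_sum, inner_smul_left,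
      inner_smul_right, mul_sum]
    rw [sum_comm]
    push_cast
    refine sum_congr rfl fun c' _ => ?_
    rw [sum_comm]
    simp_rw [← mul_assoc, mul_comm (G _ c'), ← sum_mul, hG _ c']
    rw [sum_eq_single c']
    · split_ifs <;> simp_all [inner_self_eq_norm_sq_to_K]
    · intro c _ hc; simp [hc]
    · simp
  have e' := Complex.ofReal_injective e
  rw [e']
  refine sum_le_sum fun c _ => ?_
  split_ifs <;> simp

omit [Fintype A] in
lemma eq_or_swap {k : ℕ} [Fintype A] {c c' : Fin k → A} {i j : Fin k} (hij : i ≠ j)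
    (h1 : ∀ l, l ≠ i → l ≠ j → c l = c' l) (h2 : ∀ a, cnt c a = cnt c' a) :
    c' = c ∨ c' = c ∘ Equiv.swap i j := by
  have key : ∀ f : A → ℤ, f (c i) + f (c j) = f (c' i) + f (c' j) := by
    intro f
    have e : ∑ l, f (c l) = ∑ l, f (c' l) := by
      rw [sum_comp_eq_cnt, sum_comp_eq_cnt]; simp [h2]
    have e2 : ∑ l, (f (c l) - f (c' l)) = (f (c i) - f (c' i)) + (f (c j) - f (c' j)) := by
      apply Fintype.sum_eq_add i j hij
      intro l hl
      rw [h1 l hl.1 hl.2, sub_self]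
    rw [sum_sub_distrib, e, sub_self] at e2
    linarith
  by_cases hi : c' i = c i
  · left
    have hj : c' j = c j := by
      have := key (fun a => if a = c j then 1 else 0)
      rw [hi] at this
      by_contra hne
      simp [hne] at this
    funext l
    by_cases hl : l = i
    · rw [hl, hi]
    by_cases hl' : l = j
    · rw [hl', hj]
    exact (h1 l hl hl').symm
  · right
    have hj : c' j = c i := by
      have := key (fun a => if a = c i then 1 else 0)
      by_contra hne
      simp only [if_true, hi, hne, if_false] at this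
      split_ifs at this <;> omega
    have hi' : c' i = c j := by
      have := key (fun a => if a = c j then 1 else 0)
      rw [hj] at this
      by_contra hne
      simp [hne] at this
    funext l
    by_cases hl : l = i
    · simp [hl, hi']
    by_cases hl' : l = j
    · simp [hl', hj]
    rw [Function.comp_apply, Equiv.swap_apply_of_ne_of_ne hl hl']
    exact (h1 l hl hl').symm

lemma coll_coeff {G : A → A → ℂ} (hG : ColS lk G) (hG0 : ∀ a c, lk a → G a c = 0)
    (hG2 : ∀ a c, ‖G a c‖ ^ 2 ≤ 1 / mm lk) (hm : 0 < mm lk) {k : ℕ} {i j : Fin k} (hij : i ≠ j)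
    (c c' : Fin k → A) :
    ‖∑ a : Fin k → A, if a i = a j then ∏ l, ((starRingEnd ℂ) (G (a l) (c l)) * G (a l) (c' l))
      else 0‖ ≤ if ∀ l, l ≠ i → l ≠ j → c l = c' l then 1 / (mm lk : ℝ) else 0 := by
  have hm0 : (0 : ℝ) < mm lk := by exact_mod_cast hm
  set g : A → Fin k → A → ℂ := fun α l y =>
    if (l = i ∨ l = j) ∧ y ≠ α then 0 else (starRingEnd ℂ) (G y (c l)) * G y (c' l) with hg
  have e1 : ∀ a : Fin k → A, (if a i = a j then
      ∏ l, ((starRingEnd ℂ) (G (a l) (c l)) * G (a l) (c' l)) else 0) = ∑ α, ∏ l, g α l (a l) := by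
    intro a
    rw [sum_eq_single (a i)]
    · split_ifs with h
      · refine prod_congr rfl fun l _ => ?_
        simp only [hg]
        rw [if_neg]
        rintro ⟨rfl | rfl, h'⟩
        · exact h' rfl
        · exact h' h.symm
      · symm
        exact prod_eq_zero (mem_univ j) (by simp [hg, Ne.symm h])
    · intro α _ hα
      exact prod_eq_zero (mem_univ i) (by simp [hg, Ne.symm hα])
    · simp
  simp_rw [e1]
  rw [sum_comm]
  have e2 : ∀ α, ∑ a : Fin k → A, ∏ l, g α l (a l) = ∏ l, ∑ y, g α l y := by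
    intro α
    rw [Finset.prod_univ_sum]; simp
  simp_rw [e2]
  have hGG : ∀ y a b, ‖(starRingEnd ℂ) (G y a) * G y b‖ ≤ 1 / mm lk := by
    intro y a b
    rw [norm_mul, Complex.norm_conj]
    nlinarith [hG2 y a, hG2 y b, sq_nonneg (‖G y a‖ - ‖G y b‖)]
  have e3 : ∀ α l, (l = i ∨ l = j) → ∑ y, g α l y = (starRingEnd ℂ) (G α (c l)) * G α (c' l) := by
    intro α l hl
    rw [sum_eq_single α]
    · simp [hg]
    · intro y _ hy; simp [hg, hl, hy]
    · simp
  have e4 : ∀ α l, l ≠ i → l ≠ j → ∑ y, g α l y = if c l = c' l ∧ ¬ lk (c l) then 1 else 0 := by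
    intro α l h1 h2
    rw [← hG]; simp [hg, h1, h2]
  split_ifs with h
  · have b : ∀ α, ‖∏ l, ∑ y, g α l y‖ ≤
        if lk α then (0 : ℝ) else 1 / (mm lk : ℝ) * (1 / (mm lk : ℝ)) := by
      intro α
      split_ifs with hα
      · rw [prod_eq_zero (mem_univ i), norm_zero]
        rw [e3 α i (Or.inl rfl), hG0 α _ hα]; simp
      · rw [norm_prod, ← mul_prod_erase _ _ (mem_univ i),
          ← mul_prod_erase _ _ (show j ∈ univ.erase i by simp [hij.symm]), ← mul_assoc]
        refine (mul_le_of_le_one_right (by positivity) (prod_le_one (fun _ _ => norm_nonneg _)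
          fun l hl => ?_)).trans ?_
        · simp only [mem_erase] at hl
          rw [e4 α l hl.2.1 hl.1]; split_ifs <;> simp
        · rw [e3 α i (Or.inl rfl), e3 α j (Or.inr rfl)]
          exact mul_le_mul (hGG _ _ _) (hGG _ _ _) (norm_nonneg _) (by positivity)
    refine (norm_sum_le _ _).trans ((sum_le_sum fun α _ => b α).trans (le_of_eq ?_))
    rw [sum_ite, sum_const_zero, zero_add, sum_const, nsmul_eq_mul]
    change (mm lk : ℝ) * _ = _
    field_simp
  · push Not at h
    obtain ⟨l, h1, h2, h3⟩ := h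
    rw [sum_eq_zero, norm_zero]
    intro α _
    exact prod_eq_zero (mem_univ l) (by rw [e4 α l h1 h2]; simp [h3])

lemma tensor_coll {G : A → A → ℂ} (hG : ColS lk G) (hG0 : ∀ a c, lk a → G a c = 0)
    (hG2 : ∀ a c, ‖G a c‖ ^ 2 ≤ 1 / mm lk) (hm : 0 < mm lk) {k N : ℕ} [NeZero N] (hN : k < N)
    {i j : Fin k} (hij : i ≠ j) (t : (Fin k → A) → V) :
    ∑ φ : A → ZMod N, ∑ a : Fin k → A, (if a i = a j then
      ‖∑ c : Fin k → A, (∏ l, (G (a l) (c l) * chi N (φ (c l)))) • t c‖ ^ 2 else 0) ≤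
      (N : ℝ) ^ Fintype.card A * (2 / mm lk * nsq t) := by
  have hm0 : (0 : ℝ) < mm lk := by exact_mod_cast hm
  set L := ∑ φ : A → ZMod N, ∑ a : Fin k → A, (if a i = a j then
      ‖∑ c : Fin k → A, (∏ l, (G (a l) (c l) * chi N (φ (c l)))) • t c‖ ^ 2 else 0) with hL
  have e : (L : ℂ) = ∑ c : Fin k → A, ∑ c' : Fin k → A,
      (if ∀ y, cnt c y = cnt c' y then (N : ℂ) ^ Fintype.card A else 0) *
      (∑ a : Fin k → A, if a i = a j then
        ∏ l, ((starRingEnd ℂ) (G (a l) (c l)) * G (a l) (c' l)) else 0) * ⟪t c, t c'⟫_ℂ := by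
    have e1 : ∀ (φ : A → ZMod N) (a : Fin k → A), (((if a i = a j then
        ‖∑ c : Fin k → A, (∏ l, (G (a l) (c l) * chi N (φ (c l)))) • t c‖ ^ 2 else 0 : ℝ)) : ℂ) =
        ∑ c : Fin k → A, ∑ c' : Fin k → A,
        ((starRingEnd ℂ) (∏ l, chi N (φ (c l))) * ∏ l, chi N (φ (c' l))) *
        (if a i = a j then ∏ l, ((starRingEnd ℂ) (G (a l) (c l)) * G (a l) (c' l)) else 0) *
          ⟪t c, t c'⟫_ℂ := by
      intro φ a
      split_ifs
      · push_cast
        have := inner_self_eq_norm_sq_to_K (𝕜 := ℂ)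
          (∑ c : Fin k → A, (∏ l, (G (a l) (c l) * chi N (φ (c l)))) • t c)
        refine Eq.trans this.symm ?_
        simp only [sum_inner, inner_sum, inner_smul_left, inner_smul_right, mul_sum]
        rw [sum_comm]
        refine sum_congr rfl fun c _ => sum_congr rfl fun c' _ => ?_
        simp only [prod_mul_distrib, map_mul, map_prod]
        ring
      · simp
    rw [hL]
    push_cast
    simp_rw [e1]
    refine (sum_congr rfl fun φ _ => sum_comm).trans (sum_comm.trans ?_)
    refine sum_congr rfl fun c _ => ?_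
    refine (sum_congr rfl fun φ _ => sum_comm).trans (sum_comm.trans ?_)
    refine sum_congr rfl fun c' _ => ?_
    rw [← phase_avg c c' (by simpa using hN) (by simpa using hN), sum_mul, sum_mul]
    refine sum_congr rfl fun φ _ => ?_
    rw [mul_sum, sum_mul]
  have hL0 : 0 ≤ L := sum_nonneg fun _ _ => sum_nonneg fun _ _ => by split_ifs <;> positivity
  have hLn : L = ‖(L : ℂ)‖ := by rw [Complex.norm_real, Real.norm_of_nonneg hL0]
  rw [hLn, e]
  have b : ∀ c c' : Fin k → A, ‖(if ∀ y, cnt c y = cnt c' y then (N : ℂ) ^ Fintype.card A else 0) *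
      (∑ a : Fin k → A, if a i = a j then
        ∏ l, ((starRingEnd ℂ) (G (a l) (c l)) * G (a l) (c' l)) else 0) * ⟪t c, t c'⟫_ℂ‖ ≤
      (N : ℝ) ^ Fintype.card A * (1 / mm lk) * ((if c' = c then ‖t c‖ * ‖t c'‖ else 0) +
        (if c' = c ∘ Equiv.swap i j then ‖t c‖ * ‖t c'‖ else 0)) := by
    intro c c'
    have b0 : 0 ≤ (if c' = c then ‖t c‖ * ‖t c'‖ else 0) := by split_ifs <;> positivity
    have b1 : 0 ≤ (if c' = c ∘ Equiv.swap i j then ‖t c‖ * ‖t c'‖ else 0) := by
      split_ifs <;> positivity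
    have b2 := coll_coeff hG hG0 hG2 hm hij c c'
    rw [norm_mul, norm_mul]
    by_cases h1 : ∀ y, cnt c y = cnt c' y
    · by_cases h2 : ∀ l, l ≠ i → l ≠ j → c l = c' l
      · rw [if_pos h2] at b2
        rw [if_pos h1, norm_pow, Complex.norm_natCast]
        refine mul_le_mul (mul_le_mul_of_nonneg_left b2 (by positivity))
          ((norm_inner_le_norm _ _).trans ?_) (norm_nonneg _) (by positivity)
        rcases eq_or_swap hij h2 h1 with h | h
        · rw [if_pos h]; linarith
        · rw [if_pos h]; linarith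
      · rw [if_neg h2] at b2
        rw [le_antisymm b2 (norm_nonneg _), mul_zero, zero_mul]; positivity
    · rw [if_neg h1, norm_zero, zero_mul, zero_mul]; positivity
  refine (norm_sum_le _ _).trans ((sum_le_sum fun c _ =>
    (norm_sum_le _ _).trans (sum_le_sum fun c' _ => b c c')).trans ?_)
  simp only [← mul_sum, sum_add_distrib, sum_ite_eq', mem_univ, if_true]
  rw [mul_assoc]
  refine mul_le_mul_of_nonneg_left ?_ (by positivity)
  have s1 : ∑ c, ‖t c‖ * ‖t c‖ = nsq t := by simp [nsq, sq]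
  have s2 : ∑ c : Fin k → A, ‖t c‖ * ‖t (c ∘ Equiv.swap i j)‖ ≤ nsq t := by
    refine (Real.sum_mul_le_sqrt_mul_sqrt _ _ _).trans (le_of_eq ?_)
    rw [sum_comp_perm (Equiv.swap i j) (fun c => ‖t c‖ ^ 2)]
    exact Real.mul_self_sqrt (nsq_nonneg t)
  rw [s1]
  calc _ ≤ 1 / mm lk * (nsq t + nsq t) := by gcongr
    _ = _ := by ring

omit [DecidableEq A] in
lemma wd_scalar (F : A → A → ℂ) (y : A → A → (V →L[ℂ] V)) (η : A → V) (k : ℕ)
    (a : Fin (k + 1) → A) (b : Fin k → A) :
    wd (fun a b => ∑ c, F a c • y c b) (fun a => ∑ c, F a c • η c) k a b =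
      ∑ c : Fin (k + 1) → A, (∏ l, F (a l) (c l)) • wd y η k c b := by
  induction k with
  | zero => rw [sum_fin_succ]; simp [wd]
  | succ k ih =>
    rw [sum_fin_succ]
    simp only [wd, ih, _root_.sum_apply, _root_.smul_apply, map_sum, map_smul, smul_sum, smul_smul,
      Fin.prod_univ_succ (n := k + 1), Fin.cons_zero, Fin.cons_succ, Fin.tail_cons]
    rw [sum_comm]
    refine sum_congr rfl fun c0 _ => sum_congr rfl fun c _ => ?_
    rw [mul_comm]; rfl

lemma coll_avg {G : A → A → ℂ} (hG : ColS lk G) (hG0 : ∀ a c, lk a → G a c = 0)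
    (hG2 : ∀ a c, ‖G a c‖ ^ 2 ≤ 1 / mm lk) (hm : 0 < mm lk) {k N : ℕ} [NeZero N] (hN : k + 1 < N)
    {y : A → A → (V →L[ℂ] V)} (hy : ColC lk y) (η : A → V) :
    ∑ φ : A → ZMod N, ∑ a, ∑ b, (if Function.Injective a then 0 else
      ‖wd (fun a b => ∑ c, (G a c * chi N (φ c)) • y c b)
        (fun a => ∑ c, (G a c * chi N (φ c)) • η c) k a b‖ ^ 2) ≤
      (N : ℝ) ^ Fintype.card A * ((k + 1) ^ 2 * (2 / mm lk * (mm lk ^ k * nsq η))) := by
  have hm0 : (0 : ℝ) < mm lk := by exact_mod_cast hm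
  simp_rw [wd_scalar]
  have h1 : ∀ (φ : A → ZMod N) (a : Fin (k + 1) → A) (b : Fin k → A),
      (if Function.Injective a then 0 else ‖∑ c : Fin (k + 1) → A,
        (∏ l, (G (a l) (c l) * chi N (φ (c l)))) • wd y η k c b‖ ^ 2) ≤
      ∑ p ∈ (univ : Finset (Fin (k + 1))).offDiag, if a p.1 = a p.2 then ‖∑ c : Fin (k + 1) → A,
        (∏ l, (G (a l) (c l) * chi N (φ (c l)))) • wd y η k c b‖ ^ 2 else 0 := by
    intro φ a b
    have hnn : ∀ p ∈ (univ : Finset (Fin (k + 1))).offDiag, 0 ≤ if a p.1 = a p.2 then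
        ‖∑ c : Fin (k + 1) → A, (∏ l, (G (a l) (c l) * chi N (φ (c l)))) • wd y η k c b‖ ^ 2
        else 0 := by
      intro p _; split_ifs <;> positivity
    split_ifs with ha
    · exact sum_nonneg hnn
    · obtain ⟨i, j, hij, hne⟩ := Function.not_injective_iff.1 ha
      refine le_trans (le_of_eq ?_) (single_le_sum hnn (a := (i, j)) (by simpa using hne))
      rw [if_pos hij]
  refine (sum_le_sum fun φ _ => sum_le_sum fun a _ => sum_le_sum fun b _ => h1 φ a b).trans ?_
  have e : ∀ (f : (A → ZMod N) → (Fin (k + 1) → A) → (Fin k → A) → Fin (k + 1) × Fin (k + 1) → ℝ),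
      ∑ φ, ∑ a, ∑ b, ∑ p ∈ (univ : Finset (Fin (k + 1))).offDiag, f φ a b p =
      ∑ p ∈ (univ : Finset (Fin (k + 1))).offDiag, ∑ b, ∑ φ, ∑ a, f φ a b p := by
    intro f
    refine (sum_congr rfl fun φ _ => sum_comm).trans (sum_comm.trans ?_)
    refine (sum_congr rfl fun b _ => (sum_congr rfl fun φ _ => sum_comm).trans sum_comm).trans ?_
    exact sum_comm
  rw [e]
  refine (sum_le_card_nsmul _ _
    ((N : ℝ) ^ Fintype.card A * (2 / mm lk * (mm lk ^ k * nsq η))) fun p hp => ?_).trans ?_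
  · refine (sum_le_sum fun b _ => tensor_coll hG hG0 hG2 hm hN (by simpa using hp) _).trans
      (le_of_eq ?_)
    rw [← mul_sum, ← mul_sum, ← sum_sum_norm_wd hy, sum_comm]
    rfl
  · rw [nsmul_eq_mul, mul_left_comm]
    have := nsq_nonneg η
    refine mul_le_mul_of_nonneg_left (mul_le_mul_of_nonneg_right ?_ (by positivity))
      (by positivity)
    rw [offDiag_card]; simp only [card_univ, Fintype.card_fin]
    have : (k + 1) * (k + 1) - (k + 1) ≤ (k + 1) ^ 2 := by rw [sq]; omega
    exact_mod_cast this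

end

end Crest.Agent.H2.KS
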