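import Crest.Agent.H2.KS3
import Crest.Agent.H2.KS8

/-! Kadison similarity, part 9: the core estimate. -/

set_option autoImplicit false
set_option maxHeartbeats 800000
open Finset Matrix
open scoped InnerProductSpace

namespace Crest.Agent.H2.KS

section
variable {R : Type*} [Ring R] [StarRing R] [Algebra ℂ R] [StarModule ℂ R]
variable {V : Type*} [NormedAddCommGroup V] [InnerProductSpace ℂ V] [CompleteSpace V]
variable {H : Type*} [NormedAddCommGroup H] [InnerProductSpace ℂ H]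
variable {ρ : R →⋆ₐ[ℂ] (V →L[ℂ] V)}

variable (ρ) in
/-- The entries of `M` preserve `V₀`. -/
def EP (V₀ : Submodule ℂ V) {I J : Type*} (M : Matrix I J R) : Prop :=
  ∀ i j, ∀ v ∈ V₀, ρ (M i j) v ∈ V₀

section EP
variable {V₀ : Submodule ℂ V}

lemma EP.mul {I J L : Type*} [Fintype J] {M : Matrix I J R} {N : Matrix J L R} (hM : EP ρ V₀ M)
    (hN : EP ρ V₀ N) : EP ρ V₀ (M * N) := by
  intro i j v hv
  simp only [Matrix.mul_apply, map_sum, map_mul, _root_.sum_apply, mul_apply_eq_comp]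
  exact V₀.sum_mem fun l _ => hM _ _ _ (hN _ _ _ hv)

lemma EP.one {I : Type*} [DecidableEq I] : EP ρ V₀ (1 : Matrix I I R) := by
  intro i j v hv
  simp only [Matrix.one_apply]; split_ifs <;> simp [hv]

lemma EP.pow {I : Type*} [Fintype I] [DecidableEq I] {M : Matrix I I R} (hM : EP ρ V₀ M) (k : ℕ) :
    EP ρ V₀ (M ^ k) := by
  induction k with
  | zero => rw [pow_zero]; exact EP.one
  | succ k ih => rw [pow_succ]; exact ih.mul hM

lemma EP.pm {I : Type*} [DecidableEq I] (lk : I → Prop) [DecidablePred lk] :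
    EP ρ V₀ (pm R lk) := by
  intro i j v hv
  simp only [KS.pm, diagonal_apply]; split_ifs <;> simp [hv]

lemma EP.Dm {I : Type*} [DecidableEq I] {N : ℕ} [NeZero N] (ω : Equiv.Perm I × (I → ZMod N)) :
    EP ρ V₀ (Dm R ω) := by
  intro i j v hv
  simp only [KS.Dm, of_apply]; split_ifs <;> simp [hv, V₀.smul_mem]

lemma EP.Xt {A : Type*} (T : Type*) [DecidableEq T] {X : Matrix A A R} (hX : EP ρ V₀ X) :
    EP ρ V₀ (Xt T X) := by
  intro i j v hv
  simp only [KS.Xt, blockDiagonal_apply]; split_ifs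
  · exact hX _ _ _ hv
  · simp

lemma EP.act {I J : Type*} [Fintype J] {M : Matrix I J R} (hM : EP ρ V₀ M) {g : J → V}
    (hg : ∀ j, g j ∈ V₀) (i : I) : act ρ M g i ∈ V₀ :=
  V₀.sum_mem fun j _ => hM _ _ _ (hg j)

end EP

variable {A : Type*} [Fintype A] [DecidableEq A] {lk : A → Prop} [DecidablePred lk]

variable (R) in
/-- Scalar matrices. -/
def sm (F : A → A → ℂ) : Matrix A A R := Matrix.of fun a c => F a c • (1 : R)

omit [Fintype A] [DecidableEq A] in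
lemma EP.sm {V₀ : Submodule ℂ V} (F : A → A → ℂ) : EP ρ V₀ (sm R F) := by
  intro i j v hv
  simp [KS.sm, V₀.smul_mem, hv]

omit [Fintype A] [DecidableEq A] in
lemma sm_ct (F : A → A → ℂ) : (sm R F)ᴴ = sm R (fun a c => (starRingEnd ℂ) (F c a)) := by
  ext a c; simp [sm]

lemma sm_ct_mul {F : A → A → ℂ} (hF : ColS lk F) : (sm R F)ᴴ * sm R F = 1 - pm R lk := by
  ext c c'
  simp only [Matrix.mul_apply, sm, conjTranspose_apply, of_apply, star_smul, star_one,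
    smul_mul_smul_comm, mul_one, ← sum_smul]
  rw [show (∑ a, star (F a c) * F a c') = _ from hF c c']
  simp only [Matrix.sub_apply, Matrix.one_apply, pm, diagonal_apply]
  by_cases h : c = c' <;> by_cases h' : lk c <;> simp [h, h']
  all_goals simp_all

omit [StarRing R] [StarModule ℂ R] in
lemma pm_mul_sm {F : A → A → ℂ} (hF : ∀ a c, lk a → F a c = 0) : pm R lk * sm R F = 0 := by
  ext a c
  simp only [pm, diagonal_mul, sm, of_apply, Matrix.zero_apply]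
  split_ifs with h <;> simp [hF a c, *]

omit [DecidableEq A] in
lemma act_sm (F : A → A → ℂ) (η : A → V) : act ρ (sm R F) η = fun a => ∑ c, F a c • η c := by
  funext a; simp [act_apply, sm]

omit [DecidableEq A] in
lemma rho_sm_mul (F : A → A → ℂ) (Y : Matrix A A R) :
    (fun a b => ρ ((sm R F * Y) a b)) = fun a b => ∑ c, F a c • ρ (Y c b) := by
  funext a b; simp [Matrix.mul_apply, sm]

/-- Choice of good label randomisations. -/
lemma exists_rand {X : Matrix A A R} (hX : Xᴴ * X = 1 - pm R lk) (hX' : X * Xᴴ = 1 - pm R lk)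
    (hpX : pm R lk * X = 0) (hXp : X * pm R lk = 0) (hm : 0 < mm lk) (K : ℕ) (ξ η : A → V) :
    ∃ F F' : A → A → ℂ, ColS lk F ∧ ColS lk F' ∧ sm R F * (sm R F)ᴴ = 1 - pm R lk ∧
      sm R F' * (sm R F')ᴴ = 1 - pm R lk ∧ pm R lk * sm R F = 0 ∧ pm R lk * sm R F' = 0 ∧
      ∀ k < K, (∑ a, ∑ b, if Function.Injective a then 0 else
        ‖wd (fun i j => ρ ((sm R F * X * (sm R F')ᴴ) i j)) (act ρ (sm R F) η) k a b‖ ^ 2) ≤
          mm lk ^ k * (2 * K ^ 3 * (nsq ξ + nsq η) / mm lk) ∧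
        (∑ a, ∑ b, if Function.Injective a then 0 else
        ‖wd (fun i j => ρ ((sm R F * X * (sm R F')ᴴ)ᴴ i j)) (act ρ (sm R F') ξ) k a b‖ ^ 2) ≤
          mm lk ^ k * (2 * K ^ 3 * (nsq ξ + nsq η) / mm lk) := by
  obtain ⟨G, hG, hGs, hG0, hG2⟩ := exists_flat hm
  have hm0 : (0 : ℝ) < mm lk := by exact_mod_cast hm
  haveI : NeZero (K + 1) := ⟨by omega⟩
  set Fp : (A → ZMod (K + 1)) → A → A → ℂ := fun φ a c => G a c * chi (K + 1) (φ c) with hFp
  have u1 : ∀ φ, ColS lk (Fp φ) := fun φ => hG.phase φ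
  have u2 : ∀ φ, sm R (Fp φ) * (sm R (Fp φ))ᴴ = 1 - pm R lk := by
    intro φ
    have : ColS lk (fun a c => (starRingEnd ℂ) (Fp φ c a)) := by
      intro c c'
      have e := hG c' c
      have e2 : ∀ a, (starRingEnd ℂ) ((starRingEnd ℂ) (Fp φ c a)) * (starRingEnd ℂ) (Fp φ c' a) =
          (starRingEnd ℂ) (G a c') * G a c := by
        intro a
        simp only [hFp, Complex.conj_conj, map_mul, hGs a]
        rw [mul_mul_mul_comm, chi_mul_conj]; ring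
      simp_rw [e2, e]
      by_cases h : c = c'
      · subst h; rfl
      · simp [h, Ne.symm h]
    have := sm_ct_mul (R := R) this
    rwa [← sm_ct, conjTranspose_conjTranspose] at this
  have u3 : ∀ φ, pm R lk * sm R (Fp φ) = 0 := fun φ =>
    pm_mul_sm fun a c h => by simp [hFp, hG0 a c h]
  have u4 : ∀ φ, sm R (Fp φ) * pm R lk = 0 := by
    intro φ
    have : pm R lk * (sm R (Fp φ))ᴴ = 0 := by
      rw [sm_ct]; exact pm_mul_sm fun a c h => by simp [hFp, hGs c, hG0 a c h]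
    have := congrArg conjTranspose this
    simpa [pm_ct] using this
  have v1 : ∀ {X : Matrix A A R}, Xᴴ * X = 1 - pm R lk → ∀ φ,
      ColC lk (fun i j => ρ ((X * (sm R (Fp φ))ᴴ) i j)) := by
    intro X hX φ
    apply colC_of
    rw [conjTranspose_mul, conjTranspose_conjTranspose, Matrix.mul_assoc, ← Matrix.mul_assoc Xᴴ,
      hX, ← Matrix.mul_assoc, Matrix.mul_sub, u4, Matrix.mul_one, sub_zero, u2]
  set cl : Matrix A A R → (A → V) → (A → ZMod (K + 1)) → (A → ZMod (K + 1)) → ℕ → ℝ :=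
    fun X η φ φ' k => ∑ a, ∑ b, if Function.Injective a then 0 else
      ‖wd (fun i j => ρ ((sm R (Fp φ) * (X * (sm R (Fp φ'))ᴴ)) i j)) (act ρ (sm R (Fp φ)) η)
        k a b‖ ^ 2 with hcl
  have cl0 : ∀ X η φ φ' k, 0 ≤ cl X η φ φ' k := fun X η φ φ' k =>
    sum_nonneg fun _ _ => sum_nonneg fun _ _ => by split_ifs <;> positivity
  have av : ∀ {X : Matrix A A R}, Xᴴ * X = 1 - pm R lk → ∀ η φ', ∑ φ, ∑ k ∈ range K,
      cl X η φ φ' k / mm lk ^ k ≤
      ((K + 1 : ℕ) : ℝ) ^ Fintype.card A * (2 * K ^ 3 * nsq η / mm lk) := by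
    intro X hX η φ'
    rw [sum_comm]
    have hη := nsq_nonneg η
    refine (sum_le_card_nsmul _ _
      (((K + 1 : ℕ) : ℝ) ^ Fintype.card A * (2 * K ^ 2 * nsq η / mm lk)) fun k hk => ?_).trans
      (le_of_eq ?_)
    · have hk' := mem_range.1 hk
      rw [← sum_div, div_le_iff₀ (by positivity)]
      simp only [hcl, rho_sm_mul, act_sm]
      refine (coll_avg hG hG0 hG2 hm (N := K + 1) (by omega) (v1 hX φ') η).trans ?_
      have : ((k : ℝ) + 1) ^ 2 ≤ K ^ 2 := by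
        have : (k : ℝ) + 1 ≤ K := by exact_mod_cast hk'
        gcongr
      calc _ ≤ ((K + 1 : ℕ) : ℝ) ^ Fintype.card A * (K ^ 2 * (2 / mm lk * (mm lk ^ k * nsq η))) := by
            gcongr
        _ = _ := by ring
    · simp only [card_range, nsmul_eq_mul]; ring
  have hX'' : Xᴴᴴ * Xᴴ = 1 - pm R lk := by simpa using hX'
  obtain ⟨⟨φ, φ'⟩, -, hφ⟩ := exists_le_of_sum_le (s := univ) univ_nonempty
    (f := fun q : (A → ZMod (K + 1)) × (A → ZMod (K + 1)) =>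
      ∑ k ∈ range K, cl X η q.1 q.2 k / mm lk ^ k + ∑ k ∈ range K, cl Xᴴ ξ q.2 q.1 k / mm lk ^ k)
    (g := fun _ => 2 * K ^ 3 * (nsq ξ + nsq η) / mm lk) (by
      rw [sum_add_distrib, Fintype.sum_prod_type_right, Fintype.sum_prod_type]
      refine (add_le_add (sum_le_sum fun φ' _ => av hX η φ')
        (sum_le_sum fun φ' _ => av hX'' ξ φ')).trans (le_of_eq ?_)
      simp only [sum_const, card_univ, Fintype.card_prod, Fintype.card_fun, ZMod.card,
        nsmul_eq_mul]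
      push_cast; ring)
  refine ⟨Fp φ, Fp φ', u1 _, u1 _, u2 _, u2 _, u3 _, u3 _, fun k hk => ?_⟩
  have n1 : ∀ X η φ φ', cl X η φ φ' k / mm lk ^ k ≤ ∑ k ∈ range K, cl X η φ φ' k / mm lk ^ k :=
    fun X η φ φ' => single_le_sum (f := fun k => cl X η φ φ' k / mm lk ^ k)
      (fun k _ => div_nonneg (cl0 ..) (by positivity)) (mem_range.2 hk)
  have n2 : ∀ X η φ φ', 0 ≤ ∑ k ∈ range K, cl X η φ φ' k / mm lk ^ k :=
    fun X η φ φ' => sum_nonneg fun k _ => div_nonneg (cl0 ..) (by positivity)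
  dsimp only at hφ
  constructor
  · rw [Matrix.mul_assoc, ← div_le_iff₀' (by positivity)]
    exact (n1 X η φ φ').trans (le_trans (le_add_of_nonneg_right (n2 ..)) hφ)
  · rw [conjTranspose_mul, conjTranspose_mul, conjTranspose_conjTranspose,
      ← div_le_iff₀' (by positivity)]
    exact (n1 Xᴴ ξ φ' φ).trans (le_trans (le_add_of_nonneg_left (n2 ..)) hφ)

omit [DecidableEq A] in
lemma nsq_S_sm [DecidableEq A] {F : A → A → ℂ} (hF : ColS lk F) (S : V →L[ℂ] H) (η : A → V) :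
    nsq (fun a => S (act ρ (sm R F) η a)) ≤ nsq (fun a => S (η a)) := by
  rw [act_sm]
  simp only [map_sum, map_smul]
  exact hF.nsq_le (fun a => S (η a))

lemma sum_sqrt_le {ι : Type*} [Fintype ι] (f : ι → ℝ) (hf : ∀ i, 0 ≤ f i) {B : ℝ}
    (h : ∑ i, f i ≤ Fintype.card ι * B) : ∑ i, √(f i) ≤ Fintype.card ι * √B := by
  have := Real.sum_sqrt_mul_sqrt_le (univ : Finset ι) (f := f) (g := fun _ => 1) hf
    (fun _ => zero_le_one)
  simp only [Real.sqrt_one, mul_one, sum_const, card_univ, nsmul_eq_mul] at this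
  refine this.trans ((mul_le_mul_of_nonneg_right (Real.sqrt_le_sqrt h) (Real.sqrt_nonneg _)).trans
    (le_of_eq ?_))
  rw [Real.sqrt_mul (Nat.cast_nonneg _), mul_right_comm, Real.mul_self_sqrt (Nat.cast_nonneg _)]

lemma core1 (T : Type*) [Fintype T] [DecidableEq T] [AddCommGroup T]
    {X : Matrix A A R} (hX : Xᴴ * X = 1 - pm R lk) (hX' : X * Xᴴ = 1 - pm R lk)
    (hpX : pm R lk * X = 0) (hXp : X * pm R lk = 0) (V₀ : Submodule ℂ V) (hE : EP ρ V₀ X)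
    (hE' : EP ρ V₀ Xᴴ) {S₁ S₂ : V →L[ℂ] H} (hB : BalR ρ S₁ S₂) {C Y κ' : ℝ} (hC : 0 ≤ C)
    (hS₁ : ColB ρ S₁ C) (hS₂ : ColB ρ S₂ C) (hY1 : ‖S₁‖ ≤ Y) (hY2 : ‖S₂‖ ≤ Y) (hκ : 0 ≤ κ')
    (H1 : ∀ (u : Matrix (A × T) (A × T) R) (α β : A × T → V),
      (∀ γ, nsq (act ρ u γ) ≤ 2 * nsq γ) →
      (∀ i, ¬ lk i.1 → α i = 0) → (∀ i, ¬ lk i.1 → β i = 0) → (∀ i, α i ∈ V₀) → (∀ i, β i ∈ V₀) →
      ‖Bp S₁ S₂ β (act ρ u α)‖ ≤ κ' * (√(nsq fun i => S₁ (α i)) * √(nsq fun i => S₂ (β i))))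
    (ξ η : A → V) (hξ : ∀ a, ξ a ∈ V₀) (hη : ∀ a, η a ∈ V₀) (K : ℕ) (hK : 0 < K) {δ : ℝ}
    (hδ0 : 0 ≤ δ) (hδ1 : δ ≤ 1) (hm : 0 < mm lk) (hM : 2 * K ^ 2 ≤ Fintype.card (A × T))
    (h1 : ((mm lk : ℝ) / Fintype.card A) ^ K ≤ δ)
    (h2 : (K.factorial : ℝ) ^ 2 * ((1 + K ^ 2 + 2 * K ^ 3) / mm lk) ≤ δ ^ 2)
    (h3 : (K : ℝ) / Fintype.card T ^ 2 * (1 + K / Fintype.card T ^ 2) ^ K ≤ δ ^ 2) :
    ‖Bp S₁ S₂ η (act ρ X ξ)‖ ≤ 8 / 3 * κ' *
      (√(C * nsq (fun a => S₁ (ξ a)) + 9 * Y ^ 2 * δ * (nsq ξ + nsq η)) *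
       √(C * nsq (fun a => S₂ (η a)) + 9 * Y ^ 2 * δ * (nsq ξ + nsq η))) +
      Y ^ 2 * (3 * (√(5 * δ) * (nsq ξ + nsq η))) := by
  obtain ⟨F, F', hF, hF', u2, u2', u3, u3', hcl⟩ := exists_rand (ρ := ρ) hX hX' hpX hXp hm K ξ η
  have u1 := sm_ct_mul (R := R) hF
  have u1' := sm_ct_mul (R := R) hF'
  set Λ := nsq ξ + nsq η with hΛ
  have hξ0 := nsq_nonneg ξ
  have hη0 := nsq_nonneg η
  have hΛ0 : 0 ≤ Λ := add_nonneg hξ0 hη0
  set X' := sm R F * X * (sm R F')ᴴ with hX'def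
  set η' := act ρ (sm R F) η with hη'
  set ξ' := act ρ (sm R F') ξ with hξ'
  have hpXc : pm R lk * Xᴴ = 0 := by simpa [pm_ct] using congrArg conjTranspose hXp
  have hXpc : Xᴴ * pm R lk = 0 := by simpa [pm_ct] using congrArg conjTranspose hpX
  have u4 : ∀ {F : A → A → ℂ}, (sm R F)ᴴ * sm R F = 1 - pm R lk →
      sm R F * (sm R F)ᴴ = 1 - pm R lk → pm R lk * sm R F = 0 →
      sm R F * (1 - pm R lk) * (sm R F)ᴴ = 1 - pm R lk := by
    intro F a b c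
    rw [← a, ← Matrix.mul_assoc, Matrix.mul_assoc _ (sm R F), b, a, Matrix.mul_sub,
      Matrix.mul_one, Matrix.sub_mul, pm_mul_pm]
    simp
  have w1 : X'ᴴ * X' = 1 - pm R lk := by
    rw [hX'def]
    simp only [conjTranspose_mul, conjTranspose_conjTranspose]
    calc _ = sm R F' * (Xᴴ * ((sm R F)ᴴ * sm R F) * X) * (sm R F')ᴴ := by
          simp only [Matrix.mul_assoc]
      _ = _ := by
          rw [u1, Matrix.mul_sub, hXpc, Matrix.mul_one, sub_zero, hX, u4 u1' u2' u3']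
  have w2 : X' * X'ᴴ = 1 - pm R lk := by
    rw [hX'def]
    simp only [conjTranspose_mul, conjTranspose_conjTranspose]
    calc _ = sm R F * (X * ((sm R F')ᴴ * sm R F') * Xᴴ) * (sm R F)ᴴ := by
          simp only [Matrix.mul_assoc]
      _ = _ := by
          rw [u1', Matrix.mul_sub, hXp, Matrix.mul_one, sub_zero, hX', u4 u1 u2 u3]
  have w2' : X'ᴴᴴ * X'ᴴ = 1 - pm R lk := by simpa using w2
  have w3 : pm R lk * X' = 0 := by
    rw [hX'def, ← Matrix.mul_assoc, ← Matrix.mul_assoc, u3]; simp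
  have w4 : Bp S₁ S₂ η (act ρ X ξ) = Bp S₁ S₂ η' (act ρ X' ξ') := by
    have := Bp_act hB (sm R F)ᴴ η
    rw [conjTranspose_conjTranspose] at this
    rw [hη', ← this, hξ', ← act_mul, ← act_mul, hX'def]
    congr 3
    calc X = (1 - pm R lk) * X * (1 - pm R lk) := by
          rw [Matrix.sub_mul, hpX, Matrix.mul_sub, Matrix.one_mul, sub_zero, hXp]; simp
      _ = ((sm R F)ᴴ * sm R F) * X * ((sm R F')ᴴ * sm R F') := by rw [u1, u1']
      _ = _ := by simp only [Matrix.mul_assoc]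
  have hE1 : EP ρ V₀ X' := by
    rw [hX'def, sm_ct]; exact ((EP.sm _).mul hE).mul (EP.sm _)
  have hE2 : EP ρ V₀ X'ᴴ := by
    rw [hX'def, conjTranspose_mul, conjTranspose_mul, conjTranspose_conjTranspose, sm_ct]
    exact (EP.sm _).mul (hE'.mul (EP.sm _))
  have hη1 : ∀ i, et T η' i ∈ V₀ := by
    intro i; unfold et; split_ifs
    · exact (EP.sm _).act hη _
    · exact V₀.zero_mem
  have hξ1 : ∀ i, et T ξ' i ∈ V₀ := by
    intro i; unfold et; split_ifs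
    · exact (EP.sm _).act hξ _
    · exact V₀.zero_mem
  have hη2 : nsq η' ≤ Λ := (nsq_act_part_le lk u1 η).trans (by linarith)
  have hξ2 : nsq ξ' ≤ Λ := (nsq_act_part_le lk u1' ξ).trans (by linarith)
  haveI : NeZero (K + 1) := ⟨by omega⟩
  have hm0 : (0 : ℝ) < mm lk := by exact_mod_cast hm
  have h2' : (K.factorial : ℝ) ^ 2 * ((1 + K ^ 2) * Λ / mm lk + 2 * K ^ 3 * Λ / mm lk) ≤
      δ ^ 2 * Λ := by
    refine le_trans (le_of_eq ?_) (mul_le_mul_of_nonneg_right h2 hΛ0)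
    ring
  obtain ⟨sp, ep⟩ := one_sided T (N := K + 1) w1 hS₂ hY2 η' K hη2 hδ0 hδ1 (by positivity)
    (fun k hk => (hcl k hk).1) hm (by omega) hM h1 h2' h3
  obtain ⟨sm', em⟩ := one_sided T (N := K + 1) w2' hS₁ hY1 ξ' K hξ2 hδ0 hδ1 (by positivity)
    (fun k hk => (hcl k hk).2) hm (by omega) hM h1 h2' h3
  rw [← sum_flip] at sm' em
  simp only [← Dm_ct, ← Xt_ct] at sm' em
  set W : ℝ := (Fintype.card (Equiv.Perm (A × T) × (A × T → ZMod (K + 1))) : ℝ) with hW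
  have hW0 : 0 < W := by rw [hW]; exact_mod_cast Fintype.card_pos
  have hXt : (Xt T X')ᴴ * Xt T X' = 1 - pm R (fun i : A × T => lk i.1) := by
    rw [Xt_ct, Xt_mul, w1, Xt_one_sub]
  have hXt' : Xt T X' * (Xt T X')ᴴ = 1 - pm R (fun i : A × T => lk i.1) := by
    rw [Xt_ct, Xt_mul, w2, Xt_one_sub]
  have hpXt : pm R (fun i : A × T => lk i.1) * Xt T X' = 0 := by
    rw [← Xt_pm, Xt_mul, w3]; simp [Xt, ← blockDiagonal_zero]; rfl
  have each : ∀ ω : Equiv.Perm (A × T) × (A × T → ZMod (K + 1)),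
      ‖Bp S₁ S₂ η (act ρ X ξ)‖ ≤ 8 / 3 * κ' *
        (√(∑ k ∈ range K, nsq fun i => S₁ (act ρ (pm R (fun i : A × T => lk i.1) * (Dm R ω)ᴴ *
            ((Xt T X')ᴴ * (Dm R ω)ᴴ) ^ k) (et T ξ') i)) *
         √(∑ k ∈ range K, nsq fun i => S₂ (act ρ (pm R (fun i : A × T => lk i.1) * Dm R ω *
            (Xt T X' * Dm R ω) ^ k) (et T η') i))) +
        Y ^ 2 * (2 * (√(nsq (act ρ ((Xt T X' * Dm R ω) ^ K) (et T η'))) * √Λ) +
          √Λ * √(nsq (act ρ (((Xt T X')ᴴ * (Dm R ω)ᴴ) ^ K) (et T ξ')))) := by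
    intro ω
    rw [w4, ← Bp_et T]
    refine (first_return' _ hB hY1 hY2 hXt hXt' (Dm_ct_mul ω) (Dm_mul_ct ω) K _ _).trans ?_
    refine add_le_add (first_return _ hB V₀ hXt hXt' hpXt (Dm_ct_mul ω) (Dm_mul_ct ω) hκ H1 K hK
      _ _ (fun k i => ?_) (fun k i => ?_)) ?_
    · rw [Dm_ct, Xt_ct]
      exact (((EP.pm _).mul (EP.Dm _)).mul (((hE2.Xt T).mul (EP.Dm _)).pow k)).act hξ1 i
    · exact (((EP.pm _).mul (EP.Dm _)).mul (((hE1.Xt T).mul (EP.Dm _)).pow k)).act hη1 i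
    · rw [nsq_et, nsq_et]
      gcongr
  have tot := sum_le_sum fun ω (_ : ω ∈ univ) => each ω
  rw [sum_const, card_univ, nsmul_eq_mul, ← hW, sum_add_distrib, ← mul_sum, ← mul_sum,
    sum_add_distrib, ← mul_sum, ← sum_mul, ← mul_sum] at tot
  have b1 := sum_sqrt_le _ (fun _ => nsq_nonneg _) sp
  have b2 := sum_sqrt_le _ (fun _ => nsq_nonneg _) sm'
  rw [← hW] at b1 b2
  have c1 : nsq (fun a => S₁ (ξ' a)) ≤ nsq (fun a => S₁ (ξ a)) := nsq_S_sm hF' S₁ ξ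
  have c2 : nsq (fun a => S₂ (η' a)) ≤ nsq (fun a => S₂ (η a)) := nsq_S_sm hF S₂ η
  have b3 := (Real.sum_sqrt_mul_sqrt_le univ (fun _ => sum_nonneg fun _ _ => nsq_nonneg _)
    (fun _ => sum_nonneg fun _ _ => nsq_nonneg _)).trans
    (mul_le_mul (Real.sqrt_le_sqrt em) (Real.sqrt_le_sqrt ep) (Real.sqrt_nonneg _)
      (Real.sqrt_nonneg _))
  rw [Real.sqrt_mul hW0.le, Real.sqrt_mul hW0.le, mul_mul_mul_comm,
    Real.mul_self_sqrt hW0.le] at b3
  have b4 : √(5 * δ * Λ) * √Λ = √(5 * δ) * Λ := by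
    rw [Real.sqrt_mul (by positivity), mul_assoc, Real.mul_self_sqrt hΛ0]
  refine le_of_mul_le_mul_left (tot.trans ?_) hW0
  calc _ ≤ 8 / 3 * κ' * (W * (√(C * nsq (fun a => S₁ (ξ a)) + 9 * Y ^ 2 * δ * Λ) *
       √(C * nsq (fun a => S₂ (η a)) + 9 * Y ^ 2 * δ * Λ))) +
       Y ^ 2 * (2 * (W * √(5 * δ * Λ) * √Λ) + √Λ * (W * √(5 * δ * Λ))) := by
        refine add_le_add (mul_le_mul_of_nonneg_left (b3.trans ?_) (by positivity)) ?_
        · gcongr
        · gcongr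
    _ = _ := by
        rw [mul_assoc W, b4, mul_left_comm (√Λ), mul_comm (√Λ), b4]; ring

end

end Crest.Agent.H2.KS
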