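import Mathlib

set_option autoImplicit false

namespace Crest.Agent.H2OM

/-- The fixed pattern. -/
def Hpat (i j : Fin 66) : Bool :=
  if i.val < 64 then (if j.val < 64 then decide (i.val ≠ j.val) else decide (i.val = 0))
  else (if j.val < 64 then decide (j.val = 0) else decide (i.val = 64 ∧ j.val = 65))

abbrev Rule (h : ℕ) := Fin h × Fin 6
abbrev Blk (h : ℕ) := (Rule h × Fin 64) ⊕ (Fin (2 * h + 1) ⊕ Unit)
abbrev Idx (h : ℕ) := Blk h × Fin (2 ^ h)

def pre (h m x : ℕ) : ℕ := x / 2 ^ (h - m)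
def ent (h m x : ℕ) : ℕ := (2 * h + 1) * (pre h m x * 2 ^ (h - m)) + (2 * h + 1) + m
def ext (h m x : ℕ) : ℕ := (2 * h + 1) * ((pre h m x + 1) * 2 ^ (h - m)) + (2 * h - m)
def pos (h j x : ℕ) : ℕ := if j ≤ h then ent h j x else ext h (2 * h - j) x
def thr (h j x : ℕ) : ℕ := if j < h then ext h j x + 1 else ent h (2 * h - j) x

def rowRule (h k t j x : ℕ) : Prop :=
  (t ≤ 1 ∧ (j = k ∨ (j = k + 1 ∧ pre h (k + 1) x % 2 = t))) ∨
  ((t = 2 ∨ t = 3) ∧ (j + k = 2 * h ∨ (j + k + 1 = 2 * h ∧ pre h (k + 1) x % 2 + 2 = t))) ∨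
  (t = 4 ∧ k = 0)

def colRule (h k t j x : ℕ) : Prop :=
  (t ≤ 1 ∧ j + k + 1 = 2 * h ∧ pre h (k + 1) x % 2 = t) ∨
  ((t = 2 ∨ t = 3) ∧ j = k + 1 ∧ pre h (k + 1) x % 2 + 2 = t) ∨
  (t = 4 ∧ k = 0)

def inR {h : ℕ} (κ : Rule h) : (Fin (2 * h + 1) ⊕ Unit) → ℕ → Prop
  | Sum.inl j, x => rowRule h κ.1.val κ.2.val j.val x
  | Sum.inr _, _ => κ.2.val = 4 ∧ κ.1.val = 0

def inC {h : ℕ} (κ : Rule h) : (Fin (2 * h + 1) ⊕ Unit) → ℕ → Prop
  | Sum.inl j, x => colRule h κ.1.val κ.2.val j.val x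
  | Sum.inr _, _ => κ.2.val ≤ 3

def cen {h : ℕ} : (Fin (2 * h + 1) ⊕ Unit) → ℕ → (Fin (2 * h + 1) ⊕ Unit) → ℕ → Prop
  | Sum.inl j, x, Sum.inl j', x' => pos h j'.val x' < thr h j.val x
  | _, _, _, _ => False

def A1 {h : ℕ} : Blk h → ℕ → Blk h → ℕ → Prop
  | Sum.inl a, _, Sum.inl b, _ => a.1 = b.1 ∧ a.2 ≠ b.2
  | Sum.inl a, _, Sum.inr c, y => a.2.val = 0 ∧ inC a.1 c y
  | Sum.inr r, x, Sum.inl b, _ => b.2.val = 0 ∧ inR b.1 r x
  | Sum.inr r, x, Sum.inr c, y => cen r x c y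

def A0 {h : ℕ} (r c : Idx h) : Prop := A1 r.1 r.2.val c.1 c.2.val

def keyR1 {h : ℕ} : Blk h → ℕ → ℕ × ℕ
  | Sum.inl a, _ => (0, a.2.val)
  | Sum.inr (Sum.inl j), x => (2, pos h j.val x)
  | Sum.inr (Sum.inr _), _ => (3, 0)

def keyC1 {h : ℕ} : Blk h → ℕ → ℕ × ℕ
  | Sum.inl a, _ => (0, a.2.val)
  | Sum.inr (Sum.inl j), x => (2, pos h j.val x)
  | Sum.inr (Sum.inr _), _ => (1, 0)

def keyR {h : ℕ} (r : Idx h) : ℕ ×ₗ ℕ := toLex (keyR1 r.1 r.2.val)
def keyC {h : ℕ} (r : Idx h) : ℕ ×ₗ ℕ := toLex (keyC1 r.1 r.2.val)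

/-! ### arithmetic -/

lemma g_lt (D s a b : ℕ) (hs : 1 ≤ s) : a < b → D * (a * s) + D ≤ D * (b * s) := by
  intro hab
  have h1 : a * s + 1 ≤ b * s := by nlinarith
  calc D * (a * s) + D = D * (a * s + 1) := by ring
    _ ≤ D * (b * s) := Nat.mul_le_mul_left _ h1

lemma g_le (D s a b : ℕ) : a ≤ b → D * (a * s) ≤ D * (b * s) := by
  intro hab
  exact Nat.mul_le_mul_left _ (Nat.mul_le_mul_right _ hab)

lemma pre_succ (h k x : ℕ) (hk : k < h) : pre h k x = pre h (k + 1) x / 2 := by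
  unfold pre
  rw [Nat.div_div_eq_div_mul, ← pow_succ]
  congr 2
  omega

lemma ent_lo (h k x : ℕ) (hk : k < h) :
    ent h k x = (2 * h + 1) * ((2 * (pre h (k + 1) x / 2)) * 2 ^ (h - (k + 1))) + (2 * h + 1) + k := by
  unfold ent
  rw [pre_succ h k x hk, show h - k = (h - (k + 1)) + 1 by omega, pow_succ]
  ring

lemma ext_lo (h k x : ℕ) (hk : k < h) :
    ext h k x = (2 * h + 1) * ((2 * (pre h (k + 1) x / 2) + 2) * 2 ^ (h - (k + 1))) + (2 * h - k) := by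
  unfold ext
  rw [pre_succ h k x hk, show h - k = (h - (k + 1)) + 1 by omega, pow_succ]
  ring

lemma ent_eq_ext (h x : ℕ) : ent h h x = ext h h x := by
  unfold ent ext
  simp only [Nat.sub_self, pow_zero, mul_one]
  rw [show 2 * h - h = h by omega]
  ring

lemma pre_self (h x : ℕ) : pre h h x = x := by simp [pre]

lemma pre_zero (h x : ℕ) (hx : x < 2 ^ h) : pre h 0 x = 0 := by
  simp [pre, Nat.div_eq_of_lt hx]

lemma pos_ent (h j x : ℕ) (hj : j ≤ h) : pos h j x = ent h j x := by simp [pos, hj]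

lemma pos_ext (h j m x : ℕ) (hm : m ≤ h) (hj : j + m = 2 * h) : pos h j x = ext h m x := by
  unfold pos
  split_ifs with h1
  · have : j = h := by omega
    have : m = h := by omega
    subst_vars
    exact ent_eq_ext _ _
  · congr 1
    omega

lemma thr_ent (h j m x : ℕ) (hm : m ≤ h) (hj : j + m = 2 * h) : thr h j x = ent h m x := by
  unfold thr
  rw [if_neg (by omega)]
  congr 1
  omega

lemma ent_lt_succ (h k x : ℕ) (hk : k < h) : ent h k x < ent h (k + 1) x := by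
  rw [ent_lo h k x hk]
  unfold ent
  have := g_le (2 * h + 1) (2 ^ (h - (k + 1))) (2 * (pre h (k + 1) x / 2)) (pre h (k + 1) x) (by omega)
  omega

lemma ext_succ_lt (h k x : ℕ) (hk : k < h) : ext h (k + 1) x < ext h k x := by
  rw [ext_lo h k x hk]
  unfold ext
  have := g_le (2 * h + 1) (2 ^ (h - (k + 1))) (pre h (k + 1) x + 1) (2 * (pre h (k + 1) x / 2) + 2) (by omega)
  omega

/-- soundness of the generous column rules -/
lemma sound_G (h k t j1 x1 j2 x2 w : ℕ) (hk : k < h)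
    (h1 : j1 = k ∨ (j1 = k + 1 ∧ pre h (k + 1) x1 % 2 = t))
    (h2 : j2 = k ∨ (j2 = k + 1 ∧ pre h (k + 1) x2 % 2 = t))
    (hw : pre h (k + 1) w % 2 = t)
    (hp : pos h j1 x1 ≤ pos h j2 x2)
    (ha : ext h (k + 1) w < thr h j1 x1) (hb : ¬ ext h (k + 1) w < thr h j2 x2) :
    k + 1 = h ∧ j2 = h ∧ x2 = w := by
  have hs : 1 ≤ 2 ^ (h - (k + 1)) := Nat.one_le_two_pow
  have L := fun a b => g_lt (2 * h + 1) (2 ^ (h - (k + 1))) a b hs
  have M := fun a b => g_le (2 * h + 1) (2 ^ (h - (k + 1))) a b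
  rw [pos_ent h j1 x1 (by omega), pos_ent h j2 x2 (by omega)] at hp
  have hthr : ∀ x, thr h k x = ext h k x + 1 := fun x => by simp [thr, hk]
  have hthr' : ∀ x, k + 1 < h → thr h (k + 1) x = ext h (k + 1) x + 1 := fun x hh => by simp [thr, hh]
  have hthr'' : ∀ x, k + 1 = h → thr h (k + 1) x = ext h (k + 1) x := fun x hh => by
    rw [thr_ent h (k + 1) (k + 1) x (by omega) (by omega), hh, ent_eq_ext]
  rcases h1 with rfl | ⟨rfl, h1⟩ <;> rcases h2 with h2 | ⟨h2, h2'⟩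
  · subst h2
    exfalso
    rw [hthr] at ha hb
    rw [ent_lo h _ x1 hk, ent_lo h _ x2 hk] at hp
    rw [ext_lo h _ x1 hk] at ha
    rw [ext_lo h _ x2 hk] at hb
    have a1 := L (2 * (pre h (j2 + 1) x2 / 2)) (2 * (pre h (j2 + 1) x1 / 2))
    have a2 := M (2 * (pre h (j2 + 1) x1 / 2) + 2) (2 * (pre h (j2 + 1) x2 / 2) + 2)
    omega
  · subst h2
    rw [hthr] at ha
    rw [ent_lo h _ x1 hk] at hp
    rw [ext_lo h _ x1 hk] at ha
    unfold ent at hp
    have a1 := L (pre h (j1 + 1) x2) (2 * (pre h (j1 + 1) x1 / 2))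
    have a2 := L (2 * (pre h (j1 + 1) x1 / 2) + 2) (pre h (j1 + 1) w + 1)
    have a3 := M (pre h (j1 + 1) w + 1) (pre h (j1 + 1) x2 + 1)
    have a4 := L (pre h (j1 + 1) w + 1) (pre h (j1 + 1) x2 + 1)
    by_cases hh : j1 + 1 < h
    · exfalso
      rw [hthr' _ hh] at hb
      unfold ext at ha hb
      omega
    · have hh' : j1 + 1 = h := by omega
      rw [hthr'' _ hh'] at hb
      unfold ext at ha hb
      have e1 : pre h (j1 + 1) x2 = x2 := by rw [hh', pre_self]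
      have e2 : pre h (j1 + 1) w = w := by rw [hh', pre_self]
      omega
  · subst h2
    exfalso
    rw [hthr] at hb
    rw [ent_lo h _ x2 hk] at hp
    rw [ext_lo h _ x2 hk] at hb
    unfold ent at hp
    have a1 := L (2 * (pre h (j2 + 1) x2 / 2)) (pre h (j2 + 1) x1)
    have a2 := M (pre h (j2 + 1) x1 + 1) (2 * (pre h (j2 + 1) x2 / 2) + 2)
    have ha' : ext h (j2 + 1) w < ext h (j2 + 1) x1 + 1 := by
      by_cases hh : j2 + 1 < h
      · rwa [hthr' _ hh] at ha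
      · rw [hthr'' _ (by omega)] at ha; omega
    unfold ext at ha' hb
    omega
  · subst h2
    exfalso
    unfold ent at hp
    have a1 := L (pre h (k + 1) x2) (pre h (k + 1) x1)
    have a2 := M (pre h (k + 1) x1 + 1) (pre h (k + 1) x2 + 1)
    by_cases hh : k + 1 < h
    · rw [hthr' _ hh] at ha hb
      unfold ext at ha hb
      omega
    · rw [hthr'' _ (by omega)] at ha hb
      unfold ext at ha hb
      omega

/-- soundness of the stingy column rules -/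
lemma sound_L (h k t j1 x1 j2 x2 w : ℕ) (hk : k < h)
    (h1 : j1 + k = 2 * h ∨ (j1 + k + 1 = 2 * h ∧ pre h (k + 1) x1 % 2 + 2 = t))
    (h2 : j2 + k = 2 * h ∨ (j2 + k + 1 = 2 * h ∧ pre h (k + 1) x2 % 2 + 2 = t))
    (hw : pre h (k + 1) w % 2 + 2 = t)
    (hp : pos h j1 x1 ≤ pos h j2 x2)
    (ha : ent h (k + 1) w < thr h j1 x1) (hb : ¬ ent h (k + 1) w < thr h j2 x2) : False := by
  have hs : 1 ≤ 2 ^ (h - (k + 1)) := Nat.one_le_two_pow
  have L := fun a b => g_lt (2 * h + 1) (2 ^ (h - (k + 1))) a b hs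
  have M := fun a b => g_le (2 * h + 1) (2 ^ (h - (k + 1))) a b
  rcases h1 with h1 | ⟨h1, h1'⟩ <;> rcases h2 with h2 | ⟨h2, h2'⟩
  · rw [pos_ext h j1 k x1 (by omega) h1, pos_ext h j2 k x2 (by omega) h2, ext_lo h k _ hk,
      ext_lo h k _ hk] at hp
    rw [thr_ent h j1 k x1 (by omega) h1, ent_lo h k _ hk] at ha
    rw [thr_ent h j2 k x2 (by omega) h2, ent_lo h k _ hk] at hb
    have a1 := L (2 * (pre h (k + 1) x2 / 2) + 2) (2 * (pre h (k + 1) x1 / 2) + 2)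
    have a2 := M (2 * (pre h (k + 1) x1 / 2)) (2 * (pre h (k + 1) x2 / 2))
    omega
  · rw [pos_ext h j1 k x1 (by omega) h1, pos_ext h j2 (k + 1) x2 (by omega) h2, ext_lo h k _ hk] at hp
    rw [thr_ent h j1 k x1 (by omega) h1, ent_lo h k _ hk] at ha
    rw [thr_ent h j2 (k + 1) x2 (by omega) h2] at hb
    unfold ext at hp
    unfold ent at ha hb
    have a1 := L (pre h (k + 1) x2 + 1) (2 * (pre h (k + 1) x1 / 2) + 2)
    have a2 := M (2 * (pre h (k + 1) x1 / 2)) (pre h (k + 1) x2)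
    omega
  · rw [pos_ext h j1 (k + 1) x1 (by omega) h1, pos_ext h j2 k x2 (by omega) h2, ext_lo h k _ hk] at hp
    rw [thr_ent h j1 (k + 1) x1 (by omega) h1] at ha
    rw [thr_ent h j2 k x2 (by omega) h2, ent_lo h k _ hk] at hb
    unfold ext at hp
    unfold ent at ha hb
    have a1 := L (2 * (pre h (k + 1) x2 / 2) + 2) (pre h (k + 1) x1 + 1)
    have a2 := L (pre h (k + 1) w) (2 * (pre h (k + 1) x2 / 2))
    have a3 := M (pre h (k + 1) x1) (pre h (k + 1) w)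
    omega
  · rw [pos_ext h j1 (k + 1) x1 (by omega) h1, pos_ext h j2 (k + 1) x2 (by omega) h2] at hp
    rw [thr_ent h j1 (k + 1) x1 (by omega) h1] at ha
    rw [thr_ent h j2 (k + 1) x2 (by omega) h2] at hb
    unfold ext at hp
    unfold ent at ha hb
    have a1 := L (pre h (k + 1) x2 + 1) (pre h (k + 1) x1 + 1)
    have a2 := M (pre h (k + 1) x1) (pre h (k + 1) x2)
    omega

end Crest.Agent.H2OM
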