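import Crest.Agent.H2.OM1

set_option autoImplicit false

namespace Crest.Agent.H2OM

def IsAux {h : ℕ} (r : Idx h) : Prop := ∃ a, r.1 = Sum.inl a

lemma isAux_of_keyR_le {h : ℕ} {r r' : Idx h} (hle : keyR r ≤ keyR r') (h' : IsAux r') :
    IsAux r := by
  obtain ⟨b, x⟩ := r
  obtain ⟨b', x'⟩ := r'
  obtain ⟨a, ha⟩ := h'
  simp only at ha
  subst ha
  rcases b with a' | j | u
  · exact ⟨a', rfl⟩
  · simp [keyR, keyR1, Prod.Lex.le_iff] at hle
  · simp [keyR, keyR1, Prod.Lex.le_iff] at hle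

lemma isAux_of_keyC_le {h : ℕ} {r r' : Idx h} (hle : keyC r ≤ keyC r') (h' : IsAux r') :
    IsAux r := by
  obtain ⟨b, x⟩ := r
  obtain ⟨b', x'⟩ := r'
  obtain ⟨a, ha⟩ := h'
  simp only at ha
  subst ha
  rcases b with a' | j | u
  · exact ⟨a', rfl⟩
  · simp [keyC, keyC1, Prod.Lex.le_iff] at hle
  · simp [keyC, keyC1, Prod.Lex.le_iff] at hle

lemma not_isAux {h : ℕ} {r : Idx h} (h' : ¬ IsAux r) : ∃ c, r.1 = Sum.inr c := by
  obtain ⟨b, x⟩ := r
  rcases b with a | c
  · exact absurd ⟨a, rfl⟩ h'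
  · exact ⟨c, rfl⟩

lemma cen_half {h : ℕ} (r r' c c' : Fin (2 * h + 1) ⊕ Unit) (x x' y y' : ℕ)
    (h1 : cen r x c' y') (h2 : cen r' x' c y) (h3 : ¬ cen r x c y) (h4 : ¬ cen r' x' c' y') :
    False := by
  rcases r with r | r <;> rcases r' with r' | r' <;> rcases c with c | c <;>
    rcases c' with c' | c' <;> simp only [cen] at h1 h2 h3 h4
  omega

lemma inR_bound {h : ℕ} (c : Fin (2 * h + 1) ⊕ Unit) (x : ℕ) :
    ∃ S : Finset ℕ, S.card ≤ 5 ∧ ∀ κ : Rule h, inR κ c x → κ.1.val ∈ S := by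
  rcases c with j | u
  · refine ⟨{j.val, j.val - 1, 2 * h - j.val, 2 * h - j.val - 1, 0}, Finset.card_le_five, ?_⟩
    intro κ hκ
    simp only [inR, rowRule] at hκ
    simp only [Finset.mem_insert, Finset.mem_singleton]
    omega
  · refine ⟨{0}, by simp, ?_⟩
    intro κ hκ
    simp only [inR] at hκ
    simp [hκ.2]

lemma inC_bound {h : ℕ} (j : Fin (2 * h + 1)) (x : ℕ) :
    ∃ S : Finset ℕ, S.card ≤ 5 ∧ ∀ κ : Rule h, inC κ (Sum.inl j) x → κ.1.val ∈ S := by
  refine ⟨{j.val, j.val - 1, 2 * h - j.val, 2 * h - j.val - 1, 0}, Finset.card_le_five, ?_⟩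
  intro κ hκ
  simp only [inC, colRule] at hκ
  simp only [Finset.mem_insert, Finset.mem_singleton]
  omega

lemma pigeon {h : ℕ} (S : Finset ℕ) (hS : S.card ≤ 5) (f : Fin 62 → Rule h)
    (hf : Function.Injective f) (hm : ∀ i, (f i).1.val ∈ S) : False := by
  have := Finset.card_le_card_of_injOn (s := (Finset.univ : Finset (Fin 62)))
    (t := S ×ˢ (Finset.univ : Finset (Fin 6))) (fun i => ((f i).1.val, (f i).2))
    (by intro i _; simp [hm i])
    (by
      intro i _ j _ hij
      simp only [Prod.mk.injEq] at hij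
      exact hf (Prod.ext (Fin.ext hij.1) hij.2))
  simp at this
  omega

def leaf (h : ℕ) : Blk h := Sum.inr (Sum.inl ⟨h, by omega⟩)

lemma Hpat_small (i j : Fin 66) (hi : i.val < 64) (hj : j.val < 64) :
    (Hpat i j = true) ↔ i.val ≠ j.val := by
  simp [Hpat, hi, hj]

lemma sound_rule {h : ℕ} (κ : Rule h) (r1 r2 c1 c2 : Fin (2 * h + 1) ⊕ Unit)
    (x1 x2 y1 y2 : Fin (2 ^ h))
    (hr1 : inR κ r1 x1.val) (hr2 : inR κ r2 x2.val) (hc1 : inC κ c1 y1.val) (hc2 : inC κ c2 y2.val)
    (hr : keyR ((Sum.inr r1 : Blk h), x1) ≤ keyR ((Sum.inr r2 : Blk h), x2))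
    (hc : keyC ((Sum.inr c1 : Blk h), y1) ≤ keyC ((Sum.inr c2 : Blk h), y2))
    (h12 : cen r1 x1.val c2 y2.val) (h11 : ¬ cen r1 x1.val c1 y1.val)
    (h22 : ¬ cen r2 x2.val c2 y2.val) :
    (Sum.inr r2 : Blk h) = leaf h ∧ (Sum.inr c2 : Blk h) = leaf h ∧ x2 = y2 := by
  obtain ⟨⟨k, hk⟩, ⟨t, ht⟩⟩ := κ
  rcases r1 with j1 | u
  swap
  · simp [cen] at h12
  rcases c2 with i2 | u
  swap
  · simp [cen] at h12
  rcases c1 with i1 | u
  · exfalso
    simp only [cen] at h12 h11
    simp [keyC, keyC1, Prod.Lex.le_iff] at hc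
    omega
  simp only [inC] at hc1 hc2
  rcases r2 with j2 | u
  swap
  · simp only [inR] at hr2
    omega
  simp only [inR, rowRule] at hr1 hr2
  simp only [colRule] at hc2
  simp only [cen] at h12 h22
  have hp : pos h j1.val x1.val ≤ pos h j2.val x2.val := by
    simpa [keyR, keyR1, Prod.Lex.le_iff] using hr
  by_cases ht1 : t ≤ 1
  · have e : i2.val + (k + 1) = 2 * h := by omega
    rw [pos_ext h i2.val (k + 1) _ (by omega) e] at h12 h22
    obtain ⟨a, b, c⟩ := sound_G h k t j1.val x1.val j2.val x2.val y2.val hk (by omega) (by omega)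
      (by omega) hp h12 h22
    refine ⟨?_, ?_, Fin.ext c⟩
    · simp only [leaf, Sum.inr.injEq, Sum.inl.injEq]
      exact Fin.ext b
    · simp only [leaf, Sum.inr.injEq, Sum.inl.injEq]
      exact Fin.ext (by simp only; omega)
  · exfalso
    have e : i2.val = k + 1 := by omega
    rw [e, pos_ent h (k + 1) _ (by omega)] at h12 h22
    exact sound_L h k t j1.val x1.val j2.val x2.val y2.val hk (by omega) (by omega) (by omega)
      hp h12 h22

theorem sound {h : ℕ} (p q : Fin 66 → Idx h) (hp : Monotone (keyR ∘ p))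
    (hq : Monotone (keyC ∘ q)) (hA : ∀ i j, A0 (p i) (q j) ↔ Hpat i j = true) :
    (p 65).1 = leaf h ∧ (q 65).1 = leaf h ∧ (p 65).2 = (q 65).2 := by
  have auxp : ∀ i i' : Fin 66, i ≤ i' → IsAux (p i') → IsAux (p i) :=
    fun i i' hi => isAux_of_keyR_le (hp hi)
  have auxq : ∀ i i' : Fin 66, i ≤ i' → IsAux (q i') → IsAux (q i) :=
    fun i i' hi => isAux_of_keyC_le (hq hi)
  have hsm : ∀ i j : Fin 66, i.val < 64 → j.val < 64 → (A0 (p i) (q j) ↔ i.val ≠ j.val) :=
    fun i j hi hj => (hA i j).trans (Hpat_small i j hi hj)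
  -- (i)
  have s1 : IsAux (p 62) ∨ IsAux (q 62) := by
    by_contra hcon
    push Not at hcon
    obtain ⟨r, hr⟩ := not_isAux hcon.1
    obtain ⟨c, hc⟩ := not_isAux hcon.2
    obtain ⟨r', hr'⟩ := not_isAux (fun hh => hcon.1 (auxp 62 63 (by decide) hh))
    obtain ⟨c', hc'⟩ := not_isAux (fun hh => hcon.2 (auxq 62 63 (by decide) hh))
    have a1 := (hsm 62 63 (by decide) (by decide)).2 (by decide)
    have a2 := (hsm 63 62 (by decide) (by decide)).2 (by decide)
    have a3 := (hsm 62 62 (by decide) (by decide)).not.2 (by decide)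
    have a4 := (hsm 63 63 (by decide) (by decide)).not.2 (by decide)
    simp only [A0, hr, hc, hr', hc', A1] at a1 a2 a3 a4
    exact cen_half _ _ _ _ _ _ _ _ a1 a2 a3 a4
  -- (ii a)
  have s2 : IsAux (p 62) → IsAux (q 62) := by
    intro h62
    by_contra hcon
    obtain ⟨c, hc⟩ := not_isAux hcon
    obtain ⟨c', hc'⟩ := not_isAux (fun hh => hcon (auxq 62 63 (by decide) hh))
    have hall : ∀ i : Fin 62, ∃ a, (p (i.castLE (by decide))).1 = Sum.inl a :=
      fun i => auxp _ 62 (by rw [Fin.le_def]; have := i.isLt; simp only [Fin.val_castLE]; exact Nat.le_of_lt this) h62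
    choose f hf using hall
    have hone : ∀ i : Fin 62, (f i).2.val = 0 ∧ inC (f i).1 c' (q 63).2.val := by
      intro i
      have := (hsm (i.castLE (by decide)) 63 (by simp; omega) (by decide)).2 (by simp; omega)
      simpa only [A0, hf i, hc', A1] using this
    have hinj : Function.Injective (fun i => (f i).1) := by
      intro i i' hii
      by_contra hne
      have e : f i = f i' := Prod.ext hii (Fin.ext (by rw [(hone i).1, (hone i').1]))
      have b1 := (hsm (i.castLE (by decide)) (i.castLE (by decide)) (by simp; omega)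
        (by simp; omega)).not.2 (by simp)
      have b2 := (hsm (i'.castLE (by decide)) (i.castLE (by decide)) (by simp; omega)
        (by simp; omega)).2 (by simp; exact fun hh => hne (Fin.ext hh.symm))
      apply b1
      simp only [A0, hf i, hf i', e] at b2 ⊢
      revert b2
      rcases (q (i.castLE (by decide))).1 with b | b <;> simp only [A1] <;> exact id
    rcases c' with j | u
    · obtain ⟨S, hS, hS'⟩ := inC_bound j (q 63).2.val
      exact pigeon S hS _ hinj (fun i => hS' _ (hone i).2)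
    · have hk := hq (show (62 : Fin 66) ≤ 63 by decide)
      rcases c with j | u'
      · simp [keyC, keyC1, hc, hc', Prod.Lex.le_iff] at hk
      · have a1 := (hsm 62 63 (by decide) (by decide)).2 (by decide)
        have a3 := (hsm 62 62 (by decide) (by decide)).not.2 (by decide)
        obtain ⟨a, ha⟩ := h62
        simp only [A0, ha, hc, hc', A1, inC] at a1 a3
        exact a3 a1
  -- (ii b)
  have s3 : IsAux (q 62) → IsAux (p 62) := by
    intro h62
    by_contra hcon
    obtain ⟨r, hr⟩ := not_isAux hcon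
    have hall : ∀ i : Fin 62, ∃ a, (q (i.castLE (by decide))).1 = Sum.inl a :=
      fun i => auxq _ 62 (by rw [Fin.le_def]; have := i.isLt; simp only [Fin.val_castLE]; exact Nat.le_of_lt this) h62
    choose f hf using hall
    have hone : ∀ i : Fin 62, (f i).2.val = 0 ∧ inR (f i).1 r (p 62).2.val := by
      intro i
      have := (hsm 62 (i.castLE (by decide)) (by decide) (by simp; omega)).2 (by simp; omega)
      simpa only [A0, hf i, hr, A1] using this
    have hinj : Function.Injective (fun i => (f i).1) := by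
      intro i i' hii
      by_contra hne
      have e : f i = f i' := Prod.ext hii (Fin.ext (by rw [(hone i).1, (hone i').1]))
      have b1 := (hsm (i.castLE (by decide)) (i.castLE (by decide)) (by simp; omega)
        (by simp; omega)).not.2 (by simp)
      have b2 := (hsm (i.castLE (by decide)) (i'.castLE (by decide)) (by simp; omega)
        (by simp; omega)).2 (by simp; exact fun hh => hne (Fin.ext hh))
      apply b1
      simp only [A0, hf i, hf i', e] at b2 ⊢
      revert b2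
      rcases (p (i.castLE (by decide))).1 with b | b <;> simp only [A1] <;> exact id
    obtain ⟨S, hS, hS'⟩ := inR_bound r (p 62).2.val
    exact pigeon S hS _ hinj (fun i => hS' _ (hone i).2)
  have hp62 : IsAux (p 62) := s1.elim id s3
  have hq62 : IsAux (q 62) := s1.elim s2 id
  obtain ⟨a0, ha0⟩ := auxp 0 62 (by decide) hp62
  obtain ⟨a1, ha1⟩ := auxp 1 62 (by decide) hp62
  obtain ⟨a2, ha2⟩ := auxp 2 62 (by decide) hp62
  obtain ⟨b0, hb0⟩ := auxq 0 62 (by decide) hq62
  obtain ⟨b1, hb1⟩ := auxq 1 62 (by decide) hq62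
  obtain ⟨b2, hb2⟩ := auxq 2 62 (by decide) hq62
  have e01 := (hsm 0 1 (by decide) (by decide)).2 (by decide)
  have e02 := (hsm 0 2 (by decide) (by decide)).2 (by decide)
  have e10 := (hsm 1 0 (by decide) (by decide)).2 (by decide)
  have e12 := (hsm 1 2 (by decide) (by decide)).2 (by decide)
  have e21 := (hsm 2 1 (by decide) (by decide)).2 (by decide)
  have e11 := (hsm 1 1 (by decide) (by decide)).not.2 (by decide)
  have e22 := (hsm 2 2 (by decide) (by decide)).not.2 (by decide)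
  simp only [A0, ha0, ha1, ha2, hb0, hb1, hb2, A1] at e01 e02 e10 e12 e21 e11 e22
  have k1 : a1.1 = a0.1 := e12.1.trans e02.1.symm
  have k2 : a2.1 = a0.1 := e21.1.trans e01.1.symm
  have l0 : b0.1 = a0.1 := e10.1.symm.trans k1
  have l1 : b1.1 = a0.1 := e01.1.symm
  have l2 : b2.1 = a0.1 := e02.1.symm
  have m1 : a1.2 = b1.2 := by
    by_contra hh
    exact e11 ⟨k1.trans l1.symm, hh⟩
  have m2 : a2.2 = b2.2 := by
    by_contra hh
    exact e22 ⟨k2.trans l2.symm, hh⟩
  have n1 : b1.2 ≠ b2.2 := m1 ▸ e12.2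
  have n2 : a1.2 ≠ a2.2 := m1 ▸ m2 ▸ n1
  have hrow : ∀ i : Fin 66, 64 ≤ i.val → ∃ r, (p i).1 = Sum.inr r ∧ inR a0.1 r (p i).2.val := by
    intro i hi
    have c0 := (hA i 0).2 (by simp [Hpat, show ¬ i.val < 64 by omega])
    have c1 := (hA i 1).not.2 (by simp [Hpat, show ¬ i.val < 64 by omega])
    have c2 := (hA i 2).not.2 (by simp [Hpat, show ¬ i.val < 64 by omega])
    rcases hpi : (p i).1 with a | r
    · exfalso
      simp only [A0, hpi, hb0, hb1, hb2, A1] at c0 c1 c2
      have d1 : a.2 = b1.2 := by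
        by_contra hh
        exact c1 ⟨c0.1.trans (l0.trans l1.symm), hh⟩
      have d2 : a.2 = b2.2 := by
        by_contra hh
        exact c2 ⟨c0.1.trans (l0.trans l2.symm), hh⟩
      exact n1 (d1.symm.trans d2)
    · simp only [A0, hpi, hb0, A1] at c0
      exact ⟨r, rfl, l0 ▸ c0.2⟩
  have hcol : ∀ i : Fin 66, 64 ≤ i.val → ∃ r, (q i).1 = Sum.inr r ∧ inC a0.1 r (q i).2.val := by
    intro i hi
    have c0 := (hA 0 i).2 (by simp [Hpat, show ¬ i.val < 64 by omega])
    have c1 := (hA 1 i).not.2 (by simp [Hpat, show ¬ i.val < 64 by omega])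
    have c2 := (hA 2 i).not.2 (by simp [Hpat, show ¬ i.val < 64 by omega])
    rcases hpi : (q i).1 with a | r
    · exfalso
      simp only [A0, hpi, ha0, ha1, ha2, A1] at c0 c1 c2
      have d1 : a1.2 = a.2 := by
        by_contra hh
        exact c1 ⟨k1.trans c0.1, hh⟩
      have d2 : a2.2 = a.2 := by
        by_contra hh
        exact c2 ⟨k2.trans c0.1, hh⟩
      exact n2 (d1.trans d2.symm)
    · simp only [A0, hpi, ha0, A1] at c0
      exact ⟨r, rfl, c0.2⟩
  obtain ⟨r1, hr1, hr1'⟩ := hrow 64 (by decide)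
  obtain ⟨r2, hr2, hr2'⟩ := hrow 65 (by decide)
  obtain ⟨c1, hc1, hc1'⟩ := hcol 64 (by decide)
  obtain ⟨c2, hc2, hc2'⟩ := hcol 65 (by decide)
  have z12 := (hA 64 65).2 (by decide)
  have z11 := (hA 64 64).not.2 (by decide)
  have z22 := (hA 65 65).not.2 (by decide)
  simp only [A0, hr1, hr2, hc1, hc2, A1] at z12 z11 z22
  have o1 := hp (show (64 : Fin 66) ≤ 65 by decide)
  have o2 := hq (show (64 : Fin 66) ≤ 65 by decide)
  have := sound_rule a0.1 r1 r2 c1 c2 (p 64).2 (p 65).2 (q 64).2 (q 65).2 hr1' hr2' hc1' hc2'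
    (by rw [← hr1, ← hr2]; exact o1) (by rw [← hc1, ← hc2]; exact o2) z12 z11 z22
  rw [hr2, hc2]
  exact this

end Crest.Agent.H2OM
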