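import Crest.Agent.H2.OM2

set_option autoImplicit false

namespace Crest.Agent.H2OM

def ra {h : ℕ} (x y : Fin (2 ^ h)) : Blk h → Fin (2 ^ h)
  | Sum.inl _ => x + y
  | Sum.inr (Sum.inl _) => x
  | Sum.inr (Sum.inr _) => x + y

def ca {h : ℕ} (x y : Fin (2 ^ h)) : Blk h → Fin (2 ^ h)
  | Sum.inl _ => y
  | Sum.inr (Sum.inl j) => if j.val = 0 ∨ j.val = 2 * h then y else x
  | Sum.inr (Sum.inr _) => y

def robust {h : ℕ} : Blk h → Blk h → Prop
  | Sum.inr (Sum.inl _), Sum.inr (Sum.inl j) => j.val = 0 ∨ j.val = 2 * h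
  | _, _ => True

lemma robust_inj {h : ℕ} (b b' : Blk h) (hb : robust b b') (x y x' y' : Fin (2 ^ h))
    (h1 : ra x y b = ra x' y' b) (h2 : ca x y b' = ca x' y' b') : x = x' ∧ y = y' := by
  have k1 : x + y = x' + y' → y = y' → x = x' ∧ y = y' := by
    rintro a rfl
    exact ⟨add_right_cancel a, rfl⟩
  have k2 : x + y = x' + y' → x = x' → x = x' ∧ y = y' := by
    rintro a rfl
    exact ⟨rfl, add_left_cancel a⟩
  rcases b with a | j | u <;> rcases b' with a' | j' | u' <;> simp only [ra, ca, robust] at h1 h2 hb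
  · exact k1 h1 h2
  · split_ifs at h2
    · exact k1 h1 h2
    · exact k2 h1 h2
  · exact k1 h1 h2
  · exact ⟨h1, h2⟩
  · rw [if_pos hb, if_pos hb] at h2
    exact ⟨h1, h2⟩
  · exact ⟨h1, h2⟩
  · exact k1 h1 h2
  · split_ifs at h2
    · exact k1 h1 h2
    · exact k2 h1 h2
  · exact k1 h1 h2

def sel {h : ℕ} (κ : Rule h) (r1 r2 : Fin (2 * h + 1) ⊕ Unit) (i : Fin 66) : Blk h :=
  if hi : i.val < 64 then Sum.inl (κ, ⟨i.val, hi⟩) else if i.val = 64 then Sum.inr r1 else Sum.inr r2

def HasCopy {h : ℕ} (B : Idx h → Idx h → Bool) : Prop :=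
  ∃ p q : Fin 66 → Idx h, StrictMono (keyR ∘ p) ∧ StrictMono (keyC ∘ q) ∧
    ∀ i j, B (p i) (q j) = Hpat i j

lemma frame {h : ℕ} (B : Idx h → Idx h → Bool) (x y : Fin (2 ^ h))
    (hB : ∀ b b', robust b b' → (B (b, ra x y b) (b', ca x y b') = true ↔
      A0 (b, ra x y b) (b', ca x y b')))
    (κ : Rule h) (r1 r2 c1 c2 : Fin (2 * h + 1) ⊕ Unit)
    (hr1 : inR κ r1 (ra x y (Sum.inr r1)).val) (hr2 : inR κ r2 (ra x y (Sum.inr r2)).val)
    (hc1 : inC κ c1 (ca x y (Sum.inr c1)).val) (hc2 : inC κ c2 (ca x y (Sum.inr c2)).val)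
    (hr : keyR ((Sum.inr r1 : Blk h), ra x y (Sum.inr r1)) <
      keyR ((Sum.inr r2 : Blk h), ra x y (Sum.inr r2)))
    (hc : keyC ((Sum.inr c1 : Blk h), ca x y (Sum.inr c1)) <
      keyC ((Sum.inr c2 : Blk h), ca x y (Sum.inr c2)))
    (h11 : B (Sum.inr r1, ra x y (Sum.inr r1)) (Sum.inr c1, ca x y (Sum.inr c1)) = false)
    (h12 : B (Sum.inr r1, ra x y (Sum.inr r1)) (Sum.inr c2, ca x y (Sum.inr c2)) = true)
    (h21 : B (Sum.inr r2, ra x y (Sum.inr r2)) (Sum.inr c1, ca x y (Sum.inr c1)) = false)
    (h22 : B (Sum.inr r2, ra x y (Sum.inr r2)) (Sum.inr c2, ca x y (Sum.inr c2)) = false) :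
    HasCopy B := by
  refine ⟨fun i => (sel κ r1 r2 i, ra x y (sel κ r1 r2 i)),
    fun i => (sel κ c1 c2 i, ca x y (sel κ c1 c2 i)), ?_, ?_, ?_⟩
  · intro i j hij
    have hij' : i.val < j.val := hij
    have hj := j.isLt
    simp only [Function.comp, sel]
    by_cases hi : i.val < 64
    · by_cases hj : j.val < 64
      · simp [hi, hj, keyR, keyR1, Prod.Lex.lt_iff, hij']
      · rw [dif_pos hi, dif_neg hj]
        split_ifs
        · rcases r1 with r | r <;> simp [keyR, keyR1, Prod.Lex.lt_iff]
        · rcases r2 with r | r <;> simp [keyR, keyR1, Prod.Lex.lt_iff]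
    · rw [dif_neg hi, dif_neg (show ¬ j.val < 64 by omega), if_pos (show i.val = 64 by omega),
        if_neg (show ¬ j.val = 64 by omega)]
      exact hr
  · intro i j hij
    have hij' : i.val < j.val := hij
    have hj := j.isLt
    simp only [Function.comp, sel]
    by_cases hi : i.val < 64
    · by_cases hj : j.val < 64
      · simp [hi, hj, keyC, keyC1, Prod.Lex.lt_iff, hij']
      · rw [dif_pos hi, dif_neg hj]
        split_ifs
        · rcases c1 with r | r <;> simp [keyC, keyC1, Prod.Lex.lt_iff]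
        · rcases c2 with r | r <;> simp [keyC, keyC1, Prod.Lex.lt_iff]
    · rw [dif_neg hi, dif_neg (show ¬ j.val < 64 by omega), if_pos (show i.val = 64 by omega),
        if_neg (show ¬ j.val = 64 by omega)]
      exact hc
  · intro i j
    have hi' := i.isLt
    have hj' := j.isLt
    simp only [sel, Hpat]
    by_cases hi : i.val < 64
    · by_cases hj : j.val < 64
      · simp only [dif_pos hi, dif_pos hj, if_pos hi, if_pos hj]
        rw [Bool.eq_iff_iff, hB _ _ (by simp [robust])]
        simp [A0, A1]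
      · simp only [dif_pos hi, dif_neg hj, if_pos hi, if_neg hj]
        split_ifs
        · rw [Bool.eq_iff_iff, hB _ _ (by simp [robust])]
          simp [A0, A1, hc1]
        · rw [Bool.eq_iff_iff, hB _ _ (by simp [robust])]
          simp [A0, A1, hc2]
    · by_cases hj : j.val < 64
      · simp only [dif_neg hi, dif_pos hj, if_neg hi, if_pos hj]
        split_ifs
        · rw [Bool.eq_iff_iff, hB _ _ (by rcases r1 with r | r <;> simp [robust])]
          simp [A0, A1, hr1]
        · rw [Bool.eq_iff_iff, hB _ _ (by rcases r2 with r | r <;> simp [robust])]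
          simp [A0, A1, hr2]
      · simp only [dif_neg hi, dif_neg hj, if_neg hi, if_neg hj]
        split_ifs with h1 h2 h2
        · rw [h11]; simp; omega
        · rw [h12]; simp; omega
        · rw [h21]; simp; omega
        · rw [h22]; simp; omega

theorem complete {h : ℕ} (hh : 1 ≤ h) (B : Idx h → Idx h → Bool) (x y : Fin (2 ^ h))
    (hB : ∀ b b', robust b b' → (B (b, ra x y b) (b', ca x y b') = true ↔
      A0 (b, ra x y b) (b', ca x y b'))) : HasCopy B := by
  by_contra hno
  -- abbreviations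
  set Z : Fin (2 * h + 1) → Fin (2 * h + 1) → Bool := fun j j' =>
    B (Sum.inr (Sum.inl j), ra x y (Sum.inr (Sum.inl j)))
      (Sum.inr (Sum.inl j'), ca x y (Sum.inr (Sum.inl j'))) with hZ
  have hposc : ∀ j : Fin (2 * h + 1), pos h j.val (ca x y (Sum.inr (Sum.inl j))).val =
      pos h j.val x.val := by
    intro j
    simp only [ca]
    split_ifs with h1
    · rcases h1 with h1 | h1
      · rw [h1, pos_ent _ _ _ (by omega), pos_ent _ _ _ (by omega)]
        simp [ent, pre_zero h _ x.isLt, pre_zero h _ y.isLt]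
      · rw [h1, pos_ext h _ 0 _ (by omega) (by omega), pos_ext h _ 0 _ (by omega) (by omega)]
        simp [ext, pre_zero h _ x.isLt, pre_zero h _ y.isLt]
    · rfl
  -- the row rule
  have rowStep : ∀ j j1 j2 : Fin (2 * h + 1), pos h j1.val x.val < pos h j2.val x.val →
      Z j j2 = true → Z j j1 = true := by
    intro j j1 j2 hlt h2
    by_contra h1
    apply hno
    refine frame B x y hB (⟨0, by omega⟩, ⟨4, by omega⟩) (Sum.inl j) (Sum.inr ()) (Sum.inl j1)
      (Sum.inl j2) (by simp [inR, rowRule]) (by simp [inR]) (by simp [inC, colRule])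
      (by simp [inC, colRule]) (by simp [keyR, keyR1, Prod.Lex.lt_iff])
      (by simp [keyC, keyC1, Prod.Lex.lt_iff, hposc, hlt]) (by simpa using h1) h2 ?_ ?_
    · rw [← Bool.not_eq_true, hB _ _ (by simp [robust])]
      simp [A0, A1, cen]
    · rw [← Bool.not_eq_true, hB _ _ (by simp [robust])]
      simp [A0, A1, cen]
  have colStep : ∀ (κ : Rule h) (j1 j2 j : Fin (2 * h + 1)), κ.2.val ≤ 3 →
      rowRule h κ.1.val κ.2.val j1.val x.val → rowRule h κ.1.val κ.2.val j2.val x.val →
      colRule h κ.1.val κ.2.val j.val x.val → j.val ≠ 0 → j.val ≠ 2 * h →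
      pos h j1.val x.val < pos h j2.val x.val →
      Z j1 j = true → Z j2 j = true := by
    intro κ j1 j2 j hκ a1 a2 a3 n0 n1 hlt h1
    by_contra h2
    apply hno
    refine frame B x y hB κ (Sum.inl j1) (Sum.inl j2) (Sum.inr ()) (Sum.inl j)
      (by simpa [inR, ra] using a1) (by simpa [inR, ra] using a2) (by simpa [inC] using hκ)
      (by simpa [inC, ca, n0, n1] using a3) (by simp [keyR, keyR1, Prod.Lex.lt_iff, ra, hlt])
      (by simp [keyC, keyC1, Prod.Lex.lt_iff]) ?_ h1 ?_ (by simpa using h2)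
    · rw [← Bool.not_eq_true, hB _ _ (by simp [robust])]
      simp [A0, A1, cen]
    · rw [← Bool.not_eq_true, hB _ _ (by simp [robust])]
      simp [A0, A1, cen]
  have chainG : ∀ m (hm : m ≤ h), Z ⟨m, by omega⟩ ⟨2 * h - m, by omega⟩ = true := by
    intro m
    induction m with
    | zero =>
      intro _
      simp only [hZ]
      rw [hB _ _ (by simp [robust])]
      simp only [A0, A1, cen]
      rw [hposc ⟨2 * h - 0, by omega⟩]
      simp only [ra]
      rw [pos_ext h _ 0 _ (by omega) (by omega)]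
      simp [thr, show 0 < h by omega]
    | succ k ih =>
      intro hm
      have h1 := ih (by omega)
      have h2 : Z ⟨k, by omega⟩ ⟨2 * h - (k + 1), by omega⟩ = true := by
        refine rowStep _ _ _ ?_ h1
        simp only
        rw [pos_ext h _ (k + 1) _ (by omega) (by omega), pos_ext h _ k _ (by omega) (by omega)]
        exact ext_succ_lt h k _ (by omega)
      refine colStep (⟨k, by omega⟩, ⟨pre h (k + 1) x.val % 2, by omega⟩) _ _ _ (by simp only; omega)
        (by dsimp only [rowRule]; omega) (by dsimp only [rowRule]; omega)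
        (by dsimp only [colRule]; omega) (by simp only; omega) (by simp only; omega) ?_ h2
      simp only
      rw [pos_ent h _ _ (by omega), pos_ent h _ _ (by omega)]
      exact ent_lt_succ h k _ (by omega)
  have chainL : ∀ m (hm : m ≤ h), ¬ Z ⟨2 * h - m, by omega⟩ ⟨m, by omega⟩ = true := by
    intro m
    induction m with
    | zero =>
      intro _
      simp only [hZ]
      rw [hB _ _ (by simp [robust])]
      simp only [A0, A1, cen]
      rw [hposc ⟨0, by omega⟩]
      simp only [ra]
      rw [pos_ent h _ _ (by omega), thr_ent h _ 0 _ (by omega) (by omega)]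
      simp
    | succ k ih =>
      intro hm hc
      apply ih (by omega)
      have h2 : Z ⟨2 * h - k, by omega⟩ ⟨k + 1, by omega⟩ = true := by
        refine colStep (⟨k, by omega⟩, ⟨pre h (k + 1) x.val % 2 + 2, by omega⟩) _ _ _
          (by simp only; omega)
          (by dsimp only [rowRule]; omega) (by dsimp only [rowRule]; omega)
          (by dsimp only [colRule]; omega) (by simp only; omega) (by simp only; omega) ?_ hc
        simp only
        rw [pos_ext h _ (k + 1) _ (by omega) (by omega), pos_ext h _ k _ (by omega) (by omega)]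
        exact ext_succ_lt h k _ (by omega)
      refine rowStep _ _ _ ?_ h2
      simp only
      rw [pos_ent h _ _ (by omega), pos_ent h _ _ (by omega)]
      exact ent_lt_succ h k _ (by omega)
  have e1 := chainG h le_rfl
  have e2 := chainL h le_rfl
  have e3 : (⟨2 * h - h, by omega⟩ : Fin (2 * h + 1)) = ⟨h, by omega⟩ := Fin.ext (by simp only; omega)
  rw [e3] at e1 e2
  exact e2 e1

lemma exists_sort {α β : Type} [Fintype α] [LinearOrder β] (n : ℕ) (hn : Fintype.card α = n)
    (key : α → β) : ∃ σ : Fin n ≃ α, Monotone (key ∘ σ) := by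
  let e : Fin n ≃ α := (Fintype.equivFinOfCardEq hn).symm
  exact ⟨(Tuple.sort (key ∘ e)).trans e, Tuple.monotone_sort (key ∘ e)⟩

lemma card_Idx (h : ℕ) : Fintype.card (Idx h) = (386 * h + 2) * 2 ^ h := by
  simp only [Idx, Blk, Rule, Fintype.card_prod, Fintype.card_sum, Fintype.card_fin,
    Fintype.card_unit]
  ring

end Crest.Agent.H2OM
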