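import Mathlib

set_option autoImplicit false

namespace H2SL

open MeasureTheory ProbabilityTheory Real
open scoped ENNReal RealInnerProductSpace

/-- centred Gaussian density with variance `s` -/
noncomputable def phr (s t : ℝ) : ℝ := (√(2 * π * s))⁻¹ * exp (-(t ^ 2) / (2 * s))

noncomputable def ph (s t : ℝ) : ℝ≥0∞ := ENNReal.ofReal (phr s t)

lemma phr_pos {s : ℝ} (hs : 0 < s) (t : ℝ) : 0 < phr s t := by
  unfold phr; have := pi_pos; positivity

lemma phr_nonneg (s t : ℝ) : 0 ≤ phr s t := by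
  unfold phr; positivity

lemma phr_le {s : ℝ} (hs : 0 < s) (t : ℝ) : phr s t ≤ (√(2 * π * s))⁻¹ := by
  unfold phr
  refine mul_le_of_le_one_right (by positivity) ?_
  rw [exp_le_one_iff]
  exact div_nonpos_of_nonpos_of_nonneg (by simp [sq_nonneg]) (by positivity)

@[fun_prop]
lemma measurable_phr {α : Type*} [MeasurableSpace α] {f g : α → ℝ} (hf : Measurable f)
    (hg : Measurable g) : Measurable (fun a => phr (f a) (g a)) := by
  unfold phr; fun_prop

@[fun_prop]
lemma measurable_ph {α : Type*} [MeasurableSpace α] {f g : α → ℝ} (hf : Measurable f)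
    (hg : Measurable g) : Measurable (fun a => ph (f a) (g a)) := by
  unfold ph; fun_prop

lemma lint_gauss {A : ℝ} (hA : 0 < A) (c : ℝ) :
    ∫⁻ t : ℝ, ENNReal.ofReal (exp (-A * (t - c) ^ 2)) = ENNReal.ofReal (√(π / A)) := by
  rw [lintegral_sub_right_eq_self (fun t : ℝ => ENNReal.ofReal (exp (-A * t ^ 2))) c,
    ← ofReal_integral_eq_lintegral_ofReal (integrable_exp_neg_mul_sq hA)
      (Filter.Eventually.of_forall fun t => (exp_pos _).le), integral_gaussian]

lemma lint_gauss' {A K : ℝ} (hA : 0 < A) (hK : 0 ≤ K) (c : ℝ) :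
    ∫⁻ t : ℝ, ENNReal.ofReal (K * exp (-A * (t - c) ^ 2)) = ENNReal.ofReal (K * √(π / A)) := by
  simp only [ENNReal.ofReal_mul hK]
  rw [lintegral_const_mul _ (by fun_prop), lint_gauss hA]

lemma N_eq : gaussianReal 0 1 = volume.withDensity (ph 1) := by
  rw [gaussianReal_of_var_ne_zero 0 one_ne_zero]
  congr 1
  ext t
  simp [gaussianPDF, gaussianPDFReal, ph, phr]

lemma lint_N {f : ℝ → ℝ≥0∞} (hf : Measurable f) :
    ∫⁻ t, f t ∂(gaussianReal 0 1) = ∫⁻ t, ph 1 t * f t := by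
  rw [N_eq, lintegral_withDensity_eq_lintegral_mul _ (by fun_prop) hf]
  rfl

lemma lint_ph {s : ℝ} (hs : 0 < s) (c : ℝ) : ∫⁻ y, ph s (y - c) = 1 := by
  have e : ∀ y, ph s (y - c)
      = ENNReal.ofReal ((√(2 * π * s))⁻¹ * exp (-(1 / (2 * s)) * (y - c) ^ 2)) := by
    intro y; unfold ph phr; congr 3; ring
  simp only [e]
  rw [lint_gauss' (by positivity) (by positivity), show π / (1 / (2 * s)) = 2 * π * s by
    field_simp, inv_mul_cancel₀ (by have := pi_pos; positivity), ENNReal.ofReal_one]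

lemma lint_ph_sq {s : ℝ} (hs : 0 < s) (c c' : ℝ) :
    ∫⁻ y, ph s (y - c) * ENNReal.ofReal ((y - c') ^ 2) = ENNReal.ofReal (s + (c - c') ^ 2) := by
  let v : NNReal := ⟨s, hs.le⟩
  have hv : v ≠ 0 := fun h => hs.ne' (congrArg NNReal.toReal h)
  have e : ∀ y, ph s (y - c) = gaussianPDF c v y := by
    intro y; rfl
  simp only [e]
  have h1 := lintegral_withDensity_eq_lintegral_mul volume (measurable_gaussianPDF c v)
    (g := fun y => ENNReal.ofReal ((y - c') ^ 2)) (by fun_prop)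
  simp only [Pi.mul_apply] at h1
  rw [← h1, ← gaussianReal_of_var_ne_zero c hv]
  have hm : MemLp (fun y : ℝ => y) 2 (gaussianReal c v) := memLp_id_gaussianReal' 2 (by simp)
  have hm' : MemLp (fun y : ℝ => y - c') 2 (gaussianReal c v) := hm.sub (memLp_const c')
  rw [← ofReal_integral_eq_lintegral_ofReal hm'.integrable_sq
    (Filter.Eventually.of_forall fun t => sq_nonneg _)]
  congr 1
  have h2 := variance_eq_sub hm'
  rw [variance_sub_const hm.aestronglyMeasurable, variance_fun_id_gaussianReal,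
    integral_sub (hm.integrable (by simp)) (integrable_const _), integral_id_gaussianReal] at h2
  simp only [integral_const, probReal_univ, smul_eq_mul, one_mul] at h2
  have h3 : ((v : NNReal) : ℝ) = s := rfl
  rw [h3] at h2
  have : ∫ y, (y - c') ^ 2 ∂gaussianReal c v = ∫ y, ((fun y : ℝ => y - c') ^ 2) y ∂gaussianReal c v :=
    rfl
  rw [this]
  linarith

lemma lint_ph_N {s : ℝ} (hs : 0 < s) (c a : ℝ) :
    ∫⁻ t, ph s (c - a * t) ∂(gaussianReal 0 1) ≤ ENNReal.ofReal ((√(2 * π * (s + a ^ 2)))⁻¹) := by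
  rw [lint_N (by fun_prop)]
  have hp := pi_pos
  have hsa : 0 < s + a ^ 2 := by positivity
  calc _ ≤ ∫⁻ t : ℝ, ENNReal.ofReal (((√(2 * π * 1))⁻¹ * (√(2 * π * s))⁻¹) *
        exp (-((s + a ^ 2) / (2 * s)) * (t - a * c / (s + a ^ 2)) ^ 2)) := by
        refine lintegral_mono fun t => ?_
        unfold ph
        rw [← ENNReal.ofReal_mul (phr_nonneg _ _)]
        refine ENNReal.ofReal_le_ofReal ?_
        unfold phr
        rw [mul_mul_mul_comm, ← exp_add]
        gcongr
        have : -(t ^ 2) / (2 * 1) + -((c - a * t) ^ 2) / (2 * s)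
            = -((s + a ^ 2) / (2 * s)) * (t - a * c / (s + a ^ 2)) ^ 2 - c ^ 2 / (2 * (s + a ^ 2)) := by
          field_simp; ring
        rw [this]
        have : 0 ≤ c ^ 2 / (2 * (s + a ^ 2)) := by positivity
        linarith
    _ = _ := by
        rw [lint_gauss' (by positivity) (by positivity)]
        congr 1
        rw [← sqrt_inv, ← sqrt_inv, ← sqrt_inv, ← sqrt_mul (by positivity),
          ← sqrt_mul (by positivity)]
        congr 1
        field_simp

lemma lint_exp_N {b : ℝ} (hb : b ≤ 1 / 4) :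
    ∫⁻ t, ENNReal.ofReal (exp (b * t ^ 2)) ∂(gaussianReal 0 1) ≤ ENNReal.ofReal (√2) := by
  rw [lint_N (by fun_prop)]
  have hp := pi_pos
  calc _ ≤ ∫⁻ t : ℝ, ENNReal.ofReal ((√(2 * π * 1))⁻¹ * exp (-(1 / 4) * (t - 0) ^ 2)) := by
        refine lintegral_mono fun t => ?_
        unfold ph
        rw [← ENNReal.ofReal_mul (phr_nonneg _ _)]
        refine ENNReal.ofReal_le_ofReal ?_
        unfold phr
        rw [mul_assoc, ← exp_add]
        gcongr
        nlinarith [sq_nonneg t]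
    _ = _ := by
        rw [lint_gauss' (by positivity) (by positivity)]
        congr 1
        rw [← sqrt_inv, ← sqrt_mul (by positivity)]
        congr 1
        field_simp; norm_num

lemma lint_expneg_N {b : ℝ} (hb : 0 < b) (a : ℝ) :
    ∫⁻ t, ENNReal.ofReal (exp (-b * (a * t) ^ 2)) ∂(gaussianReal 0 1)
      ≤ ENNReal.ofReal ((√(1 + 2 * b * a ^ 2))⁻¹) := by
  have hp := pi_pos
  have h := lint_ph_N (s := 1 / (2 * b)) (by positivity) 0 a
  have e : ∀ t, ENNReal.ofReal (exp (-b * (a * t) ^ 2))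
      = ENNReal.ofReal (√(2 * π * (1 / (2 * b)))) * ph (1 / (2 * b)) (0 - a * t) := by
    intro t
    unfold ph phr
    rw [← ENNReal.ofReal_mul (by positivity), ← mul_assoc, mul_inv_cancel₀ (by positivity),
      one_mul]
    congr 2
    field_simp; ring
  simp only [e]
  rw [lintegral_const_mul _ (by fun_prop)]
  refine (mul_le_mul_right h _).trans (le_of_eq ?_)
  rw [← ENNReal.ofReal_mul (by positivity)]
  congr 1
  rw [← sqrt_inv, ← sqrt_inv, ← sqrt_mul (by positivity)]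
  congr 1
  field_simp

section gauss
variable {E : Type} [NormedAddCommGroup E] [InnerProductSpace ℝ E] [FiniteDimensional ℝ E]
  [MeasurableSpace E] [BorelSpace E]

lemma resample_map {e : E} (he : ‖e‖ = 1) :
    ((stdGaussian E).prod (gaussianReal 0 1)).map (fun p : E × ℝ => p.1 + (p.2 - ⟪e, p.1⟫) • e)
      = stdGaussian E := by
  have hm : Measurable (fun p : E × ℝ => p.1 + (p.2 - ⟪e, p.1⟫) • e) := by fun_prop
  haveI : IsProbabilityMeasure (((stdGaussian E).prod (gaussianReal 0 1)).map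
    (fun p : E × ℝ => p.1 + (p.2 - ⟪e, p.1⟫) • e)) := Measure.isProbabilityMeasure_map hm.aemeasurable
  apply Measure.ext_of_charFun
  ext ξ
  rw [charFun_apply, integral_map hm.aemeasurable (by fun_prop)]
  have e1 : ∀ p : E × ℝ, Complex.exp ((⟪p.1 + (p.2 - ⟪e, p.1⟫) • e, ξ⟫ : ℝ) * Complex.I)
      = Complex.exp ((⟪p.1, ξ - ⟪e, ξ⟫ • e⟫ : ℝ) * Complex.I)
        * Complex.exp ((⟪e, ξ⟫ : ℝ) * (p.2 : ℝ) * Complex.I) := by
    intro p
    rw [← Complex.exp_add, inner_add_left, real_inner_smul_left, inner_sub_right,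
      real_inner_smul_right, real_inner_comm e p.1]
    congr 1
    push_cast
    ring
  simp only [e1]
  rw [integral_prod_mul (f := fun g : E => Complex.exp ((⟪g, ξ - ⟪e, ξ⟫ • e⟫ : ℝ) * Complex.I))
    (g := fun t : ℝ => Complex.exp ((⟪e, ξ⟫ : ℝ) * (t : ℝ) * Complex.I)), ← charFun_apply,
    ← charFun_apply_real, charFun_stdGaussian, charFun_stdGaussian, charFun_gaussianReal,
    ← Complex.exp_add]
  congr 1
  have : ‖ξ - ⟪e, ξ⟫ • e‖ ^ 2 = ‖ξ‖ ^ 2 - ⟪e, ξ⟫ ^ 2 := by
    rw [norm_sub_sq_real, real_inner_smul_right, norm_smul, he, real_inner_comm e ξ,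
      Real.norm_eq_abs, mul_one, sq_abs]
    ring
  have h2 := congrArg (fun r : ℝ => (r : ℂ)) this
  push_cast at h2 ⊢
  rw [h2]
  ring

lemma resample {e : E} (he : ‖e‖ = 1) {F : E → ℝ≥0∞} (hF : Measurable F) :
    ∫⁻ g, F g ∂(stdGaussian E)
      = ∫⁻ g, ∫⁻ t, F (g + (t - ⟪e, g⟫) • e) ∂(gaussianReal 0 1) ∂(stdGaussian E) := by
  conv_lhs => rw [← resample_map he]
  rw [lintegral_map hF (by fun_prop), lintegral_prod _ (by fun_prop)]

lemma lint_inner (z : E) {f : ℝ → ℝ≥0∞} (hf : Measurable f) :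
    ∫⁻ g, f ⟪g, z⟫ ∂(stdGaussian E) = ∫⁻ t, f (‖z‖ * t) ∂(gaussianReal 0 1) := by
  by_cases hz : z = 0
  · simp [hz]
  have hn : ‖z‖ ≠ 0 := norm_ne_zero_iff.2 hz
  have he : ‖(‖z‖⁻¹ • z)‖ = 1 := by rw [norm_smul, norm_inv, norm_norm, inv_mul_cancel₀ hn]
  rw [resample he (by fun_prop)]
  have : ∀ (g : E) (t : ℝ), ⟪g + (t - ⟪‖z‖⁻¹ • z, g⟫) • ‖z‖⁻¹ • z, z⟫ = ‖z‖ * t := by
    intro g t
    rw [inner_add_left, real_inner_smul_left, real_inner_smul_left, real_inner_smul_left,
      real_inner_self_eq_norm_sq, real_inner_comm g z]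
    field_simp; ring
  simp [this]

end gauss

/-- product formula -/
lemma lint_pi {n : ℕ} {Y : Type*} [MeasurableSpace Y] (μ : Measure Y) [SigmaFinite μ]
    (f : Fin n → Y → ℝ≥0∞) (hf : ∀ i, Measurable (f i)) :
    ∫⁻ x : Fin n → Y, ∏ i, f i (x i) ∂(Measure.pi fun _ => μ) = ∏ i, ∫⁻ y, f i y ∂μ := by
  induction n with
  | zero => simp
  | succ n ih =>
    rw [← ((measurePreserving_piFinSuccAbove (fun _ : Fin (n + 1) => μ) 0).symm).lintegral_comp
      (by fun_prop)]
    simp only [MeasurableEquiv.piFinSuccAbove_symm_apply, Fin.insertNthEquiv,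
      Fin.prod_univ_succ, Fin.insertNth_zero, Equiv.coe_fn_mk, Fin.cons_succ,
      Fin.zero_succAbove, cast_eq, Fin.cons_zero]
    rw [← ih _ (fun i => hf _), ← lintegral_prod_mul (hf 0).aemeasurable
      (Measurable.aemeasurable (by fun_prop))]

lemma lint_pi_pow {n : ℕ} {Y : Type*} [MeasurableSpace Y] (μ : Measure Y) [SigmaFinite μ]
    (f : Y → ℝ≥0∞) (hf : Measurable f) :
    ∫⁻ x : Fin n → Y, ∏ i, f (x i) ∂(Measure.pi fun _ => μ) = (∫⁻ y, f y ∂μ) ^ n := by
  rw [lint_pi μ (fun _ => f) (fun _ => hf)]; simp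

lemma lint_pi_one {n : ℕ} {Y : Type*} [MeasurableSpace Y] (μ : Measure Y) [SigmaFinite μ]
    (c f : Y → ℝ≥0∞) (hc : Measurable c) (hf : Measurable f) (h1 : ∫⁻ y, c y ∂μ = 1) (i : Fin n) :
    ∫⁻ x : Fin n → Y, (∏ r, c (x r)) * f (x i) ∂(Measure.pi fun _ => μ) = ∫⁻ y, c y * f y ∂μ := by
  classical
  have e : ∀ x : Fin n → Y, (∏ r, c (x r)) * f (x i)
      = ∏ r, (fun r y => if r = i then c y * f y else c y) r (x r) := by
    intro x
    rw [Fintype.prod_eq_mul_prod_compl i, Fintype.prod_eq_mul_prod_compl i, mul_right_comm]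
    simp only [if_true]
    congr 1
    exact Finset.prod_congr rfl fun r hr => (if_neg (by simpa using hr)).symm
  simp only [e]
  rw [lint_pi μ (fun r y => if r = i then c y * f y else c y)
    (fun r => by split_ifs <;> fun_prop), Fintype.prod_eq_mul_prod_compl i,
    Finset.prod_eq_one (fun r hr => by simp only [if_neg (show ¬ r = i by simpa using hr), h1])]
  simp

end H2SL
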