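import Crest.Agent.H2.SL9

set_option autoImplicit false
set_option maxHeartbeats 400000

namespace H2SL

open MeasureTheory ProbabilityTheory Real Metric
open scoped ENNReal RealInnerProductSpace

section chain
variable {S Θ : Type} (step : ℕ → S → Θ → S)

def run : (n : ℕ) → ℕ → S → (Fin n → Θ) → S
  | 0, _, m, _ => m
  | n + 1, t0, m, ω => run n (t0 + 1) (step t0 m (ω 0)) (Fin.tail ω)

variable [MeasurableSpace Θ] [Fintype S] {step}

lemma run_set (n t0 : ℕ) (m b : S) : {ω : Fin (n + 1) → Θ | run step (n + 1) t0 m ω = b}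
    = ⋃ c, ((fun ω => ω 0) ⁻¹' {θ | step t0 m θ = c}
      ∩ Fin.tail ⁻¹' {ω : Fin n → Θ | run step n (t0 + 1) c ω = b}) := by
  ext ω; simp [run]

lemma measurable_tail (n : ℕ) : Measurable (Fin.tail : (Fin (n + 1) → Θ) → Fin n → Θ) :=
  measurable_pi_lambda _ fun i => measurable_pi_apply _

lemma meas_run (hstep : ∀ t m b, MeasurableSet {θ | step t m θ = b}) (n : ℕ) :
    ∀ t0 m b, MeasurableSet {ω : Fin n → Θ | run step n t0 m ω = b} := by
  induction n with
  | zero => intro t0 m b; simp [run]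
  | succ n ih =>
    intro t0 m b
    rw [run_set]
    exact MeasurableSet.iUnion fun c => ((measurable_pi_apply 0) (hstep _ _ _)).inter
      (measurable_tail n (ih _ _ _))

variable (step) in
noncomputable def KK (μ : Measure Θ) (n t0 : ℕ) (m b : S) : ℝ≥0∞ :=
  Measure.pi (fun _ : Fin n => μ) {ω | run step n t0 m ω = b}

lemma sum_measure_fiber {Y : Type} [MeasurableSpace Y] (μ : Measure Y)
    (a : Y → S) (ha : ∀ b, MeasurableSet {y | a y = b}) : ∑ b, μ {y | a y = b} = μ Set.univ := by
  simpa using sum_setLIntegral_fiber μ a ha (fun _ => 1)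

omit [Fintype S] in
lemma KK_zero [DecidableEq S] (μ : Measure Θ) [SigmaFinite μ] (t0 : ℕ) (m b : S) :
    KK step μ 0 t0 m b = if m = b then 1 else 0 := by
  split_ifs with h <;> simp [KK, run, h]

variable (hstep : ∀ t m b, MeasurableSet {θ | step t m θ = b})
include hstep

lemma KK_sum (μ : Measure Θ) [IsProbabilityMeasure μ] (n t0 : ℕ) (m : S) :
    ∑ b, KK step μ n t0 m b = 1 := by
  unfold KK
  rw [sum_measure_fiber _ _ (meas_run hstep n t0 m), measure_univ]

lemma KK_succ (μ : Measure Θ) [IsProbabilityMeasure μ] (n t0 : ℕ) (m b : S) :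
    KK step μ (n + 1) t0 m b = ∑ c, μ {θ | step t0 m θ = c} * KK step μ n (t0 + 1) c b := by
  unfold KK
  rw [← ((measurePreserving_piFinSuccAbove (fun _ : Fin (n + 1) => μ) 0).symm).measure_preimage
    (meas_run hstep _ _ _ _).nullMeasurableSet]
  have : (MeasurableEquiv.piFinSuccAbove (fun _ : Fin (n + 1) => Θ) 0).symm ⁻¹'
      {ω | run step (n + 1) t0 m ω = b}
      = ⋃ c, {θ | step t0 m θ = c} ×ˢ {ω : Fin n → Θ | run step n (t0 + 1) c ω = b} := by
    ext p
    simp [run, MeasurableEquiv.piFinSuccAbove_symm_apply, Fin.insertNthEquiv]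
  rw [this, measure_iUnion _ (fun c => (hstep _ _ _).prod (meas_run hstep _ _ _ _)), tsum_fintype]
  · simp only [Measure.prod_prod]
  · intro c c' h
    exact Set.disjoint_left.2 fun p h1 h2 => h (h1.1.symm.trans h2.1)

lemma KK_add [DecidableEq S] (μ : Measure Θ) [IsProbabilityMeasure μ] (n1 n2 : ℕ) :
    ∀ t0 m b, KK step μ (n1 + n2) t0 m b
      = ∑ c, KK step μ n1 t0 m c * KK step μ n2 (t0 + n1) c b := by
  induction n1 with
  | zero =>
    intro t0 m b
    simp [KK_zero]
  | succ n1 ih =>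
    intro t0 m b
    rw [Nat.add_right_comm, KK_succ hstep]
    simp only [ih, KK_succ hstep, Finset.mul_sum, Finset.sum_mul]
    rw [Finset.sum_comm]
    refine Finset.sum_congr rfl fun c _ => Finset.sum_congr rfl fun c' _ => ?_
    rw [mul_assoc, Nat.add_right_comm t0 1 n1, add_assoc t0 n1 1]

lemma KK_compare (μ μ' : Measure Θ) [IsProbabilityMeasure μ] [IsProbabilityMeasure μ'] (D : ℝ≥0∞)
    (n : ℕ) : ∀ t0, (∀ t m, t < t0 + n →
      ∑ c, (μ {θ | step t m θ = c} - μ' {θ | step t m θ = c}) ≤ D) →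
    ∀ m b, KK step μ n t0 m b ≤ KK step μ' n t0 m b + n * D := by
  induction n with
  | zero => classical intro t0 _ m b; simp [KK_zero]
  | succ n ih =>
    intro t0 h m b
    rw [KK_succ hstep, KK_succ hstep]
    calc _ ≤ ∑ c, (μ' {θ | step t0 m θ = c} * KK step μ' n (t0 + 1) c b
          + (μ {θ | step t0 m θ = c} - μ' {θ | step t0 m θ = c})
          + μ {θ | step t0 m θ = c} * (n * D)) := by
          refine Finset.sum_le_sum fun c _ => ?_
          refine (mul_le_mul_right (ih (t0 + 1) (fun t m ht => h t m (by omega)) c b) _).trans ?_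
          rw [mul_add]
          refine add_le_add ((mul_le_mul_left (le_add_tsub (b := μ' {θ | step t0 m θ = c})) _).trans
            ?_) le_rfl
          rw [add_mul]
          exact add_le_add le_rfl (mul_le_of_le_one_right' prob_le_one)
      _ ≤ _ := by
          rw [Finset.sum_add_distrib, Finset.sum_add_distrib, ← Finset.sum_mul,
            sum_measure_fiber _ _ (hstep t0 m), measure_univ, one_mul, add_assoc]
          refine add_le_add le_rfl ((add_le_add (h t0 m (by omega)) le_rfl).trans (le_of_eq ?_))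
          push_cast; ring

end chain

section noisy
variable {E : Type} [NormedAddCommGroup E] [InnerProductSpace ℝ E] [FiniteDimensional ℝ E]
  [MeasurableSpace E] [BorelSpace E] {X : Type} [MeasurableSpace X] {e : X → E} {σ : Measure X}
  {s : ℝ}

/-- law of a noisy sample -/
noncomputable def mus (s : ℝ) (x : E) : Measure (E × ℝ) := (lam E).withDensity (fun θ => ell s θ x)

lemma mus_prob (hs : 0 < s) (x : E) : IsProbabilityMeasure (mus s x) :=
  ⟨by simp [mus, lint_ell_one hs]⟩

lemma pi_mus (hs : 0 < s) (n : ℕ) (x : E) :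
    Measure.pi (fun _ : Fin n => mus s x) = (lamn E n).withDensity (fun ω => LL s ω x) := by
  haveI := mus_prob hs x
  refine Measure.pi_eq fun A hA => ?_
  rw [withDensity_apply _ (MeasurableSet.univ_pi hA), ← lintegral_indicator (MeasurableSet.univ_pi hA)]
  have : ∀ ω : Fin n → E × ℝ, (Set.univ.pi A).indicator (fun ω => LL s ω x) ω
      = ∏ i, (A i).indicator (fun θ => ell s θ x) (ω i) := by
    intro ω
    by_cases h : ω ∈ Set.univ.pi A
    · rw [Set.indicator_of_mem h]
      exact Finset.prod_congr rfl fun i _ =>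
        (Set.indicator_of_mem (h i trivial) (fun θ => ell s θ x)).symm
    · rw [Set.indicator_of_notMem h]
      simp only [Set.mem_pi, Set.mem_univ, true_implies, not_forall] at h
      obtain ⟨i, hi⟩ := h
      exact (Finset.prod_eq_zero (Finset.mem_univ i) (Set.indicator_of_notMem hi _)).symm
  simp only [this]
  unfold lamn
  rw [lint_pi _ (fun i => (A i).indicator (fun θ => ell s θ x))
    (fun i => Measurable.indicator (by fun_prop) (hA i))]
  refine Finset.prod_congr rfl fun i _ => ?_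
  rw [mus, withDensity_apply _ (hA i), lintegral_indicator (hA i)]

variable {S : Type} [Fintype S] {step : ℕ → S → E × ℝ → S}

omit [MeasurableSpace X] in
lemma KK_mus (hstep : ∀ t m b, MeasurableSet {θ | step t m θ = b}) (hs : 0 < s) (n t0 : ℕ)
    (m b : S) (x : X) :
    KK step (mus s (e x)) n t0 m b = FF e s {ω | run step n t0 m ω = b} x := by
  unfold KK FF
  rw [pi_mus hs, withDensity_apply _ (meas_run hstep _ _ _ _)]

lemma ent_cost {w : S → ℝ≥0∞} (hw : ∑ m, w m = 1) {c a : ℝ} (hc : 1 ≤ c) (ha : 0 < a) :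
    ∑ m, ENNReal.ofReal (log (c / (w m).toReal) / a) * w m
      ≤ ENNReal.ofReal ((log c + log (Fintype.card S) + 1) / a) := by
  have hw1 : ∀ m, w m ≤ 1 := fun m =>
    (Finset.single_le_sum (fun _ _ => zero_le) (Finset.mem_univ m)).trans hw.le
  have hwt : ∀ m, w m ≠ ∞ := fun m => ne_top_of_le_ne_top ENNReal.one_ne_top (hw1 m)
  have hne : Nonempty S := by
    by_contra h
    rw [not_nonempty_iff] at h
    simp at hw
  have hN : (1 : ℝ) ≤ Fintype.card S := by exact_mod_cast Fintype.card_pos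
  have hs : ∑ m, (w m).toReal = 1 := by rw [← ENNReal.toReal_sum (fun m _ => hwt m), hw]; simp
  have hl := log_nonneg hc
  have hl2 := log_nonneg hN
  calc _ ≤ ∑ m, ENNReal.ofReal (((w m).toReal * (log c + log (Fintype.card S))
        + (Fintype.card S : ℝ)⁻¹) / a) := by
        refine Finset.sum_le_sum fun m _ => ?_
        rw [mul_comm, mul_ofReal_eq (hwt m)]
        refine ENNReal.ofReal_le_ofReal ?_
        rw [← mul_div_assoc]
        gcongr
        have h0 := ENNReal.toReal_nonneg (a := w m)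
        rcases h0.eq_or_lt with h | h
        · rw [← h]; simp
        have h1 := gibbs_pt h0 (Or.inr one_pos) zero_le_one
          (show 0 < (Fintype.card S : ℝ)⁻¹ by positivity)
        rw [log_inv, log_one] at h1
        rw [log_div (by linarith) h.ne']
        linarith
    _ = _ := by
        rw [← ENNReal.ofReal_sum_of_nonneg (fun m _ => by positivity), ← Finset.sum_div,
          Finset.sum_add_distrib, ← Finset.sum_mul, hs]
        simp

lemma pot_step [IsProbabilityMeasure σ] (hs : 0 < s) (he : Measurable e) {k' m' q α : ℕ}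
    (hq : q + 1 ≤ m') (hm : 2 * m' ≤ Module.finrank ℝ E) (hd : Module.finrank ℝ E ≤ 20 * q)
    (hα : 1 ≤ α) {Ξ : ℝ} (hΞ : 1 ≤ Ξ) (ht : ∀ x x', s + ‖e x' - e x‖ ^ 2 ≤ 5)
    (hE : ∀ x, ∫⁻ x', ENNReal.ofReal ((s + ‖e x' - e x‖ ^ 2)⁻¹ ^ (k' + m' + α)) ∂σ
      ≤ ENNReal.ofReal Ξ) [Nonempty S] (a : S → (Fin (2 * k') → E × ℝ) → S)
    (ha : ∀ m b, MeasurableSet {ω | a m ω = b}) {W : S → X → ℝ≥0∞} (hW : ∀ m, Measurable (W m))
    (hW1 : ∀ x, ∑ m, W m x = 1) :
    ∑ b, AA e σ s (k' + m') (fun x => ∑ m, W m x * FF e s {ω | a m ω = b} x) + ∑ m, BB σ (W m)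
      ≤ ∑ m, AA e σ s (k' + m') (W m)
        + ∑ b, BB σ (fun x => ∑ m, W m x * FF e s {ω | a m ω = b} x)
        + ENNReal.ofReal ((log (5 ^ (k' + m') * 10 ^ α * Ξ) + log (Fintype.card S) + 1) / α
          + ((1 + log (Fintype.card S)) / q + 1004 * k' + (2 + 2 * (k' + m')))) := by
  have hWm : ∀ m x, W m x ≤ 1 := fun m x =>
    (Finset.single_le_sum (f := fun m => W m x) (fun _ _ => zero_le) (Finset.mem_univ m)).trans
      (hW1 x).le
  have hF : ∀ m b, Measurable (FF e s {ω | a m ω = b}) := fun m b => measurable_FF he _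
  have hF1 : ∀ m b x, FF e s {ω | a m ω = b} x ≤ 1 := fun m b => FF_le hs _
  have h1 := Finset.sum_le_sum (s := Finset.univ) fun b _ => subadd (σ := σ) hs he (k' + m')
    (W := fun m x => W m x * FF e s {ω | a m ω = b} x) (fun m => (hW m).fun_mul (hF m b))
    (fun x => (Finset.sum_le_sum fun m _ => mul_le_of_le_one_right' (hF1 m b x)).trans (hW1 x).le)
  have h2 := Finset.sum_le_sum (s := Finset.univ) fun m _ =>
    block hs he hq hm hd hα (by linarith) ht hE (a m) (ha m) (hW m) (hWm m)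
  have hw : ∑ m, ∫⁻ x, W m x ∂σ = 1 := by
    rw [← lintegral_finsetSum _ (fun m _ => hW m)]; simp [hW1]
  have hc : (1 : ℝ) ≤ 5 ^ (k' + m') * 10 ^ α * Ξ :=
    one_le_mul_of_one_le_of_one_le (one_le_mul_of_one_le_of_one_le (one_le_pow₀ (by norm_num))
      (one_le_pow₀ (by norm_num))) hΞ
  have h3 := ent_cost hw hc (show (0 : ℝ) < α by exact_mod_cast hα)
  simp only [Finset.sum_add_distrib, add_mul, ← Finset.mul_sum, hw, mul_one] at h1 h2
  rw [Finset.sum_comm (f := fun b m => BB σ _), Finset.sum_comm (f := fun b m => AA e σ s _ _)] at h1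
  have hfin : ∑ m, ∑ b, BB σ (fun x => W m x * FF e s {ω | a m ω = b} x) ≠ ∞ :=
    ENNReal.sum_ne_top.2 fun m _ => ENNReal.sum_ne_top.2 fun b _ =>
      ne_top_of_le_ne_top ENNReal.one_ne_top
        (BB_le fun x => (mul_le_of_le_one_right' (hF1 m b x)).trans (hWm m x))
  have hN : (1 : ℝ) ≤ Fintype.card S := by exact_mod_cast Fintype.card_pos
  have hl := log_nonneg hc
  have hl2 := log_nonneg hN
  rw [ENNReal.ofReal_add (by positivity) (by positivity), ← ENNReal.add_le_add_iff_right hfin]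
  calc _ = (∑ b, AA e σ s (k' + m') (fun x => ∑ m, W m x * FF e s {ω | a m ω = b} x)
        + ∑ m, ∑ b, BB σ (fun x => W m x * FF e s {ω | a m ω = b} x)) + ∑ m, BB σ (W m) := by ring
    _ ≤ _ := add_le_add h1 le_rfl
    _ = (∑ m, ∑ b, AA e σ s (k' + m') (fun x => W m x * FF e s {ω | a m ω = b} x)
        + ∑ m, BB σ (W m)) + ∑ b, BB σ (fun x => ∑ m, W m x * FF e s {ω | a m ω = b} x) := by ring
    _ ≤ _ := add_le_add (h2.trans (add_le_add le_rfl (add_le_add h3 le_rfl))) le_rfl
    _ = _ := by ring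

omit [InnerProductSpace ℝ E] [FiniteDimensional ℝ E] [MeasurableSpace E] [BorelSpace E] in
lemma pot_init [IsProbabilityMeasure σ] (hs : 0 < s) (j : ℕ)
    (ht : ∀ x x', s + ‖e x' - e x‖ ^ 2 ≤ 5) :
    AA e σ s j (fun _ => 1) ≤ ENNReal.ofReal (log (MM s j) + j * log (2 * π * 5)) := by
  have hπ := pi_pos
  calc _ ≤ ∫⁻ _, ENNReal.ofReal (log (MM s j) + j * log (2 * π * 5)) ∂σ := by
        refine lintegral_mono fun x => ?_
        rw [one_mul]
        refine ENNReal.ofReal_le_ofReal ?_
        have hUl : ENNReal.ofReal ((2 * π * 5)⁻¹ ^ j) ≤ UU e σ s j (fun _ => 1) x := by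
          calc _ = ∫⁻ _, ENNReal.ofReal ((2 * π * 5)⁻¹ ^ j) ∂σ := by simp
            _ ≤ _ := by
              refine lintegral_mono fun x' => ?_
              rw [mul_one]
              refine ENNReal.ofReal_le_ofReal ?_
              have := ht x x'
              unfold kr
              gcongr
        have hUt : UU e σ s j (fun _ => 1) x ≠ ∞ := ne_top_of_le_ne_top ENNReal.ofReal_ne_top
          (UU_le hs (by simp) _ (fun _ => le_rfl) x)
        have h1 := (ENNReal.ofReal_le_iff_le_toReal hUt).1 hUl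
        have h2 := log_le_log (by positivity) h1
        rw [log_div (MM_pos hs j).ne' (lt_of_lt_of_le (by positivity) h1).ne']
        rw [log_pow, log_inv] at h2
        linarith
    _ = _ := by simp

omit [InnerProductSpace ℝ E] in
lemma pot_end [SecondCountableTopology E] [IsProbabilityMeasure σ] (hs : 0 < s) (he : Measurable e)
    (j : ℕ) (hM : 1 ≤ MM s j) {W : X → ℝ≥0∞} (hW : Measurable W) (hW1 : ∀ x, W x ≤ 1)
    {C : Set X} (hC : MeasurableSet C) {C0 R : ℝ} (hC0 : 1 ≤ C0) (hR : 1 ≤ R)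
    (h1 : ∀ x', ∫⁻ x, ENNReal.ofReal (kr s j (e x' - e x)) ∂σ ≤ ENNReal.ofReal C0)
    (h2 : ∀ x', ∫⁻ x in C, ENNReal.ofReal (kr s j (e x' - e x)) ∂σ ≤ ENNReal.ofReal (C0 / R)) :
    ENNReal.ofReal (log R) * ∫⁻ x in C, W x ∂σ + ENNReal.ofReal (log (MM s j)) * ∫⁻ x, W x ∂σ
      + BB σ W ≤ AA e σ s j W + ENNReal.ofReal (2 + log C0) * ∫⁻ x, W x ∂σ := by
  have hU := measurable_UU (ν := σ) (s := s) he j hW
  have hσ : σ Set.univ ≤ 1 := by simp
  have hl := log_nonneg hC0
  have hU1 : ∫⁻ x, (ENNReal.ofReal C0⁻¹ + C.indicator (fun _ => ENNReal.ofReal (R / C0)) x)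
      * UU e σ s j W x ∂σ ≤ ENNReal.ofReal 2 * ∫⁻ x, W x ∂σ := by
    have hm : Measurable (C.indicator (fun _ : X => ENNReal.ofReal (R / C0))) :=
      measurable_const.indicator hC
    have e1 : ∀ x, (ENNReal.ofReal C0⁻¹ + C.indicator (fun _ => ENNReal.ofReal (R / C0)) x)
        * UU e σ s j W x = ∫⁻ x', (ENNReal.ofReal C0⁻¹ +
          C.indicator (fun _ => ENNReal.ofReal (R / C0)) x) *
          (ENNReal.ofReal (kr s j (e x' - e x)) * W x') ∂σ := fun x =>
      (lintegral_const_mul _ (by fun_prop)).symm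
    simp only [e1]
    rw [lint_swap (by fun_prop), ← lintegral_const_mul _ hW]
    refine lintegral_mono fun x' => ?_
    simp only [← mul_assoc]
    rw [lintegral_mul_const _ (by fun_prop)]
    gcongr
    have e2 : ∀ a, C.indicator (fun _ => ENNReal.ofReal (R / C0)) a *
        ENNReal.ofReal (kr s j (e x' - e a)) = C.indicator (fun a => ENNReal.ofReal (R / C0) *
          ENNReal.ofReal (kr s j (e x' - e a))) a := fun a => by
      by_cases h : a ∈ C <;> simp [h]
    simp only [add_mul, e2]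
    rw [lintegral_add_left (by fun_prop), lintegral_indicator hC,
      lintegral_const_mul _ (by fun_prop), lintegral_const_mul _ (by fun_prop)]
    refine (add_le_add (mul_le_mul_right (h1 x') _) (mul_le_mul_right (h2 x') _)).trans
      (le_of_eq ?_)
    rw [← ENNReal.ofReal_mul (by positivity), ← ENNReal.ofReal_mul (by positivity),
      ← ENNReal.ofReal_add (by positivity) (by positivity)]
    congr 1
    field_simp; norm_num
  rw [ENNReal.ofReal_add (by norm_num) hl, add_mul, ← add_assoc]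
  refine le_trans ?_ (add_le_add (add_le_add le_rfl hU1) le_rfl)
  unfold AA BB
  rw [← lintegral_indicator hC, ← lintegral_const_mul _ (hW.indicator hC),
    ← lintegral_const_mul _ hW, ← lintegral_const_mul _ hW, ← lintegral_add_right _ (by fun_prop),
    ← lintegral_add_right _ (by fun_prop), ← lintegral_add_left (by fun_prop),
    ← lintegral_add_right _ (by fun_prop)]
  refine lintegral_mono_ae ?_
  filter_upwards [ae_UU (σ := σ) hs he j hW] with x hx
  have t1 : W x ≠ ∞ := ne_top_of_le_ne_top ENNReal.one_ne_top (hW1 x)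
  have u1 := UU_le (e := e) hs hσ j hW1 x
  have t2 : UU e σ s j W x ≠ ∞ := ne_top_of_le_ne_top ENNReal.ofReal_ne_top u1
  have hM0 := MM_pos hs j
  have hab : (W x).toReal = 0 ∨ 0 < (UU e σ s j W x).toReal :=
    hx.imp (fun h => by simp [h]) (fun h => ENNReal.toReal_pos h t2)
  have n1 := neglog_nonneg (hW1 x)
  have n2 := logdiv_nonneg hM0 u1
  have n3 := log_nonneg hM
  have n4 := log_nonneg hR
  set a := (W x).toReal with ha
  set b := (UU e σ s j W x).toReal with hb
  have ha0 : 0 ≤ a := ENNReal.toReal_nonneg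
  have hb0 : 0 ≤ b := ENNReal.toReal_nonneg
  have h3 : a * log (MM s j / b) = a * log (MM s j) - a * log b := by
    rcases hab with h | h
    · simp [h]
    · rw [log_div hM0.ne' h.ne']; ring
  rw [← ENNReal.ofReal_toReal t2, ← hb]
  by_cases hxC : x ∈ C
  · rw [Set.indicator_of_mem hxC, Set.indicator_of_mem hxC, ← ENNReal.ofReal_toReal t1, ← ha]
    rw [← ENNReal.ofReal_add (by positivity) (by positivity)]
    repeat rw [← ENNReal.ofReal_mul (by positivity)]
    repeat rw [← ENNReal.ofReal_add (by positivity) (by positivity)]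
    refine ENNReal.ofReal_le_ofReal ?_
    have h4 := gibbs_pt ha0 hab hb0 (show 0 < R / C0 by positivity)
    rw [log_div (by positivity) (by positivity)] at h4
    have : 0 ≤ C0⁻¹ * b := by positivity
    nlinarith
  · rw [Set.indicator_of_notMem hxC, Set.indicator_of_notMem hxC, ← ENNReal.ofReal_toReal t1, ← ha,
      mul_zero, zero_add, add_zero]
    repeat rw [← ENNReal.ofReal_mul (by positivity)]
    repeat rw [← ENNReal.ofReal_add (by positivity) (by positivity)]
    refine ENNReal.ofReal_le_ofReal ?_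
    have h4 := gibbs_pt ha0 hab hb0 (show 0 < C0⁻¹ by positivity)
    rw [log_inv] at h4
    nlinarith

theorem noisy_bound [DecidableEq S] [IsProbabilityMeasure σ]
    (hstep : ∀ t m b, MeasurableSet {θ | step t m θ = b}) (hs : 0 < s) (he : Measurable e)
    {k' m' q α : ℕ} (hM : 1 ≤ MM s (k' + m'))
    (hq : q + 1 ≤ m') (hm : 2 * m' ≤ Module.finrank ℝ E) (hd : Module.finrank ℝ E ≤ 20 * q)
    (hα : 1 ≤ α) {Ξ : ℝ} (hΞ : 1 ≤ Ξ) (ht : ∀ x x', s + ‖e x' - e x‖ ^ 2 ≤ 5)
    (hE : ∀ x, ∫⁻ x', ENNReal.ofReal ((s + ‖e x' - e x‖ ^ 2)⁻¹ ^ (k' + m' + α)) ∂σ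
      ≤ ENNReal.ofReal Ξ) {C : S → Set X} (hC : ∀ b, MeasurableSet (C b)) {C0 R : ℝ}
    (hC0 : 1 ≤ C0) (hR : 1 ≤ R)
    (h1 : ∀ x', ∫⁻ x, ENNReal.ofReal (kr s (k' + m') (e x' - e x)) ∂σ ≤ ENNReal.ofReal C0)
    (h2 : ∀ b x', ∫⁻ x in C b, ENNReal.ofReal (kr s (k' + m') (e x' - e x)) ∂σ
      ≤ ENNReal.ofReal (C0 / R)) (m0 : S) (B : ℕ) :
    ENNReal.ofReal (log R) * ∑ b, ∫⁻ x in C b, KK step (mus s (e x)) (B * (2 * k')) 0 m0 b ∂σ
      ≤ ENNReal.ofReal ((k' + m' : ℕ) * log (2 * π * 5) + (2 + log C0) + B *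
        ((log (5 ^ (k' + m') * 10 ^ α * Ξ) + log (Fintype.card S) + 1) / α
          + ((1 + log (Fintype.card S)) / q + 1004 * k' + (2 + 2 * (k' + m'))))) := by
  haveI : Nonempty S := ⟨m0⟩
  set K := (log (5 ^ (k' + m') * 10 ^ α * Ξ) + log (Fintype.card S) + 1) / α
          + ((1 + log (Fintype.card S)) / q + 1004 * k' + (2 + 2 * (k' + m'))) with hK
  let W : ℕ → S → X → ℝ≥0∞ := fun B b x => KK step (mus s (e x)) (B * (2 * k')) 0 m0 b
  have hW : ∀ B b, Measurable (W B b) := fun B b => by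
    simp only [W, KK_mus hstep hs]; exact measurable_FF he _
  have hW1 : ∀ B x, ∑ b, W B b x = 1 := fun B x => by
    haveI := mus_prob hs (e x); exact KK_sum hstep _ _ _ _
  have hWm : ∀ B m x, W B m x ≤ 1 := fun B m x =>
    (Finset.single_le_sum (f := fun m => W B m x) (fun _ _ => zero_le) (Finset.mem_univ m)).trans
      (hW1 B x).le
  have hfin : ∀ B, ∑ b, BB σ (W B b) ≠ ∞ := fun B => ENNReal.sum_ne_top.2 fun b _ =>
    ne_top_of_le_ne_top ENNReal.one_ne_top (BB_le (hWm B b))
  have hind : ∀ B : ℕ, ∑ b, AA e σ s (k' + m') (W B b)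
      ≤ ENNReal.ofReal (log (MM s (k' + m')) + (k' + m' : ℕ) * log (2 * π * 5))
        + B * ENNReal.ofReal K + ∑ b, BB σ (W B b) := by
    intro B
    induction B with
    | zero =>
      refine le_trans ?_ le_self_add
      have h0 : ∀ b, W 0 b = fun _ => if m0 = b then 1 else 0 := fun b => by
        ext x
        haveI := mus_prob hs (e x)
        simp only [W, Nat.zero_mul, KK_zero]
      rw [Finset.sum_eq_single m0]
      · simpa [h0] using pot_init (σ := σ) hs (k' + m') ht
      · intro c _ hc; simp [h0, hc.symm, AA]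
      · simp
    | succ B ih =>
      have h := pot_step hs he hq hm hd hα hΞ ht hE (fun m ω => run step (2 * k') (B * (2 * k')) m ω)
        (fun m b => meas_run hstep _ _ _ _) (hW B) (hW1 B)
      have e1 : ∀ b, (fun x => ∑ m, W B m x *
          FF e s {ω | run step (2 * k') (B * (2 * k')) m ω = b} x) = W (B + 1) b := by
        intro b
        ext x
        haveI := mus_prob hs (e x)
        simp only [W, Nat.succ_mul, KK_add hstep, zero_add, ← KK_mus hstep hs]
      simp only [e1] at h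
      rw [← ENNReal.add_le_add_iff_right (hfin B)]
      refine h.trans ((add_le_add (add_le_add ih le_rfl) le_rfl).trans (le_of_eq ?_))
      push_cast; ring
  have h3 := Finset.sum_le_sum (s := Finset.univ) fun b _ =>
    pot_end hs he (k' + m') hM (hW B b) (hWm B b) (hC b) hC0 hR h1 (h2 b)
  have hw : ∑ m, ∫⁻ x, W B m x ∂σ = 1 := by
    rw [← lintegral_finsetSum _ (fun m _ => hW B m)]; simp [hW1]
  simp only [Finset.sum_add_distrib, ← Finset.mul_sum, hw, mul_one] at h3
  have h4 := h3.trans (add_le_add (hind B) le_rfl)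
  have hc : (1 : ℝ) ≤ 5 ^ (k' + m') * 10 ^ α * Ξ :=
    one_le_mul_of_one_le_of_one_le (one_le_mul_of_one_le_of_one_le (one_le_pow₀ (by norm_num))
      (one_le_pow₀ (by norm_num))) hΞ
  have hN : (1 : ℝ) ≤ Fintype.card S := by exact_mod_cast Fintype.card_pos
  have hl := log_nonneg hc
  have hl2 := log_nonneg hN
  have hl3 := log_nonneg hC0
  have hl4 : 0 ≤ log (2 * π * 5) := log_nonneg (by linarith [pi_gt_three])
  have hK0 : 0 ≤ K := by positivity
  rw [ENNReal.ofReal_add (log_nonneg hM) (by positivity)] at h4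
  rw [ENNReal.ofReal_add (by positivity) (by positivity),
    ENNReal.ofReal_add (by positivity) (by positivity), ENNReal.ofReal_mul (p := B) (by positivity),
    ENNReal.ofReal_natCast, ← ENNReal.add_le_add_iff_right (hfin B),
    ← ENNReal.add_le_add_iff_right (ENNReal.ofReal_ne_top (r := log (MM s (k' + m'))))]
  calc _ = _ := by ring
    _ ≤ _ := h4
    _ = _ := by ring

end noisy

end H2SL
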