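import Crest.Agent.H2.SL10

set_option autoImplicit false
set_option maxHeartbeats 400000

namespace H2SL

open MeasureTheory ProbabilityTheory Real Metric Filter Topology
open scoped ENNReal RealInnerProductSpace

lemma lint_ph_eq {s : ℝ} (hs : 0 < s) (c : ℝ) {f : ℝ → ℝ≥0∞} (hf : Measurable f) :
    ∫⁻ y, ph s (y - c) * f y = ∫⁻ ξ, f (c + √s * ξ) ∂(gaussianReal 0 1) := by
  let v : NNReal := ⟨s, hs.le⟩
  have hv : v ≠ 0 := fun h => hs.ne' (congrArg NNReal.toReal h)
  have e : ∀ y, ph s (y - c) = gaussianPDF c v y := by intro y; rfl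
  simp only [e]
  have h1 := lintegral_withDensity_eq_lintegral_mul volume (measurable_gaussianPDF c v) hf
  simp only [Pi.mul_apply] at h1
  rw [← h1, ← gaussianReal_of_var_ne_zero c hv]
  have h2 : gaussianReal c v = ((gaussianReal 0 1).map (√s * ·)).map (c + ·) := by
    rw [gaussianReal_map_const_mul, gaussianReal_map_const_add]
    congr 1
    · simp
    · ext; simp [sq_sqrt hs.le]; rfl
  rw [h2, lintegral_map hf (by fun_prop), lintegral_map (f := fun y => f (c + y)) (by fun_prop)
    (by fun_prop)]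

section denoise
variable {E : Type} [NormedAddCommGroup E] [InnerProductSpace ℝ E] [FiniteDimensional ℝ E]
  [MeasurableSpace E] [BorelSpace E] {X : Type} [MeasurableSpace X] {e : X → E} {σ : Measure X}

/-- law of a noiseless sample -/
noncomputable def mu0 (x : E) : Measure (E × ℝ) := (stdGaussian E).map (fun g => (g, ⟪g, x⟫))

instance (x : E) : IsProbabilityMeasure (mu0 x) :=
  Measure.isProbabilityMeasure_map (by fun_prop)

lemma mu0_apply (x : E) {A : Set (E × ℝ)} (hA : MeasurableSet A) :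
    mu0 x A = ∫⁻ g, A.indicator 1 (g, ⟪g, x⟫) ∂(stdGaussian E) := by
  rw [← lintegral_indicator_one hA, mu0,
    lintegral_map (measurable_one.indicator hA) (by fun_prop)]

lemma mus_apply {s : ℝ} (hs : 0 < s) (x : E) {A : Set (E × ℝ)} (hA : MeasurableSet A) :
    mus s x A = ∫⁻ g, ∫⁻ ξ, A.indicator 1 (g, ⟪g, x⟫ + √s * ξ) ∂(gaussianReal 0 1)
      ∂(stdGaussian E) := by
  have hm : Measurable (A.indicator (1 : E × ℝ → ℝ≥0∞)) := measurable_one.indicator hA
  rw [← lintegral_indicator_one hA, mus, lintegral_withDensity_eq_lintegral_mul _ (by fun_prop) hm,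
    lam, lintegral_prod _ (by fun_prop)]
  refine lintegral_congr fun g => ?_
  exact lint_ph_eq hs ⟪g, x⟫ (f := fun y => A.indicator 1 (g, y)) (by fun_prop)

lemma measurable_mu0 (he : Measurable e) {A : Set (E × ℝ)} (hA : MeasurableSet A) :
    Measurable (fun x => mu0 (e x) A) := by
  have hm : Measurable (A.indicator (1 : E × ℝ → ℝ≥0∞)) := measurable_one.indicator hA
  simp only [mu0_apply _ hA]
  exact Measurable.lintegral_prod_right' (f := fun p : X × E => A.indicator 1 (p.2, ⟪p.2, e p.1⟫))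
    (by fun_prop)

lemma measurable_mus (he : Measurable e) (s : ℝ) {A : Set (E × ℝ)} (hA : MeasurableSet A) :
    Measurable (fun x => mus s (e x) A) := by
  simp only [mus, withDensity_apply _ hA]
  exact Measurable.lintegral_prod_right' (f := fun p : X × (E × ℝ) => ell s p.2 (e p.1))
    (by fun_prop)

lemma mus_small [IsProbabilityMeasure σ] (he : Measurable e) {s : ℝ} (hs : 0 < s) {C : ℝ≥0∞}
    (hE : ∀ x, ∫⁻ x', ENNReal.ofReal ((s + ‖e x' - e x‖ ^ 2)⁻¹) ∂σ ≤ C) {D : Set (E × ℝ)}
    (hD : MeasurableSet D) {t : ℝ≥0∞} (ht0 : t ≠ 0) (ht : t ≠ ∞) :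
    ∫⁻ x, mus s (e x) D ∂σ ≤ t * (1 + C) + t⁻¹ * lam E D := by
  let p : E × ℝ → ℝ≥0∞ := fun θ => ∫⁻ x, ell s θ (e x) ∂σ
  have hp : Measurable p := Measurable.lintegral_prod_right'
    (f := fun r : (E × ℝ) × X => ell s r.1 (e r.2)) (by fun_prop)
  have h1 : ∫⁻ θ, p θ * p θ ∂(lam E) ≤ 1 + C := by
    have e1 : ∀ θ, p θ * p θ = ∫⁻ x, ∫⁻ x', ell s θ (e x) * ell s θ (e x') ∂σ ∂σ := by
      intro θ
      rw [lintegral_lintegral_mul (by fun_prop) (by fun_prop)]
    simp only [e1]
    rw [lint_swap (Measurable.lintegral_prod_right' (f := fun r : ((E × ℝ) × X) × X =>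
      ell s r.1.1 (e r.1.2) * ell s r.1.1 (e r.2)) (by fun_prop))]
    calc _ ≤ ∫⁻ _, 1 + C ∂σ := by
          refine lintegral_mono fun x => ?_
          rw [lint_swap (by fun_prop)]
          calc _ ≤ ∫⁻ x', 1 + ENNReal.ofReal ((s + ‖e x' - e x‖ ^ 2)⁻¹) ∂σ := by
                refine lintegral_mono fun x' => (row_pair hs _ _).trans ?_
                rw [← ENNReal.ofReal_one, ← ENNReal.ofReal_add zero_le_one (by positivity)]
                refine ENNReal.ofReal_le_ofReal ?_
                set u := s + ‖e x' - e x‖ ^ 2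
                have hu : 0 < u := by positivity
                have h2 : (√(2 * π * u))⁻¹ ≤ (√u)⁻¹ := by
                  gcongr; nlinarith [pi_gt_three]
                have h3 : (√u)⁻¹ ^ 2 = u⁻¹ := by rw [inv_pow, sq_sqrt hu.le]
                nlinarith [sq_nonneg ((√u)⁻¹ - 1)]
            _ ≤ _ := by
                rw [lintegral_add_left measurable_const]
                simpa using add_le_add (le_refl 1) (hE x)
      _ = _ := by simp
  simp only [mus, withDensity_apply _ hD]
  rw [lint_swap (by fun_prop)]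
  calc _ ≤ ∫⁻ θ in D, t * (p θ * p θ) + t⁻¹ ∂(lam E) := by
        refine lintegral_mono fun θ => ?_
        change p θ ≤ _
        rcases le_total (p θ) t⁻¹ with h | h
        · exact h.trans le_add_self
        · refine le_trans ?_ le_self_add
          calc p θ = t * (t⁻¹ * p θ) := by rw [← mul_assoc, ENNReal.mul_inv_cancel ht0 ht, one_mul]
            _ ≤ _ := by gcongr
    _ ≤ _ := by
        rw [lintegral_add_right _ measurable_const, lintegral_const_mul _ (by fun_prop),
          setLIntegral_const]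
        gcongr
        exact (setLIntegral_le_lintegral _ _).trans h1

lemma mu0_tail (x : E) (hx : ‖x‖ ≤ 1) {R : ℝ} (hR : 0 < R) :
    mu0 x {θ | R ≤ |θ.2|} ≤ ENNReal.ofReal (R ^ 2)⁻¹ := by
  have hA : MeasurableSet {θ : E × ℝ | R ≤ |θ.2|} := measurableSet_le measurable_const (by fun_prop)
  rw [mu0_apply _ hA]
  calc _ ≤ ∫⁻ g, ENNReal.ofReal (R ^ 2)⁻¹ * ENNReal.ofReal (⟪g, x⟫ ^ 2) ∂(stdGaussian E) := by
        refine lintegral_mono fun g => ?_
        by_cases h : (g, ⟪g, x⟫) ∈ {θ : E × ℝ | R ≤ |θ.2|}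
        · rw [Set.indicator_of_mem h, ← ENNReal.ofReal_mul (by positivity), Pi.one_apply,
            ← ENNReal.ofReal_one]
          refine ENNReal.ofReal_le_ofReal ?_
          have h1 : R ≤ |⟪g, x⟫| := h
          rw [← div_eq_inv_mul, le_div_iff₀ (by positivity), one_mul, ← sq_abs ⟪g, x⟫]
          gcongr
        · simp [Set.indicator_of_notMem h]
    _ ≤ _ := by
        rw [lintegral_const_mul _ (by fun_prop),
          lint_inner x (f := fun t => ENNReal.ofReal (t ^ 2)) (by fun_prop)]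
        refine mul_le_of_le_one_right' ?_
        have h := lint_ph_sq one_pos 0 0
        simp only [sub_zero] at h
        calc _ ≤ ∫⁻ t, ENNReal.ofReal (t ^ 2) ∂(gaussianReal 0 1) := by
              refine lintegral_mono fun t => ENNReal.ofReal_le_ofReal ?_
              have : ‖x‖ ^ 2 ≤ 1 := by nlinarith [norm_nonneg x]
              nlinarith [sq_nonneg t]
          _ = 1 := by rw [lint_N (by fun_prop), h]; simp

lemma open_limit [IsProbabilityMeasure σ] (he : Measurable e) {O : Set (E × ℝ)} (hO : IsOpen O) :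
    Tendsto (fun n : ℕ => ∫⁻ x, (mu0 (e x) O - mus (1 / (n + 7)) (e x) O) ∂σ) atTop (𝓝 0) := by
  have hO' := hO.measurableSet
  let G : ℕ → X × E × ℝ → ℝ≥0∞ := fun n r => O.indicator 1 (r.2.1, ⟪r.2.1, e r.1⟫)
    * Oᶜ.indicator 1 (r.2.1, ⟪r.2.1, e r.1⟫ + √(1 / (n + 7)) * r.2.2)
  have hm : Measurable (O.indicator (1 : E × ℝ → ℝ≥0∞)) := measurable_one.indicator hO'
  have hm' : Measurable (Oᶜ.indicator (1 : E × ℝ → ℝ≥0∞)) := measurable_one.indicator hO'.compl
  have hG : ∀ n, Measurable (G n) := fun n => by simp only [G]; fun_prop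
  have h1 := tendsto_lintegral_of_dominated_convergence
    (μ := σ.prod ((stdGaussian E).prod (gaussianReal 0 1))) (F := G) (f := fun _ => 0)
    (fun _ => 1) hG (fun n => Eventually.of_forall fun r =>
      mul_le_one' (Set.indicator_le_self' (by simp) _) (Set.indicator_le_self' (by simp) _))
    (by simp) (Eventually.of_forall fun r => by
      refine tendsto_const_nhds.congr' ?_
      by_cases h : (r.2.1, ⟪r.2.1, e r.1⟫) ∈ O
      · have h2 : Tendsto (fun n : ℕ => (r.2.1, ⟪r.2.1, e r.1⟫ + √(1 / ((n : ℝ) + 7)) * r.2.2)) atTop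
            (𝓝 (r.2.1, ⟪r.2.1, e r.1⟫ + √0 * r.2.2)) := by
          refine tendsto_const_nhds.prodMk_nhds (tendsto_const_nhds.add
            (Tendsto.mul_const _ (Tendsto.sqrt ?_)))
          exact tendsto_const_nhds.div_atTop
            (tendsto_atTop_add_const_right _ _ tendsto_natCast_atTop_atTop)
        simp only [sqrt_zero, zero_mul, add_zero] at h2
        filter_upwards [h2.eventually (hO.mem_nhds h)] with n hn
        simp only [G]
        rw [Set.indicator_of_notMem (s := Oᶜ) (fun h' => h' hn), mul_zero]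
      · exact Eventually.of_forall fun n => by simp [G, Set.indicator_of_notMem h])
  rw [lintegral_zero] at h1
  refine tendsto_of_tendsto_of_tendsto_of_le_of_le tendsto_const_nhds h1 (fun _ => zero_le)
    fun n => ?_
  simp only
  rw [lintegral_prod _ (hG n).aemeasurable]
  refine lintegral_mono fun x => ?_
  have hGx : Measurable (fun r : E × ℝ => G n (x, r)) := by simp only [G]; fun_prop
  rw [tsub_le_iff_left, lintegral_prod _ hGx.aemeasurable, mu0_apply _ hO',
    mus_apply (by positivity) _ hO', ← lintegral_add_right _ (Measurable.lintegral_prod_right' hGx)]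
  refine lintegral_mono fun g => ?_
  rw [← lintegral_add_left (by fun_prop)]
  calc _ = ∫⁻ _, O.indicator 1 (g, ⟪g, e x⟫) ∂(gaussianReal 0 1) := by simp
    _ ≤ _ := by
      refine lintegral_mono fun ξ => ?_
      simp only [G]
      by_cases h : (g, ⟪g, e x⟫ + √(1 / (n + 7)) * ξ) ∈ O
      · rw [Set.indicator_of_mem h]
        exact (Set.indicator_le_self' (by simp) _).trans le_self_add
      · rw [Set.indicator_of_mem (s := Oᶜ) h, Pi.one_apply, mul_one]
        exact le_add_self

theorem denoise [IsProbabilityMeasure σ] (he : Measurable e) (h1 : ∀ x, ‖e x‖ ≤ 1) {C : ℝ≥0∞}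
    (hC : C ≠ ∞) (hE : ∀ s, 0 < s → ∀ x, ∫⁻ x', ENNReal.ofReal ((s + ‖e x' - e x‖ ^ 2)⁻¹) ∂σ ≤ C)
    {A : Set (E × ℝ)} (hA : MeasurableSet A) :
    Tendsto (fun n : ℕ => ∫⁻ x, (mu0 (e x) A - mus (1 / (n + 7)) (e x) A) ∂σ) atTop (𝓝 0) := by
  rw [ENNReal.tendsto_nhds_zero]
  intro ε hε
  obtain ⟨δ, hδ0, hδ⟩ : ∃ δ : ℝ, 0 < δ ∧ 4 * ENNReal.ofReal δ ≤ ε := by
    by_cases h : ε = ∞
    · exact ⟨1, one_pos, by simp [h]⟩
    · refine ⟨ε.toReal / 4, by have := ENNReal.toReal_pos hε.ne' h; positivity, le_of_eq ?_⟩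
      rw [show (4 : ℝ≥0∞) = ENNReal.ofReal 4 by simp, ← ENNReal.ofReal_mul (by norm_num),
        mul_div_cancel₀ _ (by norm_num), ENNReal.ofReal_toReal h]
  have hδ' : ENNReal.ofReal δ ≠ 0 := (ENNReal.ofReal_pos.2 hδ0).ne'
  set R := √δ⁻¹ with hR
  have hR0 : 0 < R := by positivity
  have hR2 : (R ^ 2)⁻¹ = δ := by rw [hR, sq_sqrt (by positivity), inv_inv]
  have hT : MeasurableSet {θ : E × ℝ | R ≤ |θ.2|} := measurableSet_le measurable_const (by fun_prop)
  set t : ℝ≥0∞ := ENNReal.ofReal δ / (1 + C) with ht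
  have hC1 : 1 + C ≠ ∞ := by simp [hC]
  have ht0 : t ≠ 0 := ENNReal.div_ne_zero.2 ⟨hδ', hC1⟩
  have htt : t ≠ ∞ := ENNReal.div_ne_top ENNReal.ofReal_ne_top (by simp)
  haveI : IsLocallyFiniteMeasure (lam E) := by unfold lam; infer_instance
  have hAR : lam E (A \ {θ | R ≤ |θ.2|}) ≠ ∞ := by
    refine ne_top_of_le_ne_top ?_ (measure_mono (t := Set.univ ×ˢ Set.Ioo (-R) R) ?_)
    · simp [lam, Measure.prod_prod]
    · intro θ hθ
      have := hθ.2
      simp only [Set.mem_ofPred_eq, not_le, abs_lt] at this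
      exact ⟨trivial, this⟩
  obtain ⟨O, hAO, hO, -, hOA⟩ := (hA.diff hT).exists_isOpen_sdiff_lt hAR
    (mul_ne_zero ht0 hδ')
  filter_upwards [ENNReal.tendsto_nhds_zero.1 (open_limit (σ := σ) he hO) _
    (ENNReal.ofReal_pos.2 hδ0)] with n hn
  have hs : (0 : ℝ) < 1 / (n + 7) := by positivity
  have hD := hO.measurableSet.diff (hA.diff hT)
  calc _ ≤ ∫⁻ x, ENNReal.ofReal δ + (mu0 (e x) O - mus (1 / (n + 7)) (e x) O)
        + mus (1 / (n + 7)) (e x) (O \ (A \ {θ | R ≤ |θ.2|})) ∂σ := by
        refine lintegral_mono fun x => ?_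
        rw [tsub_le_iff_left]
        have a1 : mu0 (e x) A ≤ mu0 (e x) {θ | R ≤ |θ.2|} + mu0 (e x) O :=
          (measure_mono (fun θ hθ => by
            by_cases h : θ ∈ {θ : E × ℝ | R ≤ |θ.2|}
            · exact Or.inl h
            · exact Or.inr (hAO ⟨hθ, h⟩))).trans (measure_union_le _ _)
        have a2 : mus (1 / (n + 7)) (e x) O ≤ mus (1 / (n + 7)) (e x) A
            + mus (1 / (n + 7)) (e x) (O \ (A \ {θ | R ≤ |θ.2|})) :=
          (measure_mono (fun θ hθ => by
            by_cases h : θ ∈ A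
            · exact Or.inl h
            · exact Or.inr ⟨hθ, fun h' => h h'.1⟩)).trans (measure_union_le _ _)
        have a3 := mu0_tail (e x) (h1 x) hR0
        rw [hR2] at a3
        calc _ ≤ _ := a1
          _ ≤ ENNReal.ofReal δ + (mus (1 / (n + 7)) (e x) O
              + (mu0 (e x) O - mus (1 / (n + 7)) (e x) O)) := add_le_add a3 le_add_tsub
          _ ≤ _ := (add_le_add le_rfl (add_le_add a2 le_rfl)).trans (le_of_eq (by ring))
    _ ≤ ENNReal.ofReal δ + ENNReal.ofReal δ + (t * (1 + C) + t⁻¹ * (t * ENNReal.ofReal δ)) := by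
        rw [lintegral_add_right _ (measurable_mus he _ hD), lintegral_add_left measurable_const,
          lintegral_const, measure_univ, mul_one]
        refine add_le_add (add_le_add le_rfl hn)
          ((mus_small he hs (hE _ hs) hD ht0 htt).trans ?_)
        gcongr
    _ ≤ ε := by
        rw [← mul_assoc, ENNReal.inv_mul_cancel ht0 htt, one_mul, ht,
          ENNReal.div_mul_cancel (by simp) hC1]
        refine le_trans (le_of_eq (by ring)) hδ

end denoise

end H2SL
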