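import Crest.Agent.H2.SL11
import Crest.Prelude.Def_StreamLearn

set_option autoImplicit false
set_option maxHeartbeats 400000

namespace H2SL

open MeasureTheory ProbabilityTheory Real Metric Filter Topology Crest.StreamLearn
open scoped ENNReal RealInnerProductSpace Pointwise

variable {d : ℕ}

lemma su_apply (hd : 1 ≤ d) {A : Set (Sphere d)} (hA : MeasurableSet A) :
    sphereUniform d A = (volume (ball (0 : E d) 1))⁻¹ *
      volume (Set.Ioo (0 : ℝ) 1 • ((↑) '' A : Set (E d))) := by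
  have h0 : (d : ℝ≥0∞) ≠ 0 := by simp; omega
  rw [sphereUniform, Measure.smul_apply, Measure.toSphere_apply' _ hA, Measure.toSphere_apply_univ,
    finrank_euclideanSpace_fin, smul_eq_mul, ENNReal.mul_inv (Or.inl h0) (Or.inl (by simp))]
  calc _ = ((d : ℝ≥0∞)⁻¹ * d) * ((volume (ball (0 : E d) 1))⁻¹ *
      volume (Set.Ioo (0 : ℝ) 1 • ((↑) '' A : Set (E d)))) := by ring
    _ = _ := by rw [ENNReal.inv_mul_cancel h0 (by simp), one_mul]

lemma su_prob (hd : 1 ≤ d) : IsProbabilityMeasure (sphereUniform d) := by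
  constructor
  rw [sphereUniform, Measure.smul_apply, smul_eq_mul]
  refine ENNReal.inv_mul_cancel ?_ (measure_ne_top _ _)
  rw [Measure.toSphere_apply_univ, finrank_euclideanSpace_fin]
  exact mul_ne_zero (by simp; omega) (measure_ball_pos _ _ one_pos).ne'

/-- action of a linear isometry on the sphere -/
noncomputable def act (R : E d ≃ₗᵢ[ℝ] E d) (x : Sphere d) : Sphere d :=
  ⟨R x, by simpa using x.2⟩

lemma measurable_act (R : E d ≃ₗᵢ[ℝ] E d) : Measurable (act R) :=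
  (R.continuous.measurable.comp measurable_subtype_coe).subtype_mk

lemma act_pres (hd : 1 ≤ d) (R : E d ≃ₗᵢ[ℝ] E d) :
    MeasurePreserving (act R) (sphereUniform d) (sphereUniform d) := by
  refine ⟨measurable_act R, Measure.ext fun A hA => ?_⟩
  rw [Measure.map_apply (measurable_act R) hA, su_apply hd hA, su_apply hd (measurable_act R hA)]
  congr 1
  rw [← R.measurePreserving.measure_preimage_emb R.toHomeomorph.measurableEmbedding
    (Set.Ioo (0 : ℝ) 1 • ((↑) '' A : Set (E d)))]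
  congr 1
  ext y
  simp only [Set.mem_preimage, Set.mem_smul, Set.mem_image]
  constructor
  · rintro ⟨t, ht, _, ⟨x, hx, rfl⟩, rfl⟩
    exact ⟨t, ht, _, ⟨act R x, hx, rfl⟩, by simp [act]⟩
  · rintro ⟨t, ht, _, ⟨x, hx, rfl⟩, h⟩
    refine ⟨t, ht, _, ⟨act R.symm x, by simpa [act] using hx, rfl⟩, R.injective ?_⟩
    simp [act, ← h]

lemma cap_bound (hd : 1 ≤ d) (x0 : E d) (hx0 : ‖x0‖ = 1) {r : ℝ} (hr : 0 < r) :
    sphereUniform d {x | ‖x0 - x‖ ≤ r} ≤ ENNReal.ofReal (4 ^ d * r ^ (d - 1)) := by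
  haveI := su_prob hd
  rcases le_total 1 r with h1 | h1
  · refine prob_le_one.trans ?_
    rw [← ENNReal.ofReal_one]
    exact ENNReal.ofReal_le_ofReal (one_le_mul_of_one_le_of_one_le (one_le_pow₀ (by norm_num))
      (one_le_pow₀ h1))
  have hA : MeasurableSet {x : Sphere d | ‖x0 - x‖ ≤ r} :=
    measurableSet_le (by fun_prop) measurable_const
  rw [su_apply hd hA]
  have hsub : Set.Ioo (0 : ℝ) 1 • ((↑) '' {x : Sphere d | ‖x0 - x‖ ≤ r} : Set (E d))
      ⊆ ⋃ i ∈ Finset.range (⌊1 / r⌋₊ + 1), closedBall (((i : ℝ) * r) • x0) (2 * r) := by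
    rintro _ ⟨t, ht, _, ⟨x, hx, rfl⟩, rfl⟩
    simp only [Set.mem_iUnion, Finset.mem_range, mem_closedBall, dist_eq_norm]
    have ht0 := ht.1
    refine ⟨⌊t / r⌋₊, Nat.lt_succ_of_le (Nat.floor_mono (by gcongr; exact ht.2.le)), ?_⟩
    have e : t • (x : E d) - ((⌊t / r⌋₊ : ℝ) * r) • x0
        = (t - ⌊t / r⌋₊ * r) • x0 - t • (x0 - x) := by module
    have h2 : (⌊t / r⌋₊ : ℝ) * r ≤ t := by
      rw [← le_div_iff₀ hr]; exact Nat.floor_le (by positivity)
    have h3 : t < (⌊t / r⌋₊ + 1) * r := by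
      rw [← div_lt_iff₀ hr]; exact Nat.lt_floor_add_one _
    rw [e]
    refine (norm_sub_le _ _).trans ?_
    rw [norm_smul, norm_smul, hx0, Real.norm_of_nonneg (by linarith), Real.norm_of_nonneg ht0.le]
    have hx' : ‖x0 - x‖ ≤ r := hx
    have : t * ‖x0 - x‖ ≤ 1 * r := by gcongr; exact ht.2.le
    linarith
  have h2 := (measure_mono (μ := volume) hsub).trans (measure_biUnion_finset_le _ _)
  simp only [Measure.addHaar_closedBall _ _ (show 0 ≤ 2 * r by positivity), Finset.sum_const,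
    Finset.card_range, finrank_euclideanSpace_fin, nsmul_eq_mul] at h2
  refine (mul_le_mul_right h2 _).trans ?_
  rw [mul_comm, mul_assoc, mul_assoc, ENNReal.mul_inv_cancel (measure_ball_pos _ _ one_pos).ne'
    measure_ball_lt_top.ne, mul_one, ← ENNReal.ofReal_natCast,
    ← ENNReal.ofReal_mul (by positivity)]
  refine ENNReal.ofReal_le_ofReal ?_
  obtain ⟨n, rfl⟩ : ∃ n, d = n + 1 := ⟨d - 1, by omega⟩
  have h3 : (⌊1 / r⌋₊ : ℝ) * r ≤ 1 := by
    rw [← le_div_iff₀ hr]; exact Nat.floor_le (by positivity)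
  have h4 : (2 : ℝ) ^ n ≤ 4 ^ n := by gcongr; norm_num
  have h5 : ((⌊1 / r⌋₊ + 1 : ℕ) : ℝ) * r ≤ 2 := by push_cast; linarith
  calc _ = (((⌊1 / r⌋₊ + 1 : ℕ) : ℝ) * r) * 2 * 2 ^ n * r ^ n := by ring
    _ ≤ 2 * 2 * 4 ^ n * r ^ n := by gcongr
    _ = _ := by rw [Nat.add_sub_cancel]; ring

lemma energy_local {X : Type} [MeasurableSpace X] {σ : Measure X} {u : X → ℝ} (hu : Measurable u)
    (hu0 : ∀ x, 0 ≤ u x) {c : ℝ} (hc : 0 ≤ c) {a b : ℕ} (hb : 1 ≤ b)
    (hcap : ∀ r, 0 < r → σ {x | u x ≤ r} ≤ ENNReal.ofReal (c * r ^ (2 * a + b))) {s r : ℝ}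
    (hs : 0 < s) (hr : 0 < r) :
    ∫⁻ x in {x | u x ≤ r}, ENNReal.ofReal ((s + u x ^ 2)⁻¹ ^ a) ∂σ
      ≤ ENNReal.ofReal (2 * c * 4 ^ a * r ^ b) := by
  have hm : ∀ ρ, MeasurableSet {x | u x ≤ ρ} := fun ρ => measurableSet_le hu measurable_const
  calc _ ≤ ∫⁻ x, ∑' l : ℕ, {x | u x ≤ r * (1 / 2) ^ l}.indicator
        (fun _ => ENNReal.ofReal (((r * (1 / 2) ^ (l + 1)) ^ 2)⁻¹ ^ a)) x ∂σ := by
        rw [← lintegral_indicator (hm r)]
        refine lintegral_mono fun x => ?_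
        by_cases hx : x ∈ {x | u x ≤ r}
        swap
        · simp [Set.indicator_of_notMem hx]
        rw [Set.indicator_of_mem hx]
        have h0 := hu0 x
        have hx' : u x ≤ r := hx
        set ρ := √(s + u x ^ 2) with hρ
        have hρ0 : 0 < ρ := by positivity
        have hρ2 : ρ ^ 2 = s + u x ^ 2 := sq_sqrt (by positivity)
        have hρ3 : u x ≤ ρ := by nlinarith
        obtain ⟨l, hl1, hl2⟩ : ∃ l : ℕ, r * (1 / 2) ^ (l + 1) ≤ ρ ∧ u x ≤ r * (1 / 2) ^ l := by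
          rcases le_total ρ r with h | h
          · obtain ⟨l, h1, h2⟩ := exists_nat_pow_near_of_lt_one (div_pos hρ0 hr)
              ((div_le_one hr).2 h) (show (0 : ℝ) < 1 / 2 by norm_num) (by norm_num)
            rw [lt_div_iff₀ hr] at h1
            rw [div_le_iff₀ hr] at h2
            exact ⟨l, by linarith, by linarith⟩
          · exact ⟨0, by linarith, by simpa using hx'⟩
        refine le_trans ?_ (ENNReal.le_tsum l)
        rw [Set.indicator_of_mem (show x ∈ {x | u x ≤ r * (1 / 2) ^ l} from hl2), ← hρ2]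
        refine ENNReal.ofReal_le_ofReal ?_
        gcongr
    _ ≤ ∑' l : ℕ, ENNReal.ofReal (c * 4 ^ a * r ^ b) * (2⁻¹ : ℝ≥0∞) ^ l := by
        rw [lintegral_tsum (fun l => (measurable_const.indicator (hm _)).aemeasurable)]
        refine ENNReal.tsum_le_tsum fun l => ?_
        rw [lintegral_indicator (hm _), setLIntegral_const]
        refine (mul_le_mul_right (hcap _ (by positivity)) _).trans ?_
        rw [show (2⁻¹ : ℝ≥0∞) = ENNReal.ofReal (1 / 2) by
          rw [ENNReal.ofReal_div_of_pos (by norm_num)]; simp, ← ENNReal.ofReal_pow (by norm_num),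
          ← ENNReal.ofReal_mul (by positivity), ← ENNReal.ofReal_mul (by positivity)]
        refine ENNReal.ofReal_le_ofReal ?_
        set y : ℝ := (1 / 2) ^ l with hy
        have hy0 : 0 < y := by positivity
        have hy1 : y ^ b ≤ y := pow_le_of_le_one hy0.le (pow_le_one₀ (by norm_num) (by norm_num))
          (by omega)
        have e : ((r * (1 / 2) ^ (l + 1)) ^ 2)⁻¹ ^ a * (c * (r * y) ^ (2 * a + b))
            = c * 4 ^ a * r ^ b * y ^ b := by
          rw [pow_succ (1 / 2 : ℝ), ← hy, pow_add, pow_mul]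
          have : ((r * (y * (1 / 2))) ^ 2)⁻¹ * (r * y) ^ 2 = 4 := by field_simp; norm_num
          rw [← this]
          ring
        rw [e]
        gcongr
    _ = _ := by
        rw [ENNReal.tsum_mul_left, ENNReal.tsum_geometric_two, mul_assoc 2, mul_assoc 2,
          ENNReal.ofReal_mul (p := 2) (by norm_num), mul_comm]
        simp

lemma energy_cap {a b : ℕ} (hb : 1 ≤ b) (hd : d = 2 * a + b + 1) (x0 : E d) (hx0 : ‖x0‖ = 1)
    {s r : ℝ} (hs : 0 < s) (hr : 0 < r) :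
    ∫⁻ x in {x : Sphere d | ‖x0 - x‖ ≤ r}, ENNReal.ofReal ((s + ‖x0 - x‖ ^ 2)⁻¹ ^ a)
      ∂(sphereUniform d) ≤ ENNReal.ofReal (2 * 4 ^ d * 4 ^ a * r ^ b) :=
  energy_local (u := fun x : Sphere d => ‖x0 - x‖) (by fun_prop) (fun _ => norm_nonneg _)
    (by positivity) hb (fun ρ hρ => by
      have := cap_bound (by omega) x0 hx0 hρ
      rwa [show d - 1 = 2 * a + b by omega] at this) hs hr

lemma energy_all {a : ℕ} (hd : 2 * a + 2 ≤ d) (x0 : E d) (hx0 : ‖x0‖ = 1) {s : ℝ} (hs : 0 < s) :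
    ∫⁻ x : Sphere d, ENNReal.ofReal ((s + ‖x0 - x‖ ^ 2)⁻¹ ^ a) ∂(sphereUniform d)
      ≤ ENNReal.ofReal (8 ^ d) := by
  obtain ⟨b, hb⟩ : ∃ b, d = 2 * a + b + 1 := ⟨d - 1 - 2 * a, by omega⟩
  have h := energy_cap (by omega) hb x0 hx0 hs two_pos
  have e : {x : Sphere d | ‖x0 - x‖ ≤ 2} = Set.univ := by
    refine Set.eq_univ_of_forall fun x => (norm_sub_le _ _).trans ?_
    rw [hx0, norm_eq_of_mem_sphere]; norm_num
  rw [e, Measure.restrict_univ] at h
  refine h.trans (le_of_eq ?_)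
  congr 1
  rw [show (8 : ℝ) = 4 * 2 by norm_num, mul_pow, show (4 : ℝ) ^ a = 2 ^ (2 * a) by
    rw [pow_mul]; norm_num]
  conv_rhs => rw [hb]
  conv_rhs => rw [← hb]; arg 2; rw [hb]
  ring

lemma energy_set {a b : ℕ} (hb : 1 ≤ b) (hd : d = 2 * a + b + 1) (x0 x1 : E d) (hx0 : ‖x0‖ = 1)
    (hx1 : ‖x1‖ = 1) {s r : ℝ} (hs : 0 < s) (hr : 0 < r) :
    ∫⁻ x in {x : Sphere d | ‖x1 - x‖ ≤ r}, ENNReal.ofReal ((s + ‖x0 - x‖ ^ 2)⁻¹ ^ a)
      ∂(sphereUniform d) ≤ ENNReal.ofReal (3 * 8 ^ d * r ^ b) := by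
  have hm : ∀ y : E d, MeasurableSet {x : Sphere d | ‖y - x‖ ≤ r} := fun y =>
    measurableSet_le (by fun_prop) measurable_const
  calc _ ≤ ∫⁻ x in {x : Sphere d | ‖x1 - x‖ ≤ r}, ENNReal.ofReal ((r ^ 2)⁻¹ ^ a) +
        {x : Sphere d | ‖x0 - x‖ ≤ r}.indicator
          (fun x => ENNReal.ofReal ((s + ‖x0 - x‖ ^ 2)⁻¹ ^ a)) x ∂(sphereUniform d) := by
        refine lintegral_mono fun x => ?_
        by_cases h : x ∈ {x : Sphere d | ‖x0 - x‖ ≤ r}
        · rw [Set.indicator_of_mem h]; exact le_add_self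
        · refine le_trans (ENNReal.ofReal_le_ofReal ?_) le_self_add
          have h' : r ≤ ‖x0 - x‖ := le_of_not_ge h
          have : r ^ 2 ≤ s + ‖x0 - x‖ ^ 2 := by nlinarith
          gcongr
    _ ≤ ENNReal.ofReal ((r ^ 2)⁻¹ ^ a) * ENNReal.ofReal (4 ^ d * r ^ (d - 1))
        + ENNReal.ofReal (2 * 4 ^ d * 4 ^ a * r ^ b) := by
        rw [lintegral_add_left measurable_const, setLIntegral_const]
        refine add_le_add (mul_le_mul_right (cap_bound (by omega) x1 hx1 hr) _)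
          ((setLIntegral_le_lintegral _ _).trans ?_)
        rw [lintegral_indicator (hm _)]
        exact energy_cap hb hd x0 hx0 hs hr
    _ ≤ _ := by
        rw [← ENNReal.ofReal_mul (by positivity), ← ENNReal.ofReal_add (by positivity)
          (by positivity)]
        refine ENNReal.ofReal_le_ofReal ?_
        have e : (r ^ 2)⁻¹ ^ a * (4 ^ d * r ^ (d - 1)) = 4 ^ d * r ^ b := by
          rw [show d - 1 = 2 * a + b by omega, pow_add, pow_mul, inv_pow]
          field_simp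
        have h1 : (4 : ℝ) ^ a ≤ 2 ^ d := by
          rw [show (4 : ℝ) ^ a = 2 ^ (2 * a) by rw [pow_mul]; norm_num]
          exact pow_le_pow_right₀ (by norm_num) (by omega)
        have h2 : (1 : ℝ) ≤ 2 ^ d := one_le_pow₀ (by norm_num)
        rw [e, show (8 : ℝ) = 4 * 2 by norm_num, mul_pow]
        have h3 : (0 : ℝ) ≤ 4 ^ d * r ^ b := by positivity
        nlinarith

lemma angle_dist {o x : E d} (ho : ‖o‖ = 1) (hx : ‖x‖ = 1) {ε : ℝ} (hε : 0 < ε) (hε1 : ε ≤ 1)
    (h : arccos ⟪o, x⟫ ≤ ε) : ‖o - x‖ ≤ ε := by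
  have h1 := abs_real_inner_le_norm o x
  rw [ho, hx, mul_one, abs_le] at h1
  have h2 := cos_le_cos_of_nonneg_of_le_pi (arccos_nonneg _) (by linarith [pi_gt_three]) h
  rw [cos_arccos h1.1 h1.2] at h2
  have h3 := one_sub_sq_div_two_le_cos (x := ε)
  have h4 := norm_sub_sq_real o x
  rw [ho, hx] at h4
  exact (pow_le_pow_iff_left₀ (norm_nonneg _) hε.le two_ne_zero).1 (by linarith)

end H2SL
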