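import Crest.Agent.H2.SL12

set_option autoImplicit false
set_option maxHeartbeats 400000

namespace H2SL

open MeasureTheory ProbabilityTheory Real Metric Filter Topology Crest.StreamLearn
open scoped ENNReal RealInnerProductSpace Pointwise

variable {d : ℕ}

lemma moment_eq (hd : 1 ≤ d) {v w : E d} (h : ‖v‖ = ‖w‖) :
    ∫⁻ x : Sphere d, ENNReal.ofReal (⟪v, (x : E d)⟫ ^ 2) ∂(sphereUniform d)
      = ∫⁻ x : Sphere d, ENNReal.ofReal (⟪w, (x : E d)⟫ ^ 2) ∂(sphereUniform d) := by
  set R := Submodule.reflection (ℝ ∙ (v - w))ᗮ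
  have hR : R v = w := Submodule.reflection_sub h
  rw [← (act_pres hd R).lintegral_comp
    (f := fun x : Sphere d => ENNReal.ofReal (⟪w, (x : E d)⟫ ^ 2)) (by fun_prop)]
  simp only [act, ← hR, LinearIsometryEquiv.inner_map_map]

lemma moment_one (hd : 1 ≤ d) {v : E d} (h : ‖v‖ = 1) :
    d * ∫⁻ x : Sphere d, ENNReal.ofReal (⟪v, (x : E d)⟫ ^ 2) ∂(sphereUniform d) = 1 := by
  haveI := su_prob hd
  let b := EuclideanSpace.basisFun (Fin d) ℝ
  calc _ = ∑ i : Fin d, ∫⁻ x : Sphere d, ENNReal.ofReal (⟪b i, (x : E d)⟫ ^ 2)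
        ∂(sphereUniform d) := by
        rw [Finset.sum_congr rfl fun i _ => moment_eq hd ((b.orthonormal.1 i).trans h.symm)]
        simp
    _ = ∫⁻ _ : Sphere d, 1 ∂(sphereUniform d) := by
        rw [← lintegral_finsetSum _ (fun i _ => by fun_prop)]
        refine lintegral_congr fun x => ?_
        rw [← ENNReal.ofReal_sum_of_nonneg (fun i _ => sq_nonneg _), b.sum_sq_inner_right]
        simp
    _ = 1 := by simp

lemma refl_bound (hd : 1 ≤ d) (V : Submodule ℝ (E d)) (hV : 4 * Module.finrank ℝ V ≤ d)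
    {A : Set (Sphere d)} (hA : MeasurableSet A)
    (h : ∀ x ∈ A, act V.reflection x ∈ A → ‖(x : E d) - V.reflection x‖ ≤ 1 / 5) :
    sphereUniform d A ≤ ENNReal.ofReal (13 / 20) := by
  haveI := su_prob hd
  let b := stdOrthonormalBasis ℝ V
  let f : Sphere d → ℝ≥0∞ := fun x => ENNReal.ofReal (∑ i, ⟪(b i : E d), (x : E d)⟫ ^ 2)
  have hf : Measurable f := by simp only [f]; fun_prop
  have h0 : (d : ℝ≥0∞) ≠ 0 := by simp; omega
  have h1 : 4 * ∫⁻ x, f x ∂(sphereUniform d) ≤ 1 := by
    rw [← ENNReal.mul_le_mul_iff_right h0 (by simp)]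
    simp only [f, ENNReal.ofReal_sum_of_nonneg (fun i _ => sq_nonneg _)]
    rw [lintegral_finsetSum _ (fun i _ => by fun_prop), mul_left_comm, Finset.mul_sum,
      Finset.sum_congr rfl fun i _ => moment_one hd (v := b i) (b.orthonormal.1 i)]
    simp only [Finset.sum_const, Finset.card_univ, Fintype.card_fin, nsmul_eq_mul, mul_one]
    exact_mod_cast hV
  have h2 : A ∩ act V.reflection ⁻¹' A ⊆ {x | ENNReal.ofReal (99 / 100) ≤ f x} := by
    intro x hx
    have h3 := h x hx.1 hx.2
    refine ENNReal.ofReal_le_ofReal ?_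
    have h4 := b.sum_sq_inner_right (V.orthogonalProjectionOnto x)
    simp only [Submodule.inner_orthogonalProjectionOnto_eq_of_mem_left] at h4
    have h5 := Submodule.norm_sq_eq_add_norm_sq_starProjection (x : E d) V
    have h6 : (x : E d) - V.reflection x = (2 : ℝ) • Vᗮ.starProjection x := by
      rw [Submodule.reflection_apply, Submodule.starProjection_orthogonal_val]
      module
    rw [h6, norm_smul, Real.norm_two] at h3
    rw [norm_eq_of_mem_sphere] at h5
    rw [h4]
    change _ ≤ ‖V.starProjection x‖ ^ 2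
    nlinarith [norm_nonneg (Vᗮ.starProjection (x : E d))]
  have h3 := (mul_le_mul_right (measure_mono h2) _).trans
    (mul_meas_ge_le_lintegral (μ := sphereUniform d) hf (ENNReal.ofReal (99 / 100)))
  have h4 := measure_union_add_inter (μ := sphereUniform d) A (measurable_act V.reflection hA)
  rw [(act_pres hd V.reflection).measure_preimage hA.nullMeasurableSet] at h4
  have h5 := (mul_le_mul_right h3 4).trans h1
  rw [← ENNReal.ofReal_toReal (measure_ne_top (sphereUniform d) A)]
  refine ENNReal.ofReal_le_ofReal ?_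
  have h6 := congrArg ENNReal.toReal h4
  rw [ENNReal.toReal_add (measure_ne_top _ _) (measure_ne_top _ _),
    ENNReal.toReal_add (measure_ne_top _ _) (measure_ne_top _ _)] at h6
  have h7 := ENNReal.toReal_mono ENNReal.one_ne_top h5
  have h8 := ENNReal.toReal_mono ENNReal.one_ne_top
    (prob_le_one (μ := sphereUniform d) (s := A ∪ act V.reflection ⁻¹' A))
  simp only [ENNReal.toReal_mul, ENNReal.toReal_ofReal (show (0 : ℝ) ≤ 99 / 100 by norm_num),
    ENNReal.toReal_ofNat, ENNReal.toReal_one] at h7 h8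
  linarith

lemma run_id {S Θ : Type} {step : ℕ → S → Θ → S} {T : ℕ} (hid : ∀ t, T ≤ t → ∀ m θ, step t m θ = m)
    (n : ℕ) : ∀ t0, T ≤ t0 → ∀ m ω, run step n t0 m ω = m := by
  induction n with
  | zero => intro _ _ _ _; rfl
  | succ n ih => intro t0 h m ω; rw [run, hid t0 h, ih _ (by omega)]

lemma KK_pad {S Θ : Type} [MeasurableSpace Θ] [Fintype S] [DecidableEq S] {step : ℕ → S → Θ → S}
    (hstep : ∀ t m b, MeasurableSet {θ | step t m θ = b}) {T : ℕ}
    (hid : ∀ t, T ≤ t → ∀ m θ, step t m θ = m) (μ : Measure Θ) [IsProbabilityMeasure μ] {T' : ℕ}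
    (hT : T ≤ T') (m b : S) : KK step μ T' 0 m b = KK step μ T 0 m b := by
  obtain ⟨n, rfl⟩ := Nat.exists_eq_add_of_le hT
  rw [KK_add hstep, Finset.sum_eq_single b]
  · simp [KK, run_id hid n T le_rfl]
  · intro c _ hc; simp [KK, run_id hid n T le_rfl, hc]
  · simp

theorem noisy_sphere {S : Type} [Fintype S] [DecidableEq S] {step : ℕ → S → E d × ℝ → S}
    (hstep : ∀ t m b, MeasurableSet {θ | step t m θ = b}) {n0 : ℕ} (B : ℕ) (hn0 : 1 ≤ n0)
    (h10 : 10 * n0 ≤ d) (h20 : d ≤ 20 * n0) (o : S → E d) (ho : ∀ b, ‖o b‖ = 1) {ε : ℝ}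
    (hε : 0 < ε) (hε1 : ε < 1) (m0 : S) {s : ℝ} (hs : 0 < s) (hs1 : s ≤ 1 / 7) :
    ∑ b, ∫⁻ x in {x : Sphere d | ‖o b - x‖ ≤ ε}, KK step (mus s (x : E d)) (B * (2 * n0)) 0 m0 b
        ∂(sphereUniform d)
      ≤ ENNReal.ofReal ((17 * d + B * (2 * (1 + log (Fintype.card S)) / n0 + 118 * d))
        / (3 / 10 * d * log (1 / ε))) := by
  haveI := su_prob (d := d) (by omega)
  haveI : Nonempty S := ⟨m0⟩
  obtain ⟨b, hb⟩ : ∃ b, d = 2 * (n0 + (n0 + 1)) + b + 1 := ⟨d - 3 - 4 * n0, by omega⟩
  have hπ := pi_gt_three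
  have hπ' := pi_lt_d2
  have hkr : ∀ (j : ℕ) (u : E d), kr s j u ≤ (s + ‖u‖ ^ 2)⁻¹ ^ j := by
    intro j u
    unfold kr
    have : 0 < s + ‖u‖ ^ 2 := by positivity
    gcongr
    nlinarith
  have h8 : (1 : ℝ) ≤ 8 ^ d := one_le_pow₀ (by norm_num)
  have hε' : 1 < 1 / ε := by rw [lt_div_iff₀ hε]; linarith
  have h := noisy_bound (σ := sphereUniform d) (e := fun x : Sphere d => (x : E d)) hstep hs
    measurable_subtype_coe (k' := n0) (m' := n0 + 1) (q := n0) (α := n0) (by
      unfold MM
      refine one_le_pow₀ ((one_le_inv₀ (by positivity)).2 (by nlinarith))) le_rfl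
    (by rw [finrank_euclideanSpace_fin]; omega) (by rw [finrank_euclideanSpace_fin]; omega) hn0 h8
    (fun x x' => by
      have := norm_sub_le (x' : E d) x
      rw [norm_eq_of_mem_sphere, norm_eq_of_mem_sphere] at this
      nlinarith [norm_nonneg ((x' : E d) - x)])
    (fun x => by
      simp only [norm_sub_rev _ (x : E d)]
      exact energy_all (by omega) _ (norm_eq_of_mem_sphere x) hs)
    (C := fun b => {x : Sphere d | ‖o b - x‖ ≤ ε})
    (fun b => measurableSet_le (by fun_prop) measurable_const) (C0 := 3 * 8 ^ d) (R := (1 / ε) ^ b)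
    (by linarith) (one_le_pow₀ hε'.le)
    (fun x => ((lintegral_mono fun x' => ENNReal.ofReal_le_ofReal (hkr _ _)).trans
      (energy_all (by omega) _ (norm_eq_of_mem_sphere x) hs)).trans
      (ENNReal.ofReal_le_ofReal (by linarith)))
    (fun c x => ((lintegral_mono fun x' => ENNReal.ofReal_le_ofReal (hkr _ _)).trans
      (energy_set (by omega) hb _ _ (norm_eq_of_mem_sphere x) (ho c) hs hε)).trans
      (ENNReal.ofReal_le_ofReal (le_of_eq (by rw [one_div, inv_pow, div_inv_eq_mul])))) m0 B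
  have hL := log_pos hε'
  have hd : (10 : ℝ) * n0 ≤ d := by exact_mod_cast h10
  have hd' : (d : ℝ) ≤ 20 * n0 := by exact_mod_cast h20
  have hn : (1 : ℝ) ≤ n0 := by exact_mod_cast hn0
  have hb' : (3 / 10 : ℝ) * d ≤ b := by
    have : (d : ℝ) = 2 * (n0 + (n0 + 1)) + b + 1 := by exact_mod_cast hb
    linarith
  have hpos : 0 < 3 / 10 * d * log (1 / ε) := mul_pos (by linarith) hL
  rw [ENNReal.ofReal_div_of_pos hpos, ENNReal.le_div_iff_mul_le (Or.inl (by simpa using hpos))
    (Or.inl ENNReal.ofReal_ne_top), mul_comm]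
  refine le_trans (mul_le_mul_left (ENNReal.ofReal_le_ofReal (by rw [log_pow]; gcongr)) _)
    (h.trans (ENNReal.ofReal_le_ofReal ?_))
  have l5 := log_le_sub_one_of_pos (show (0 : ℝ) < 5 by norm_num)
  have l10 := log_le_sub_one_of_pos (show (0 : ℝ) < 10 by norm_num)
  have l8 := log_le_sub_one_of_pos (show (0 : ℝ) < 8 by norm_num)
  have l3 := log_le_sub_one_of_pos (show (0 : ℝ) < 3 by norm_num)
  have lπ := log_le_sub_one_of_pos (show (0 : ℝ) < 2 * π * 5 by positivity)
  rw [log_mul (by positivity) (by positivity), log_mul (by positivity) (by positivity),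
    log_mul (by positivity) (by positivity), log_mul (by positivity) (by positivity),
    log_mul (by positivity) (by positivity), log_pow, log_pow, log_pow,
    ← log_mul (by positivity) (by positivity), ← log_mul (by positivity) (by positivity)]
  push_cast
  refine add_le_add (by nlinarith) (mul_le_mul_of_nonneg_left ?_ (by positivity))
  have h1 : ((n0 + (n0 + 1)) * log 5 + n0 * log 10 + d * log 8 + log (Fintype.card S) + 1) / n0
      ≤ 161 + (1 + log (Fintype.card S)) / n0 := by
    rw [div_le_iff₀ (by linarith), add_mul (161 : ℝ), div_mul_cancel₀ _ (by linarith)]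
    nlinarith
  rw [mul_div_assoc]
  linarith

theorem noiseless {S : Type} [Fintype S] [DecidableEq S] {step : ℕ → S → E d × ℝ → S}
    (hstep : ∀ t m b, MeasurableSet {θ | step t m θ = b}) {T n0 B : ℕ}
    (hid : ∀ t, T ≤ t → ∀ m θ, step t m θ = m) (hB : T ≤ B * (2 * n0)) (hn0 : 1 ≤ n0)
    (h10 : 10 * n0 ≤ d) (h20 : d ≤ 20 * n0) (o : S → E d) (ho : ∀ b, ‖o b‖ = 1) {ε : ℝ}
    (hε : 0 < ε) (hε1 : ε < 1) (m0 : S) :
    ∑ b, ∫⁻ x in {x : Sphere d | ‖o b - x‖ ≤ ε}, KK step (mu0 (x : E d)) T 0 m0 b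
        ∂(sphereUniform d)
      ≤ ENNReal.ofReal ((17 * d + B * (2 * (1 + log (Fintype.card S)) / n0 + 118 * d))
        / (3 / 10 * d * log (1 / ε))) := by
  haveI := su_prob (d := d) (by omega)
  let D : ℕ → Sphere d → ℝ≥0∞ := fun n x => ∑ t ∈ Finset.range T, ∑ m, ∑ c,
    (mu0 (x : E d) {θ | step t m θ = c} - mus (1 / (n + 7)) (x : E d) {θ | step t m θ = c})
  have hm : ∀ (n : ℕ) t m c, Measurable fun x : Sphere d =>
      mu0 (x : E d) {θ | step t m θ = c} - mus (1 / (n + 7)) (x : E d) {θ | step t m θ = c} :=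
    fun n t m c => (measurable_mu0 measurable_subtype_coe (hstep t m c)).sub
      (measurable_mus measurable_subtype_coe _ (hstep t m c))
  have hD : ∀ n, Measurable (D n) := fun n => Finset.measurable_sum _ fun t _ =>
    Finset.measurable_sum _ fun m _ => Finset.measurable_sum _ fun c _ => hm n t m c
  have hlim : Tendsto (fun n => ∫⁻ x, D n x ∂(sphereUniform d)) atTop (𝓝 0) := by
    have e : ∀ n, ∫⁻ x, D n x ∂(sphereUniform d) = ∑ t ∈ Finset.range T, ∑ m, ∑ c,
        ∫⁻ x : Sphere d, (mu0 (x : E d) {θ | step t m θ = c}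
          - mus (1 / (n + 7)) (x : E d) {θ | step t m θ = c}) ∂(sphereUniform d) := by
      intro n
      rw [lintegral_finsetSum _ (fun t _ => Finset.measurable_sum _ fun m _ =>
        Finset.measurable_sum _ fun c _ => hm n t m c)]
      refine Finset.sum_congr rfl fun t _ => ?_
      rw [lintegral_finsetSum _ (fun m _ => Finset.measurable_sum _ fun c _ => hm n t m c)]
      exact Finset.sum_congr rfl fun m _ => lintegral_finsetSum _ (fun c _ => hm n t m c)
    simp only [e]
    have := tendsto_finsetSum (Finset.range T) fun t _ => tendsto_finsetSum Finset.univ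
      fun m _ => tendsto_finsetSum Finset.univ fun c _ => denoise (σ := sphereUniform d)
        (e := fun x : Sphere d => (x : E d)) measurable_subtype_coe
        (fun x => (norm_eq_of_mem_sphere x).le) ENNReal.ofReal_ne_top (fun s hs x => by
          have := energy_all (a := 1) (by omega) _ (norm_eq_of_mem_sphere x) hs
          simpa only [pow_one, norm_sub_rev (x : E d)] using this) (hstep t m c)
    simpa using this
  have h2 := (ENNReal.Tendsto.const_mul (a := (Fintype.card S * T : ℕ)) hlim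
    (Or.inr (ENNReal.natCast_ne_top _))).const_add
      (ENNReal.ofReal ((17 * d + B * (2 * (1 + log (Fintype.card S)) / n0 + 118 * d))
        / (3 / 10 * d * log (1 / ε))))
  rw [mul_zero, add_zero] at h2
  refine ge_of_tendsto' h2 fun n => ?_
  have hs : (0 : ℝ) < 1 / (n + 7) := by positivity
  have hs1 : (1 : ℝ) / (n + 7) ≤ 1 / 7 := by gcongr; simp
  refine le_trans ?_ (add_le_add (noisy_sphere hstep B hn0 h10 h20 o ho hε hε1 m0 hs hs1) le_rfl)
  calc _ ≤ ∑ b, (∫⁻ x in {x : Sphere d | ‖o b - x‖ ≤ ε},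
        KK step (mus (1 / (n + 7)) (x : E d)) (B * (2 * n0)) 0 m0 b ∂(sphereUniform d)
        + T * ∫⁻ x, D n x ∂(sphereUniform d)) := by
        refine Finset.sum_le_sum fun b _ => le_trans ?_ (add_le_add le_rfl
          (mul_le_mul_right (setLIntegral_le_lintegral {x : Sphere d | ‖o b - x‖ ≤ ε} _) _))
        rw [← lintegral_const_mul _ (hD n), ← lintegral_add_right _ ((hD n).const_mul _)]
        refine lintegral_mono fun x => ?_
        haveI := mus_prob hs (x : E d)
        simp only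
        rw [KK_pad hstep hid _ hB]
        refine KK_compare hstep _ _ _ _ _ (fun t m ht => ?_) _ _
        refine le_trans ?_ (Finset.single_le_sum (f := fun t => ∑ m, ∑ c,
          (mu0 (x : E d) {θ | step t m θ = c} - mus (1 / (n + 7)) (x : E d) {θ | step t m θ = c}))
          (fun _ _ => zero_le) (Finset.mem_range.2 (by omega : t < T)))
        exact Finset.single_le_sum (f := fun m => ∑ c,
          (mu0 (x : E d) {θ | step t m θ = c} - mus (1 / (n + 7)) (x : E d) {θ | step t m θ = c}))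
          (fun _ _ => zero_le) (Finset.mem_univ m)
    _ = _ := by
        rw [Finset.sum_add_distrib]
        simp [mul_assoc]

end H2SL
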