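import Crest.Agent.H2.SL13

set_option autoImplicit false
set_option maxHeartbeats 400000

namespace H2SL

open MeasureTheory ProbabilityTheory Real Metric Filter Topology Crest.StreamLearn
open scoped ENNReal RealInnerProductSpace Pointwise

lemma meas_foldl {Y ι S : Type} [MeasurableSpace Y] [Countable S] (F : S → ι → Y → S)
    (hF : ∀ i m b, MeasurableSet {y | F m i y = b}) (l : List ι) :
    ∀ (g : Y → S), (∀ b, MeasurableSet {y | g y = b}) →
      ∀ b, MeasurableSet {y | l.foldl (fun m i => F m i y) (g y) = b} := by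
  induction l with
  | nil => intro g hg b; exact hg b
  | cons i l ih =>
    intro g hg b
    refine ih (fun y => F (g y) i y) (fun c => ?_) b
    have : {y | F (g y) i y = c} = ⋃ m, {y | g y = m} ∩ {y | F m i y = c} := by ext y; simp
    rw [this]
    exact MeasurableSet.iUnion fun m => (hg m).inter (hF i m c)

lemma meas_ite {Y S O : Type} [MeasurableSpace Y] {f : Y → S} (hf : @Measurable Y S _ ⊤ f)
    {c : Y → Bool} (hc : Measurable c) (a a' : O) (b : S × O) :
    MeasurableSet {y | (if c y then (f y, a) else (f y, a')) = b} := by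
  have : {y | (if c y then (f y, a) else (f y, a')) = b} = f ⁻¹' {b.1} ∩
      ((c ⁻¹' {true} ∩ {_y | a = b.2}) ∪ (c ⁻¹' {false} ∩ {_y | a' = b.2})) := by
    ext y
    cases h : c y <;> simp [h, Prod.ext_iff]
  rw [this]
  exact (hf trivial).inter (((hc (measurableSet_singleton _)).inter (MeasurableSet.const _)).union
    ((hc (measurableSet_singleton _)).inter (MeasurableSet.const _)))

lemma run_foldl {S Θ : Type} (step : ℕ → S → Θ → S) (n : ℕ) : ∀ t0 m (ω : Fin n → Θ),
    run step n t0 m ω = (List.finRange n).foldl (fun st (i : Fin n) => step (t0 + i) st (ω i)) m := by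
  induction n with
  | zero => intro _ _ _; rfl
  | succ n ih =>
    intro t0 m ω
    rw [run, ih, List.finRange_succ, List.foldl_cons, List.foldl_map]
    simp [Fin.tail, add_assoc, add_comm 1]

variable {d T M : ℕ} (L : RLearner d T M)

/-- the transition on the finite state space, for a fixed seed -/
noncomputable def stepL (ω : L.Ω) (t : ℕ) (st : L.St × Option (Fin (T + 1))) (θ : E d × ℝ) :
    L.St × Option (Fin (T + 1)) :=
  if h : t < T then
    if st.2.isSome then st else
      if (L.trans ⟨t, h⟩ ω st.1 θ.1 θ.2).2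
      then ((L.trans ⟨t, h⟩ ω st.1 θ.1 θ.2).1, some ⟨t + 1, by omega⟩)
      else ((L.trans ⟨t, h⟩ ω st.1 θ.1 θ.2).1, none)
  else st

/-- initial state -/
noncomputable def initL (ω : L.Ω) : L.St × Option (Fin (T + 1)) :=
  (L.init ω, if L.stopFirst ω then some 0 else none)

/-- output attached to a state -/
noncomputable def outL (ω : L.Ω) (st : L.St × Option (Fin (T + 1))) : E d :=
  L.out ((st.2.map Fin.val).getD T) ω st.1

lemma output_eq (ω : L.Ω) (x : E d) (xs : Fin T → E d) :
    L.output ω x xs = outL L ω (run (stepL L ω) T 0 (initL L ω) fun i => (xs i, ⟪xs i, x⟫)) := by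
  have h : L.run ω x xs = (fun st : L.St × Option (Fin (T + 1)) => (st.1, st.2.map Fin.val))
      (run (stepL L ω) T 0 (initL L ω) fun i => (xs i, ⟪xs i, x⟫)) := by
    rw [run_foldl, RLearner.run]
    have e : (L.init ω, if L.stopFirst ω then some 0 else none) =
        (fun st : L.St × Option (Fin (T + 1)) => (st.1, st.2.map Fin.val)) (initL L ω) := by
      simp only [initL]; split_ifs <;> simp
    rw [e]
    refine List.foldl_hom (fun st : L.St × Option (Fin (T + 1)) => (st.1, st.2.map Fin.val))
      fun st i => ?_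
    simp only [stepL, zero_add, i.2, dif_pos, Option.isSome_map, Fin.eta]
    split_ifs <;> simp
  rw [RLearner.output, h, outL]

lemma meas_stepL (ω : L.Ω) (t : ℕ) (m b : L.St × Option (Fin (T + 1))) :
    MeasurableSet {θ | stepL L ω t m θ = b} := by
  letI := L.mΩ
  unfold stepL
  split_ifs with h h'
  · exact MeasurableSet.const _
  · exact meas_ite (@Measurable.comp _ _ _ _ _ ⊤ _ _ (L.trans_measurable ⟨t, h⟩ m.1).1
      (measurable_prodMk_left (x := ω)))
      ((L.trans_measurable ⟨t, h⟩ m.1).2.comp (measurable_prodMk_left (x := ω))) _ _ _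
  · exact MeasurableSet.const _

/-- the success event -/
def succSet (ε : ℝ) : Set (Sphere d × (L.Ω × (Fin T → E d))) :=
  {p | Real.arccos (inner ℝ (L.output p.2.1 p.1 p.2.2) (p.1 : E d)) ≤ ε}

lemma meas_succSet (ε : ℝ) : letI := L.mΩ; MeasurableSet (succSet L ε) := by
  letI := L.mΩ
  haveI := L.fin
  have h1 : ∀ b, MeasurableSet {p : Sphere d × (L.Ω × (Fin T → E d)) |
      L.run p.2.1 p.1 p.2.2 = b} := by
    refine meas_foldl (fun (st : L.St × Option ℕ) (t : Fin T)
      (p : Sphere d × (L.Ω × (Fin T → E d))) => if st.2.isSome then st else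
        if (L.trans t p.2.1 st.1 (p.2.2 t) (inner ℝ (p.2.2 t) (p.1 : E d))).2
        then ((L.trans t p.2.1 st.1 (p.2.2 t) (inner ℝ (p.2.2 t) (p.1 : E d))).1, some (t.val + 1))
        else ((L.trans t p.2.1 st.1 (p.2.2 t) (inner ℝ (p.2.2 t) (p.1 : E d))).1, none))
      (fun t m b => ?_) _ (fun p => (L.init p.2.1, if L.stopFirst p.2.1 then some 0 else none))
      (fun b => ?_)
    · have hm : Measurable fun p : Sphere d × (L.Ω × (Fin T → E d)) =>
          (p.2.1, (p.2.2 t, inner ℝ (p.2.2 t) (p.1 : E d))) := by fun_prop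
      by_cases h : m.2.isSome
      · simp only [h, if_true]; exact MeasurableSet.const _
      · simp only [h]
        exact meas_ite (@Measurable.comp _ _ _ _ _ ⊤ _ _ (L.trans_measurable t m.1).1 hm)
          ((L.trans_measurable t m.1).2.comp hm) _ _ _
    · have hm : Measurable fun p : Sphere d × (L.Ω × (Fin T → E d)) => p.2.1 := by fun_prop
      convert meas_ite (@Measurable.comp _ _ _ _ _ ⊤ _ _ L.init_measurable hm)
        (L.stopFirst_measurable.comp hm) (some 0) none b using 3 with p
      simp only [Function.comp]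
      split_ifs <;> rfl
  have : succSet L ε = ⋃ b : L.St × Option ℕ, {p | L.run p.2.1 p.1 p.2.2 = b} ∩
      {p | Real.arccos (inner ℝ (L.out (b.2.getD T) p.2.1 b.1) (p.1 : E d)) ≤ ε} := by
    ext p; simp [succSet, RLearner.output]
  rw [this]
  refine MeasurableSet.iUnion fun b => (h1 b).inter (measurableSet_le ?_ measurable_const)
  have hm : Measurable fun p : Sphere d × (L.Ω × (Fin T → E d)) => L.out (b.2.getD T) p.2.1 b.1 :=
    (L.out_measurable _ _).comp (by fun_prop)
  exact continuous_arccos.measurable.comp (by fun_prop)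

lemma small_T (hd : 1 ≤ d) (hT : 4 * T ≤ d) {ε : ℝ} (hε : 0 < ε) (hε1 : ε ≤ 1 / 10) :
    L.successProb ε ≤ 13 / 20 := by
  letI := L.mΩ
  haveI := L.prob
  haveI := su_prob hd
  refine ENNReal.toReal_le_of_le_ofReal (by norm_num) ?_
  change (sphereUniform d).prod _ (succSet L ε) ≤ _
  rw [Measure.prod_apply_symm (meas_succSet L ε)]
  refine (lintegral_mono (g := fun _ => ENNReal.ofReal (13 / 20)) fun p => ?_).trans (by simp)
  let V := Submodule.span ℝ (Set.range p.2)
  have hV : Module.finrank ℝ V ≤ T := (finrank_range_le_card (R := ℝ) p.2).trans (by simp)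
  refine refl_bound hd V (by omega) (measurable_prodMk_right (meas_succSet L ε)) fun x h1 h2 => ?_
  have e : L.output p.1 (act V.reflection x) p.2 = L.output p.1 x p.2 := by
    rw [output_eq, output_eq]
    congr 2
    ext1 i
    have := Submodule.reflection_mem_subspace_eq_self (K := V) (x := p.2 i)
      (Submodule.subset_span ⟨i, rfl⟩)
    rw [← V.reflection.inner_map_map (p.2 i) x, this]
    rfl
  have h1' := angle_dist (L.out_unit _ _ _) (norm_eq_of_mem_sphere x) hε (by linarith) h1
  have h2' := angle_dist (L.out_unit _ _ _) (norm_eq_of_mem_sphere (act V.reflection x)) hε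
    (by linarith) h2
  change ‖L.output p.1 x p.2 - _‖ ≤ _ at h1'
  change ‖L.output p.1 (act V.reflection x) p.2 - V.reflection x‖ ≤ _ at h2'
  rw [e] at h2'
  rw [norm_sub_rev] at h1'
  exact (norm_sub_le_norm_sub_add_norm_sub _ _ _).trans ((add_le_add h1' h2').trans (by linarith))

lemma per_seed [Fintype L.St] (hd : 1 ≤ d) {ε p : ℝ} (hε : 0 < ε) (hε1 : ε ≤ 1) (hp : 0 ≤ p)
    (h : ∀ ω, ∑ b, ∫⁻ x in {x : Sphere d | ‖outL L ω b - x‖ ≤ ε},
      KK (stepL L ω) (mu0 (x : E d)) T 0 (initL L ω) b ∂(sphereUniform d) ≤ ENNReal.ofReal p) :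
    L.successProb ε ≤ p := by
  letI := L.mΩ
  haveI := L.prob
  haveI := su_prob hd
  refine ENNReal.toReal_le_of_le_ofReal hp ?_
  change (sphereUniform d).prod _ (succSet L ε) ≤ _
  have hA := meas_succSet L ε
  rw [Measure.prod_apply hA]
  simp only [Measure.prod_apply (measurable_prodMk_left hA)]
  rw [lintegral_lintegral_swap]
  swap
  · exact (measurable_measure_prodMk_left (MeasurableEquiv.prodAssoc.measurable hA)).aemeasurable
  refine (lintegral_mono (g := fun _ => ENNReal.ofReal p) fun ω => (le_trans ?_ (h ω))).trans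
    (by simp)
  have hC : ∀ b, MeasurableSet {x : Sphere d | ‖outL L ω b - x‖ ≤ ε} := fun b =>
    measurableSet_le (by fun_prop) measurable_const
  have hR := meas_run (meas_stepL L ω) T 0 (initL L ω)
  have hK : ∀ (x : Sphere d) b, KK (stepL L ω) (mu0 (x : E d)) T 0 (initL L ω) b
      = Measure.pi (fun _ : Fin T => stdGaussian (E d)) {xs | run (stepL L ω) T 0 (initL L ω)
        (fun i => (xs i, ⟪xs i, (x : E d)⟫)) = b} := by
    intro x b
    unfold KK mu0
    rw [← Measure.pi_map_pi (fun _ => by fun_prop), Measure.map_apply (by fun_prop) (hR b)]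
    rfl
  simp only [← lintegral_indicator (hC _)]
  rw [← lintegral_finsetSum]
  · refine lintegral_mono fun x => ?_
    refine (measure_mono (t := ⋃ b, {xs | ‖outL L ω b - x‖ ≤ ε ∧ run (stepL L ω) T 0 (initL L ω)
        (fun i => (xs i, ⟪xs i, (x : E d)⟫)) = b}) fun xs hxs => ?_).trans
        ((measure_iUnion_fintype_le _ _).trans (Finset.sum_le_sum fun b _ => ?_))
    · have := angle_dist (L.out_unit _ _ _) (norm_eq_of_mem_sphere x) hε hε1 hxs
      change ‖L.output ω x xs - _‖ ≤ _ at this
      rw [output_eq] at this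
      exact Set.mem_iUnion.2 ⟨_, this, rfl⟩
    · by_cases hx : ‖outL L ω b - x‖ ≤ ε
      · rw [Set.indicator_of_mem (show x ∈ {x : Sphere d | ‖outL L ω b - x‖ ≤ ε} from hx), hK]
        simp [hx]
      · simp [hx]
  · intro b _
    refine Measurable.indicator ?_ (hC b)
    simp only [hK]
    exact measurable_measure_prodMk_left (s := (fun r : Sphere d × (Fin T → E d) =>
      fun i => (r.2 i, ⟪r.2 i, (r.1 : E d)⟫)) ⁻¹' {ω' | run (stepL L ω) T 0 (initL L ω) ω' = b})
      ((by fun_prop : Measurable _) (hR b))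

end H2SL
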