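import Crest.Agent.H2.SL1

set_option autoImplicit false

namespace H2SL

open MeasureTheory ProbabilityTheory Real
open scoped ENNReal RealInnerProductSpace

section rows
variable {E : Type} [NormedAddCommGroup E] [InnerProductSpace ℝ E] [FiniteDimensional ℝ E]
  [MeasurableSpace E] [BorelSpace E]

noncomputable def lam (E : Type) [NormedAddCommGroup E] [InnerProductSpace ℝ E]
    [FiniteDimensional ℝ E] [MeasurableSpace E] : Measure (E × ℝ) := (stdGaussian E).prod volume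

instance : SigmaFinite (lam E) := by unfold lam; infer_instance

noncomputable def lamn (E : Type) [NormedAddCommGroup E] [InnerProductSpace ℝ E]
    [FiniteDimensional ℝ E] [MeasurableSpace E] (n : ℕ) : Measure (Fin n → E × ℝ) :=
  Measure.pi fun _ => lam E

instance (n : ℕ) : SigmaFinite (lamn E n) := by unfold lamn; infer_instance

noncomputable def ell (s : ℝ) (θ : E × ℝ) (x : E) : ℝ≥0∞ := ph s (θ.2 - ⟪θ.1, x⟫)

noncomputable def LL (s : ℝ) {n : ℕ} (ω : Fin n → E × ℝ) (x : E) : ℝ≥0∞ := ∏ r, ell s (ω r) x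

/-- squared residual -/
noncomputable def QQ {n : ℕ} (ω : Fin n → E × ℝ) (x : E) : ℝ := ∑ r, ((ω r).2 - ⟪(ω r).1, x⟫) ^ 2

/-- `|B z|^2` -/
noncomputable def Bq {n : ℕ} (ω : Fin n → E × ℝ) (z : E) : ℝ := ∑ r, ⟪(ω r).1, z⟫ ^ 2

@[fun_prop]
lemma measurable_ell {α : Type*} [MeasurableSpace α] {s : α → ℝ} {f : α → E × ℝ} {g : α → E}
    (hs : Measurable s) (hf : Measurable f) (hg : Measurable g) :
    Measurable (fun a => ell (s a) (f a) (g a)) := by
  unfold ell; fun_prop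

@[fun_prop]
lemma measurable_LL {α : Type*} [MeasurableSpace α] {n : ℕ} {s : α → ℝ} {f : α → Fin n → E × ℝ}
    {g : α → E} (hs : Measurable s) (hf : Measurable f) (hg : Measurable g) :
    Measurable (fun a => LL (s a) (f a) (g a)) := by
  unfold LL; fun_prop

@[fun_prop]
lemma measurable_QQ {α : Type*} [MeasurableSpace α] {n : ℕ} {f : α → Fin n → E × ℝ}
    {g : α → E} (hf : Measurable f) (hg : Measurable g) :
    Measurable (fun a => QQ (f a) (g a)) := by
  unfold QQ; fun_prop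

@[fun_prop]
lemma measurable_Bq {α : Type*} [MeasurableSpace α] {n : ℕ} {f : α → Fin n → E × ℝ}
    {g : α → E} (hf : Measurable f) (hg : Measurable g) :
    Measurable (fun a => Bq (f a) (g a)) := by
  unfold Bq; fun_prop

omit [FiniteDimensional ℝ E] [MeasurableSpace E] [BorelSpace E] in
lemma QQ_nonneg {n : ℕ} (ω : Fin n → E × ℝ) (x : E) : 0 ≤ QQ ω x :=
  Finset.sum_nonneg fun _ _ => sq_nonneg _

omit [FiniteDimensional ℝ E] [MeasurableSpace E] [BorelSpace E] in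
lemma Bq_nonneg {n : ℕ} (ω : Fin n → E × ℝ) (x : E) : 0 ≤ Bq ω x :=
  Finset.sum_nonneg fun _ _ => sq_nonneg _

omit [FiniteDimensional ℝ E] [MeasurableSpace E] [BorelSpace E] in
lemma LL_eq {s : ℝ} {n : ℕ} (ω : Fin n → E × ℝ) (x : E) :
    LL s ω x = ENNReal.ofReal ((√(2 * π * s))⁻¹ ^ n * exp (-(QQ ω x) / (2 * s))) := by
  unfold LL ell ph QQ
  rw [← ENNReal.ofReal_prod_of_nonneg (fun _ _ => phr_nonneg _ _)]
  congr 1
  unfold phr
  rw [Finset.prod_mul_distrib, ← exp_sum, ← Finset.sum_div, Finset.sum_neg_distrib]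
  simp

lemma lint_ell {s : ℝ} (hs : 0 < s) (x : E) {f : E → ℝ≥0∞} (hf : Measurable f) :
    ∫⁻ θ, ell s θ x * f θ.1 ∂(lam E) = ∫⁻ g, f g ∂(stdGaussian E) := by
  unfold lam
  rw [lintegral_prod _ (by fun_prop)]
  refine lintegral_congr fun g => ?_
  simp only [ell]
  rw [lintegral_mul_const _ (by fun_prop), lint_ph hs, one_mul]

lemma lint_ell_one {s : ℝ} (hs : 0 < s) (x : E) : ∫⁻ θ, ell s θ x ∂(lam E) = 1 := by
  simpa using lint_ell hs x (f := fun _ => 1) measurable_const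

lemma lint_LL {s : ℝ} (hs : 0 < s) (n : ℕ) (x : E) : ∫⁻ ω, LL s ω x ∂(lamn E n) = 1 := by
  unfold LL lamn
  rw [lint_pi_pow (lam E) (fun θ => ell s θ x) (by fun_prop), lint_ell_one hs, one_pow]

lemma lint_ell_sq {s : ℝ} (hs : 0 < s) (x x' : E) :
    ∫⁻ θ, ell s θ x * ENNReal.ofReal ((θ.2 - ⟪θ.1, x'⟫) ^ 2) ∂(lam E)
      = ENNReal.ofReal (s + ‖x - x'‖ ^ 2) := by
  unfold lam
  rw [lintegral_prod _ (by fun_prop)]
  simp only [ell, lint_ph_sq hs, ← inner_sub_right]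
  rw [lint_inner (x - x') (f := fun t => ENNReal.ofReal (s + t ^ 2)) (by fun_prop)]
  have h := lint_ph_sq one_pos 0 0
  simp only [sub_zero] at h
  have e : ∀ t : ℝ, ENNReal.ofReal (s + (‖x - x'‖ * t) ^ 2)
      = ENNReal.ofReal s + ENNReal.ofReal (‖x - x'‖ ^ 2) * ENNReal.ofReal (t ^ 2) := by
    intro t
    rw [← ENNReal.ofReal_mul (by positivity), ← ENNReal.ofReal_add hs.le (by positivity), mul_pow]
  simp only [e]
  rw [lintegral_add_left measurable_const, lintegral_const_mul _ (by fun_prop),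
    lint_N (f := fun t => ENNReal.ofReal (t ^ 2)) (by fun_prop), h,
    ENNReal.ofReal_add hs.le (by positivity)]
  simp

lemma lint_LL_QQ {s : ℝ} (hs : 0 < s) (n : ℕ) (x x' : E) :
    ∫⁻ ω, LL s ω x * ENNReal.ofReal (QQ ω x') ∂(lamn E n)
      = ENNReal.ofReal (n * (s + ‖x - x'‖ ^ 2)) := by
  unfold QQ
  simp only [ENNReal.ofReal_sum_of_nonneg (fun _ _ => sq_nonneg _), Finset.mul_sum]
  rw [lintegral_finsetSum _ (fun i _ => by fun_prop)]
  have : ∀ i : Fin n, ∫⁻ ω : Fin n → E × ℝ,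
      LL s ω x * ENNReal.ofReal (((ω i).2 - ⟪(ω i).1, x'⟫) ^ 2) ∂(lamn E n)
      = ENNReal.ofReal (s + ‖x - x'‖ ^ 2) := by
    intro i
    unfold LL lamn
    rw [lint_pi_one (lam E) (fun θ => ell s θ x)
      (fun θ => ENNReal.ofReal ((θ.2 - ⟪θ.1, x'⟫) ^ 2)) (by fun_prop) (by fun_prop)
      (lint_ell_one hs x), lint_ell_sq hs]
  simp only [this]
  rw [ENNReal.ofReal_mul (by positivity)]
  simp

lemma lint_LL_prod {s : ℝ} (hs : 0 < s) (n : ℕ) (x : E) {f : E → ℝ≥0∞} (hf : Measurable f) :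
    ∫⁻ ω, LL s ω x * ∏ r, f (ω r).1 ∂(lamn E n) = (∫⁻ g, f g ∂(stdGaussian E)) ^ n := by
  unfold LL lamn
  simp only [← Finset.prod_mul_distrib]
  rw [lint_pi_pow (lam E) (fun θ => ell s θ x * f θ.1) (by fun_prop), lint_ell hs x hf]

/-- adding one more point costs at most the Gaussian factor of the new direction -/
lemma row_step {s : ℝ} (hs : 0 < s) {ι : Type} (S : Finset ι) (xs : ι → E) (x x' : E) (a : ℝ)
    (h : a = 0 ∨ ∃ e : E, ‖e‖ = 1 ∧ (∀ l ∈ S, ⟪e, xs l - x⟫ = 0) ∧ ⟪e, x' - x⟫ = a) :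
    ∫⁻ θ, (ell s θ x * ∏ l ∈ S, ell s θ (xs l)) * ell s θ x' ∂(lam E)
      ≤ ENNReal.ofReal ((√(2 * π * (s + a ^ 2)))⁻¹) *
        ∫⁻ θ, ell s θ x * ∏ l ∈ S, ell s θ (xs l) ∂(lam E) := by
  rcases h with rfl | ⟨e, he, hS, ha⟩
  · rw [← lintegral_const_mul _ (by fun_prop)]
    refine lintegral_mono fun θ => ?_
    rw [mul_comm]
    gcongr
    rw [show s + (0 : ℝ) ^ 2 = s by ring]
    exact ENNReal.ofReal_le_ofReal (phr_le hs (θ.2 - ⟪θ.1, x'⟫))
  let H : E → ℝ → ℝ≥0∞ := fun g η => ph s η * ∏ l ∈ S, ph s (η - ⟪g, xs l - x⟫)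
  have hH : ∀ (g : E) (t η : ℝ), H (g + t • e) η = H g η := by
    intro g t η
    simp only [H]
    congr 1
    refine Finset.prod_congr rfl fun l hl => ?_
    rw [inner_add_left, real_inner_smul_left, hS l hl]; simp
  have e1 : ∫⁻ θ, (ell s θ x * ∏ l ∈ S, ell s θ (xs l)) * ell s θ x' ∂(lam E)
      = ∫⁻ g, ∫⁻ η, H g η * ph s (η - ⟪g, x' - x⟫) ∂volume ∂(stdGaussian E) := by
    unfold lam
    rw [lintegral_prod _ (by fun_prop)]
    refine lintegral_congr fun g => ?_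
    rw [← lintegral_add_right_eq_self _ ⟪g, x⟫]
    refine lintegral_congr fun η => ?_
    simp only [ell, H, inner_sub_right]
    congr 2
    · congr 1; ring
    · exact Finset.prod_congr rfl fun l _ => by congr 1; ring
    · ring
  have e2 : ∫⁻ θ, ell s θ x * ∏ l ∈ S, ell s θ (xs l) ∂(lam E)
      = ∫⁻ g, ∫⁻ η, H g η ∂volume ∂(stdGaussian E) := by
    unfold lam
    rw [lintegral_prod _ (by fun_prop)]
    refine lintegral_congr fun g => ?_
    rw [← lintegral_add_right_eq_self _ ⟪g, x⟫]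
    refine lintegral_congr fun η => ?_
    simp only [ell, H, inner_sub_right]
    congr 1
    · congr 1; ring
    · exact Finset.prod_congr rfl fun l _ => by congr 1; ring
  have hHm : Measurable (fun p : E × ℝ => H p.1 p.2) := by simp only [H]; fun_prop
  rw [e1, e2, resample he (Measurable.lintegral_prod_right' (f := fun p : E × ℝ =>
    H p.1 p.2 * ph s (p.2 - ⟪p.1, x' - x⟫)) (by fun_prop)),
    ← lintegral_const_mul _ (Measurable.lintegral_prod_right' hHm)]
  refine lintegral_mono fun g => ?_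
  have hg : Measurable (H g) := by simp only [H]; fun_prop
  simp only [hH]
  rw [lintegral_lintegral_swap (by fun_prop), ← lintegral_const_mul _ hg]
  refine lintegral_mono fun η => ?_
  rw [lintegral_const_mul _ (by fun_prop), mul_comm]
  gcongr
  refine le_trans (le_of_eq ?_) (lint_ph_N hs (η - ⟪g, x' - x⟫ + ⟪e, g⟫ * a) a)
  refine lintegral_congr fun t => ?_
  rw [inner_add_left, real_inner_smul_left, ha]
  congr 1; ring

lemma row_pair {s : ℝ} (hs : 0 < s) (x x' : E) :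
    ∫⁻ θ, ell s θ x * ell s θ x' ∂(lam E)
      ≤ ENNReal.ofReal ((√(2 * π * (s + ‖x' - x‖ ^ 2)))⁻¹) := by
  have h := row_step hs (∅ : Finset Unit) (fun _ => x) x x' ‖x' - x‖ (by
    by_cases h : x' - x = 0
    · left; simp [h]
    · right
      have hn : ‖x' - x‖ ≠ 0 := norm_ne_zero_iff.2 h
      refine ⟨‖x' - x‖⁻¹ • (x' - x), ?_, by simp, ?_⟩
      · rw [norm_smul, norm_inv, norm_norm, inv_mul_cancel₀ hn]
      · rw [real_inner_smul_left, real_inner_self_eq_norm_sq]; field_simp)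
  simpa [lint_ell_one hs] using h

lemma LL_pair {s : ℝ} (hs : 0 < s) (n : ℕ) (x x' : E) :
    ∫⁻ ω, LL s ω x * LL s ω x' ∂(lamn E n)
      ≤ ENNReal.ofReal ((√(2 * π * (s + ‖x' - x‖ ^ 2)))⁻¹ ^ n) := by
  unfold LL lamn
  simp only [← Finset.prod_mul_distrib]
  rw [lint_pi_pow (lam E) (fun θ => ell s θ x * ell s θ x') (by fun_prop),
    ENNReal.ofReal_pow (by positivity)]
  gcongr
  exact row_pair hs x x'

end rows

end H2SL
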