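import Crest.Agent.H2.SL2

set_option autoImplicit false

namespace H2SL

open MeasureTheory ProbabilityTheory Real Metric
open scoped ENNReal RealInnerProductSpace

section ang
variable {E : Type} [NormedAddCommGroup E] [InnerProductSpace ℝ E] [FiniteDimensional ℝ E]
  [MeasurableSpace E] [BorelSpace E]

omit [FiniteDimensional ℝ E] [MeasurableSpace E] [BorelSpace E] in
lemma Bq_par {n : ℕ} (ω : Fin n → E × ℝ) (w v : E) :
    Bq ω (w + v) + Bq ω (w - v) = 2 * Bq ω w + 2 * Bq ω v := by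
  unfold Bq
  simp only [Finset.mul_sum, ← Finset.sum_add_distrib, inner_add_right, inner_sub_right]
  exact Finset.sum_congr rfl fun r _ => by ring

omit [FiniteDimensional ℝ E] [MeasurableSpace E] [BorelSpace E] in
lemma Bq_smul {n : ℕ} (ω : Fin n → E × ℝ) (c : ℝ) (v : E) : Bq ω (c • v) = c ^ 2 * Bq ω v := by
  unfold Bq
  simp only [Finset.mul_sum, real_inner_smul_right, mul_pow]

lemma lint_exp_Bq {s : ℝ} (hs : 0 < s) (m' : ℕ) (x z : E) (hz : ‖z‖ ≤ 2) :
    ∫⁻ ω, LL s ω x * ENNReal.ofReal (exp (Bq ω z / 16)) ∂(lamn E (2 * m'))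
      ≤ ENNReal.ofReal (2 ^ m') := by
  have e : ∀ ω : Fin (2 * m') → E × ℝ, ENNReal.ofReal (exp (Bq ω z / 16))
      = ∏ r, (fun g : E => ENNReal.ofReal (exp (⟪g, z⟫ ^ 2 / 16))) (ω r).1 := by
    intro ω
    rw [← ENNReal.ofReal_prod_of_nonneg (fun _ _ => (exp_pos _).le), ← exp_sum, ← Finset.sum_div]
    rfl
  simp only [e]
  rw [lint_LL_prod hs _ x (f := fun g : E => ENNReal.ofReal (exp (⟪g, z⟫ ^ 2 / 16))) (by fun_prop),
    lint_inner z (f := fun t => ENNReal.ofReal (exp (t ^ 2 / 16))) (by fun_prop)]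
  have h := lint_exp_N (b := ‖z‖ ^ 2 / 16) (by nlinarith [norm_nonneg z])
  have e2 : ∀ t : ℝ, (‖z‖ * t) ^ 2 / 16 = ‖z‖ ^ 2 / 16 * t ^ 2 := fun t => by ring
  simp only [e2]
  calc _ ≤ ENNReal.ofReal (√2) ^ (2 * m') := by gcongr
    _ = _ := by rw [← ENNReal.ofReal_pow (by positivity), pow_mul, sq_sqrt (by norm_num)]

lemma lint_expneg_Bq {s : ℝ} (hs : 0 < s) (m' : ℕ) (x z : E) (hz : 1 / 2 ≤ ‖z‖) {b : ℝ}
    (hb : 0 < b) :
    ∫⁻ ω, LL s ω x * ENNReal.ofReal (exp (-b * Bq ω z)) ∂(lamn E (2 * m'))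
      ≤ ENNReal.ofReal ((2 / b) ^ m') := by
  have e : ∀ ω : Fin (2 * m') → E × ℝ, ENNReal.ofReal (exp (-b * Bq ω z))
      = ∏ r, (fun g : E => ENNReal.ofReal (exp (-b * ⟪g, z⟫ ^ 2))) (ω r).1 := by
    intro ω
    rw [← ENNReal.ofReal_prod_of_nonneg (fun _ _ => (exp_pos _).le), ← exp_sum, ← Finset.mul_sum]
    rfl
  simp only [e]
  rw [lint_LL_prod hs _ x (f := fun g : E => ENNReal.ofReal (exp (-b * ⟪g, z⟫ ^ 2))) (by fun_prop),
    lint_inner z (f := fun t => ENNReal.ofReal (exp (-b * t ^ 2))) (by fun_prop)]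
  have h := lint_expneg_N hb ‖z‖
  calc _ ≤ ENNReal.ofReal ((√(1 + 2 * b * ‖z‖ ^ 2))⁻¹) ^ (2 * m') := by gcongr
    _ ≤ _ := by
      rw [← ENNReal.ofReal_pow (by positivity), pow_mul, inv_pow, sq_sqrt (by positivity)]
      refine ENNReal.ofReal_le_ofReal ?_
      gcongr
      rw [inv_le_comm₀ (by positivity) (by positivity), inv_div]
      have : 1 / 4 ≤ ‖z‖ ^ 2 := by nlinarith
      nlinarith

lemma op_bound {s : ℝ} (hs : 0 < s) (m' : ℕ) (x : E) :
    ∃ Γ : (Fin (2 * m') → E × ℝ) → ℝ≥0∞, Measurable Γ ∧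
      ∫⁻ ω, LL s ω x * Γ ω ∂(lamn E (2 * m')) ≤ ENNReal.ofReal (2 ^ (Module.finrank ℝ E + m')) ∧
      ∀ ω w, ‖w‖ ≤ 1 → ENNReal.ofReal (exp (Bq ω w / 16)) ≤ Γ ω := by
  have hb0 : (volume : Measure E) (ball 0 1) ≠ 0 := (measure_ball_pos _ _ one_pos).ne'
  have hbt : (volume : Measure E) (ball 0 1) ≠ ∞ := measure_ball_lt_top.ne
  let F : (Fin (2 * m') → E × ℝ) → E → ℝ≥0∞ := fun ω z =>
    (ball (0 : E) 2).indicator (fun z => ENNReal.ofReal (exp (Bq ω z / 16))) z
  have hF : Measurable (fun p : (Fin (2 * m') → E × ℝ) × E => F p.1 p.2) := by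
    have : (fun p : (Fin (2 * m') → E × ℝ) × E => F p.1 p.2)
        = (Prod.snd ⁻¹' ball (0 : E) 2).indicator
          (fun p => ENNReal.ofReal (exp (Bq p.1 p.2 / 16))) := by
      ext p; rfl
    rw [this]
    exact Measurable.indicator (by fun_prop) (measurable_snd measurableSet_ball)
  refine ⟨fun ω => (volume (ball (0 : E) 1))⁻¹ * ∫⁻ z, F ω z,
    (Measurable.lintegral_prod_right' hF).const_mul _, ?_, ?_⟩
  · have e : ∀ ω : Fin (2 * m') → E × ℝ, LL s ω x * ((volume (ball (0 : E) 1))⁻¹ * ∫⁻ z, F ω z)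
        = (volume (ball (0 : E) 1))⁻¹ * ∫⁻ z, LL s ω x * F ω z := by
      intro ω
      rw [lintegral_const_mul _ (show Measurable (F ω) from hF.comp measurable_prodMk_left),
        mul_left_comm]
    simp only [e]
    have hm : Measurable (fun p : (Fin (2 * m') → E × ℝ) × E => LL s p.1 x * F p.1 p.2) :=
      Measurable.mul (by fun_prop) hF
    rw [lintegral_const_mul _ (Measurable.lintegral_prod_right' hm),
      lintegral_lintegral_swap hm.aemeasurable]
    have h2 : ∫⁻ z, ∫⁻ ω, LL s ω x * F ω z ∂(lamn E (2 * m'))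
        ≤ ∫⁻ z, (ball (0 : E) 2).indicator (fun _ => ENNReal.ofReal (2 ^ m')) z := by
      refine lintegral_mono fun z => ?_
      by_cases hz : z ∈ ball (0 : E) 2
      · simp only [F, Set.indicator_of_mem hz]
        exact lint_exp_Bq hs m' x z (by simpa using (mem_ball_zero_iff.1 hz).le)
      · simp [F, Set.indicator_of_notMem hz]
    rw [lintegral_indicator_const measurableSet_ball,
      Measure.addHaar_ball_of_pos _ _ (show (0 : ℝ) < 2 by norm_num)] at h2
    refine (mul_le_mul_right h2 _).trans (le_of_eq ?_)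
    rw [← mul_assoc (ENNReal.ofReal _), mul_comm, mul_assoc, ENNReal.mul_inv_cancel hb0 hbt,
      mul_one, ← ENNReal.ofReal_mul (by positivity), pow_add, mul_comm]
  · intro ω w hw
    have hFω : Measurable (F ω) := hF.comp measurable_prodMk_left
    have h1 : ∫⁻ v, (ball (0 : E) 1).indicator (fun _ => 2 * ENNReal.ofReal (exp (Bq ω w / 16))) v
        ≤ ∫⁻ v, F ω (w + v) + F ω (w - v) := by
      refine lintegral_mono fun v => ?_
      by_cases hv : v ∈ ball (0 : E) 1
      · have hv' := mem_ball_zero_iff.1 hv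
        have h1 : w + v ∈ ball (0 : E) 2 :=
          mem_ball_zero_iff.2 (lt_of_le_of_lt (norm_add_le _ _) (by linarith))
        have h2 : w - v ∈ ball (0 : E) 2 :=
          mem_ball_zero_iff.2 (lt_of_le_of_lt (norm_sub_le _ _) (by linarith))
        simp only [F, Set.indicator_of_mem hv, Set.indicator_of_mem h1, Set.indicator_of_mem h2]
        rw [← ENNReal.ofReal_add (by positivity) (by positivity),
          show (2 : ℝ≥0∞) = ENNReal.ofReal 2 by simp, ← ENNReal.ofReal_mul (by norm_num)]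
        refine ENNReal.ofReal_le_ofReal ?_
        have h3 := Bq_par ω w v
        have h4 := Bq_nonneg ω v
        have h5 := add_one_le_exp (Bq ω (w + v) / 16 - Bq ω w / 16)
        have h6 := add_one_le_exp (Bq ω (w - v) / 16 - Bq ω w / 16)
        rw [exp_sub, le_div_iff₀ (exp_pos _)] at h5 h6
        nlinarith [exp_pos (Bq ω w / 16)]
      · simp [Set.indicator_of_notMem hv]
    rw [lintegral_indicator_const measurableSet_ball, lintegral_add_left (by fun_prop),
      lintegral_add_left_eq_self (F ω) w, lintegral_sub_left_eq_self (F ω) w, ← two_mul,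
      mul_assoc, ENNReal.mul_le_mul_iff_right (by simp) (by simp)] at h1
    refine le_trans (le_of_eq ?_) (mul_le_mul_right h1 _)
    rw [mul_comm (volume _)⁻¹, mul_assoc, ENNReal.mul_inv_cancel hb0 hbt, mul_one]

lemma sb_bound {s : ℝ} (hs : 0 < s) {m' q : ℕ} (hq : q + 1 ≤ m') (x : E) (V : Submodule ℝ E)
    (hV : Module.finrank ℝ V ≤ q) :
    ∃ Λ : (Fin (2 * m') → E × ℝ) → ℝ≥0∞, Measurable Λ ∧
      ∫⁻ ω, LL s ω x * Λ ω ∂(lamn E (2 * m')) ≤ ENNReal.ofReal (2 ^ (q + m' + 1)) ∧
      ∀ ω (v : E) (N σ D : ℝ), v ∈ V → ‖v‖ = 1 → (∀ z, Bq ω z ≤ N * ‖z‖ ^ 2) → 0 < σ →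
        Bq ω v ≤ σ → σ ≤ D → D ≤ N →
        ENNReal.ofReal (√(σ / (4 * N)) ^ q * ((D / (2 * σ)) ^ q * exp (-(4 * D)))) ≤ Λ ω := by
  have hb0 : (volume : Measure V) (ball 0 1) ≠ 0 := (measure_ball_pos _ _ one_pos).ne'
  have hbt : (volume : Measure V) (ball 0 1) ≠ ∞ := measure_ball_lt_top.ne
  let A : Set V := {z | 1 / 2 ≤ ‖z‖ ∧ ‖z‖ ≤ 2}
  have hA : MeasurableSet A := by
    refine IsClosed.measurableSet ?_
    exact (isClosed_le continuous_const continuous_norm).inter
      (isClosed_le continuous_norm continuous_const)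
  let F : (Fin (2 * m') → E × ℝ) → V → ℝ≥0∞ := fun ω z =>
    A.indicator (fun z => ∑' l : ℕ, ENNReal.ofReal (2 ^ (l * q)) *
      ENNReal.ofReal (exp (-(2 ^ l) * Bq ω (z : E)))) z
  have hF : Measurable (fun p : (Fin (2 * m') → E × ℝ) × V => F p.1 p.2) := by
    have : (fun p : (Fin (2 * m') → E × ℝ) × V => F p.1 p.2)
        = (Prod.snd ⁻¹' A).indicator (fun p => ∑' l : ℕ, ENNReal.ofReal (2 ^ (l * q)) *
            ENNReal.ofReal (exp (-(2 ^ l) * Bq p.1 (p.2 : E)))) := by
      ext p; rfl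
    rw [this]
    exact Measurable.indicator (Measurable.tsum fun l => by fun_prop) (measurable_snd hA)
  refine ⟨fun ω => (volume (ball (0 : V) 1))⁻¹ * ∫⁻ z, F ω z,
    (Measurable.lintegral_prod_right' hF).const_mul _, ?_, ?_⟩
  · have e : ∀ ω : Fin (2 * m') → E × ℝ, LL s ω x * ((volume (ball (0 : V) 1))⁻¹ * ∫⁻ z, F ω z)
        = (volume (ball (0 : V) 1))⁻¹ * ∫⁻ z, LL s ω x * F ω z := by
      intro ω
      rw [lintegral_const_mul _ (show Measurable (F ω) from hF.comp measurable_prodMk_left),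
        mul_left_comm]
    simp only [e]
    have hm : Measurable (fun p : (Fin (2 * m') → E × ℝ) × V => LL s p.1 x * F p.1 p.2) :=
      Measurable.mul (by fun_prop) hF
    rw [lintegral_const_mul _ (Measurable.lintegral_prod_right' hm),
      lintegral_lintegral_swap hm.aemeasurable]
    have h2 : ∫⁻ z, ∫⁻ ω, LL s ω x * F ω z ∂(lamn E (2 * m'))
        ≤ ∫⁻ z, (closedBall (0 : V) 2).indicator (fun _ => ENNReal.ofReal (2 ^ m') * 2) z := by
      refine lintegral_mono fun z => ?_
      by_cases hz : z ∈ A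
      · have hz' : z ∈ closedBall (0 : V) 2 := mem_closedBall_zero_iff.2 hz.2
        simp only [F, Set.indicator_of_mem hz, Set.indicator_of_mem hz', ← ENNReal.tsum_mul_left]
        rw [lintegral_tsum (fun l => by fun_prop), ← ENNReal.tsum_geometric_two,
          ← ENNReal.tsum_mul_left]
        refine ENNReal.tsum_le_tsum fun l => ?_
        simp only [mul_left_comm (LL s _ x)]
        rw [lintegral_const_mul _ (by fun_prop)]
        refine (mul_le_mul_right (lint_expneg_Bq hs m' x z hz.1 (by positivity)) _).trans ?_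
        rw [show (2⁻¹ : ℝ≥0∞) = ENNReal.ofReal 2⁻¹ by
          rw [ENNReal.ofReal_inv_of_pos (by norm_num)]; simp,
          ← ENNReal.ofReal_pow (by positivity), ← ENNReal.ofReal_mul (by positivity),
          ← ENNReal.ofReal_mul (by positivity)]
        refine ENNReal.ofReal_le_ofReal ?_
        rw [div_pow, ← pow_mul, inv_pow, ← div_eq_mul_inv, ← mul_div_assoc,
          div_le_div_iff₀ (by positivity) (by positivity), mul_comm ((2 : ℝ) ^ (l * q)), mul_assoc,
          ← pow_add]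
        gcongr
        · norm_num
        · calc l * q + l = l * (q + 1) := by ring
            _ ≤ l * m' := Nat.mul_le_mul_left _ hq
      · simp [F, Set.indicator_of_notMem hz]
    rw [lintegral_indicator_const measurableSet_closedBall,
      Measure.addHaar_closedBall _ _ (show (0 : ℝ) ≤ 2 by norm_num)] at h2
    refine (mul_le_mul_right h2 _).trans ?_
    rw [← mul_assoc (_ * 2), mul_comm, mul_assoc, ENNReal.mul_inv_cancel hb0 hbt,
      mul_one, show (2 : ℝ≥0∞) = ENNReal.ofReal 2 by simp, ← ENNReal.ofReal_mul (by positivity),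
      ← ENNReal.ofReal_mul (by positivity)]
    refine ENNReal.ofReal_le_ofReal ?_
    rw [← pow_succ, ← pow_add]
    exact pow_le_pow_right₀ (by norm_num) (by omega)
  · intro ω v N σ D hvV hv hN hσ hvσ hσD hDN
    have hN0 : 0 < N := by linarith
    have hD0 : 0 < D := by linarith
    set ρ := √(σ / (4 * N)) with hρ
    have hρ0 : 0 < ρ := by positivity
    have hρ2 : ρ ^ 2 = σ / (4 * N) := sq_sqrt (by positivity)
    have hρ1 : ρ ≤ 1 / 2 := by
      have : σ / (4 * N) ≤ (1 / 2) ^ 2 := by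
        rw [div_le_iff₀ (by positivity)]; linarith
      rw [← hρ2] at this
      exact (pow_le_pow_iff_left₀ hρ0.le (by norm_num) two_ne_zero).1 this
    obtain ⟨l, hl1, hl2⟩ := exists_nat_pow_near (x := D / σ) (y := 2)
      (by rw [le_div_iff₀ hσ]; linarith) (by norm_num)
    have h1 : ∫⁻ z, (ball (⟨v, hvV⟩ : V) ρ).indicator
        (fun _ => ENNReal.ofReal ((D / (2 * σ)) ^ q * exp (-(4 * D)))) z ≤ ∫⁻ z, F ω z := by
      refine lintegral_mono fun z => ?_
      by_cases hz : z ∈ ball (⟨v, hvV⟩ : V) ρ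
      · have hz' : ‖(z : E) - v‖ < ρ := by
          rw [mem_ball_iff_norm] at hz; exact hz
        have hzA : z ∈ A := by
          have h3 := norm_sub_norm_le (z : E) v
          have h4 := norm_sub_norm_le v (z : E)
          rw [norm_sub_rev] at h4
          constructor
          · change 1 / 2 ≤ ‖(z : E)‖; linarith
          · change ‖(z : E)‖ ≤ 2; linarith
        simp only [F, Set.indicator_of_mem hz, Set.indicator_of_mem hzA]
        refine le_trans ?_ (ENNReal.le_tsum l)
        rw [← ENNReal.ofReal_mul (by positivity)]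
        refine ENNReal.ofReal_le_ofReal ?_
        have h3 : Bq ω (z : E) ≤ 4 * σ := by
          have h4 := Bq_par ω v ((z : E) - v)
          have h5 := Bq_nonneg ω (v - ((z : E) - v))
          have h6 := hN ((z : E) - v)
          have h7 : ‖(z : E) - v‖ ^ 2 ≤ ρ ^ 2 := by gcongr
          have h8 : N * ρ ^ 2 = σ / 4 := by rw [hρ2]; field_simp
          rw [add_sub_cancel] at h4
          nlinarith
        rw [pow_mul]
        gcongr
        · rw [div_le_iff₀ (by positivity)]
          rw [div_lt_iff₀ hσ, pow_succ] at hl2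
          linarith
        · rw [le_div_iff₀ hσ] at hl1
          have : (0 : ℝ) < 2 ^ l := by positivity
          nlinarith
      · simp [Set.indicator_of_notMem hz]
    rw [lintegral_indicator_const measurableSet_ball, Measure.addHaar_ball_of_pos _ _ hρ0] at h1
    refine le_trans ?_ (mul_le_mul_right h1 _)
    rw [← mul_assoc (ENNReal.ofReal _), mul_comm (volume _)⁻¹, mul_assoc,
      ENNReal.mul_inv_cancel hb0 hbt, mul_one, ← ENNReal.ofReal_mul (by positivity), mul_comm]
    refine ENNReal.ofReal_le_ofReal ?_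
    gcongr ?_ * ?_
    exact pow_le_pow_of_le_one hρ0.le (by linarith) hV

end ang

end H2SL
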