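import Crest.Agent.H2.SL3

set_option autoImplicit false

namespace H2SL

open MeasureTheory ProbabilityTheory Real Metric
open scoped ENNReal RealInnerProductSpace

lemma log_le_nat_add (n : ℕ) {y : ℝ} (hy : 0 < y) : log y ≤ n + y / 2 ^ n := by
  have h1 := log_le_sub_one_of_pos (show 0 < y / 2 ^ n by positivity)
  rw [log_div hy.ne' (by positivity), log_pow] at h1
  have h2 := log_two_lt_d9
  have : (0 : ℝ) ≤ n := Nat.cast_nonneg n
  nlinarith

section ang
variable {E : Type} [NormedAddCommGroup E] [InnerProductSpace ℝ E] [FiniteDimensional ℝ E]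
  [MeasurableSpace E] [BorelSpace E]

omit [FiniteDimensional ℝ E] [MeasurableSpace E] [BorelSpace E] in
lemma ang_core {s : ℝ} (hs : 0 < s) {n : ℕ} (ω : Fin n → E × ℝ) (V : Submodule ℝ E)
    {N D G : ℝ} (hD : 0 < D) (hDN : D ≤ N) (hG : 0 ≤ G) (hN : ∀ z, Bq ω z ≤ N * ‖z‖ ^ 2)
    (hsb : ∀ v ∈ V, ‖v‖ = 1 → ∀ σ, 0 < σ → Bq ω v ≤ σ → σ ≤ D → log (D / σ) ≤ G)
    (x x' v w : E) (hv : v ∈ V) (hx : x' - x = v + w) (hvw : ⟪v, w⟫ = 0) :
    log ((s + ‖x' - x‖ ^ 2) / (s + ‖w‖ ^ 2))
      ≤ (2 * N + 4 * QQ ω x / s + 4 * QQ ω x' / s) / D + G := by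
  set X := 2 * N + 4 * QQ ω x / s + 4 * QQ ω x' / s with hX
  have hQ := QQ_nonneg ω x
  have hQ' := QQ_nonneg ω x'
  have hw : 0 < s + ‖w‖ ^ 2 := by positivity
  have h4 : 0 ≤ 4 * QQ ω x / s + 4 * QQ ω x' / s := by positivity
  have hXD : D ≤ X := by linarith
  have hX0 : 0 < X := by linarith
  have hu : ‖x' - x‖ ^ 2 = ‖v‖ ^ 2 + ‖w‖ ^ 2 := by rw [hx, norm_add_sq_real, hvw]; ring
  have hB : Bq ω v ≤ X * (s + ‖w‖ ^ 2) := by
    have h1 : Bq ω v ≤ 2 * Bq ω w + 4 * QQ ω x + 4 * QQ ω x' := by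
      unfold Bq QQ
      simp only [Finset.mul_sum, ← Finset.sum_add_distrib]
      refine Finset.sum_le_sum fun r _ => ?_
      have : ⟪(ω r).1, v⟫ = ((ω r).2 - ⟪(ω r).1, x⟫) - ((ω r).2 - ⟪(ω r).1, x'⟫) - ⟪(ω r).1, w⟫ := by
        have : v = x' - x - w := by rw [hx]; abel
        rw [this, inner_sub_right, inner_sub_right]; ring
      rw [this]
      set a := (ω r).2 - ⟪(ω r).1, x⟫
      set b := (ω r).2 - ⟪(ω r).1, x'⟫
      set c := ⟪(ω r).1, w⟫
      nlinarith [sq_nonneg (a - b + c), sq_nonneg (a + b)]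
    have h2 := hN w
    have h3 : (4 * QQ ω x / s + 4 * QQ ω x' / s) * s = 4 * QQ ω x + 4 * QQ ω x' := by field_simp
    have h5 : 0 ≤ (4 * QQ ω x / s + 4 * QQ ω x' / s) * ‖w‖ ^ 2 := by positivity
    have h6 : 0 ≤ N * s := by nlinarith
    rw [hX]
    nlinarith
  set t := ‖v‖ ^ 2 / (s + ‖w‖ ^ 2) with ht
  have hR : (s + ‖x' - x‖ ^ 2) / (s + ‖w‖ ^ 2) = 1 + t := by rw [hu, ht]; field_simp; ring
  have ht0 : 0 ≤ t := by positivity
  rw [hR]
  have hXD' : 1 ≤ X / D := by rw [le_div_iff₀ hD]; linarith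
  by_cases hc : t ≤ X / D
  · have := log_le_sub_one_of_pos (show 0 < 1 + t by positivity)
    linarith
  push Not at hc
  have htp : 0 < t := by linarith
  have hv0 : ‖v‖ ≠ 0 := by
    intro h; rw [ht, h] at htp; simp at htp
  have hvn : ‖(‖v‖⁻¹ • v)‖ = 1 := by rw [norm_smul, norm_inv, norm_norm, inv_mul_cancel₀ hv0]
  have h1 := hsb _ (V.smul_mem ‖v‖⁻¹ hv) hvn (X / t) (by positivity) (by
    rw [Bq_smul, ht, inv_pow, div_div_eq_mul_div, mul_comm, ← div_eq_mul_inv]
    gcongr) (by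
    rw [div_le_iff₀ htp]
    rw [div_lt_iff₀ hD] at hc
    linarith)
  have h2 : log (1 + t) ≤ log (2 * (X / D) * (D / (X / t))) := by
    refine log_le_log (by positivity) ?_
    rw [show 2 * (X / D) * (D / (X / t)) = 2 * t by field_simp]
    linarith
  rw [log_mul (by positivity) (by positivity), log_mul (by positivity) (by positivity)] at h2
  have h3 := log_le_sub_one_of_pos (show 0 < X / D by positivity)
  have h5 := log_two_lt_d9
  linarith

lemma ang {s : ℝ} (hs : 0 < s) {m' q : ℕ} (hq : q + 1 ≤ m') (hm : 2 * m' ≤ Module.finrank ℝ E)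
    (hd : Module.finrank ℝ E ≤ 20 * q) (x : E) (V : Submodule ℝ E) (hV : Module.finrank ℝ V ≤ q) :
    ∃ g : (Fin (2 * m') → E × ℝ) → ℝ≥0∞, Measurable g ∧
      ∫⁻ ω, LL s ω x * g ω ∂(lamn E (2 * m')) ≤ ENNReal.ofReal 1000 ∧
      ∀ ω x' v w, v ∈ V → x' - x = v + w → ⟪v, w⟫ = 0 →
        ENNReal.ofReal (log ((s + ‖x' - x‖ ^ 2) / (s + ‖w‖ ^ 2))
          - 4 * QQ ω x' / (s * Module.finrank ℝ E)) ≤ g ω := by
  obtain ⟨Γ, hΓm, hΓi, hΓ⟩ := op_bound hs m' x
  obtain ⟨Λ, hΛm, hΛi, hΛ⟩ := sb_bound hs hq x V hV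
  set d := Module.finrank ℝ E with hd_def
  have hd1 : (1 : ℝ) ≤ d := by exact_mod_cast (show 1 ≤ d by omega)
  have hq1 : (1 : ℝ) ≤ q := by exact_mod_cast (show 1 ≤ q by omega)
  have hm' : 2 * (m' : ℝ) ≤ d := by exact_mod_cast hm
  have hd' : (d : ℝ) ≤ 20 * q := by exact_mod_cast hd
  have hq' : (q : ℝ) + 1 ≤ m' := by exact_mod_cast hq
  refine ⟨fun ω => ENNReal.ofReal 632 + ENNReal.ofReal (288 / 2 ^ (d + m')) * Γ ω
    + ENNReal.ofReal (2 / 2 ^ (q + m' + 1)) * Λ ω
    + ENNReal.ofReal (4 / (s * d)) * ENNReal.ofReal (QQ ω x), by fun_prop, ?_, ?_⟩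
  · simp only [mul_add, mul_left_comm (LL s _ x)]
    rw [lintegral_add_left (by fun_prop), lintegral_add_left (by fun_prop),
      lintegral_add_left (by fun_prop), lintegral_mul_const _ (by fun_prop),
      lintegral_const_mul _ (by fun_prop), lintegral_const_mul _ (by fun_prop),
      lintegral_const_mul _ (by fun_prop), lint_LL hs, lint_LL_QQ hs, one_mul]
    calc _ ≤ ENNReal.ofReal 632 + ENNReal.ofReal (288 / 2 ^ (d + m')) * ENNReal.ofReal (2 ^ (d + m'))
          + ENNReal.ofReal (2 / 2 ^ (q + m' + 1)) * ENNReal.ofReal (2 ^ (q + m' + 1))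
          + ENNReal.ofReal (4 / (s * d)) *
            ENNReal.ofReal (((2 * m' : ℕ) : ℝ) * (s + ‖x - x‖ ^ 2)) := by gcongr
      _ ≤ _ := by
        rw [← ENNReal.ofReal_mul (by positivity), ← ENNReal.ofReal_mul (by positivity),
          ← ENNReal.ofReal_mul (by positivity), ← ENNReal.ofReal_add (by positivity) (by positivity),
          ← ENNReal.ofReal_add (by positivity) (by positivity),
          ← ENNReal.ofReal_add (by positivity) (by positivity)]
        refine ENNReal.ofReal_le_ofReal ?_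
        rw [div_mul_cancel₀ _ (by positivity), div_mul_cancel₀ _ (by positivity)]
        have : 4 / (s * d) * (((2 * m' : ℕ) : ℝ) * (s + ‖x - x‖ ^ 2)) ≤ 4 := by
          rw [sub_self, norm_zero, div_mul_eq_mul_div, div_le_iff₀ (by positivity)]
          push_cast
          nlinarith
        linarith
  · intro ω x' v w hv hx hvw
    by_cases hΓt : Γ ω = ∞
    · have : ENNReal.ofReal (288 / 2 ^ (d + m')) ≠ 0 := by
        rw [ne_eq, ENNReal.ofReal_eq_zero, not_le]; positivity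
      simp [hΓt, ENNReal.mul_top this]
    by_cases hΛt : Λ ω = ∞
    · have : ENNReal.ofReal (2 / 2 ^ (q + m' + 1)) ≠ 0 := by
        rw [ne_eq, ENNReal.ofReal_eq_zero, not_le]; positivity
      simp [hΛt, ENNReal.mul_top this]
    obtain ⟨γ, hγ0, hγ⟩ : ∃ γ : ℝ, 0 ≤ γ ∧ Γ ω = ENNReal.ofReal γ :=
      ⟨_, ENNReal.toReal_nonneg, (ENNReal.ofReal_toReal hΓt).symm⟩
    obtain ⟨L, hL0, hL⟩ : ∃ L : ℝ, 0 ≤ L ∧ Λ ω = ENNReal.ofReal L :=
      ⟨_, ENNReal.toReal_nonneg, (ENNReal.ofReal_toReal hΛt).symm⟩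
    have hQ := QQ_nonneg ω x
    simp only [hγ, hL]
    rw [← ENNReal.ofReal_mul (by positivity), ← ENNReal.ofReal_mul (by positivity),
      ← ENNReal.ofReal_mul (by positivity), ← ENNReal.ofReal_add (by positivity) (by positivity),
      ← ENNReal.ofReal_add (by positivity) (by positivity),
      ← ENNReal.ofReal_add (by positivity) (by positivity)]
    refine ENNReal.ofReal_le_ofReal ?_
    set a := γ / 2 ^ (d + m') with ha
    set b := L / 2 ^ (q + m' + 1) with hb
    have ha0 : 0 ≤ a := by positivity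
    have hb0 : 0 ≤ b := by positivity
    set N := 16 * ((d : ℝ) + m' + a) with hN
    have hNz : ∀ z, Bq ω z ≤ N * ‖z‖ ^ 2 := by
      intro z
      by_cases hz : ‖z‖ = 0
      · rw [norm_eq_zero.1 hz]; simp [Bq]
      have h1 := hΓ ω (‖z‖⁻¹ • z) (by rw [norm_smul, norm_inv, norm_norm, inv_mul_cancel₀ hz])
      rw [hγ, ENNReal.ofReal_le_ofReal_iff hγ0] at h1
      have hγp : 0 < γ := lt_of_lt_of_le (exp_pos _) h1
      rw [← le_log_iff_exp_le hγp, Bq_smul, inv_pow] at h1
      have h2 := log_le_nat_add (d + m') hγp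
      push_cast at h2
      have h3 : (‖z‖ ^ 2)⁻¹ * Bq ω z ≤ N := by rw [hN]; linarith
      rw [inv_mul_le_iff₀ (by positivity)] at h3
      linarith
    have hm0 : (0 : ℝ) ≤ m' := Nat.cast_nonneg _
    have hdN : (d : ℝ) ≤ N := by rw [hN]; linarith
    have h := ang_core hs ω V (N := N) (D := d) (G := (2 * (q + m' + 1 + b) + 8 * d) / q + 16 * N / d)
      (by linarith) hdN (by positivity) hNz (by
        intro v hv hv1 σ hσ hvσ hσD
        have h1 := hΛ ω v N σ d hv hv1 hNz hσ hvσ hσD hdN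
        rw [hL, ENNReal.ofReal_le_ofReal_iff hL0] at h1
        have hN0 : 0 < N := by linarith
        have hLp : 0 < L := lt_of_lt_of_le (by positivity) h1
        have h2 := log_le_log (by positivity) h1
        have h3 := log_le_nat_add (q + m' + 1) hLp
        push_cast at h3
        rw [log_mul (by positivity) (by positivity), log_mul (by positivity) (by positivity),
          log_pow, log_pow, log_exp, log_sqrt (by positivity)] at h2
        have h4 : log (σ / (4 * N)) + 2 * log (d / (2 * σ)) = log (d / σ) - log (16 * N / d) := by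
          rw [show (2 : ℝ) * log (d / (2 * σ)) = log ((d / (2 * σ)) ^ 2) by rw [log_pow]; norm_num,
            ← log_mul (by positivity) (by positivity), ← log_div (by positivity) (by positivity)]
          congr 1
          field_simp; norm_num
        have h5 := log_le_sub_one_of_pos (show 0 < 16 * N / d by positivity)
        have h6 : log (d / σ) - log (16 * N / d) ≤ (2 * (q + m' + 1 + b) + 8 * d) / q := by
          rw [le_div_iff₀ (by linarith), ← h4]
          nlinarith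
        linarith) x x' v w hv hx hvw
    have e1 : (2 * N + 4 * QQ ω x / s + 4 * QQ ω x' / s) / d
        = 2 * N / d + 4 / (s * d) * QQ ω x + 4 * QQ ω x' / (s * d) := by field_simp
    have e2 : 2 * N / d + 16 * N / d ≤ 432 + 288 * a := by
      rw [← add_div, div_le_iff₀ (by linarith), hN]
      nlinarith
    have e3 : (2 * (q + m' + 1 + b) + 8 * d) / q ≤ 200 + 2 * b := by
      rw [div_le_iff₀ (by linarith)]
      nlinarith
    have e4 : 288 / 2 ^ (d + m') * γ = 288 * a := by rw [ha]; ring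
    have e5 : 2 / 2 ^ (q + m' + 1) * L = 2 * b := by rw [hb]; ring
    rw [e4, e5]
    linarith

end ang

end H2SL
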