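import Crest.Agent.H2.SL4

set_option autoImplicit false

namespace H2SL

open MeasureTheory ProbabilityTheory Real Metric
open scoped ENNReal RealInnerProductSpace

section defs
variable {E : Type} [NormedAddCommGroup E] [InnerProductSpace ℝ E] [FiniteDimensional ℝ E]
  [MeasurableSpace E] [BorelSpace E]

/-- smoothed Riesz kernel -/
noncomputable def kr (s : ℝ) (n : ℕ) (u : E) : ℝ := (2 * π * (s + ‖u‖ ^ 2))⁻¹ ^ n

noncomputable def MM (s : ℝ) (n : ℕ) : ℝ := (2 * π * s)⁻¹ ^ n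

omit [InnerProductSpace ℝ E] [FiniteDimensional ℝ E] [MeasurableSpace E] [BorelSpace E] in
lemma kr_pos {s : ℝ} (hs : 0 < s) (n : ℕ) (u : E) : 0 < kr s n u := by
  unfold kr; have := pi_pos; positivity

lemma MM_pos {s : ℝ} (hs : 0 < s) (n : ℕ) : 0 < MM s n := by
  unfold MM; have := pi_pos; positivity

omit [InnerProductSpace ℝ E] [FiniteDimensional ℝ E] [MeasurableSpace E] [BorelSpace E] in
lemma kr_le {s : ℝ} (hs : 0 < s) (n : ℕ) (u : E) : kr s n u ≤ MM s n := by
  unfold kr MM; have := pi_pos; gcongr; linarith [sq_nonneg ‖u‖]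

omit [InnerProductSpace ℝ E] [FiniteDimensional ℝ E] in
@[fun_prop]
lemma measurable_kr {α : Type*} [MeasurableSpace α] {s : ℝ} {n : ℕ} {f : α → E}
    (hf : Measurable f) : Measurable (fun a => kr s n (f a)) := by
  unfold kr; fun_prop

lemma sqrt_pow_two_mul {a : ℝ} (ha : 0 ≤ a) (n : ℕ) : (√a)⁻¹ ^ (2 * n) = a⁻¹ ^ n := by
  rw [pow_mul, inv_pow, sq_sqrt ha]

omit [FiniteDimensional ℝ E] [MeasurableSpace E] [BorelSpace E] in
lemma ell_pos {s : ℝ} (hs : 0 < s) (θ : E × ℝ) (x : E) : 0 < ell s θ x :=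
  ENNReal.ofReal_pos.2 (phr_pos hs _)

omit [FiniteDimensional ℝ E] [MeasurableSpace E] [BorelSpace E] in
lemma LL_pos {s : ℝ} (hs : 0 < s) {n : ℕ} (ω : Fin n → E × ℝ) (x : E) : 0 < LL s ω x := by
  rw [LL_eq, ENNReal.ofReal_pos]; have := pi_pos; positivity

omit [FiniteDimensional ℝ E] [MeasurableSpace E] [BorelSpace E] in
lemma LL_le {s : ℝ} (hs : 0 < s) {n : ℕ} (ω : Fin (2 * n) → E × ℝ) (x : E) :
    LL s ω x ≤ ENNReal.ofReal (MM s n) := by
  have := pi_pos
  rw [LL_eq, sqrt_pow_two_mul (by positivity)]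
  refine ENNReal.ofReal_le_ofReal (mul_le_of_le_one_right (by positivity) ?_)
  rw [exp_le_one_iff]
  exact div_nonpos_of_nonpos_of_nonneg (by simp [QQ_nonneg]) (by positivity)

lemma LL_pair' {s : ℝ} (hs : 0 < s) (n : ℕ) (x x' : E) :
    ∫⁻ ω, LL s ω x * LL s ω x' ∂(lamn E (2 * n)) ≤ ENNReal.ofReal (kr s n (x' - x)) := by
  have h := LL_pair hs (2 * n) x x'
  have := pi_pos
  rwa [sqrt_pow_two_mul (by positivity)] at h

noncomputable def zz (s : ℝ) {ι : Type} (S : Finset ι) (x : E) (xs : ι → E) : ℝ≥0∞ :=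
  ∫⁻ θ, ell s θ x * ∏ l ∈ S, ell s θ (xs l) ∂(lam E)

lemma measurable_zz {α : Type*} [MeasurableSpace α] {s : ℝ} {ι : Type} (S : Finset ι) {f : α → E}
    {g : α → ι → E} (hf : Measurable f) (hg : ∀ l, Measurable (fun a => g a l)) :
    Measurable (fun a => zz s S (f a) (g a)) :=
  Measurable.lintegral_prod_right' (f := fun p : α × (E × ℝ) =>
    ell s p.2 (f p.1) * ∏ l ∈ S, ell s p.2 (g p.1 l)) (by fun_prop)

lemma lam_ne_zero : lam E ≠ 0 := by
  intro h
  have := lint_ell_one (E := E) one_pos 0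
  rw [h] at this
  simp at this

lemma zz_pos {s : ℝ} (hs : 0 < s) {ι : Type} (S : Finset ι) (x : E) (xs : ι → E) :
    0 < zz s S x xs := by
  unfold zz
  rw [lintegral_pos_iff_support (by fun_prop)]
  have : Function.support (fun θ => ell s θ x * ∏ l ∈ S, ell s θ (xs l)) = Set.univ := by
    ext θ
    simp only [Function.mem_support, Set.mem_univ, iff_true]
    exact mul_ne_zero (ell_pos hs _ _).ne' (Finset.prod_ne_zero_iff.2 fun l _ => (ell_pos hs _ _).ne')
  rw [this]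
  exact Measure.measure_univ_pos.2 lam_ne_zero

lemma zz_ne_top {s : ℝ} (hs : 0 < s) {ι : Type} (S : Finset ι) (x : E) (xs : ι → E) :
    zz s S x xs ≠ ∞ := by
  have h : zz s S x xs ≤ ∫⁻ θ, ell s θ x * ∏ _l ∈ S, ENNReal.ofReal (√(2 * π * s))⁻¹ ∂(lam E) := by
    refine lintegral_mono fun θ => ?_
    gcongr with l
    exact ENNReal.ofReal_le_ofReal (phr_le hs _)
  rw [lintegral_mul_const _ (by fun_prop), lint_ell_one hs] at h
  exact ne_top_of_le_ne_top (by simp) h

lemma zz_empty {s : ℝ} (hs : 0 < s) {ι : Type} (x : E) (xs : ι → E) : zz s ∅ x xs = 1 := by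
  simp [zz, lint_ell_one hs]

lemma zz_pow {s : ℝ} {ι : Type} (S : Finset ι) (x : E) (xs : ι → E) (n : ℕ) :
    ∫⁻ ω, LL s ω x * ∏ l ∈ S, LL s ω (xs l) ∂(lamn E n) = zz s S x xs ^ n := by
  unfold LL lamn zz
  simp only [Finset.prod_comm (s := S), ← Finset.prod_mul_distrib]
  rw [lint_pi_pow (lam E) (fun θ => ell s θ x * ∏ l ∈ S, ell s θ (xs l)) (by fun_prop)]

/-- the angle estimate for the ratio of normalisers -/
lemma zz_step {s : ℝ} (hs : 0 < s) {ι : Type} [DecidableEq ι] (S : Finset ι) (x : E) (xs : ι → E) :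
    ∃ V : Submodule ℝ E, Module.finrank ℝ V ≤ S.card ∧ ∀ x' : E, ∃ v ∈ V, ∃ w : E,
      x' - x = v + w ∧ ⟪v, w⟫ = 0 ∧ ∀ (i : ι) (ys : ι → E), i ∉ S → (∀ l ∈ S, ys l = xs l) →
        ys i = x' → 2 * (log (zz s (insert i S) x ys).toReal - log (zz s S x ys).toReal)
          + log (2 * π * (s + ‖x' - x‖ ^ 2)) ≤ log ((s + ‖x' - x‖ ^ 2) / (s + ‖w‖ ^ 2)) := by
  classical
  let V : Submodule ℝ E := Submodule.span ℝ ((S.image (fun l => xs l - x) : Finset E) : Set E)
  refine ⟨V, (finrank_span_finset_le_card _).trans Finset.card_image_le, fun x' => ?_⟩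
  refine ⟨V.starProjection (x' - x), V.starProjection_apply_mem _,
    x' - x - V.starProjection (x' - x), by abel, ?_, ?_⟩
  · exact Submodule.inner_right_of_mem_orthogonal (V.starProjection_apply_mem _)
      (V.sub_starProjection_mem_orthogonal _)
  intro i ys hi hys hi'
  set w := x' - x - V.starProjection (x' - x) with hw
  have hwV : w ∈ Vᗮ := V.sub_starProjection_mem_orthogonal _
  have h := row_step hs S ys x x' ‖w‖ (by
    by_cases h : ‖w‖ = 0
    · exact Or.inl h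
    · right
      refine ⟨‖w‖⁻¹ • w, by rw [norm_smul, norm_inv, norm_norm, inv_mul_cancel₀ h], ?_, ?_⟩
      · intro l hl
        rw [real_inner_smul_left, hys l hl, Submodule.inner_left_of_mem_orthogonal
          (Submodule.subset_span (by simpa using ⟨l, hl, rfl⟩)) hwV, mul_zero]
      · have : x' - x = V.starProjection (x' - x) + w := by rw [hw]; abel
        rw [real_inner_smul_left, this, inner_add_right,
          Submodule.inner_left_of_mem_orthogonal (V.starProjection_apply_mem _) hwV,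
          real_inner_self_eq_norm_sq]
        field_simp; ring)
  have e : zz s (insert i S) x ys
      = ∫⁻ θ, (ell s θ x * ∏ l ∈ S, ell s θ (ys l)) * ell s θ x' ∂(lam E) := by
    unfold zz
    refine lintegral_congr fun θ => ?_
    rw [Finset.prod_insert hi, hi']; ring
  rw [← e] at h
  change _ ≤ _ * zz s S x ys at h
  have hp := pi_pos
  have h1 := ENNReal.toReal_mono (ENNReal.mul_ne_top ENNReal.ofReal_ne_top (zz_ne_top hs S x ys)) h
  rw [ENNReal.toReal_mul, ENNReal.toReal_ofReal (by positivity)] at h1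
  have p1 := ENNReal.toReal_pos (zz_pos hs S x ys).ne' (zz_ne_top hs S x ys)
  have p2 := ENNReal.toReal_pos (zz_pos hs (insert i S) x ys).ne' (zz_ne_top hs _ x ys)
  have h2 := log_le_log p2 h1
  rw [log_mul (by positivity) p1.ne', log_inv, log_sqrt (by positivity)] at h2
  rw [log_div (by positivity) (by positivity), log_mul (by positivity) (by positivity)]
  rw [log_mul (by positivity) (by positivity)] at h2
  linarith

variable {X : Type} [MeasurableSpace X] (e : X → E) (ν : Measure X) (s : ℝ)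

noncomputable def pp {n1 n2 : ℕ} (ω1 : Fin n1 → E × ℝ) (ω2 : Fin n2 → E × ℝ) : ℝ≥0∞ :=
  ∫⁻ x, LL s ω1 (e x) * LL s ω2 (e x) ∂ν

noncomputable def UU (n : ℕ) (F : X → ℝ≥0∞) (x : X) : ℝ≥0∞ :=
  ∫⁻ x', ENNReal.ofReal (kr s n (e x' - e x)) * F x' ∂ν

variable {e ν s}

lemma measurable_pp [SFinite ν] (he : Measurable e) {α : Type*} [MeasurableSpace α] {n1 n2 : ℕ}
    {f : α → Fin n1 → E × ℝ} {g : α → Fin n2 → E × ℝ} (hf : Measurable f) (hg : Measurable g) :
    Measurable (fun a => pp e ν s (f a) (g a)) :=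
  Measurable.lintegral_prod_right' (f := fun p : α × X =>
    LL s (f p.1) (e p.2) * LL s (g p.1) (e p.2)) (by fun_prop)

omit [InnerProductSpace ℝ E] in
lemma measurable_UU [SFinite ν] [SecondCountableTopology E] (he : Measurable e) (n : ℕ)
    {F : X → ℝ≥0∞} (hF : Measurable F) : Measurable (UU e ν s n F) :=
  Measurable.lintegral_prod_right' (f := fun p : X × X =>
    ENNReal.ofReal (kr s n (e p.2 - e p.1)) * F p.2) (by fun_prop)

lemma lint_pos_of_pos {Y : Type*} [MeasurableSpace Y] {μ : Measure Y} (hμ : μ ≠ 0) {f : Y → ℝ≥0∞}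
    (hf : Measurable f) (h : ∀ y, f y ≠ 0) : ∫⁻ y, f y ∂μ ≠ 0 := by
  refine ((lintegral_pos_iff_support hf).2 ?_).ne'
  rw [show Function.support f = Set.univ from Set.eq_univ_of_forall h]
  exact Measure.measure_univ_pos.2 hμ

lemma pp_ne_zero (hs : 0 < s) (he : Measurable e) (hν : ν ≠ 0) {n1 n2 : ℕ}
    (ω1 : Fin n1 → E × ℝ) (ω2 : Fin n2 → E × ℝ) : pp e ν s ω1 ω2 ≠ 0 :=
  lint_pos_of_pos hν (by fun_prop) fun _ => mul_ne_zero (LL_pos hs _ _).ne' (LL_pos hs _ _).ne'

omit [FiniteDimensional ℝ E] [MeasurableSpace E] [BorelSpace E] in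
lemma pp_le (hs : 0 < s) (hν : ν Set.univ ≤ 1) {k' m' : ℕ}
    (ω1 : Fin (2 * k') → E × ℝ) (ω2 : Fin (2 * m') → E × ℝ) :
    pp e ν s ω1 ω2 ≤ ENNReal.ofReal (MM s (k' + m')) := by
  calc _ ≤ ∫⁻ _, ENNReal.ofReal (MM s k') * ENNReal.ofReal (MM s m') ∂ν :=
        lintegral_mono fun x => mul_le_mul' (LL_le hs _ _) (LL_le hs _ _)
    _ ≤ _ := by
      rw [lintegral_const, ← ENNReal.ofReal_mul (MM_pos hs _).le, MM, MM, ← pow_add]
      exact mul_le_of_le_one_right' hν

omit [InnerProductSpace ℝ E] [FiniteDimensional ℝ E] [MeasurableSpace E] [BorelSpace E] in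
lemma UU_le (hs : 0 < s) (hν : ν Set.univ ≤ 1) (n : ℕ) {F : X → ℝ≥0∞} (hF : ∀ x, F x ≤ 1) (x : X) :
    UU e ν s n F x ≤ ENNReal.ofReal (MM s n) := by
  calc _ ≤ ∫⁻ _, ENNReal.ofReal (MM s n) ∂ν := lintegral_mono fun x' =>
        (mul_le_of_le_one_right' (hF x')).trans (ENNReal.ofReal_le_ofReal (kr_le hs _ _))
    _ ≤ _ := by rw [lintegral_const]; exact mul_le_of_le_one_right' hν

omit [InnerProductSpace ℝ E] [FiniteDimensional ℝ E] in
lemma UU_ne_zero [SecondCountableTopology E] (hs : 0 < s) (he : Measurable e) (hν : ν ≠ 0) (n : ℕ)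
    {F : X → ℝ≥0∞} (hF : Measurable F) (hF0 : ∀ x, F x ≠ 0) (x : X) : UU e ν s n F x ≠ 0 :=
  lint_pos_of_pos hν (by fun_prop) fun _ =>
    mul_ne_zero (ENNReal.ofReal_pos.2 (kr_pos hs _ _)).ne' (hF0 _)

end defs

end H2SL
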