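import Crest.Agent.H2.SL5

set_option autoImplicit false

namespace H2SL

open MeasureTheory ProbabilityTheory Real Metric
open scoped ENNReal RealInnerProductSpace

lemma ofReal_sum_le {ι : Type*} (S : Finset ι) (f : ι → ℝ) :
    ENNReal.ofReal (∑ i ∈ S, f i) ≤ ∑ i ∈ S, ENNReal.ofReal (f i) := by
  classical
  induction S using Finset.induction_on with
  | empty => simp
  | insert a S ha ih =>
    rw [Finset.sum_insert ha, Finset.sum_insert ha]
    exact ENNReal.ofReal_add_le.trans (add_le_add le_rfl ih)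

section inner
variable {E : Type} [NormedAddCommGroup E] [InnerProductSpace ℝ E] [FiniteDimensional ℝ E]
  [MeasurableSpace E] [BorelSpace E] {X : Type} [MeasurableSpace X] (e : X → E) (ν : Measure X)
  (s : ℝ)

/-- resampling density -/
noncomputable def cc {n1 n2 : ℕ} (x : X) (ω1 : Fin n1 → E × ℝ) (ζ : (Fin n2 → E × ℝ) × X) : ℝ≥0∞ :=
  LL s ζ.1 (e x) * (LL s ω1 (e ζ.2) * LL s ζ.1 (e ζ.2)) * (pp e ν s ω1 ζ.1)⁻¹

noncomputable def cost (k' m' : ℕ) (F : X → ℝ≥0∞) (ω1 : Fin (2 * k') → E × ℝ)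
    (ζ : (Fin (2 * m') → E × ℝ) × X) : ℝ≥0∞ :=
  ENNReal.ofReal (-log (F ζ.2).toReal)
    + ENNReal.ofReal (log (MM s (k' + m') / (pp e ν s ω1 ζ.1).toReal))
    + ENNReal.ofReal (k' * (4 * QQ ζ.1 (e ζ.2) / (s * Module.finrank ℝ E)))

noncomputable def GG (k' m' : ℕ) (F : X → ℝ≥0∞) (x : X) (ζ : (Fin (2 * m') → E × ℝ) × X) : ℝ≥0∞ :=
  (LL s ζ.1 (e x) * LL s ζ.1 (e ζ.2) * (ENNReal.ofReal (kr s m' (e ζ.2 - e x)))⁻¹) *
    (ENNReal.ofReal (kr s (k' + m') (e ζ.2 - e x)) * F ζ.2 * (UU e ν s (k' + m') F x)⁻¹)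

noncomputable def JJ (k' m' q : ℕ) (N : ℝ) (F : X → ℝ≥0∞) (x : X) (ω1 : Fin (2 * k') → E × ℝ)
    (ζ : Fin q → (Fin (2 * m') → E × ℝ) × X) : ℝ≥0∞ :=
  (∏ i, LL s ω1 (e (ζ i).2)) * ((∏ i, GG e ν s k' m' F x (ζ i)) *
    (ENNReal.ofReal N * zz s Finset.univ (e x) (fun i => e (ζ i).2) ^ (2 * k'))⁻¹)

variable {e ν s}

lemma measurable_cc [SFinite ν] (he : Measurable e) {α : Type*} [MeasurableSpace α] {n1 n2 : ℕ}
    {f : α → X} {g : α → Fin n1 → E × ℝ} {h : α → (Fin n2 → E × ℝ) × X} (hf : Measurable f)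
    (hg : Measurable g) (hh : Measurable h) : Measurable (fun a => cc e ν s (f a) (g a) (h a)) := by
  have := measurable_pp (ν := ν) (s := s) he hg hh.fst
  unfold cc; fun_prop

lemma measurable_cost [SFinite ν] (he : Measurable e) {α : Type*} [MeasurableSpace α] {k' m' : ℕ}
    {F : X → ℝ≥0∞} (hF : Measurable F) {g : α → Fin (2 * k') → E × ℝ}
    {h : α → (Fin (2 * m') → E × ℝ) × X}
    (hg : Measurable g) (hh : Measurable h) :
    Measurable (fun a => cost e ν s k' m' F (g a) (h a)) := by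
  have := measurable_pp (ν := ν) (s := s) he hg hh.fst
  unfold cost; fun_prop

lemma measurable_GG [SFinite ν] (he : Measurable e) {α : Type*} [MeasurableSpace α] {k' m' : ℕ}
    {F : X → ℝ≥0∞} (hF : Measurable F) {f : α → X} {h : α → (Fin (2 * m') → E × ℝ) × X}
    (hf : Measurable f) (hh : Measurable h) :
    Measurable (fun a => GG e ν s k' m' F (f a) (h a)) := by
  have := (measurable_UU (ν := ν) (s := s) he (k' + m') hF).comp hf
  have h2 : Measurable (fun a => UU e ν s (k' + m') F (f a)) := this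
  unfold GG; fun_prop

lemma measurable_JJ [SFinite ν] (he : Measurable e) {α : Type*} [MeasurableSpace α] {k' m' q : ℕ}
    {N : ℝ} {F : X → ℝ≥0∞} (hF : Measurable F) {f : α → X} {g : α → Fin (2 * k') → E × ℝ}
    {h : α → Fin q → (Fin (2 * m') → E × ℝ) × X}
    (hf : Measurable f) (hg : Measurable g) (hh : Measurable h) :
    Measurable (fun a => JJ e ν s k' m' q N F (f a) (g a) (h a)) := by
  have h1 : ∀ i, Measurable (fun a => GG e ν s k' m' F (f a) (h a i)) := fun i =>
    measurable_GG he hF hf (by fun_prop)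
  have h2 : Measurable (fun a => zz s Finset.univ (e (f a)) (fun i => e (h a i).2)) :=
    measurable_zz _ (by fun_prop) (fun l => by fun_prop)
  unfold JJ; fun_prop

lemma lint_cc [IsFiniteMeasure ν] (hs : 0 < s) (he : Measurable e) (hν0 : ν ≠ 0)
    (hν : ν Set.univ ≤ 1) {k' m' : ℕ} (x : X) (ω1 : Fin (2 * k') → E × ℝ)
    {g : (Fin (2 * m') → E × ℝ) → ℝ≥0∞} (hg : Measurable g) :
    ∫⁻ ζ, cc e ν s x ω1 ζ * g ζ.1 ∂((lamn E (2 * m')).prod ν)
      = ∫⁻ ω, LL s ω (e x) * g ω ∂(lamn E (2 * m')) := by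
  have hc : Measurable (cc e ν s x ω1 (n2 := 2 * m')) :=
    measurable_cc he measurable_const measurable_const measurable_id
  rw [lintegral_prod _ (by fun_prop)]
  refine lintegral_congr fun ω => ?_
  simp only [cc]
  rw [lintegral_mul_const _ (by fun_prop), lintegral_mul_const _ (by fun_prop),
    lintegral_const_mul _ (by fun_prop)]
  change _ * pp e ν s ω1 ω * _ * _ = _
  rw [mul_assoc (LL s ω (e x)), ENNReal.mul_inv_cancel (pp_ne_zero hs he hν0 _ _)
    (ne_top_of_le_ne_top ENNReal.ofReal_ne_top (pp_le hs hν _ _)), mul_one]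

theorem inner_ineq [IsFiniteMeasure ν] (hs : 0 < s) (he : Measurable e) (hν0 : ν ≠ 0)
    (hν : ν Set.univ ≤ 1) {k' m' q : ℕ} (hq : q + 1 ≤ m') (hm : 2 * m' ≤ Module.finrank ℝ E)
    (hd : Module.finrank ℝ E ≤ 20 * q) {N : ℝ} (hN : 1 ≤ N) {F : X → ℝ≥0∞} (hF : Measurable F)
    (hF0 : ∀ x, F x ≠ 0) (hF1 : ∀ x, F x ≤ 1) (x : X) (ω1 : Fin (2 * k') → E × ℝ) :
    q * ENNReal.ofReal (log (MM s (k' + m') / (UU e ν s (k' + m') F x).toReal))
      ≤ ∫⁻ ζ, JJ e ν s k' m' q N F x ω1 ζ ∂(Measure.pi fun _ => (lamn E (2 * m')).prod ν)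
        + ENNReal.ofReal (log N)
        + q * ∫⁻ ζ, cc e ν s x ω1 ζ * cost e ν s k' m' F ω1 ζ ∂((lamn E (2 * m')).prod ν)
        + q * (k' * ENNReal.ofReal 1000) := by
  classical
  set μ := (lamn E (2 * m')).prod ν with hμ
  set d := Module.finrank ℝ E with hd_def
  have hp := pi_pos
  let c : (Fin (2 * m') → E × ℝ) × X → ℝ≥0∞ := cc e ν s x ω1
  have hc : Measurable c := measurable_cc he measurable_const measurable_const measurable_id
  have hc1 : ∫⁻ ζ, c ζ ∂μ = 1 := by
    have := lint_cc hs he hν0 hν x ω1 (m' := m') (g := fun _ => 1) measurable_const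
    simpa [lint_LL hs] using this
  have hcost : Measurable (cost e ν s k' m' F ω1) :=
    measurable_cost he hF measurable_const measurable_id
  let S : ℕ → Finset (Fin q) := fun n => Finset.univ.filter (fun l => (l : ℕ) < n)
  let Z : ℕ → (Fin q → (Fin (2 * m') → E × ℝ) × X) → ℝ := fun n ζ =>
    log (zz s (S n) (e x) (fun i => e (ζ i).2)).toReal
  have hZ : ∀ n, Measurable (Z n) := fun n =>
    (measurable_zz (S n) measurable_const (fun l => by fun_prop)).ennreal_toReal.log
  let T : Fin q → (Fin q → (Fin (2 * m') → E × ℝ) × X) → ℝ := fun i ζ =>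
    k' * (2 * (Z (i + 1) ζ - Z i ζ) + log (2 * π * (s + ‖e (ζ i).2 - e x‖ ^ 2))
      - 4 * QQ (ζ i).1 (e (ζ i).2) / (s * d))
  have hT : ∀ i, Measurable (T i) := fun i => by
    have h1 := hZ (i + 1)
    have h2 := hZ i
    simp only [T]; fun_prop
  set U := UU e ν s (k' + m') F x with hU
  have hU0 : U ≠ 0 := UU_ne_zero hs he hν0 _ hF hF0 x
  have hUle : U ≤ ENNReal.ofReal (MM s (k' + m')) := UU_le hs hν _ hF1 x
  have hUt : U ≠ ∞ := ne_top_of_le_ne_top ENNReal.ofReal_ne_top hUle
  have hUp : 0 < U.toReal := ENNReal.toReal_pos hU0 hUt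
  have hMp := MM_pos hs (k' + m')
  have hpp0 : ∀ ω : Fin (2 * m') → E × ℝ, pp e ν s ω1 ω ≠ 0 := fun ω => pp_ne_zero hs he hν0 _ _
  have hppt : ∀ ω : Fin (2 * m') → E × ℝ, pp e ν s ω1 ω ≠ ∞ := fun ω =>
    ne_top_of_le_ne_top ENNReal.ofReal_ne_top (pp_le hs hν _ _)
  let dd : (Fin (2 * m') → E × ℝ) × X → ℝ≥0∞ := fun ζ =>
    pp e ν s ω1 ζ.1 * (ENNReal.ofReal (kr s m' (e ζ.2 - e x)))⁻¹ *
      (ENNReal.ofReal (kr s (k' + m') (e ζ.2 - e x)) * F ζ.2 * U⁻¹)
  let D : (Fin q → (Fin (2 * m') → E × ℝ) × X) → ℝ≥0∞ := fun ζ =>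
    (∏ i, dd (ζ i)) * (ENNReal.ofReal N * zz s Finset.univ (e x) (fun i => e (ζ i).2) ^ (2 * k'))⁻¹
  have hcD : ∀ ζ, (∏ i, c (ζ i)) * D ζ = JJ e ν s k' m' q N F x ω1 ζ := by
    intro ζ
    simp only [D, JJ, ← mul_assoc, ← Finset.prod_mul_distrib]
    congr 1
    refine Finset.prod_congr rfl fun i _ => ?_
    simp only [c, cc, dd, GG, ← hU]
    have := ENNReal.inv_mul_cancel (hpp0 (ζ i).1) (hppt (ζ i).1)
    calc _ = ((pp e ν s ω1 (ζ i).1)⁻¹ * pp e ν s ω1 (ζ i).1) * (LL s ω1 (e (ζ i).2) *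
        (LL s (ζ i).1 (e x) * LL s (ζ i).1 (e (ζ i).2) *
          (ENNReal.ofReal (kr s m' (e (ζ i).2 - e x)))⁻¹ *
          (ENNReal.ofReal (kr s (k' + m') (e (ζ i).2 - e x)) * F (ζ i).2 * U⁻¹))) := by ring
      _ = _ := by rw [this, one_mul]
  -- pointwise inequality
  have hpt : ∀ ζ, q * ENNReal.ofReal (log (MM s (k' + m') / U.toReal))
      ≤ D ζ + ENNReal.ofReal (log N) + ∑ i, cost e ν s k' m' F ω1 (ζ i)
        + ∑ i, ENNReal.ofReal (T i ζ) := by
    intro ζ
    have hFp : ∀ i, 0 < (F (ζ i).2).toReal := fun i =>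
      ENNReal.toReal_pos (hF0 _) (ne_top_of_le_ne_top ENNReal.one_ne_top (hF1 _))
    have hppp : ∀ i, 0 < (pp e ν s ω1 (ζ i).1).toReal := fun i =>
      ENNReal.toReal_pos (hpp0 _) (hppt _)
    have hzp : 0 < (zz s Finset.univ (e x) (fun i => e (ζ i).2)).toReal :=
      ENNReal.toReal_pos (zz_pos hs _ _ _).ne' (zz_ne_top hs _ _ _)
    have hdd : ∀ i, (dd (ζ i)).toReal = (pp e ν s ω1 (ζ i).1).toReal * (kr s m' (e (ζ i).2 - e x))⁻¹ *
        (kr s (k' + m') (e (ζ i).2 - e x) * (F (ζ i).2).toReal * U.toReal⁻¹) := by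
      intro i
      simp only [dd, ENNReal.toReal_mul, ENNReal.toReal_inv,
        ENNReal.toReal_ofReal (kr_pos hs _ _).le]
    have hddp : ∀ i, 0 < (dd (ζ i)).toReal := fun i => by
      have h1 := hFp i
      have h2 := hppp i
      have h3 := kr_pos hs m' (e (ζ i).2 - e x)
      have h4 := kr_pos hs (k' + m') (e (ζ i).2 - e x)
      rw [hdd]; positivity
    have hlogdd : ∀ i, log (dd (ζ i)).toReal = log (MM s (k' + m') / U.toReal)
        - (-log (F (ζ i).2).toReal + log (MM s (k' + m') / (pp e ν s ω1 (ζ i).1).toReal))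
        - k' * log (2 * π * (s + ‖e (ζ i).2 - e x‖ ^ 2)) := by
      intro i
      have h1 := hFp i
      have h2 := hppp i
      have h3 := kr_pos hs m' (e (ζ i).2 - e x)
      have h4 := kr_pos hs (k' + m') (e (ζ i).2 - e x)
      rw [hdd, log_mul (by positivity) (by positivity), log_mul (by positivity) (by positivity),
        log_mul (by positivity) (by positivity), log_mul (by positivity) (by positivity),
        log_inv, log_inv, log_div hMp.ne' hUp.ne', log_div hMp.ne' h2.ne', kr, kr, log_pow,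
        log_pow, log_inv]
      push_cast; ring
    have hD : (D ζ).toReal = (∏ i, (dd (ζ i)).toReal) *
        (N * (zz s Finset.univ (e x) (fun i => e (ζ i).2)).toReal ^ (2 * k'))⁻¹ := by
      simp only [D, ENNReal.toReal_mul, ENNReal.toReal_inv, ENNReal.toReal_prod,
        ENNReal.toReal_pow, ENNReal.toReal_ofReal (zero_le_one.trans hN)]
    have hprod : 0 < ∏ i, (dd (ζ i)).toReal := Finset.prod_pos fun i _ => hddp i
    have hN0 : 0 < N := by linarith
    have hDp : 0 < (D ζ).toReal := by rw [hD]; positivity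
    have h1 := log_le_sub_one_of_pos hDp
    have htel : ∑ i : Fin q, (Z (i + 1) ζ - Z i ζ)
        = log (zz s Finset.univ (e x) (fun i => e (ζ i).2)).toReal := by
      rw [Fin.sum_univ_eq_sum_range (fun i => Z (i + 1) ζ - Z i ζ), Finset.sum_range_sub (Z · ζ)]
      have a1 : S q = Finset.univ := by ext l; simp [S]
      have a2 : S 0 = ∅ := by ext l; simp [S]
      simp only [Z, a1, a2, zz_empty hs]
      simp
    rw [hD, log_mul hprod.ne' (by positivity), log_inv, log_mul hN0.ne' (by positivity), log_pow,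
      log_prod (fun i _ => (hddp i).ne'), ← htel, ← hD] at h1
    simp only [hlogdd] at h1
    have h2 : q * log (MM s (k' + m') / U.toReal) ≤ (D ζ).toReal + log N
        + ∑ i, (-log (F (ζ i).2).toReal + log (MM s (k' + m') / (pp e ν s ω1 (ζ i).1).toReal)
          + k' * (4 * QQ (ζ i).1 (e (ζ i).2) / (s * d))) + ∑ i, T i ζ := by
      have e1 : ∑ i, T i ζ = (2 * k' : ℕ) * ∑ i : Fin q, (Z (i + 1) ζ - Z i ζ)
          + ∑ i, k' * log (2 * π * (s + ‖e (ζ i).2 - e x‖ ^ 2))
          - ∑ i, k' * (4 * QQ (ζ i).1 (e (ζ i).2) / (s * d)) := by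
        rw [Finset.mul_sum, ← Finset.sum_add_distrib, ← Finset.sum_sub_distrib]
        refine Finset.sum_congr rfl fun i _ => ?_
        simp only [T]; push_cast; ring
      rw [e1, Finset.sum_add_distrib]
      rw [Finset.sum_sub_distrib, Finset.sum_sub_distrib, Finset.sum_const, Finset.card_univ,
        Fintype.card_fin, nsmul_eq_mul] at h1
      linarith
    calc _ = ENNReal.ofReal (q * log (MM s (k' + m') / U.toReal)) := by
          rw [ENNReal.ofReal_mul (Nat.cast_nonneg _), ENNReal.ofReal_natCast]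
      _ ≤ _ := ENNReal.ofReal_le_ofReal h2
      _ ≤ _ := by
          refine ENNReal.ofReal_add_le.trans (add_le_add (ENNReal.ofReal_add_le.trans (add_le_add
            (ENNReal.ofReal_add_le.trans (add_le_add ENNReal.ofReal_toReal_le le_rfl)) ?_)) ?_)
          · refine (ofReal_sum_le _ _).trans (Finset.sum_le_sum fun i _ => ?_)
            exact ENNReal.ofReal_add_le.trans (add_le_add ENNReal.ofReal_add_le le_rfl)
          · exact ofReal_sum_le _ _
  -- angle terms
  have hang : ∀ i, ∫⁻ ζ, (∏ r, c (ζ r)) * ENNReal.ofReal (T i ζ) ∂(Measure.pi fun _ => μ)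
      ≤ k' * ENNReal.ofReal 1000 := by
    intro i
    have h0 : ∫⁻ ζ : Fin q → (Fin (2 * m') → E × ℝ) × X, (∏ r, c (ζ r)) * (k' * ENNReal.ofReal 1000)
        ∂(Measure.pi fun _ => μ) = k' * ENNReal.ofReal 1000 := by
      rw [lintegral_mul_const _ (by fun_prop), lint_pi_pow μ c hc, hc1, one_pow, one_mul]
    rw [← h0]
    have hTi := hT i
    refine lintegral_le_of_lmarginal_le {i} (by fun_prop) (by fun_prop) ?_
    rw [lmarginal_singleton, lmarginal_singleton]
    intro ζ
    simp only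
    have hup : ∀ t, ∏ r, c (Function.update ζ i t r) = (∏ r ∈ ({i}ᶜ : Finset (Fin q)), c (ζ r)) * c t := by
      intro t
      rw [Fintype.prod_eq_mul_prod_compl i, Function.update_self, mul_comm]
      congr 1
      exact Finset.prod_congr rfl fun r hr => by
        rw [Function.update_of_ne (by simpa using hr)]
    simp only [hup, mul_assoc]
    have hTu : Measurable (fun t => T i (Function.update ζ i t)) :=
      hTi.comp (measurable_update ζ)
    rw [lintegral_const_mul _ (by fun_prop), lintegral_const_mul _ (by fun_prop),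
      lintegral_mul_const _ hc, hc1, one_mul]
    gcongr
    obtain ⟨V, hV, hVs⟩ := zz_step hs (S i) (e x) (fun l => e (ζ l).2)
    obtain ⟨g, hg, hgi, hgb⟩ := ang hs hq hm hd (e x) V
      (hV.trans ((Finset.card_le_univ _).trans (by simp)))
    calc _ ≤ ∫⁻ t, k' * (c t * g t.1) ∂μ := by
          refine lintegral_mono fun t => ?_
          rw [mul_left_comm]
          gcongr
          obtain ⟨v, hv, w, h1, h2, h3⟩ := hVs (e t.2)
          have h4 := h3 i (fun l => e (Function.update ζ i t l).2) (by simp [S])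
            (fun l hl => by
              rw [Function.update_of_ne]
              intro h; subst h; simp [S] at hl) (by simp)
          have h5 : insert i (S i) = S (i + 1) := by
            ext l; simp only [S, Finset.mem_insert, Finset.mem_filter, Finset.mem_univ, true_and,
              Fin.ext_iff]; omega
          rw [h5] at h4
          refine le_trans ?_ (mul_le_mul_right (hgb t.1 (e t.2) v w hv h1 h2) _)
          rw [← ENNReal.ofReal_natCast, ← ENNReal.ofReal_mul (Nat.cast_nonneg _)]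
          refine ENNReal.ofReal_le_ofReal ?_
          simp only [T, Function.update_self]
          gcongr
      _ ≤ _ := by
          rw [lintegral_const_mul _ (by fun_prop), lint_cc hs he hν0 hν x ω1 hg]
          gcongr
  have hJ : Measurable (JJ e ν s k' m' q N F x ω1) :=
    measurable_JJ he hF measurable_const measurable_const measurable_id
  calc _ = ∫⁻ ζ : Fin q → (Fin (2 * m') → E × ℝ) × X, (∏ r, c (ζ r)) *
        (q * ENNReal.ofReal (log (MM s (k' + m') / U.toReal))) ∂(Measure.pi fun _ => μ) := by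
        rw [lintegral_mul_const _ (by fun_prop), lint_pi_pow μ c hc, hc1, one_pow, one_mul]
    _ ≤ ∫⁻ ζ : Fin q → (Fin (2 * m') → E × ℝ) × X, JJ e ν s k' m' q N F x ω1 ζ
          + (∏ r, c (ζ r)) * ENNReal.ofReal (log N)
          + ∑ i, (∏ r, c (ζ r)) * cost e ν s k' m' F ω1 (ζ i)
          + ∑ i, (∏ r, c (ζ r)) * ENNReal.ofReal (T i ζ) ∂(Measure.pi fun _ => μ) := by
        refine lintegral_mono fun ζ => ?_
        rw [← hcD, ← Finset.mul_sum, ← Finset.mul_sum, ← mul_add, ← mul_add, ← mul_add]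
        exact mul_le_mul_right (hpt ζ) _
    _ ≤ _ := by
        rw [lintegral_add_left (by fun_prop), lintegral_add_left (by fun_prop),
          lintegral_add_left hJ, lintegral_mul_const _ (by fun_prop), lint_pi_pow μ c hc, hc1,
          one_pow, one_mul, lintegral_finsetSum _ (fun i _ => by fun_prop),
          lintegral_finsetSum _ (fun i _ => by have := hT i; fun_prop)]
        simp only [lint_pi_one μ c _ hc hcost hc1]
        gcongr
        · simp [c]
        · refine (Finset.sum_le_sum fun i _ => hang i).trans (by simp)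

end inner

end H2SL
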