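import Crest.Agent.H2.SL6

set_option autoImplicit false
set_option maxHeartbeats 400000

namespace H2SL

open MeasureTheory ProbabilityTheory Real Metric
open scoped ENNReal RealInnerProductSpace

lemma lint_swap {α β : Type*} [MeasurableSpace α] [MeasurableSpace β] {μ : Measure α}
    {ν : Measure β} [SFinite μ] [SFinite ν] {f : α → β → ℝ≥0∞}
    (hf : Measurable (fun p : α × β => f p.1 p.2)) :
    ∫⁻ a, ∫⁻ b, f a b ∂ν ∂μ = ∫⁻ b, ∫⁻ a, f a b ∂μ ∂ν :=
  lintegral_lintegral_swap hf.aemeasurable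

section outer
variable {E : Type} [NormedAddCommGroup E] [InnerProductSpace ℝ E] [FiniteDimensional ℝ E]
  [MeasurableSpace E] [BorelSpace E] {X : Type} [MeasurableSpace X] (e : X → E) (ν : Measure X)
  (s : ℝ)

noncomputable def FF {n : ℕ} (A : Set (Fin n → E × ℝ)) (x : X) : ℝ≥0∞ :=
  ∫⁻ ω in A, LL s ω (e x) ∂(lamn E n)

variable {e ν s}

lemma measurable_FF (he : Measurable e) {n : ℕ} (A : Set (Fin n → E × ℝ)) :
    Measurable (FF e s A) :=
  Measurable.lintegral_prod_right' (f := fun p : X × (Fin n → E × ℝ) => LL s p.2 (e p.1))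
    (by fun_prop)

omit [MeasurableSpace X] in
lemma FF_le (hs : 0 < s) {n : ℕ} (A : Set (Fin n → E × ℝ)) (x : X) : FF e s A x ≤ 1 :=
  (setLIntegral_le_lintegral _ _).trans (lint_LL hs n _).le

lemma lint_FF [SFinite ν] (he : Measurable e) {n : ℕ} (A : Set (Fin n → E × ℝ)) {H : X → ℝ≥0∞}
    (hH : Measurable H) :
    ∫⁻ ω in A, ∫⁻ x, LL s ω (e x) * H x ∂ν ∂(lamn E n) = ∫⁻ x, FF e s A x * H x ∂ν := by
  rw [lintegral_lintegral_swap (by fun_prop)]
  refine lintegral_congr fun x => ?_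
  rw [lintegral_mul_const _ (by fun_prop)]
  rfl

lemma lint_GG [IsFiniteMeasure ν] (hs : 0 < s) (he : Measurable e) {k' m' : ℕ} {F : X → ℝ≥0∞}
    (hF : Measurable F) (x : X) :
    ∫⁻ ζ, GG e ν s k' m' F x ζ ∂((lamn E (2 * m')).prod ν) ≤ 1 := by
  have hG : Measurable (GG e ν s k' m' F x) := measurable_GG he hF measurable_const measurable_id
  rw [lintegral_prod_symm _ hG.aemeasurable]
  calc _ ≤ ∫⁻ x', ENNReal.ofReal (kr s (k' + m') (e x' - e x)) * F x' * (UU e ν s (k' + m') F x)⁻¹ ∂ν := by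
        refine lintegral_mono fun x' => ?_
        simp only [GG]
        rw [lintegral_mul_const _ (by fun_prop), lintegral_mul_const _ (by fun_prop)]
        refine mul_le_of_le_one_left' ?_
        exact (mul_le_mul_left (LL_pair' hs m' _ _) _).trans (ENNReal.mul_inv_le_one _)
    _ ≤ 1 := by
        rw [lintegral_mul_const _ (by fun_prop)]
        exact ENNReal.mul_inv_le_one _

lemma lint_JJ [IsFiniteMeasure ν] (hs : 0 < s) (he : Measurable e) {k' m' q : ℕ} (N : ℝ)
    (hN : 0 < N) {F : X → ℝ≥0∞} (hF : Measurable F) (x : X) :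
    ∫⁻ ω1, LL s ω1 (e x) * ∫⁻ ζ, JJ e ν s k' m' q N F x ω1 ζ
      ∂(Measure.pi fun _ => (lamn E (2 * m')).prod ν) ∂(lamn E (2 * k'))
      ≤ (ENNReal.ofReal N)⁻¹ := by
  have hJ : Measurable (fun p : (Fin (2 * k') → E × ℝ) × (Fin q → (Fin (2 * m') → E × ℝ) × X) =>
      JJ e ν s k' m' q N F x p.1 p.2) :=
    measurable_JJ he hF measurable_const measurable_fst measurable_snd
  have hG : Measurable (GG e ν s k' m' F x) := measurable_GG he hF measurable_const measurable_id
  have e1 : ∀ ω1 : Fin (2 * k') → E × ℝ, LL s ω1 (e x) * ∫⁻ ζ, JJ e ν s k' m' q N F x ω1 ζ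
      ∂(Measure.pi fun _ => (lamn E (2 * m')).prod ν) = ∫⁻ ζ, LL s ω1 (e x) *
        JJ e ν s k' m' q N F x ω1 ζ ∂(Measure.pi fun _ => (lamn E (2 * m')).prod ν) := by
    intro ω1
    rw [lintegral_const_mul _ (show Measurable (JJ e ν s k' m' q N F x ω1) from
      measurable_JJ he hF measurable_const measurable_const measurable_id)]
  simp only [e1]
  rw [lint_swap (by exact Measurable.fun_mul (by fun_prop) hJ)]
  calc _ ≤ ∫⁻ ζ : Fin q → (Fin (2 * m') → E × ℝ) × X, (∏ i, GG e ν s k' m' F x (ζ i)) *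
        (ENNReal.ofReal N)⁻¹ ∂(Measure.pi fun _ => (lamn E (2 * m')).prod ν) := by
        refine lintegral_mono fun ζ => ?_
        simp only [JJ, ← mul_assoc (LL s _ (e x))]
        rw [lintegral_mul_const _ (by fun_prop), zz_pow, mul_left_comm,
          ENNReal.mul_inv (Or.inl (by simpa using hN)) (Or.inl ENNReal.ofReal_ne_top),
          mul_left_comm (_ ^ _)]
        gcongr
        exact mul_le_of_le_one_right' (ENNReal.mul_inv_le_one _)
    _ ≤ _ := by
        rw [lintegral_mul_const _ (by fun_prop), lint_pi_pow _ _ hG]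
        exact mul_le_of_le_one_left' (pow_le_one₀ zero_le (lint_GG hs he hF x))

lemma lint_cc_x [IsFiniteMeasure ν] (hs : 0 < s) (he : Measurable e) (hν0 : ν ≠ 0)
    (hν : ν Set.univ ≤ 1) {k' m' : ℕ} (ω1 : Fin (2 * k') → E × ℝ)
    {g : (Fin (2 * m') → E × ℝ) × X → ℝ≥0∞} (hg : Measurable g) :
    ∫⁻ x, LL s ω1 (e x) * ∫⁻ ζ, cc e ν s x ω1 ζ * g ζ ∂((lamn E (2 * m')).prod ν) ∂ν
      = ∫⁻ ζ, LL s ω1 (e ζ.2) * LL s ζ.1 (e ζ.2) * g ζ ∂((lamn E (2 * m')).prod ν) := by
  have hc : Measurable (fun p : X × ((Fin (2 * m') → E × ℝ) × X) => cc e ν s p.1 ω1 p.2) :=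
    measurable_cc he measurable_fst measurable_const measurable_snd
  have e1 : ∀ x, LL s ω1 (e x) * ∫⁻ ζ, cc e ν s x ω1 ζ * g ζ ∂((lamn E (2 * m')).prod ν)
      = ∫⁻ ζ, LL s ω1 (e x) * (cc e ν s x ω1 ζ * g ζ) ∂((lamn E (2 * m')).prod ν) := by
    intro x
    have : Measurable (cc e ν s x ω1 (n2 := 2 * m')) :=
      measurable_cc he measurable_const measurable_const measurable_id
    rw [lintegral_const_mul _ (by fun_prop)]
  simp only [e1]
  rw [lint_swap (by exact Measurable.fun_mul (by fun_prop) (hc.fun_mul (by fun_prop)))]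
  refine lintegral_congr fun ζ => ?_
  have e2 : ∀ x, LL s ω1 (e x) * (cc e ν s x ω1 ζ * g ζ) = LL s ω1 (e x) * LL s ζ.1 (e x) *
      ((pp e ν s ω1 ζ.1)⁻¹ * (LL s ω1 (e ζ.2) * LL s ζ.1 (e ζ.2) * g ζ)) := by
    intro x; simp only [cc]; ring
  simp only [e2]
  rw [lintegral_mul_const _ (by fun_prop)]
  change pp e ν s ω1 ζ.1 * _ = _
  rw [← mul_assoc, ENNReal.mul_inv_cancel (pp_ne_zero hs he hν0 _ _)
    (ne_top_of_le_ne_top ENNReal.ofReal_ne_top (pp_le hs hν _ _)), one_mul]

lemma lint_cost [IsFiniteMeasure ν] (hs : 0 < s) (he : Measurable e) {k' m' : ℕ}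
    (hm1 : 1 ≤ m') (hm : 2 * m' ≤ Module.finrank ℝ E) {F : X → ℝ≥0∞} (hF : Measurable F)
    (ω1 : Fin (2 * k') → E × ℝ) :
    ∫⁻ ζ, LL s ω1 (e ζ.2) * LL s ζ.1 (e ζ.2) * cost e ν s k' m' F ω1 ζ ∂((lamn E (2 * m')).prod ν)
      ≤ ∫⁻ x, LL s ω1 (e x) * (ENNReal.ofReal (-log (F x).toReal) + k' * ENNReal.ofReal 4) ∂ν
        + ∫⁻ ω2, pp e ν s ω1 ω2 *
          ENNReal.ofReal (log (MM s (k' + m') / (pp e ν s ω1 ω2).toReal)) ∂(lamn E (2 * m')) := by
  have hp : Measurable (pp e ν s ω1 (n2 := 2 * m')) :=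
    measurable_pp he measurable_const measurable_id
  simp only [cost, mul_add]
  rw [lintegral_add_left (by fun_prop), lintegral_add_left (by fun_prop),
    lintegral_add_left (by fun_prop), add_right_comm]
  gcongr
  · rw [lintegral_prod_symm _ (by fun_prop)]
    refine lintegral_mono fun x => le_of_eq ?_
    simp only
    rw [lintegral_mul_const _ (by fun_prop), lintegral_const_mul _ (by fun_prop), lint_LL hs,
      mul_one]
  · rw [lintegral_prod_symm _ (by fun_prop)]
    refine lintegral_mono fun x => ?_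
    have hd : (0 : ℝ) < Module.finrank ℝ E := by exact_mod_cast (show 0 < Module.finrank ℝ E by omega)
    have e1 : ∀ ω : Fin (2 * m') → E × ℝ, LL s ω1 (e x) * LL s ω (e x) *
        ENNReal.ofReal (k' * (4 * QQ ω (e x) / (s * Module.finrank ℝ E)))
        = LL s ω1 (e x) * (ENNReal.ofReal (k' * (4 / (s * Module.finrank ℝ E))) *
          (LL s ω (e x) * ENNReal.ofReal (QQ ω (e x)))) := by
      intro ω
      rw [show k' * (4 * QQ ω (e x) / (s * Module.finrank ℝ E))
        = (k' * (4 / (s * Module.finrank ℝ E))) * QQ ω (e x) by ring,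
        ENNReal.ofReal_mul (by positivity)]
      ring
    simp only [e1]
    rw [lintegral_const_mul _ (by fun_prop), lintegral_const_mul _ (by fun_prop), lint_LL_QQ hs,
      ← ENNReal.ofReal_mul (by positivity), ← ENNReal.ofReal_natCast,
      ← ENNReal.ofReal_mul (by positivity)]
    refine mul_le_mul_right (ENNReal.ofReal_le_ofReal ?_) _
    rw [mul_assoc]
    refine mul_le_mul_of_nonneg_left ?_ (Nat.cast_nonneg _)
    have : ((2 * m' : ℕ) : ℝ) ≤ Module.finrank ℝ E := by exact_mod_cast hm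
    rw [sub_self, norm_zero, div_mul_eq_mul_div, div_le_iff₀ (by positivity)]
    nlinarith
  · rw [lintegral_prod _ (by fun_prop)]
    refine lintegral_mono fun ω => le_of_eq ?_
    simp only
    rw [lintegral_mul_const _ (by fun_prop)]
    rfl

theorem outer_ineq [IsFiniteMeasure ν] (hs : 0 < s) (he : Measurable e) (hν0 : ν ≠ 0)
    (hν : ν Set.univ ≤ 1) {k' m' q : ℕ} (hq : q + 1 ≤ m') (hm : 2 * m' ≤ Module.finrank ℝ E)
    (hd : Module.finrank ℝ E ≤ 20 * q) {N : ℝ} (hN : 1 ≤ N) (A : Set (Fin (2 * k') → E × ℝ)) :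
    q * ∫⁻ x, FF e s A x *
        ENNReal.ofReal (log (MM s (k' + m') / (UU e ν s (k' + m') (FF e s A) x).toReal)) ∂ν
      ≤ (ENNReal.ofReal N)⁻¹ * ν Set.univ
        + (ENNReal.ofReal (log N) + q * (k' * ENNReal.ofReal 1004)) * ∫⁻ x, FF e s A x ∂ν
        + q * ∫⁻ x, FF e s A x * ENNReal.ofReal (-log (FF e s A x).toReal) ∂ν
        + q * ∫⁻ ω1 in A, ∫⁻ ω2, pp e ν s ω1 ω2 *
          ENNReal.ofReal (log (MM s (k' + m') / (pp e ν s ω1 ω2).toReal))
            ∂(lamn E (2 * m')) ∂(lamn E (2 * k')) := by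
  by_cases hA : (lamn E (2 * k')).restrict A = 0
  · have : FF e s A = fun _ => 0 := by ext x; simp [FF, hA]
    simp [this]
  set F := FF e s A with hFdef
  have hF : Measurable F := measurable_FF he A
  have hF1 : ∀ x, F x ≤ 1 := FF_le hs A
  have hF0 : ∀ x, F x ≠ 0 := fun x =>
    lint_pos_of_pos hA (by fun_prop) fun ω => (LL_pos hs _ _).ne'
  have hU : Measurable (UU e ν s (k' + m') F) := measurable_UU he _ hF
  have hJ : Measurable (fun p : (Fin (2 * k') → E × ℝ) × X =>
      ∫⁻ ζ, JJ e ν s k' m' q N F p.2 p.1 ζ ∂(Measure.pi fun _ => (lamn E (2 * m')).prod ν)) :=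
    Measurable.lintegral_prod_right' (f := fun r : ((Fin (2 * k') → E × ℝ) × X) ×
      (Fin q → (Fin (2 * m') → E × ℝ) × X) => JJ e ν s k' m' q N F r.1.2 r.1.1 r.2)
      (measurable_JJ he hF (by fun_prop) (by fun_prop) (by fun_prop))
  have hC : Measurable (fun p : (Fin (2 * k') → E × ℝ) × X =>
      ∫⁻ ζ, cc e ν s p.2 p.1 ζ * cost e ν s k' m' F p.1 ζ ∂((lamn E (2 * m')).prod ν)) :=
    Measurable.lintegral_prod_right' (f := fun r : ((Fin (2 * k') → E × ℝ) × X) ×
      ((Fin (2 * m') → E × ℝ) × X) => cc e ν s r.1.2 r.1.1 r.2 * cost e ν s k' m' F r.1.1 r.2)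
      ((measurable_cc he (by fun_prop) (by fun_prop) (by fun_prop)).mul
        (measurable_cost he hF (by fun_prop) (by fun_prop)))
  have hJ' : Measurable (fun ω1 : Fin (2 * k') → E × ℝ => ∫⁻ x, LL s ω1 (e x) *
      ∫⁻ ζ, JJ e ν s k' m' q N F x ω1 ζ ∂(Measure.pi fun _ => (lamn E (2 * m')).prod ν) ∂ν) :=
    Measurable.lintegral_prod_right' (f := fun p : (Fin (2 * k') → E × ℝ) × X => LL s p.1 (e p.2) *
      ∫⁻ ζ, JJ e ν s k' m' q N F p.2 p.1 ζ ∂(Measure.pi fun _ => (lamn E (2 * m')).prod ν))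
      (Measurable.mul (by fun_prop) hJ)
  have hL : ∀ {H : X → ℝ≥0∞}, Measurable H →
      Measurable (fun ω1 : Fin (2 * k') → E × ℝ => ∫⁻ x, LL s ω1 (e x) * H x ∂ν) := fun {H} hH =>
    Measurable.lintegral_prod_right' (f := fun p : (Fin (2 * k') → E × ℝ) × X =>
      LL s p.1 (e p.2) * H p.2) (by fun_prop)
  rw [← lintegral_const_mul _ (by fun_prop)]
  simp only [mul_left_comm (q : ℝ≥0∞) (F _)]
  rw [hFdef, ← lint_FF he A (by fun_prop), ← hFdef]
  calc _ ≤ ∫⁻ ω1 in A, (∫⁻ x, LL s ω1 (e x) * ∫⁻ ζ, JJ e ν s k' m' q N F x ω1 ζ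
          ∂(Measure.pi fun _ => (lamn E (2 * m')).prod ν) ∂ν)
        + ∫⁻ x, LL s ω1 (e x) * ((ENNReal.ofReal (log N) + q * (k' * ENNReal.ofReal 1004))
          + q * ENNReal.ofReal (-log (F x).toReal)) ∂ν
        + q * ∫⁻ ω2, pp e ν s ω1 ω2 *
          ENNReal.ofReal (log (MM s (k' + m') / (pp e ν s ω1 ω2).toReal))
            ∂(lamn E (2 * m')) ∂(lamn E (2 * k')) := by
        refine lintegral_mono fun ω1 => ?_
        have hJ1 : Measurable (fun x => ∫⁻ ζ, JJ e ν s k' m' q N F x ω1 ζ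
          ∂(Measure.pi fun _ => (lamn E (2 * m')).prod ν)) :=
          Measurable.of_uncurry_left (f := fun ω1 x => ∫⁻ ζ, JJ e ν s k' m' q N F x ω1 ζ
            ∂(Measure.pi fun _ => (lamn E (2 * m')).prod ν)) hJ
        have hC1 : Measurable (fun x => ∫⁻ ζ, cc e ν s x ω1 ζ * cost e ν s k' m' F ω1 ζ
          ∂((lamn E (2 * m')).prod ν)) :=
          Measurable.of_uncurry_left (f := fun ω1 x => ∫⁻ ζ, cc e ν s x ω1 ζ *
            cost e ν s k' m' F ω1 ζ ∂((lamn E (2 * m')).prod ν)) hC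
        calc _ ≤ ∫⁻ x, LL s ω1 (e x) * ∫⁻ ζ, JJ e ν s k' m' q N F x ω1 ζ
              ∂(Measure.pi fun _ => (lamn E (2 * m')).prod ν)
              + LL s ω1 (e x) * (ENNReal.ofReal (log N) + q * (k' * ENNReal.ofReal 1000))
              + q * (LL s ω1 (e x) * ∫⁻ ζ, cc e ν s x ω1 ζ * cost e ν s k' m' F ω1 ζ
                ∂((lamn E (2 * m')).prod ν)) ∂ν := by
              refine lintegral_mono fun x => ?_
              refine (mul_le_mul_right (inner_ineq hs he hν0 hν hq hm hd hN hF hF0 hF1 x ω1)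
                _).trans (le_of_eq ?_)
              ring
          _ ≤ _ := by
              rw [lintegral_add_left (by fun_prop), lintegral_add_left (by fun_prop),
                lintegral_const_mul _ (by fun_prop),
                lint_cc_x hs he hν0 hν ω1 (g := cost e ν s k' m' F ω1)
                  (measurable_cost he hF measurable_const measurable_id),
                add_assoc, add_assoc]
              refine add_le_add le_rfl ?_
              refine (add_le_add le_rfl (mul_le_mul_right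
                (lint_cost (ν := ν) hs he (by omega) hm hF ω1) _)).trans (le_of_eq ?_)
              rw [mul_add, ← add_assoc, ← lintegral_const_mul _ (by fun_prop),
                ← lintegral_add_left (by fun_prop)]
              congr 1
              refine lintegral_congr fun x => ?_
              rw [show (1004 : ℝ) = 1000 + 4 by norm_num,
                ENNReal.ofReal_add (by norm_num) (by norm_num)]
              ring
    _ ≤ _ := by
        have hP : Measurable (fun ω1 : Fin (2 * k') → E × ℝ => ∫⁻ ω2, pp e ν s ω1 ω2 *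
            ENNReal.ofReal (log (MM s (k' + m') / (pp e ν s ω1 ω2).toReal)) ∂(lamn E (2 * m'))) := by
          have := measurable_pp (ν := ν) (s := s) he
            (measurable_fst (α := Fin (2 * k') → E × ℝ) (β := Fin (2 * m') → E × ℝ)) measurable_snd
          exact Measurable.lintegral_prod_right' (f := fun p : (Fin (2 * k') → E × ℝ) ×
            (Fin (2 * m') → E × ℝ) => pp e ν s p.1 p.2 *
            ENNReal.ofReal (log (MM s (k' + m') / (pp e ν s p.1 p.2).toReal))) (by fun_prop)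
        rw [lintegral_add_left (hJ'.fun_add (hL (by fun_prop))), lintegral_add_left hJ',
          lintegral_const_mul _ hP, lint_FF he A (by fun_prop), ← hFdef, add_assoc (_ * ν _)]
        gcongr
        · refine (setLIntegral_le_lintegral _ _).trans ?_
          rw [lint_swap (by exact Measurable.fun_mul (by fun_prop) hJ),
            ← lintegral_const]
          exact lintegral_mono fun x => lint_JJ hs he N (by linarith) hF x
        · rw [← lintegral_const_mul _ hF, ← lintegral_const_mul _ (by fun_prop),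
            ← lintegral_add_left (by fun_prop)]
          exact lintegral_mono fun x => le_of_eq (by ring)

end outer

end H2SL
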