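import Crest.Agent.H2.SL7

set_option autoImplicit false
set_option maxHeartbeats 400000

namespace H2SL

open MeasureTheory ProbabilityTheory Real Metric
open scoped ENNReal RealInnerProductSpace

section partb
variable {E : Type} [NormedAddCommGroup E] [InnerProductSpace ℝ E] [FiniteDimensional ℝ E]
  [MeasurableSpace E] [BorelSpace E] {X : Type} [MeasurableSpace X] {e : X → E} {ν : Measure X}
  {s : ℝ}

/-- scale mixture of likelihoods -/
noncomputable def Psi {n1 n2 : ℕ} (ω : (Fin n1 → E × ℝ) × (Fin n2 → E × ℝ)) (x : E) : ℝ≥0∞ :=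
  ∑' l : ℕ, ENNReal.ofReal (2⁻¹ ^ (l + 1)) * (LL (5 / 2 ^ l) ω.1 x * LL (5 / 2 ^ l) ω.2 x)

@[fun_prop]
lemma measurable_Psi {α : Type*} [MeasurableSpace α] {n1 n2 : ℕ}
    {f : α → (Fin n1 → E × ℝ) × (Fin n2 → E × ℝ)} {g : α → E} (hf : Measurable f)
    (hg : Measurable g) : Measurable (fun a => Psi (f a) (g a)) := by
  unfold Psi
  exact Measurable.tsum fun l => by fun_prop

lemma lint_LL2 {s : ℝ} (hs : 0 < s) (n1 n2 : ℕ) (x : E) :
    ∫⁻ ω, LL s ω.1 x * LL s ω.2 x ∂((lamn E n1).prod (lamn E n2)) = 1 := by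
  rw [lintegral_prod_mul (f := fun ω => LL s ω x) (g := fun ω => LL s ω x) (by fun_prop)
    (by fun_prop), lint_LL hs, lint_LL hs, one_mul]

lemma lint_Psi (n1 n2 : ℕ) (x : E) : ∫⁻ ω, Psi ω x ∂((lamn E n1).prod (lamn E n2)) = 1 := by
  unfold Psi
  rw [lintegral_tsum (fun l => by fun_prop)]
  have : ∀ l : ℕ, ∫⁻ ω, ENNReal.ofReal (2⁻¹ ^ (l + 1)) * (LL (5 / 2 ^ l) ω.1 x * LL (5 / 2 ^ l) ω.2 x)
      ∂((lamn E n1).prod (lamn E n2)) = 2⁻¹ * 2⁻¹ ^ l := by
    intro l
    rw [lintegral_const_mul _ (by fun_prop), lint_LL2 (by positivity), mul_one,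
      ENNReal.ofReal_pow (by norm_num), ENNReal.ofReal_inv_of_pos (by norm_num), pow_succ']
    simp
  simp only [this]
  rw [ENNReal.tsum_mul_left, ENNReal.tsum_geometric_two,
    ENNReal.inv_mul_cancel (by simp) (by simp)]

lemma lint_LL2_QQ {s : ℝ} (hs : 0 < s) (n1 n2 : ℕ) (x x' : E) :
    ∫⁻ ω, LL s ω.1 x * LL s ω.2 x * ENNReal.ofReal ((QQ ω.1 x' + QQ ω.2 x') / (2 * (s + ‖x' - x‖ ^ 2)))
      ∂((lamn E n1).prod (lamn E n2)) = ENNReal.ofReal ((n1 + n2) / 2) := by
  have e1 : ∀ ω : (Fin n1 → E × ℝ) × (Fin n2 → E × ℝ), LL s ω.1 x * LL s ω.2 x *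
      ENNReal.ofReal ((QQ ω.1 x' + QQ ω.2 x') / (2 * (s + ‖x' - x‖ ^ 2)))
      = ENNReal.ofReal ((2 * (s + ‖x' - x‖ ^ 2))⁻¹) *
        ((LL s ω.1 x * ENNReal.ofReal (QQ ω.1 x')) * LL s ω.2 x
          + LL s ω.1 x * (LL s ω.2 x * ENNReal.ofReal (QQ ω.2 x'))) := by
    intro ω
    rw [div_eq_inv_mul, ENNReal.ofReal_mul (by positivity),
      ENNReal.ofReal_add (QQ_nonneg _ _) (QQ_nonneg _ _)]
    ring
  simp only [e1]
  rw [lintegral_const_mul _ (by fun_prop), lintegral_add_left (by fun_prop),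
    lintegral_prod_mul (f := fun ω => LL s ω x * ENNReal.ofReal (QQ ω x')) (g := fun ω => LL s ω x)
      (by fun_prop) (by fun_prop),
    lintegral_prod_mul (f := fun ω => LL s ω x) (g := fun ω => LL s ω x * ENNReal.ofReal (QQ ω x'))
      (by fun_prop) (by fun_prop), lint_LL hs, lint_LL hs, lint_LL_QQ hs, lint_LL_QQ hs,
    mul_one, one_mul, ← ENNReal.ofReal_add (by positivity) (by positivity),
    ← ENNReal.ofReal_mul (by positivity), norm_sub_rev x x']
  congr 1
  field_simp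

omit [FiniteDimensional ℝ E] [MeasurableSpace E] [BorelSpace E] in
lemma b_pointwise (hs : 0 < s) {k' m' : ℕ} (ω : (Fin (2 * k') → E × ℝ) × (Fin (2 * m') → E × ℝ))
    (x x' : E) (ht : s + ‖x' - x‖ ^ 2 ≤ 5) {p U : ℝ≥0∞} (hp0 : p ≠ 0) (hpt : p ≠ ∞) (hU0 : U ≠ 0)
    (hUt : U ≠ ∞) :
    ENNReal.ofReal (log (MM s (k' + m') / p.toReal))
      ≤ Psi ω x' * p⁻¹ * (U * (ENNReal.ofReal (kr s (k' + m') (x' - x)))⁻¹)
        + ENNReal.ofReal (log (MM s (k' + m') / U.toReal))
        + ENNReal.ofReal (log (10 / (s + ‖x' - x‖ ^ 2))) + ENNReal.ofReal (k' + m')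
        + ENNReal.ofReal ((QQ ω.1 x' + QQ ω.2 x') / (2 * (s + ‖x' - x‖ ^ 2))) := by
  set t := s + ‖x' - x‖ ^ 2 with ht_def
  have ht0 : 0 < t := by positivity
  have hπ := pi_pos
  obtain ⟨l, hl1, hl2⟩ := exists_nat_pow_near (x := 5 / t) (y := 2)
    (by rw [le_div_iff₀ ht0]; linarith) (by norm_num)
  set ρ : ℝ := 5 / 2 ^ l with hρ
  have hρ0 : 0 < ρ := by positivity
  have hρ1 : t ≤ ρ := by
    rw [hρ, le_div_iff₀ (by positivity)]
    rw [le_div_iff₀ ht0] at hl1; linarith
  have hρ2 : ρ ≤ 2 * t := by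
    rw [hρ, div_le_iff₀ (by positivity)]
    rw [div_lt_iff₀ ht0, pow_succ] at hl2; linarith
  have hpp := ENNReal.toReal_pos hp0 hpt
  have hUp := ENNReal.toReal_pos hU0 hUt
  have hκ := kr_pos hs (k' + m') (x' - x)
  have hM := MM_pos hs (k' + m')
  set D : ℝ := 2⁻¹ ^ (l + 1) * (((2 * π * ρ)⁻¹ ^ k' * exp (-(QQ ω.1 x') / (2 * ρ))) *
    ((2 * π * ρ)⁻¹ ^ m' * exp (-(QQ ω.2 x') / (2 * ρ)))) * p.toReal⁻¹ *
    (U.toReal * (kr s (k' + m') (x' - x))⁻¹) with hD
  have hD0 : 0 < D := by positivity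
  have hDle : ENNReal.ofReal D
      ≤ Psi ω x' * p⁻¹ * (U * (ENNReal.ofReal (kr s (k' + m') (x' - x)))⁻¹) := by
    rw [hD, ENNReal.ofReal_mul (by positivity), ENNReal.ofReal_mul (by positivity),
      ENNReal.ofReal_mul (p := U.toReal) (by positivity), ENNReal.ofReal_inv_of_pos hpp,
      ENNReal.ofReal_inv_of_pos hκ, ENNReal.ofReal_toReal hpt, ENNReal.ofReal_toReal hUt]
    gcongr
    refine le_trans (le_of_eq ?_) (ENNReal.le_tsum l)
    rw [LL_eq, LL_eq, sqrt_pow_two_mul (by positivity), sqrt_pow_two_mul (by positivity),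
      ← ENNReal.ofReal_mul (by positivity), ← ENNReal.ofReal_mul (by positivity)]
  have h1 := log_le_sub_one_of_pos hD0
  have h2 : log D = -((l + 1) * log 2) - (k' + m') * log (2 * π * ρ)
      - (QQ ω.1 x' + QQ ω.2 x') / (2 * ρ) - log p.toReal + log U.toReal
      + (k' + m') * log (2 * π * t) := by
    rw [hD, log_mul (by positivity) (by positivity), log_mul (by positivity) (by positivity),
      log_mul (by positivity) (by positivity), log_mul (by positivity) (by positivity),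
      log_mul (by positivity) (by positivity), log_mul (by positivity) (by positivity),
      log_mul (by positivity) (by positivity), log_exp, log_exp, kr]
    simp only [log_inv, log_pow, ← ht_def]
    push_cast; ring
  have h3 : (l + 1) * log 2 ≤ log (10 / t) := by
    have : ((l : ℝ) + 1) * log 2 = log (2 ^ (l + 1)) := by rw [log_pow]; push_cast; ring
    rw [this]
    refine log_le_log (by positivity) ?_
    rw [pow_succ, show 10 / t = 5 / t * 2 by ring]
    gcongr
  have h4 : log (2 * π * ρ) ≤ log (2 * π * t) + 1 := by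
    have h5 : log (2 * π * ρ) ≤ log (2 * π * t * 2) := log_le_log (by positivity) (by nlinarith)
    rw [log_mul (x := 2 * π * t) (by positivity) (by norm_num)] at h5
    linarith [log_two_lt_d9]
  have h5 : (QQ ω.1 x' + QQ ω.2 x') / (2 * ρ) ≤ (QQ ω.1 x' + QQ ω.2 x') / (2 * t) := by
    have := QQ_nonneg ω.1 x'
    have := QQ_nonneg ω.2 x'
    gcongr
  have h6 : log (MM s (k' + m') / p.toReal) ≤ D + log (MM s (k' + m') / U.toReal) + log (10 / t)
      + (k' + m') + (QQ ω.1 x' + QQ ω.2 x') / (2 * t) := by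
    rw [log_div hM.ne' hpp.ne', log_div hM.ne' hUp.ne']
    have : (0 : ℝ) ≤ k' + m' := by positivity
    nlinarith
  refine (ENNReal.ofReal_le_ofReal h6).trans ?_
  refine ENNReal.ofReal_add_le.trans (add_le_add (ENNReal.ofReal_add_le.trans (add_le_add
    (ENNReal.ofReal_add_le.trans (add_le_add (ENNReal.ofReal_add_le.trans
      (add_le_add hDle le_rfl)) le_rfl)) le_rfl)) le_rfl)

omit [InnerProductSpace ℝ E] [FiniteDimensional ℝ E] in
lemma scale_cost [SecondCountableTopology E] [IsFiniteMeasure ν] (hs : 0 < s) (he : Measurable e)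
    (hν0 : ν ≠ 0) (hν : ν Set.univ ≤ 1) {j α : ℕ} (hα : 1 ≤ α) {Ξ : ℝ} (hΞ : 0 < Ξ) (x : X)
    (ht : ∀ x', s + ‖e x' - e x‖ ^ 2 ≤ 5)
    (hE : ∫⁻ x', ENNReal.ofReal ((s + ‖e x' - e x‖ ^ 2)⁻¹ ^ (j + α)) ∂ν ≤ ENNReal.ofReal Ξ) :
    ∫⁻ x', ENNReal.ofReal (kr s j (e x' - e x)) * (UU e ν s j (fun _ => 1) x)⁻¹ *
        ENNReal.ofReal (log (10 / (s + ‖e x' - e x‖ ^ 2))) ∂ν
      ≤ ENNReal.ofReal (log (5 ^ j * 10 ^ α * Ξ / (ν Set.univ).toReal) / α) + 1 := by
  have hπ := pi_pos
  set U := UU e ν s j (fun _ => 1) x with hU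
  set w := (ν Set.univ).toReal with hw
  have hw0 : 0 < w := ENNReal.toReal_pos (Measure.measure_univ_ne_zero.2 hν0) (measure_ne_top _ _)
  set c := 5 ^ j * 10 ^ α * Ξ / w with hc
  have hc0 : 0 < c := by positivity
  have hα' : (1 : ℝ) ≤ α := by exact_mod_cast hα
  have hU0 : U ≠ 0 := UU_ne_zero hs he hν0 _ measurable_const (fun _ => one_ne_zero) x
  have hUt : U ≠ ∞ := ne_top_of_le_ne_top ENNReal.ofReal_ne_top
    (UU_le hs hν _ (fun _ => le_rfl) x)
  have hUl : ENNReal.ofReal ((2 * π * 5)⁻¹ ^ j * w) ≤ U := by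
    rw [ENNReal.ofReal_mul (by positivity), hw, ENNReal.ofReal_toReal (measure_ne_top _ _),
      ← lintegral_const]
    refine lintegral_mono fun x' => ?_
    rw [mul_one]
    refine ENNReal.ofReal_le_ofReal ?_
    have := ht x'
    unfold kr
    gcongr
  calc _ ≤ ∫⁻ x', ENNReal.ofReal (kr s j (e x' - e x)) * 1 * (U⁻¹ * ENNReal.ofReal (log c / α))
        + (U⁻¹ * ENNReal.ofReal ((2 * π)⁻¹ ^ j * 10 ^ α / c)) *
          ENNReal.ofReal ((s + ‖e x' - e x‖ ^ 2)⁻¹ ^ (j + α)) ∂ν := by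
        refine lintegral_mono fun x' => ?_
        set t := s + ‖e x' - e x‖ ^ 2 with ht_def
        have ht0 : 0 < t := by positivity
        have h1 : log (10 / t) ≤ log c / α + (10 / t) ^ α / c := by
          have h2 := log_le_sub_one_of_pos (show 0 < (10 / t) ^ α / c by positivity)
          rw [log_div (by positivity) hc0.ne', log_pow] at h2
          have h3 : log (10 / t) ≤ (log c + (10 / t) ^ α / c) / α := by
            rw [le_div_iff₀ (by linarith)]; linarith
          rw [add_div] at h3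
          have h4 : (10 / t) ^ α / c / α ≤ (10 / t) ^ α / c :=
            div_le_self (by positivity) hα'
          linarith
        refine (mul_le_mul_right ((ENNReal.ofReal_le_ofReal h1).trans ENNReal.ofReal_add_le)
          _).trans (le_of_eq ?_)
        rw [mul_add, mul_one, mul_assoc, mul_comm _ U⁻¹, mul_assoc U⁻¹, mul_assoc U⁻¹,
          ← ENNReal.ofReal_mul (kr_pos hs _ _).le, ← ENNReal.ofReal_mul (by positivity)]
        congr 3
        simp only [kr, ← ht_def, mul_inv, mul_pow, pow_add, div_eq_mul_inv]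
        ring
    _ ≤ _ := by
        rw [lintegral_add_left (by fun_prop), lintegral_mul_const _ (by fun_prop),
          lintegral_const_mul _ (by fun_prop)]
        change U * _ + _ ≤ _
        rw [← mul_assoc, ENNReal.mul_inv_cancel hU0 hUt, one_mul]
        refine add_le_add le_rfl ?_
        calc _ ≤ (ENNReal.ofReal ((2 * π * 5)⁻¹ ^ j * w))⁻¹ *
              ENNReal.ofReal ((2 * π)⁻¹ ^ j * 10 ^ α / c) * ENNReal.ofReal Ξ := by gcongr
          _ = 1 := by
            rw [← ENNReal.ofReal_inv_of_pos (by positivity), ← ENNReal.ofReal_mul (by positivity),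
              ← ENNReal.ofReal_mul (by positivity), ← ENNReal.ofReal_one]
            congr 1
            rw [hc]
            simp only [mul_inv, mul_pow, inv_pow]
            field_simp

theorem part_b [IsFiniteMeasure ν] (hs : 0 < s) (he : Measurable e)
    (hν0 : ν ≠ 0) (hν : ν Set.univ ≤ 1) {k' m' α : ℕ} (hα : 1 ≤ α) {Ξ : ℝ} (hΞ : 0 < Ξ)
    (ht : ∀ x x', s + ‖e x' - e x‖ ^ 2 ≤ 5)
    (hE : ∀ x, ∫⁻ x', ENNReal.ofReal ((s + ‖e x' - e x‖ ^ 2)⁻¹ ^ (k' + m' + α)) ∂ν
      ≤ ENNReal.ofReal Ξ) :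
    ∫⁻ ω1, ∫⁻ ω2, pp e ν s ω1 ω2 *
        ENNReal.ofReal (log (MM s (k' + m') / (pp e ν s ω1 ω2).toReal))
          ∂(lamn E (2 * m')) ∂(lamn E (2 * k'))
      ≤ ∫⁻ x, ENNReal.ofReal (log (MM s (k' + m') / (UU e ν s (k' + m') (fun _ => 1) x).toReal)) ∂ν
        + (ENNReal.ofReal (log (5 ^ (k' + m') * 10 ^ α * Ξ / (ν Set.univ).toReal) / α)
          + ENNReal.ofReal (2 + 2 * (k' + m'))) * ν Set.univ := by
  set μ := (lamn E (2 * k')).prod (lamn E (2 * m')) with hμ
  let p : (Fin (2 * k') → E × ℝ) × (Fin (2 * m') → E × ℝ) → ℝ≥0∞ := fun ω => pp e ν s ω.1 ω.2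
  have hp : Measurable p := measurable_pp he measurable_fst measurable_snd
  have hp0 : ∀ ω, p ω ≠ 0 := fun ω => pp_ne_zero hs he hν0 _ _
  have hpt : ∀ ω, p ω ≠ ∞ := fun ω => ne_top_of_le_ne_top ENNReal.ofReal_ne_top (pp_le hs hν _ _)
  set U := UU e ν s (k' + m') (fun _ => 1) with hU
  have hUm : Measurable U := measurable_UU he _ measurable_const
  have hU0 : ∀ x, U x ≠ 0 := UU_ne_zero hs he hν0 _ measurable_const (fun _ => one_ne_zero)
  have hUt : ∀ x, U x ≠ ∞ := fun x => ne_top_of_le_ne_top ENNReal.ofReal_ne_top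
    (UU_le hs hν _ (fun _ => le_rfl) x)
  have hK : ∀ x, ∫⁻ x', ENNReal.ofReal (kr s (k' + m') (e x' - e x)) * (U x)⁻¹ ∂ν = 1 := by
    intro x
    rw [lintegral_mul_const _ (by fun_prop), ← ENNReal.mul_inv_cancel (hU0 x) (hUt x)]
    simp [hU, UU]
  have hA : ∫⁻ x, ∫⁻ x', ∫⁻ ω, LL s ω.1 (e x) * LL s ω.2 (e x) * (Psi ω (e x') * (p ω)⁻¹) ∂μ ∂ν ∂ν
      = ν Set.univ := by
    rw [lint_swap (Measurable.lintegral_prod_right' (f := fun r : (X × X) × _ =>
      LL s r.2.1 (e r.1.1) * LL s r.2.2 (e r.1.1) * (Psi r.2 (e r.1.2) * (p r.2)⁻¹)) (by fun_prop)),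
      ← lintegral_one]
    refine lintegral_congr fun x' => ?_
    rw [lint_swap (by fun_prop), ← lint_Psi (2 * k') (2 * m') (e x')]
    refine lintegral_congr fun ω => ?_
    rw [lintegral_mul_const _ (by fun_prop)]
    change p ω * _ = _
    rw [mul_left_comm, ENNReal.mul_inv_cancel (hp0 ω) (hpt ω), mul_one]
  have hAm : Measurable (fun x => ∫⁻ x', ∫⁻ ω, LL s ω.1 (e x) * LL s ω.2 (e x) *
      (Psi ω (e x') * (p ω)⁻¹) ∂μ ∂ν) :=
    Measurable.lintegral_prod_right' (f := fun r : X × X => ∫⁻ ω, LL s ω.1 (e r.1) *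
      LL s ω.2 (e r.1) * (Psi ω (e r.2) * (p ω)⁻¹) ∂μ)
      (Measurable.lintegral_prod_right' (f := fun r : (X × X) × _ =>
        LL s r.2.1 (e r.1.1) * LL s r.2.2 (e r.1.1) * (Psi r.2 (e r.1.2) * (p r.2)⁻¹)) (by fun_prop))
  calc _ = ∫⁻ ω, p ω * ENNReal.ofReal (log (MM s (k' + m') / (p ω).toReal)) ∂μ := by
        rw [lintegral_prod _ (by fun_prop)]
    _ = ∫⁻ ω, ∫⁻ x, LL s ω.1 (e x) * LL s ω.2 (e x) *
          ENNReal.ofReal (log (MM s (k' + m') / (p ω).toReal)) ∂ν ∂μ := by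
        refine lintegral_congr fun ω => ?_
        rw [lintegral_mul_const _ (by fun_prop)]; rfl
    _ = ∫⁻ x, ∫⁻ ω, LL s ω.1 (e x) * LL s ω.2 (e x) *
          ENNReal.ofReal (log (MM s (k' + m') / (p ω).toReal)) ∂μ ∂ν := lint_swap (by fun_prop)
    _ ≤ ∫⁻ x, (∫⁻ x', ∫⁻ ω, LL s ω.1 (e x) * LL s ω.2 (e x) * (Psi ω (e x') * (p ω)⁻¹) ∂μ ∂ν)
          + (ENNReal.ofReal (log (MM s (k' + m') / (U x).toReal))
          + (ENNReal.ofReal (log (5 ^ (k' + m') * 10 ^ α * Ξ / (ν Set.univ).toReal) / α)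
          + ENNReal.ofReal (1 + 2 * (k' + m')))) ∂ν := by
        refine lintegral_mono fun x => ?_
        calc _ = ∫⁻ x', ENNReal.ofReal (kr s (k' + m') (e x' - e x)) * (U x)⁻¹ *
              ∫⁻ ω, LL s ω.1 (e x) * LL s ω.2 (e x) *
                ENNReal.ofReal (log (MM s (k' + m') / (p ω).toReal)) ∂μ ∂ν := by
              rw [lintegral_mul_const _ (by fun_prop), hK, one_mul]
          _ ≤ ∫⁻ x', (∫⁻ ω, LL s ω.1 (e x) * LL s ω.2 (e x) * (Psi ω (e x') * (p ω)⁻¹) ∂μ)
              + (ENNReal.ofReal (kr s (k' + m') (e x' - e x)) * (U x)⁻¹ *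
                (ENNReal.ofReal (log (MM s (k' + m') / (U x).toReal))
                  + ENNReal.ofReal (2 * (k' + m')))
              + ENNReal.ofReal (kr s (k' + m') (e x' - e x)) * (U x)⁻¹ *
                ENNReal.ofReal (log (10 / (s + ‖e x' - e x‖ ^ 2)))) ∂ν := by
              refine lintegral_mono fun x' => ?_
              have hκ : ENNReal.ofReal (kr s (k' + m') (e x' - e x)) ≠ 0 :=
                (ENNReal.ofReal_pos.2 (kr_pos hs _ _)).ne'
              have h1 := lintegral_mono (μ := μ) fun ω => mul_le_mul_right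
                (b_pointwise hs ω (e x) (e x') (ht x x') (hp0 ω) (hpt ω) (hU0 x) (hUt x))
                (LL s ω.1 (e x) * LL s ω.2 (e x))
              refine (mul_le_mul_right h1 _).trans (le_of_eq ?_)
              simp only [mul_add (LL s _ (e x) * LL s _ (e x)), ← mul_assoc (LL s _ (e x) * LL s _ (e x))]
              rw [lintegral_add_left (by fun_prop), lintegral_add_left (by fun_prop),
                lintegral_add_left (by fun_prop), lintegral_add_left (by fun_prop),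
                lintegral_mul_const (U x * _) (by fun_prop),
                lintegral_mul_const (ENNReal.ofReal _) (by fun_prop),
                lintegral_mul_const (ENNReal.ofReal _) (by fun_prop),
                lintegral_mul_const (ENNReal.ofReal _) (by fun_prop), lint_LL2 hs, lint_LL2_QQ hs,
                show ((((2 * k' : ℕ) : ℝ) + ((2 * m' : ℕ) : ℝ)) / 2) = k' + m' by push_cast; ring,
                two_mul ((k' : ℝ) + m'), ENNReal.ofReal_add (p := (k' : ℝ) + m') (by positivity)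
                  (by positivity)]
              have h2 : ENNReal.ofReal (kr s (k' + m') (e x' - e x)) * (U x)⁻¹ *
                  (U x * (ENNReal.ofReal (kr s (k' + m') (e x' - e x)))⁻¹) = 1 := by
                rw [mul_assoc, ← mul_assoc (U x)⁻¹, ENNReal.inv_mul_cancel (hU0 x) (hUt x), one_mul,
                  ENNReal.mul_inv_cancel hκ ENNReal.ofReal_ne_top]
              generalize (∫⁻ ω, LL s ω.1 (e x) * LL s ω.2 (e x) * Psi ω (e x') * (p ω)⁻¹ ∂μ) = I at *
              generalize ENNReal.ofReal (kr s (k' + m') (e x' - e x)) * (U x)⁻¹ = a at *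
              calc _ = I * (a * (U x * (ENNReal.ofReal (kr s (k' + m') (e x' - e x)))⁻¹))
                  + (a * (ENNReal.ofReal (log (MM s (k' + m') / (U x).toReal))
                    + (ENNReal.ofReal (k' + m') + ENNReal.ofReal (k' + m')))
                  + a * ENNReal.ofReal (log (10 / (s + ‖e x' - e x‖ ^ 2)))) := by ring
                _ = _ := by rw [h2, mul_one]
          _ ≤ _ := by
              rw [lintegral_add_right _ (by fun_prop), lintegral_add_left (by fun_prop),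
                lintegral_mul_const _ (by fun_prop), hK, one_mul]
              refine add_le_add le_rfl ?_
              refine (add_le_add le_rfl (scale_cost hs he hν0 hν hα hΞ x (ht x) (hE x))).trans
                (le_of_eq ?_)
              rw [ENNReal.ofReal_add (p := 1) (by positivity) (by positivity), ENNReal.ofReal_one]
              ring
    _ = _ := by
        rw [lintegral_add_left hAm, hA, lintegral_add_right _ measurable_const, lintegral_const,
          show (2 : ℝ) + 2 * (k' + m') = 1 + (1 + 2 * (k' + m')) by ring,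
          ENNReal.ofReal_add (p := 1) (q := 1 + 2 * ((k' : ℝ) + m')) (by positivity) (by positivity),
          ENNReal.ofReal_one]
        ring

end partb

end H2SL
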