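import Crest.Agent.H2.SL8

set_option autoImplicit false
set_option maxHeartbeats 400000

namespace H2SL

open MeasureTheory ProbabilityTheory Real Metric
open scoped ENNReal RealInnerProductSpace

lemma gibbs_pt {a b l : ℝ} (ha : 0 ≤ a) (hb : a = 0 ∨ 0 < b) (hb0 : 0 ≤ b) (hl : 0 < l) :
    a * log l + a - l * b ≤ a * log a - a * log b := by
  rcases ha.eq_or_lt with rfl | ha
  · simp; positivity
  have hb : 0 < b := hb.resolve_left ha.ne'
  have h := log_le_sub_one_of_pos (show 0 < l * b / a by positivity)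
  rw [log_div (by positivity) ha.ne', log_mul hl.ne' hb.ne'] at h
  have := mul_le_mul_of_nonneg_left h ha.le
  rw [mul_sub a (l * b / a), mul_div_cancel₀ _ ha.ne'] at this
  linarith

lemma mul_ofReal_eq {a : ℝ≥0∞} (ha : a ≠ ∞) (r : ℝ) :
    a * ENNReal.ofReal r = ENNReal.ofReal (a.toReal * r) := by
  rw [ENNReal.ofReal_mul ENNReal.toReal_nonneg, ENNReal.ofReal_toReal ha]

lemma neglog_nonneg {a : ℝ≥0∞} (ha : a ≤ 1) : 0 ≤ -log a.toReal := by
  rw [neg_nonneg]
  exact log_nonpos ENNReal.toReal_nonneg (by simpa using ENNReal.toReal_mono ENNReal.one_ne_top ha)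

lemma logdiv_nonneg {b : ℝ≥0∞} {M : ℝ} (hM : 0 < M) (hb : b ≤ ENNReal.ofReal M) :
    0 ≤ log (M / b.toReal) := by
  rcases (ENNReal.toReal_nonneg (a := b)).eq_or_lt with h | h
  · simp [← h]
  · refine log_nonneg ?_
    rw [le_div_iff₀ h, one_mul]
    exact ENNReal.toReal_le_of_le_ofReal hM.le hb

section pot
variable {E : Type} [NormedAddCommGroup E] [InnerProductSpace ℝ E] [FiniteDimensional ℝ E]
  [MeasurableSpace E] [BorelSpace E] {X : Type} [MeasurableSpace X] (e : X → E) (σ : Measure X)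
  (s : ℝ)

noncomputable def AA (j : ℕ) (W : X → ℝ≥0∞) : ℝ≥0∞ :=
  ∫⁻ x, W x * ENNReal.ofReal (log (MM s j / (UU e σ s j W x).toReal)) ∂σ

noncomputable def BB (W : X → ℝ≥0∞) : ℝ≥0∞ := ∫⁻ x, W x * ENNReal.ofReal (-log (W x).toReal) ∂σ

variable {e σ s}

lemma BB_le [IsProbabilityMeasure σ] {W : X → ℝ≥0∞} (hW : ∀ x, W x ≤ 1) : BB σ W ≤ 1 := by
  calc _ ≤ ∫⁻ _, 1 ∂σ := lintegral_mono fun x => by
        rw [mul_ofReal_eq (ne_top_of_le_ne_top ENNReal.one_ne_top (hW x)), ← ENNReal.ofReal_one]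
        refine ENNReal.ofReal_le_ofReal ?_
        have := gibbs_pt (a := (W x).toReal) (b := 1) (l := 1) ENNReal.toReal_nonneg
          (Or.inr one_pos) zero_le_one one_pos
        simp only [log_one, mul_zero] at this
        have := ENNReal.toReal_nonneg (a := W x)
        linarith
    _ = 1 := by simp

omit [InnerProductSpace ℝ E] [FiniteDimensional ℝ E] in
lemma ae_UU [SecondCountableTopology E] (hs : 0 < s) (he : Measurable e) (j : ℕ) {W : X → ℝ≥0∞}
    (hW : Measurable W) : ∀ᵐ x ∂σ, W x = 0 ∨ UU e σ s j W x ≠ 0 := by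
  by_cases h : ∫⁻ x, W x ∂σ = 0
  · rw [lintegral_eq_zero_iff hW] at h
    exact h.mono fun x hx => Or.inl hx
  · refine Filter.Eventually.of_forall fun x => Or.inr fun h0 => h ?_
    unfold UU at h0
    rw [lintegral_eq_zero_iff (by fun_prop)] at h0
    rw [lintegral_eq_zero_iff hW]
    exact h0.mono fun x' hx' =>
      (mul_eq_zero.1 hx').resolve_left (ENNReal.ofReal_pos.2 (kr_pos hs _ _)).ne'

omit [InnerProductSpace ℝ E] in
lemma subadd [SecondCountableTopology E] [IsProbabilityMeasure σ] (hs : 0 < s) (he : Measurable e)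
    (j : ℕ) {S : Type} [Fintype S] {W : S → X → ℝ≥0∞} (hW : ∀ m, Measurable (W m))
    (hW1 : ∀ x, ∑ m, W m x ≤ 1) :
    AA e σ s j (fun x => ∑ m, W m x) + ∑ m, BB σ (W m)
      ≤ ∑ m, AA e σ s j (W m) + BB σ (fun x => ∑ m, W m x) := by
  have hWm : ∀ m x, W m x ≤ 1 := fun m x =>
    (Finset.single_le_sum (f := fun m => W m x) (fun _ _ => zero_le) (Finset.mem_univ m)).trans (hW1 x)
  have hU := fun m => measurable_UU (ν := σ) (s := s) he j (hW m)
  have hUs : ∀ x, UU e σ s j (fun x => ∑ m, W m x) x = ∑ m, UU e σ s j (W m) x := by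
    intro x
    simp only [UU, Finset.mul_sum]
    rw [lintegral_finsetSum _ (fun m _ => by have := hW m; fun_prop)]
  unfold AA BB
  rw [← lintegral_finsetSum _ (fun m _ => by have := hW m; fun_prop),
    ← lintegral_finsetSum _ (fun m _ => by have := hW m; have := hU m; fun_prop),
    ← lintegral_add_right _ (by fun_prop), ← lintegral_add_right _ (by fun_prop)]
  refine lintegral_mono_ae ?_
  filter_upwards [ae_all_iff.2 (fun m => ae_UU (σ := σ) hs he j (hW m))] with x hx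
  have hM := MM_pos hs j
  have hσ : σ Set.univ ≤ 1 := by simp
  have t1 : ∀ m, W m x ≠ ∞ := fun m => ne_top_of_le_ne_top ENNReal.one_ne_top (hWm m x)
  have u1 : ∀ m, UU e σ s j (W m) x ≤ ENNReal.ofReal (MM s j) := fun m => UU_le hs hσ j (hWm m) x
  have t2 : ∀ m, UU e σ s j (W m) x ≠ ∞ := fun m => ne_top_of_le_ne_top ENNReal.ofReal_ne_top (u1 m)
  have u2 := UU_le (e := e) hs hσ j hW1 x
  have t3 : ∑ m, W m x ≠ ∞ := ne_top_of_le_ne_top ENNReal.one_ne_top (hW1 x)
  simp only [mul_ofReal_eq (t1 _), mul_ofReal_eq t3]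
  rw [← ENNReal.ofReal_sum_of_nonneg (fun m _ => mul_nonneg ENNReal.toReal_nonneg
      (neglog_nonneg (hWm m x))),
    ← ENNReal.ofReal_sum_of_nonneg (fun m _ => mul_nonneg ENNReal.toReal_nonneg
      (logdiv_nonneg hM (u1 m))),
    ← ENNReal.ofReal_add (mul_nonneg ENNReal.toReal_nonneg (logdiv_nonneg hM u2))
      (Finset.sum_nonneg fun m _ => mul_nonneg ENNReal.toReal_nonneg (neglog_nonneg (hWm m x))),
    ← ENNReal.ofReal_add (Finset.sum_nonneg fun m _ => mul_nonneg ENNReal.toReal_nonneg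
      (logdiv_nonneg hM (u1 m))) (mul_nonneg ENNReal.toReal_nonneg (neglog_nonneg (hW1 x)))]
  refine ENNReal.ofReal_le_ofReal ?_
  rw [hUs, ENNReal.toReal_sum (fun m _ => t1 m), ENNReal.toReal_sum (fun m _ => t2 m)]
  set a : S → ℝ := fun m => (W m x).toReal with ha
  set b : S → ℝ := fun m => (UU e σ s j (W m) x).toReal with hb
  have ha0 : ∀ m, 0 ≤ a m := fun m => ENNReal.toReal_nonneg
  have hb0 : ∀ m, 0 ≤ b m := fun m => ENNReal.toReal_nonneg
  have hab : ∀ m, a m = 0 ∨ 0 < b m := fun m => (hx m).imp (fun h => by simp [ha, h])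
    (fun h => ENNReal.toReal_pos h (t2 m))
  change (∑ m, a m) * log (MM s j / ∑ m, b m) + ∑ m, a m * -log (a m)
    ≤ ∑ m, a m * log (MM s j / b m) + (∑ m, a m) * -log (∑ m, a m)
  rcases (Finset.sum_nonneg (s := Finset.univ) fun m _ => ha0 m).eq_or_lt with h | h
  · have : ∀ m, a m = 0 := fun m =>
      (Finset.sum_eq_zero_iff_of_nonneg (fun m _ => ha0 m)).1 h.symm m (Finset.mem_univ _)
    simp [this]
  have hB : 0 < ∑ m, b m := by
    obtain ⟨m, _, hm⟩ := Finset.exists_ne_zero_of_sum_ne_zero h.ne'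
    exact lt_of_lt_of_le ((hab m).resolve_left hm)
      (Finset.single_le_sum (fun m _ => hb0 m) (Finset.mem_univ m))
  have h1 := Finset.sum_le_sum (s := Finset.univ) fun m _ =>
    gibbs_pt (ha0 m) (hab m) (hb0 m) (div_pos h hB)
  have h2 : ∀ m, a m * log (MM s j / b m) = a m * log (MM s j) - a m * log (b m) := by
    intro m
    rcases hab m with h | h
    · simp [h]
    · rw [log_div hM.ne' h.ne']; ring
  simp only [h2, Finset.sum_sub_distrib, Finset.sum_add_distrib, ← Finset.sum_mul, mul_neg,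
    Finset.sum_neg_distrib, ← Finset.mul_sum] at h1 ⊢
  rw [div_mul_cancel₀ _ hB.ne', log_div h.ne' hB.ne'] at h1
  rw [log_div hM.ne' hB.ne']
  linarith

lemma sum_setLIntegral_fiber {Y S : Type} [MeasurableSpace Y] [Fintype S] (μ : Measure Y)
    (a : Y → S) (ha : ∀ b, MeasurableSet {y | a y = b}) (f : Y → ℝ≥0∞) :
    ∑ b, ∫⁻ y in {y | a y = b}, f y ∂μ = ∫⁻ y, f y ∂μ := by
  have h := lintegral_iUnion (μ := μ) ha (fun b c hbc => Set.disjoint_left.2
    fun y h1 h2 => hbc (h1.symm.trans h2)) f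
  rw [tsum_fintype, show (⋃ b, {y | a y = b}) = Set.univ by ext y; simp,
    Measure.restrict_univ] at h
  exact h.symm

theorem block [IsProbabilityMeasure σ] (hs : 0 < s) (he : Measurable e) {k' m' q α : ℕ}
    (hq : q + 1 ≤ m') (hm : 2 * m' ≤ Module.finrank ℝ E) (hd : Module.finrank ℝ E ≤ 20 * q)
    (hα : 1 ≤ α) {Ξ : ℝ} (hΞ : 0 < Ξ) (ht : ∀ x x', s + ‖e x' - e x‖ ^ 2 ≤ 5)
    (hE : ∀ x, ∫⁻ x', ENNReal.ofReal ((s + ‖e x' - e x‖ ^ 2)⁻¹ ^ (k' + m' + α)) ∂σ
      ≤ ENNReal.ofReal Ξ) {S : Type} [Fintype S] [Nonempty S] (a : (Fin (2 * k') → E × ℝ) → S)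
    (ha : ∀ b, MeasurableSet {ω | a ω = b}) {W : X → ℝ≥0∞} (hW : Measurable W)
    (hW1 : ∀ x, W x ≤ 1) :
    ∑ b, AA e σ s (k' + m') (fun x => W x * FF e s {ω | a ω = b} x) + BB σ W
      ≤ AA e σ s (k' + m') W + ∑ b, BB σ (fun x => W x * FF e s {ω | a ω = b} x)
        + (ENNReal.ofReal (log (5 ^ (k' + m') * 10 ^ α * Ξ / (∫⁻ x, W x ∂σ).toReal) / α)
          + ENNReal.ofReal ((1 + log (Fintype.card S)) / q + 1004 * k' + (2 + 2 * (k' + m'))))
          * ∫⁻ x, W x ∂σ := by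
  have hF : ∀ b, Measurable (FF e s {ω | a ω = b}) := fun b => measurable_FF he _
  have hF1 : ∀ b x, FF e s {ω | a ω = b} x ≤ 1 := fun b => FF_le hs _
  have hFs : ∀ x, ∑ b, FF e s {ω | a ω = b} x = 1 := fun x => by
    unfold FF; rw [sum_setLIntegral_fiber _ a ha, lint_LL hs]
  have hBB : ∑ b, BB σ (fun x => W x * FF e s {ω | a ω = b} x) = BB σ W +
      ∑ b, ∫⁻ x, W x * (FF e s {ω | a ω = b} x *
        ENNReal.ofReal (-log (FF e s {ω | a ω = b} x).toReal)) ∂σ := by
    unfold BB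
    rw [← lintegral_finsetSum _ (fun b _ => by have := hF b; fun_prop),
      ← lintegral_finsetSum _ (fun b _ => by have := hF b; fun_prop),
      ← lintegral_add_left (by fun_prop)]
    refine lintegral_congr fun x => ?_
    conv_rhs => rw [← mul_one (W x * ENNReal.ofReal _), ← hFs x, Finset.mul_sum,
      ← Finset.sum_add_distrib]
    refine Finset.sum_congr rfl fun b _ => ?_
    by_cases h1 : W x = 0
    · simp [h1]
    by_cases h2 : FF e s {ω | a ω = b} x = 0
    · simp [h2]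
    rw [ENNReal.toReal_mul, log_mul (ENNReal.toReal_pos h1 (ne_top_of_le_ne_top ENNReal.one_ne_top
      (hW1 x))).ne' (ENNReal.toReal_pos h2 (ne_top_of_le_ne_top ENNReal.one_ne_top (hF1 b x))).ne',
      neg_add, ENNReal.ofReal_add (neglog_nonneg (hW1 x)) (neglog_nonneg (hF1 b x))]
    ring
  rw [hBB, add_comm (BB σ W), ← add_assoc, add_right_comm _ (BB σ W)]
  refine add_le_add ?_ le_rfl
  let ν := σ.withDensity W
  have hint : ∀ {g : X → ℝ≥0∞}, Measurable g → ∫⁻ x, g x ∂ν = ∫⁻ x, W x * g x ∂σ := fun hg =>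
    lintegral_withDensity_eq_lintegral_mul σ hW hg
  have hνu : ν Set.univ = ∫⁻ x, W x ∂σ := by simp [ν]
  have hν : ν Set.univ ≤ 1 := by
    rw [hνu]; exact (lintegral_mono hW1).trans (by simp)
  haveI : IsFiniteMeasure ν := ⟨hν.trans_lt ENNReal.one_lt_top⟩
  by_cases hν0 : ν = 0
  · have h0 : ∫⁻ x, W x ∂σ = 0 := by rw [← hνu, hν0]; simp
    rw [lintegral_eq_zero_iff hW] at h0
    have : ∀ b, AA e σ s (k' + m') (fun x => W x * FF e s {ω | a ω = b} x) = 0 := fun b =>
      (lintegral_congr_ae (h0.mono fun x hx => by simp [show W x = 0 from hx])).trans lintegral_zero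
    simp [this]
  have hUU : ∀ {g : X → ℝ≥0∞}, Measurable g →
      UU e ν s (k' + m') g = UU e σ s (k' + m') (fun x => W x * g x) := by
    intro g hg
    ext x
    unfold UU
    rw [hint (by fun_prop)]
    exact lintegral_congr fun x' => by ring
  have hq1 : 1 ≤ q := by omega
  have hN : (1 : ℝ) ≤ Fintype.card S := by exact_mod_cast Fintype.card_pos
  have h1 := Finset.sum_le_sum (s := Finset.univ) fun b _ =>
    outer_ineq (k' := k') hs he hν0 hν hq hm hd hN {ω | a ω = b}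
  have h2 := part_b (k' := k') (m' := m') hs he hν0 hν hα hΞ ht (fun x => by
    refine le_trans ?_ (hE x)
    rw [hint (by fun_prop)]
    exact lintegral_mono fun x' => mul_le_of_le_one_left' (hW1 x'))
  simp only [Finset.sum_add_distrib, ← Finset.mul_sum] at h1
  rw [sum_setLIntegral_fiber _ a ha, ← lintegral_finsetSum _ (fun b _ => hF b)] at h1
  simp only [hFs, lintegral_one, Finset.sum_const, Finset.card_univ, nsmul_eq_mul] at h1
  have e1 : ∀ b, ∫⁻ x, FF e s {ω | a ω = b} x * ENNReal.ofReal (log (MM s (k' + m') /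
      (UU e ν s (k' + m') (FF e s {ω | a ω = b}) x).toReal)) ∂ν
      = AA e σ s (k' + m') (fun x => W x * FF e s {ω | a ω = b} x) := by
    intro b
    have := hF b
    have := measurable_UU (ν := ν) (s := s) he (k' + m') (hF b)
    rw [hint (by fun_prop), hUU (hF b)]
    simp only [AA, mul_assoc]
  have e2 : ∀ b, ∫⁻ x, FF e s {ω | a ω = b} x *
      ENNReal.ofReal (-log (FF e s {ω | a ω = b} x).toReal) ∂ν = ∫⁻ x, W x * (FF e s {ω | a ω = b} x *
        ENNReal.ofReal (-log (FF e s {ω | a ω = b} x).toReal)) ∂σ := fun b => by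
    have := hF b
    exact hint (by fun_prop)
  have e3 : ∫⁻ x, ENNReal.ofReal (log (MM s (k' + m') /
      (UU e ν s (k' + m') (fun _ => 1) x).toReal)) ∂ν = AA e σ s (k' + m') W := by
    have := measurable_UU (ν := ν) (s := s) he (k' + m') (F := fun _ => 1) measurable_const
    rw [hint (by fun_prop), hUU measurable_const]
    simp only [AA, mul_one]
  simp only [e1, e2] at h1
  rw [e3, hνu] at h2
  rw [hνu] at h1
  have hq0 : (q : ℝ≥0∞) ≠ 0 := by exact_mod_cast (show q ≠ 0 by omega)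
  rw [← ENNReal.mul_le_mul_iff_right hq0 (ENNReal.natCast_ne_top q)]
  refine h1.trans ((add_le_add le_rfl (mul_le_mul_right h2 _)).trans (le_of_eq ?_))
  have hq' : (0 : ℝ) < q := by exact_mod_cast hq1
  have hlog : 0 ≤ log (Fintype.card S : ℝ) := log_nonneg hN
  have e4 : (q : ℝ≥0∞) * ENNReal.ofReal ((1 + log (Fintype.card S)) / q + 1004 * k'
      + (2 + 2 * (k' + m'))) = 1 + (ENNReal.ofReal (log (Fintype.card S))
        + q * (k' * ENNReal.ofReal 1004)) + q * ENNReal.ofReal (2 + 2 * (k' + m')) := by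
    rw [ENNReal.ofReal_add (by positivity) (by positivity),
      ENNReal.ofReal_add (by positivity) (by positivity), mul_add, mul_add,
      ← ENNReal.ofReal_natCast q, ← ENNReal.ofReal_mul hq'.le, mul_div_cancel₀ _ hq'.ne',
      ENNReal.ofReal_add zero_le_one hlog, ENNReal.ofReal_one, mul_comm (1004 : ℝ),
      ENNReal.ofReal_mul (Nat.cast_nonneg _), ENNReal.ofReal_natCast k', add_assoc 1]
  have e5 : (Fintype.card S : ℝ≥0∞) * (ENNReal.ofReal (Fintype.card S))⁻¹ = 1 := by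
    rw [ENNReal.ofReal_natCast]
    exact ENNReal.mul_inv_cancel (by exact_mod_cast Fintype.card_ne_zero) (ENNReal.natCast_ne_top _)
  rw [← mul_assoc, mul_comm _ (Fintype.card S : ℝ≥0∞), e5]
  generalize ENNReal.ofReal ((1 + log (Fintype.card S)) / q + 1004 * k'
      + (2 + 2 * (k' + m'))) = K at e4 ⊢
  simp only [mul_add, add_mul, ← mul_assoc (q : ℝ≥0∞)]
  rw [e4]
  ring_nf

end pot

end H2SL
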